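import Vale.Agent.P134.R2.H561.Sgn

set_option linter.all false

open MeasureTheory Filter Topology
open scoped InnerProductSpace Laplacian

namespace Vale.Agent.P134.R2.H561

open Vale.Agent.P134 Vale.Agent.P134.SM
open Vale.Agent.P134.H491 (HypN)
open Vale.Agent.P134.H765 (abs_le_one_of_bdd StableE stabV_of_stableE hypN_of_stable coordMap_std)
open Vale.Agent.P134.H891 (ph ph_contDiff ph_hasCompactSupport ph_nonneg ph_le_one mm mm_eq_zero)

variable {m n k : ℕ}

/-- `u` is increasing in the direction `a` up to an `L²` error of quadratic growth. -/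
def AlmostIncreasing (u : EuclideanSpace ℝ (Fin n) → ℝ) (a : EuclideanSpace ℝ (Fin n)) : Prop :=
  ∃ B : ℝ, ∀ R : ℝ, 1 ≤ R → ∫ x in Metric.ball 0 R, (min (fderiv ℝ u x a) 0) ^ 2 ≤ B * R ^ 2

lemma dd_neg_dir (b : Fin n → ℝ) (u : (Fin n → ℝ) → ℝ) (x : Fin n → ℝ) :
    dd (-b) u x = - dd b u x := by
  unfold dd
  rw [← Finset.sum_neg_distrib]
  exact Finset.sum_congr rfl fun i _ => by rw [Pi.neg_apply]; ring

/-- directions which are monotone up to quadratic growth. -/
theorem defi_of_growth {u : (Fin (m + 3) → ℝ) → ℝ} (hu : SH u) {b : Fin m → Fin (m + 3) → ℝ}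
    (hb : LinearIndependent ℝ b)
    (hg : ∀ i, ∃ B : ℝ, 0 ≤ B ∧
      ∀ᶠ R in atTop, ∫ x, (min (dd (b i) u x) 0) ^ 2 * ph R x ≤ B * R ^ 2) :
    ∀ x, defi u x = 0 := by
  have h1 : ∀ i, ∃ s : ℝˣ, ∀ x, 0 ≤ dd (s • b i) u x := by
    intro i
    obtain ⟨B, hB, hgi⟩ := hg i
    rcases dd_sign hu hB hgi with h | h
    · exact ⟨1, fun x => by rw [one_smul]; exact h x⟩
    · refine ⟨-1, fun x => ?_⟩
      have e : ((-1 : ℝˣ) • b i) = - b i := by
        rw [Units.neg_smul, one_smul]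
      rw [e, dd_neg_dir]
      linarith [h x]
  choose s hs using h1
  exact pph m u (fun i => s i • b i) hu (hb.units_smul s) hs

/-- transfer of the growth condition. -/
lemma growth_std {u : EuclideanSpace ℝ (Fin n) → ℝ} (hu : ContDiff ℝ 2 u)
    {a : EuclideanSpace ℝ (Fin n)} {B : ℝ}
    (hg : ∀ R : ℝ, 1 ≤ R → ∫ x in Metric.ball 0 R, (min (fderiv ℝ u x a) 0) ^ 2 ≤ B * R ^ 2) :
    ∃ B' : ℝ, 0 ≤ B' ∧ ∀ᶠ R in atTop, ∫ y, (min (dd (fun i => a i)
      (fun y => u (0 + coordMap (EuclideanSpace.basisFun (Fin n) ℝ) y)) y) 0) ^ 2 * ph R y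
        ≤ B' * R ^ 2 := by
  have du : Differentiable ℝ u := hu.differentiable (by norm_num)
  refine ⟨|B|, abs_nonneg _, ?_⟩
  filter_upwards [eventually_ge_atTop 1] with R hR
  have hR0 : 0 < R := by linarith
  obtain ⟨F, hF⟩ : ∃ F : EuclideanSpace ℝ (Fin n) → ℝ,
      F = fun x => (min (fderiv ℝ u x a) 0) ^ 2 := ⟨_, rfl⟩
  have hFc : Continuous F := by
    rw [hF]
    exact (((hu.continuous_fderiv (by norm_num)).clm_apply continuous_const).min
      continuous_const).pow 2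
  have hF0 : ∀ x, 0 ≤ F x := fun x => by rw [hF]; exact sq_nonneg _
  have e1 : ∀ y, (min (dd (fun i => a i)
      (fun y => u (0 + coordMap (EuclideanSpace.basisFun (Fin n) ℝ) y)) y) 0) ^ 2
        = F (WithLp.toLp 2 y) := by
    intro y
    rw [dd_std du, coordMap_std, zero_add, hF]
  simp_rw [e1]
  obtain ⟨G, hG⟩ : ∃ G : EuclideanSpace ℝ (Fin n) → ℝ,
      G = (Metric.ball 0 R).indicator F := ⟨_, rfl⟩
  have hmp := PiLp.volume_preserving_toLp (Fin n)
  have h2 : ∫ x, G x = ∫ y, G (WithLp.toLp 2 y) :=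
    (hmp.integral_comp (MeasurableEquiv.toLp 2 (Fin n → ℝ)).measurableEmbedding G).symm
  have hGi : Integrable G := by
    rw [hG, integrable_indicator_iff measurableSet_ball]
    exact (hFc.continuousOn.integrableOn_compact
      (isCompact_closedBall (0 : EuclideanSpace ℝ (Fin n)) R)).mono_set
      Metric.ball_subset_closedBall
  have hGi' : Integrable fun y : Fin n → ℝ => G (WithLp.toLp 2 y) :=
    (hmp.integrable_comp_emb (MeasurableEquiv.toLp 2 (Fin n → ℝ)).measurableEmbedding).mpr hGi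
  have hpt : ∀ y : Fin n → ℝ, F (WithLp.toLp 2 y) * ph R y ≤ G (WithLp.toLp 2 y) := by
    intro y
    by_cases hy : (WithLp.toLp 2 y : EuclideanSpace ℝ (Fin n)) ∈ Metric.ball 0 R
    · rw [hG, Set.indicator_of_mem hy]
      have h3 := mul_le_mul_of_nonneg_left (ph_le_one R y) (hF0 (WithLp.toLp 2 y))
      linarith
    · have h3 : R ^ 2 ≤ esq y := by
        rw [Metric.mem_ball, dist_zero_right, not_lt] at hy
        have h4 : ‖(WithLp.toLp 2 y : EuclideanSpace ℝ (Fin n))‖ ^ 2 = esq y :=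
          B331.M.norm_sq_eq_esq _
        rw [← h4]
        exact pow_le_pow_left₀ hR0.le hy 2
      have h4 : ph R y = 0 := by
        unfold Vale.Agent.P134.H891.ph
        rw [mm_eq_zero hR0 h3]; ring
      rw [h4, mul_zero, hG, Set.indicator_of_notMem hy]
  have hi : Integrable fun y : Fin n → ℝ => F (WithLp.toLp 2 y) * ph R y := by
    refine Continuous.integrable_of_hasCompactSupport ?_ (ph_hasCompactSupport hR0).mul_left
    exact (hFc.comp (PiLp.continuous_toLp 2 _)).mul (ph_contDiff R).continuous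
  calc ∫ y, F (WithLp.toLp 2 y) * ph R y ≤ ∫ y, G (WithLp.toLp 2 y) :=
        integral_mono hi hGi' hpt
    _ = ∫ x in Metric.ball 0 R, F x := by
        rw [← h2, hG, integral_indicator measurableSet_ball]
    _ ≤ B * R ^ 2 := by rw [hF]; exact hg R hR
    _ ≤ |B| * R ^ 2 := mul_le_mul_of_nonneg_right (le_abs_self B) (sq_nonneg R)

/-- **Stable solutions, monotone in all but three directions up to quadratic growth.** -/
theorem stable_growth {u : EuclideanSpace ℝ (Fin (m + 3)) → ℝ} (hu : ContDiff ℝ 2 u)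
    (heq : ∀ x, Δ u x = u x ^ 3 - u x) (hb : ∃ M : ℝ, ∀ x, |u x| ≤ M) (hs : StableE u)
    {a : Fin m → EuclideanSpace ℝ (Fin (m + 3))} (hla : LinearIndependent ℝ a)
    (hg : ∀ i, AlmostIncreasing u (a i)) :
    (∀ x, u x = 1) ∨ (∀ x, u x = -1) ∨ ∃ (e : EuclideanSpace ℝ (Fin (m + 3))) (c : ℝ), ‖e‖ = 1 ∧
      ∀ x, u x = Real.tanh ((⟪e, x⟫_ℝ - c) / √2) := by
  have hb1 := abs_le_one_of_bdd hu heq hb
  have hsol := sol_of_euclidean hu heq hb1 (EuclideanSpace.basisFun (Fin (m + 3)) ℝ) 0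
  have hst := stabV_of_stableE hs
  exact tanh_of_defi hsol (defi_of_growth ⟨hsol, _, hypN_of_stable hsol hst⟩ (li_std hla)
    fun i => by
      obtain ⟨B, hB⟩ := hg i
      exact growth_std hu hB)

/-- **Monotone solutions, monotone in all but three directions up to quadratic growth.** -/
theorem mono_growth (hn : n ≤ k + 3) {u : EuclideanSpace ℝ (Fin n) → ℝ} (hu : ContDiff ℝ 2 u)
    (heq : ∀ x, Δ u x = u x ^ 3 - u x) (hb : ∃ M : ℝ, ∀ x, |u x| ≤ M)
    {a0 : EuclideanSpace ℝ (Fin n)} (ha0 : ∀ x, 0 ≤ fderiv ℝ u x a0)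
    (hx : ∃ x, 0 < fderiv ℝ u x a0) {a : Fin k → EuclideanSpace ℝ (Fin n)}
    (hla : LinearIndependent ℝ a)
    (hg : ∀ i, AlmostIncreasing u (a i)) :
    ∃ (e : EuclideanSpace ℝ (Fin n)) (c : ℝ), ‖e‖ = 1 ∧ 0 < ⟪e, a0⟫_ℝ ∧
      ∀ x, u x = Real.tanh ((⟪e, x⟫_ℝ - c) / √2) := by
  have hb1 := abs_le_one_of_bdd hu heq hb
  have du : Differentiable ℝ u := hu.differentiable (by norm_num)
  have hpos := pos_of_smp hu heq hb1 ha0 hx
  suffices H : ∃ (e : EuclideanSpace ℝ (Fin n)) (c : ℝ), ‖e‖ = 1 ∧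
      ∀ x, u x = Real.tanh ((⟪e, x⟫_ℝ - c) / √2) by
    obtain ⟨e, c, he, hec⟩ := H
    exact ⟨e, c, he, inner_pos_of du hec ha0 hx, hec⟩
  rcases Nat.lt_or_ge n 3 with h3 | h3
  · obtain ⟨e, c, he, -, hec⟩ := H134.mono_of_S3 H134.stS3 (by omega) hu heq hb hpos
    exact ⟨e, c, he, hec⟩
  · obtain ⟨m, rfl⟩ : ∃ m, n = m + 3 := ⟨n - 3, by omega⟩
    have hmk : m ≤ k := by omega
    have hsol := sol_of_euclidean hu heq hb1 (EuclideanSpace.basisFun (Fin (m + 3)) ℝ) 0
    have hSH := sh_of_dir (e := fun i => a0 i) hsol fun y => by rw [dd_std du]; exact hpos _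
    have hli := (li_std hla).comp (Fin.castLE hmk) (Fin.castLE_injective hmk)
    have hD := defi_of_growth hSH hli fun i => by
      obtain ⟨B, hB⟩ := hg (Fin.castLE hmk i)
      exact growth_std hu hB
    rcases tanh_of_defi hsol hD with h | h | h
    · exfalso
      have h1 : u = fun _ => 1 := funext h
      have h4 := hpos 0
      rw [h1] at h4
      simp at h4
    · exfalso
      have h1 : u = fun _ => -1 := funext h
      have h4 := hpos 0
      rw [h1] at h4
      simp at h4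
    · exact h

end Vale.Agent.P134.R2.H561
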