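import Vale.Agent.P134.H134.Uncond
import Vale.Agent.P134.H491.Hyp
import Vale.Agent.P134.H765.Q14
import Vale.Agent.P134.H787.Rot

set_option linter.all false

open MeasureTheory Filter Topology

namespace Vale.Agent.P134.R2.H561

open Vale.Agent.P134 Vale.Agent.P134.SM
open Vale.Agent.P134.H787 (rot LI)
open Vale.Agent.P134.H491 (HypN)
open Vale.Agent.P134.H765 (res emb emb_apply pd_res pd_last_zero)

variable {m n : ℕ} {u v U : (Fin n → ℝ) → ℝ}

/-- rotation of Riccati fields. -/
lemma hypN_rot (L : LI n) {C : ℝ} {V : (Fin n → ℝ) → ℝ} (h : HypN n C V) :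
    HypN n C (fun x => V (rot L x)) := by
  intro R ε hR hε
  obtain ⟨X, h1, h2, h3⟩ := h (n * R + 1) ε (by positivity) hε
  have hbx : ∀ x ∈ box n R, rot L x ∈ box n (n * R + 1) := by
    intro x hx
    have h4 := mem_box.mp (H787.rot_mem_box L hR.le hx)
    rw [mem_box]
    exact fun i => (h4 i).trans (by linarith)
  have hY : ∀ (x : Fin n → ℝ) (j : Fin n), ∑ k, rot L (Pi.single j 1) k * X k (rot L x)
      = rot L.symm (fun k => X k (rot L x)) j := fun x j => H787.rot_single L j _
  refine ⟨fun j x => ∑ k, rot L (Pi.single j 1) k * X k (rot L x), fun j => ?_, fun x hx => ?_,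
    fun x hx => ?_⟩
  · exact ContDiff.sum fun k _ => contDiff_const.mul ((h1 k).comp (rot L).contDiff)
  · simp_rw [hY]
    rw [H787.rot_sq]
    exact h2 _ (hbx x hx)
  · have e1 : ∀ j, pd j (fun x => ∑ k, rot L (Pi.single j 1) k * X k (rot L x)) x
        = ∑ k, ∑ l, (rot L (Pi.single j 1) k * rot L (Pi.single j 1) l) * pd l (X k) (rot L x) := by
      intro j
      have hd : ∀ k, DifferentiableAt ℝ (fun y => X k (rot L y)) x := fun k =>
        ((h1 k).differentiable (by norm_num) _).comp x (rot L).differentiableAt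
      rw [pd_sum (F := fun k y => rot L (Pi.single j 1) k * X k (rot L y)) Finset.univ
        (fun k _ => (hd k).const_mul _)]
      refine Finset.sum_congr rfl fun k _ => ?_
      rw [pd_mul (f := fun _ => rot L (Pi.single j 1) k) (differentiableAt_const _) (hd k),
        pd_const, H787.pd_comp_rot (f := X k) ((h1 k).differentiable (by norm_num) _)]
      unfold dd
      rw [mul_zero, add_zero, Finset.mul_sum]
      exact Finset.sum_congr rfl fun l _ => by ring
    have e2 : ∑ j, pd j (fun x => ∑ k, rot L (Pi.single j 1) k * X k (rot L x)) x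
        = ∑ k, pd k (X k) (rot L x) := by
      simp_rw [e1]
      rw [Finset.sum_comm]
      refine Finset.sum_congr rfl fun k _ => ?_
      rw [Finset.sum_comm]
      simp_rw [← Finset.sum_mul, H787.rot_orth]
      simp
    rw [e2]
    simp_rw [hY]
    rw [H787.rot_sq]
    exact h3 _ (hbx x hx)

/-- solutions in the class of stable ones. -/
def SH (u : (Fin n → ℝ) → ℝ) : Prop := Sol u ∧ ∃ C : ℝ, HypN n C (fun x => 3 * u x ^ 2 - 1)

lemma SH.rot (h : SH u) (L : LI n) : SH (fun x => u (H787.rot L x)) := by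
  obtain ⟨h1, C, hC⟩ := h
  exact ⟨H787.Sol.rot h1 L, C, hypN_rot L hC⟩

/-- The target of the induction. -/
def PPH (m : ℕ) : Prop := ∀ (u : (Fin (m + 3) → ℝ) → ℝ) (b : Fin m → Fin (m + 3) → ℝ), SH u →
  LinearIndependent ℝ b → (∀ i x, 0 ≤ dd (b i) u x) → ∀ x, defi u x = 0

theorem pph_zero : PPH 0 := fun u _ hu _ _ x =>
  H765.defi_zero_of_StS3 H134.stS3 hu.1 (H491.hyp_of_hypN hu.2.choose_spec) x

lemma defi_res {U : (Fin (n + 1) → ℝ) → ℝ} (hU : Sol U)
    (hinv : ∀ x (t : ℝ), U (x + t • Pi.single (Fin.last n) 1) = U x) (x : Fin (n + 1) → ℝ) :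
    defi U x = defi (res U) (Fin.init x) := by
  have dU : Differentiable ℝ U := hU.c2.differentiable (by norm_num)
  have hsnoc : x = Fin.snoc (Fin.init x) 0 + x (Fin.last n) • Pi.single (Fin.last n) 1 := by
    funext k
    refine Fin.lastCases ?_ (fun j => ?_) k
    · simp only [Pi.add_apply, Pi.smul_apply, smul_eq_mul, Pi.single_eq_same, mul_one,
        Fin.snoc_last]
      ring
    · simp only [Pi.add_apply, Pi.smul_apply, smul_eq_mul, Fin.snoc_castSucc, Fin.init,
        Pi.single_apply, if_neg (Fin.castSucc_lt_last j).ne]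
      ring
  have htr : (fun z => U (z + x (Fin.last n) • Pi.single (Fin.last n) 1)) = U :=
    funext fun z => hinv z _
  have hpdx : ∀ i, pd i U x = pd i U (Fin.snoc (Fin.init x) 0) := by
    intro i
    conv_lhs => rw [hsnoc]
    rw [← pd_translate (f := U) (x (Fin.last n) • Pi.single (Fin.last n) 1), htr]
  have hUx : U x = U (Fin.snoc (Fin.init x) 0) := by
    conv_lhs => rw [hsnoc]
    exact hinv _ _
  unfold defi psi
  rw [Fin.sum_univ_castSucc, hUx, hpdx (Fin.last n), pd_last_zero dU hinv]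
  simp_rw [hpdx, pd_res dU, emb_apply]
  unfold H765.res
  ring

/-- invariance from the vanishing derivative. -/
lemma inv_of_dd_zero (hu : Sol u) {a : Fin n → ℝ} (h : ∀ x, dd a u x = 0) (x : Fin n → ℝ)
    (t : ℝ) : u (x + t • a) = u x := by
  have hd : Differentiable ℝ u := hu.c2.differentiable (by norm_num)
  have h1 : ∀ s, HasDerivAt (fun s : ℝ => u (x + s • a)) 0 s := by
    intro s
    have := hasDerivAt_dd hd x a s
    rwa [h] at this
  have h2 := is_const_of_deriv_eq_zero (fun s => (h1 s).differentiableAt) (fun s => (h1 s).deriv) t 0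
  simpa using h2

lemma single_last_dd {v : (Fin (n + 1) → ℝ) → ℝ} (x : Fin (n + 1) → ℝ) (p : Fin (n + 1)) :
    dd (Pi.single p 1) v x = pd p v x := by
  unfold dd
  simp [Pi.single_apply]

/-- Dropping a direction of invariance. -/
theorem drop_dir (hP : PPH m) {U : (Fin (m + 4) → ℝ) → ℝ} (hU : SH U)
    {b : Fin (m + 1) → Fin (m + 4) → ℝ} (hb : LinearIndependent ℝ b)
    (hd : ∀ i x, 0 ≤ dd (b i) U x) (i0 : Fin (m + 1)) (h0 : ∀ x, dd (b i0) U x = 0)
    (x : Fin (m + 4) → ℝ) : defi U x = 0 := by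
  have dU : Differentiable ℝ U := hU.1.c2.differentiable (by norm_num)
  -- the unit vector
  obtain ⟨β, hβ⟩ : ∃ β : ℝ, β = √(∑ k, b i0 k ^ 2) := ⟨_, rfl⟩
  have hne : b i0 ≠ 0 := hb.ne_zero i0
  have hpos : 0 < ∑ k, b i0 k ^ 2 := by
    apply lt_of_le_of_ne (Finset.sum_nonneg fun _ _ => sq_nonneg _)
    intro h
    apply hne
    funext k
    have := (Finset.sum_eq_zero_iff_of_nonneg (fun k _ => sq_nonneg (b i0 k))).mp h.symm k
      (Finset.mem_univ k)
    exact pow_eq_zero_iff (two_ne_zero) |>.mp this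
  have hβ0 : 0 < β := by rw [hβ]; exact Real.sqrt_pos.mpr hpos
  have hβ2 : β ^ 2 = ∑ k, b i0 k ^ 2 := by rw [hβ]; exact Real.sq_sqrt hpos.le
  obtain ⟨L, hL⟩ := H787.exists_rot (Fin.last (m + 3)) (a := fun k => β⁻¹ * b i0 k) (by
    simp_rw [mul_pow]
    rw [← Finset.mul_sum, ← hβ2]; field_simp)
  have hL' : rot L.symm (b i0) = β • Pi.single (Fin.last (m + 3)) 1 := by
    have e1 : b i0 = β • (fun k => β⁻¹ * b i0 k) := by
      funext k
      simp only [Pi.smul_apply, smul_eq_mul]
      field_simp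
    rw [e1, map_smul, ← hL, H787.rot_symm_rot]
  obtain ⟨v, hv⟩ : ∃ v : (Fin (m + 4) → ℝ) → ℝ, v = fun x => U (rot L x) := ⟨_, rfl⟩
  have hSv : SH v := by rw [hv]; exact hU.rot L
  have dv : Differentiable ℝ v := hSv.1.c2.differentiable (by norm_num)
  have hddv : ∀ i y, dd (rot L.symm (b i)) v y = dd (b i) U (rot L y) := by
    intro i y
    rw [hv, H787.dd_comp_rot (dU _), H787.rot_rot_symm]
  have hlast : ∀ y, dd (Pi.single (Fin.last (m + 3)) 1) v y = 0 := by
    intro y
    have h1 := hddv i0 y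
    rw [h0, hL'] at h1
    have h2 : dd (β • Pi.single (Fin.last (m + 3)) 1) v y
        = β * dd (Pi.single (Fin.last (m + 3)) 1) v y := by
      unfold dd
      rw [Finset.mul_sum]
      refine Finset.sum_congr rfl fun k _ => ?_
      simp only [Pi.smul_apply, smul_eq_mul]; ring
    rw [h2] at h1
    exact (mul_eq_zero.mp h1).resolve_left hβ0.ne'
  have hinv : ∀ x (t : ℝ), v (x + t • Pi.single (Fin.last (m + 3)) 1) = v x :=
    fun x t => inv_of_dd_zero hSv.1 hlast x t
  -- the reduced family
  obtain ⟨c, hc⟩ : ∃ c : Fin m → Fin (m + 3) → ℝ,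
      c = fun j k => rot L.symm (b (i0.succAbove j)) k.castSucc := ⟨_, rfl⟩
  have hb' : LinearIndependent ℝ (fun i => rot L.symm (b i)) := by
    have hinj : Function.Injective (rot L.symm).toLinearMap := by
      intro x y hxy
      have h1 := congrArg (rot L) hxy
      have h2 : rot L (rot L.symm x) = rot L (rot L.symm y) := h1
      rwa [H787.rot_rot_symm, H787.rot_rot_symm] at h2
    exact hb.map' _ (LinearMap.ker_eq_bot.mpr hinj)
  have hcLI : LinearIndependent ℝ c := by
    rw [Fintype.linearIndependent_iff] at hb' ⊢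
    intro g hg
    obtain ⟨G, hG⟩ : ∃ G : Fin (m + 1) → ℝ, G = i0.insertNth (α := fun _ => ℝ)
        (-(β⁻¹ * ∑ j, g j * rot L.symm (b (i0.succAbove j)) (Fin.last (m + 3)))) g := ⟨_, rfl⟩
    have hGs : ∑ i, G i • rot L.symm (b i) = 0 := by
      rw [Fin.sum_univ_succAbove _ i0]
      have e0 : G i0 = -(β⁻¹ * ∑ j, g j * rot L.symm (b (i0.succAbove j)) (Fin.last (m + 3))) := by
        rw [hG]; simp
      have e1 : ∀ j, G (i0.succAbove j) = g j := by intro j; rw [hG]; simp
      rw [e0, hL']
      simp_rw [e1]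
      funext k
      refine Fin.lastCases ?_ (fun k => ?_) k
      · simp only [Pi.add_apply, Pi.smul_apply, smul_eq_mul, Finset.sum_apply, Pi.single_eq_same,
          mul_one, Pi.zero_apply]
        field_simp
        ring
      · have h1 := congrFun hg k
        simp only [Finset.sum_apply, Pi.smul_apply, smul_eq_mul, Pi.zero_apply, hc] at h1
        simp only [Pi.add_apply, Pi.smul_apply, smul_eq_mul, Finset.sum_apply, Pi.single_apply,
          if_neg (Fin.castSucc_lt_last k).ne, mul_zero, zero_add, Pi.zero_apply]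
        exact h1
    intro j
    have := hb' G hGs (i0.succAbove j)
    rw [hG] at this
    simpa using this
  have hres : SH (res v) := by
    refine ⟨H765.Sol.res hSv.1 hinv, ?_⟩
    obtain ⟨-, C, hC⟩ := hSv
    refine ⟨C, HypN.reduce (p := Fin.last (m + 3)) hC (fun s y => ?_)
      (((dv.continuous.pow 2).const_mul 3).sub continuous_const)⟩
    have e : H160.ins (Fin.last (m + 3)) s y
        = (Fin.snoc y 0 : Fin (m + 4) → ℝ) + s • Pi.single (Fin.last (m + 3)) 1 := by
      unfold H160.ins
      rw [Fin.insertNth_last']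
      funext k
      refine Fin.lastCases ?_ (fun k => ?_) k
      · simp
      · simp [Pi.single_apply, (Fin.castSucc_lt_last k).ne]
    show 3 * v (H160.ins (Fin.last (m + 3)) s y) ^ 2 - 1 = 3 * res v y ^ 2 - 1
    rw [e, hinv]
    rfl
  have hdc : ∀ j y, 0 ≤ dd (c j) (res v) y := by
    intro j y
    have h1 := hddv (i0.succAbove j) (emb (m + 3) y)
    have h2 : dd (c j) (res v) y = dd (rot L.symm (b (i0.succAbove j))) v (emb (m + 3) y) := by
      unfold dd
      conv_rhs => rw [Fin.sum_univ_castSucc]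
      have h3 : pd (Fin.last (m + 3)) v (emb (m + 3) y) = 0 := by
        have := hlast (emb (m + 3) y)
        rwa [single_last_dd] at this
      rw [h3, mul_zero, add_zero, hc]
      refine Finset.sum_congr rfl fun k _ => ?_
      rw [pd_res dv]
    rw [h2, h1]
    exact hd _ _
  have hfin := hP (res v) c hres hcLI hdc
  have h1 := defi_res hSv.1 hinv (rot L.symm x)
  rw [hfin] at h1
  have h2 : defi v (rot L.symm x) = defi U (rot L (rot L.symm x)) := by
    rw [hv]; exact H787.defi_comp_rot dU L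
  rw [H787.rot_rot_symm] at h2
  rw [← h2, h1]

end Vale.Agent.P134.R2.H561
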