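import Vale.Agent.P134.M4.Defs
import Vale.Agent.P134.H765.Struct

set_option linter.all false

open MeasureTheory Filter Topology

namespace Vale.Agent.P134.R2.H561

open Vale.Agent.P134 Vale.Agent.P134.SM
open Vale.Agent.P134.H891 (Psi ph gp)
open Vale.Agent.P134.M4 (bl)

variable {m : ℕ}

/-- energy growth, centre `0`. -/
def E3 (u : (Fin (m + 4) → ℝ) → ℝ) : Prop :=
  ∃ C : ℝ, ∀ R : ℝ, 1 ≤ R → ∫ x in bl R, psi u x ^ 2 ≤ C * R ^ (m + 3)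

/-- energy growth, all centres, one constant. -/
def E3' (u : (Fin (m + 4) → ℝ) → ℝ) : Prop :=
  ∃ C : ℝ, ∀ (y : Fin (m + 4) → ℝ) (R : ℝ), 1 ≤ R →
    ∫ x in bl R, psi u (x + y) ^ 2 ≤ C * R ^ (m + 3)

def S0 (u : (Fin (m + 4) → ℝ) → ℝ) : Prop :=
  ∀ ε : ℝ, 0 < ε → ∀ᶠ R : ℝ in atTop, ∫ x in bl R, rd u x ^ 2 ≤ ε * R ^ (m + 5)

def CU (u : (Fin (m + 4) → ℝ) → ℝ) : Prop :=
  ∃ C : ℝ, ∀ R : ℝ, 1 ≤ R → ∫ x in bl R, gs u x * dn u x ≤ C * R ^ (m + 1)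

def ST (u : (Fin (m + 4) → ℝ) → ℝ) : Prop :=
  (∀ η : (Fin (m + 4) → ℝ) → ℝ, ContDiff ℝ 1 η → HasCompactSupport η →
    ∫ x, gs u x * dn u x * η x ^ 2 ≤ ∫ x, gs u x * gs η x) ∧
  (∀ η : (Fin (m + 4) → ℝ) → ℝ, ContDiff ℝ 1 η → HasCompactSupport η →
    2 * ∫ x, psi u x * defi u x * η x ^ 2 ≤ ∫ x, psi u x ^ 2 * gs η x)

def K1 (u : (Fin (m + 4) → ℝ) → ℝ) : Prop :=
  ∀ ε : ℝ, 0 < ε → ∀ᶠ R : ℝ in atTop,
    ∫ x in bl R, psi u x * wn u x * √(dn u x) ≤ ε * R ^ (m + 2)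

def FLAT (u : (Fin (m + 4) → ℝ) → ℝ) : Prop :=
  ∀ ε : ℝ, 0 < ε → ∀ᶠ R : ℝ in atTop, ∃ e : Fin (m + 4) → ℝ, ∑ i, e i ^ 2 = 1 ∧
    ∫ x in bl R, psi u x * wn u x * (1 - tau e u x ^ 2) ≤ ε * R ^ (m + 3)

def OUT1 (u : (Fin (m + 4) → ℝ) → ℝ) : Prop :=
  ∀ R : ℝ, 0 < R → ∫ x, en u x * ph R x ≤ Psi 1 * (∫ y : Fin (m + 3) → ℝ, ph 1 y) * R ^ (m + 3)

open Classical in
def OUT2 (u : (Fin (m + 4) → ℝ) → ℝ) : Prop :=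
  ∀ ε : ℝ, 0 < ε → ∀ᶠ R : ℝ in atTop, ∃ e : Fin (m + 4) → ℝ, ∑ i, e i ^ 2 = 1 ∧
    ∫ x in bl R, |Psi (u x) - if 0 < ∑ i, e i * x i then Psi 1 else 0| ≤ ε * R ^ (m + 4)

/-- limits `±1` along coordinate `q`. -/
structure Mo (q : Fin (m + 4)) (u : (Fin (m + 4) → ℝ) → ℝ) : Prop extends Sol u where
  pos : ∀ x, 0 < pd q u x
  top : ∀ x, Tendsto (fun t : ℝ => u (x + t • Pi.single q 1)) atTop (𝓝 1)
  bot : ∀ x, Tendsto (fun t : ℝ => u (x + t • Pi.single q 1)) atBot (𝓝 (-1))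

/-- the mixed case: upper profile a translate of the heteroclinic, lower profile `-1`
or a translate in the same direction. -/
structure Mx (q : Fin (m + 4)) (u : (Fin (m + 4) → ℝ) → ℝ) (ν : Fin (m + 4) → ℝ) (c : ℝ) :
    Prop extends Sol u where
  pos : ∀ x, 0 < pd q u x
  unit : ∑ i, ν i ^ 2 = 1
  nuq : ν q = 0
  top : ∀ x, Tendsto (fun t : ℝ => u (x + t • Pi.single q 1)) atTop
    (𝓝 (gp (∑ i, ν i * x i + c)))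
  bot : (∀ x, Tendsto (fun t : ℝ => u (x + t • Pi.single q 1)) atBot (𝓝 (-1))) ∨
    ∃ c' : ℝ, ∀ x, gp (∑ i, ν i * x i + c') ≤ u x

/-- block A. -/
def StA (m : ℕ) : Prop := ∀ (u U : (Fin (m + 4) → ℝ) → ℝ) (q : Fin (m + 4)), Sol u →
  (∀ x, 0 < pd q u x) → Sol U →
  (∀ x, Tendsto (fun t : ℝ => u (x + t • Pi.single q 1)) atTop (𝓝 (U x))) →
  (∀ x, defi U x = 0) → E3' u ∧ S0 u

/-- block C (`n - 3` monotone directions whose span contains the last `m + 1` coordinates). -/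
def StC (m : ℕ) : Prop := ∀ (u : (Fin (m + 4) → ℝ) → ℝ) (b : Fin (m + 1) → Fin (m + 4) → ℝ),
  Sol u → (∀ x, |u x| < 1) → (∀ x, 0 < gs u x) → (∀ i, ∑ k, b i k ^ 2 = 1) →
  (∀ i x, 0 < dd (b i) u x) →
  (∀ j : Fin (m + 1), ∃ c : Fin (m + 1) → ℝ, ∀ k,
    (Pi.single j.succ.succ.succ 1 : Fin (m + 4) → ℝ) k = ∑ i, c i * b i k) →
  E3' u → S0 u → ST u → K1 u

/-- block D. -/
def StD (m : ℕ) : Prop := ∀ u : (Fin (m + 4) → ℝ) → ℝ, Sol u → (∀ x, 0 < gs u x) → E3 u → S0 u →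
  K1 u → FLAT u

/-- block E. -/
def StE (m : ℕ) : Prop := ∀ (q : Fin (m + 4)) (u : (Fin (m + 4) → ℝ) → ℝ), Mo q u → E3' u → S0 u →
  FLAT u → OUT1 u ∧ OUT2 u

/-- block X (mixed case). -/
def StX (m : ℕ) : Prop := ∀ (q : Fin (m + 4)) (u : (Fin (m + 4) → ℝ) → ℝ)
  (ν : Fin (m + 4) → ℝ) (c : ℝ), Mx q u ν c → E3' u → S0 u → OUT1 u ∧ OUT2 u

/-- block F. -/
def StF (m : ℕ) : Prop := ∀ u : (Fin (m + 4) → ℝ) → ℝ, Sol u → (∀ x, |u x| < 1) → |u 0| ≤ 3 / 4 →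
  E3' u → ST u → OUT1 u → OUT2 u →
  ∃ (e : Fin (m + 4) → ℝ) (h : ℝ → ℝ), ∑ i, e i ^ 2 = 1 ∧ ∀ x, u x = h (∑ i, e i * x i)

/-- Target of the induction: stable, weakly monotone in `m` independent directions of `ℝ^{m+3}`. -/
def PP (m : ℕ) : Prop := ∀ (u : (Fin (m + 3) → ℝ) → ℝ) (b : Fin m → Fin (m + 3) → ℝ), DStab u →
  LinearIndependent ℝ b → (∀ i x, 0 ≤ dd (b i) u x) → ∀ x, defi u x = 0

end Vale.Agent.P134.R2.H561
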