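import Vale.Agent.P134.H688.StE
import Vale.Agent.P134.R2.H561.Defs

set_option linter.all false

open MeasureTheory Filter Topology Set

namespace Vale.Agent.P134.R2.H561

open Vale.Agent.P134 Vale.Agent.P134.SM Vale.Agent.P134.H688
open Vale.Agent.P134.M4 (bl)
open Vale.Agent.P134.H891 (Psi ph mm pp ph_nonneg mm_nonneg mm_le_one mm_eq_zero ph_contDiff
  ph_hasCompactSupport hasDerivAt_Psi contDiff_Psi Psi_neg_one continuous_Psi ph_grad_le TT II
  Th_mono Psi_one_le Psi_nonneg Psi_le_Psi_one Psi_le_one ph_le_one)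

variable {m n : ℕ} {u V φ f g η : (Fin n → ℝ) → ℝ} {x : Fin n → ℝ} {K : Set (Fin n → ℝ)}

lemma boxn_subset_bl (hn : 1 ≤ n) {R : ℝ} : (box n R : Set (Fin n → ℝ)) ⊆ bl ((n:ℝ) * R) := by
  intro x hx
  rw [mem_box] at hx
  show rho Finset.univ x ≤ ((n:ℝ) * R) ^ 2
  unfold rho
  have h1 : ∀ i ∈ (Finset.univ : Finset (Fin n)), x i ^ 2 ≤ R ^ 2 := fun i _ =>
    sq_le_sq' (abs_le.mp (hx i)).1 (abs_le.mp (hx i)).2
  refine (Finset.sum_le_sum h1).trans ?_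
  rw [Finset.sum_const, Finset.card_univ, Fintype.card_fin, nsmul_eq_mul, mul_pow]
  have h2 : (1:ℝ) ≤ n := by exact_mod_cast hn
  apply mul_le_mul_of_nonneg_right _ (sq_nonneg R)
  nlinarith

lemma hintn_box (hn : 1 ≤ n) {f : (Fin n → ℝ) → ℝ} {R : ℝ} (hR : 0 ≤ R) (hf : Continuous f)
    (hf0 : ∀ x, 0 ≤ f x) : ∫ x in box n R, f x ≤ ∫ x in bl ((n:ℝ) * R), f x :=
  setIntegral_mono_set (integrableOn_box hf (bl_subset_box (by positivity)))
    (Eventually.of_forall hf0) (boxn_subset_bl hn).eventuallyLE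

lemma flatn_h1 {u : (Fin n → ℝ) → ℝ} (hu : Sol u) (hgs : ∀ x, 0 < gs u x)
    {e : Fin n → ℝ} (he : ∑ i, e i ^ 2 = 1) {R A δ : ℝ} {p : ℕ} (hR0 : 0 < R) (hA0 : 0 < A)
    (hδ : 0 < δ)
    (hA : ∫ x in box n R, psi u x ^ 2 ≤ A * R ^ p)
    (hfl : ∫ x in box n R, psi u x * wn u x * (1 - tau e u x ^ 2) ≤ δ ^ 2 / A * R ^ p) :
    R * ∫ x in box n R, psi u x / Real.sqrt 2 * gt e u x ≤ δ * R ^ (p + 1) := by
  have hu1 : ContDiff ℝ 1 u := hu.c2.of_le (by norm_num)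
  have cψ : Continuous (psi u) := hu.psi_contDiff.continuous
  have cw : Continuous (wn u) := continuous_gn hu1
  have ψ0 := hu.psi_nonneg
  have hs2 := one_le_sqrt2
  obtain ⟨t0, ht0⟩ : ∃ t0 : ℝ, t0 = δ / A := ⟨_, rfl⟩
  have ht00 : 0 < t0 := by rw [ht0]; positivity
  have hsub : (box n R : Set (Fin n → ℝ)) ⊆ box n R := subset_rfl
  have ha := one_sub_tau_nonneg hgs he
  have ctau : Continuous (tau e u) := by
    unfold tau
    exact (continuous_dd hu1 e).div cw fun x => (wn_pos (hgs x)).ne'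
  set f1 : (Fin n → ℝ) → ℝ := fun x => Real.sqrt (psi u x * wn u x) with hf1
  set g1 : (Fin n → ℝ) → ℝ := fun x => Real.sqrt (psi u x * wn u x * (1 - tau e u x ^ 2)) with hg1
  have cf1 : Continuous f1 := Real.continuous_sqrt.comp (cψ.mul cw)
  have cg1 : Continuous g1 :=
    Real.continuous_sqrt.comp ((cψ.mul cw).mul (continuous_const.sub (ctau.pow 2)))
  have hpw : ∀ x, 0 ≤ psi u x * wn u x := fun x => mul_nonneg (ψ0 x) (wn_nonneg _ _)
  have e1 : ∀ x, f1 x ^ 2 = psi u x * wn u x := fun x => Real.sq_sqrt (hpw x)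
  have e2 : ∀ x, g1 x ^ 2 = psi u x * wn u x * (1 - tau e u x ^ 2) := fun x =>
    Real.sq_sqrt (mul_nonneg (hpw x) (ha x))
  have hAf : ∫ x in box n R, f1 x ^ 2 ≤ A * R ^ p := by
    refine le_trans ?_ hA
    simp_rw [e1]
    apply setIntegral_mono (integrableOn_box (cψ.mul cw) hsub)
      (integrableOn_box (cψ.pow 2) hsub)
    intro x
    have h3 : wn u x ≤ psi u x := (Sol.gn_le hu x).trans (div_le_self (ψ0 x) hs2)
    have := mul_le_mul_of_nonneg_left h3 (ψ0 x)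
    show psi u x * wn u x ≤ psi u x ^ 2
    nlinarith
  have hBg : ∫ x in box n R, g1 x ^ 2 ≤ δ ^ 2 / A * R ^ p := by
    simp_rw [e2]
    exact hfl
  have hcs := cs_box cf1 cg1 (fun _ => Real.sqrt_nonneg _) (fun _ => Real.sqrt_nonneg _) hsub
    hAf hBg ht00
  have e3 : ∀ x, f1 x * g1 x = psi u x * gt e u x := by
    intro x
    rw [hf1, hg1]
    simp only
    rw [← Real.sqrt_mul (hpw x)]
    have h5 : gn u x ^ 2 = gs u x := wn_sq u x
    have h6 : psi u x * wn u x * (psi u x * wn u x * (1 - tau e u x ^ 2))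
        = (psi u x * gt e u x) ^ 2 := by
      have h4 := tau_sq_mul hgs e x
      have h7 := wn_sq u x
      rw [mul_pow, gt_sq he, h5, ← h4, ← h7]; ring
    rw [h6, Real.sqrt_sq (mul_nonneg (ψ0 x) (gt_nonneg _ _ _))]
  simp_rw [e3] at hcs
  have h8 : ∫ x in box n R, psi u x / Real.sqrt 2 * gt e u x
      ≤ ∫ x in box n R, psi u x * gt e u x := by
    apply setIntegral_mono (integrableOn_box ((cψ.div_const _).mul (continuous_gt hu1 e)) hsub)
      (integrableOn_box (cψ.mul (continuous_gt hu1 e)) hsub)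
    intro x
    exact mul_le_mul_of_nonneg_right (div_le_self (ψ0 x) hs2) (gt_nonneg _ _ _)
  have h9 : ∫ x in box n R, psi u x * gt e u x ≤ δ * R ^ p := by
    have e4 : t0 * (A * R ^ p) = δ * R ^ p := by rw [ht0]; field_simp
    have e5 : δ ^ 2 / A * R ^ p / t0 = δ * R ^ p := by rw [ht0]; field_simp
    rw [e4, e5] at hcs
    linarith
  calc R * ∫ x in box n R, psi u x / Real.sqrt 2 * gt e u x ≤ R * (δ * R ^ p) :=
        mul_le_mul_of_nonneg_left (h8.trans h9) hR0.le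
    _ = δ * R ^ (p + 1) := by ring

lemma flatn_h2 {u : (Fin n → ℝ) → ℝ} (hu : Sol u) {R A δ : ℝ} {p : ℕ} (hR0 : 0 < R) (hA0 : 0 < A)
    (hδ : 0 < δ) (hA : ∫ x in box n R, psi u x ^ 2 ≤ A * R ^ p)
    (hRS : ∫ x in box n R, rd u x ^ 2 ≤ δ ^ 2 / A * R ^ (p + 2)) :
    ∫ x in box n R, psi u x / Real.sqrt 2 * |∑ i, x i * pd i u x| ≤ δ * R ^ (p + 1) := by
  have hu1 : ContDiff ℝ 1 u := hu.c2.of_le (by norm_num)
  have cψ : Continuous (psi u) := hu.psi_contDiff.continuous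
  have ψ0 := hu.psi_nonneg
  have hs2 := one_le_sqrt2
  have hsub : (box n R : Set (Fin n → ℝ)) ⊆ box n R := subset_rfl
  have crd : Continuous (fun x : Fin n → ℝ => ∑ i, x i * pd i u x) :=
    continuous_finsetSum _ fun i _ => (continuous_apply i).mul (continuous_pd hu1)
  obtain ⟨t1, ht1⟩ : ∃ t1 : ℝ, t1 = δ * R / A := ⟨_, rfl⟩
  have ht10 : 0 < t1 := by rw [ht1]; positivity
  have hB : ∫ x in box n R, |∑ i, x i * pd i u x| ^ 2 ≤ δ ^ 2 / A * R ^ (p + 2) := by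
    simp_rw [sq_abs]
    exact hRS
  have hcs := cs_box cψ crd.abs ψ0 (fun _ => abs_nonneg _) hsub hA hB ht10
  have e4 : t1 * (A * R ^ p) = δ * R ^ (p + 1) := by rw [ht1]; field_simp; ring
  have e5 : δ ^ 2 / A * R ^ (p + 2) / t1 = δ * R ^ (p + 1) := by rw [ht1]; field_simp; ring
  rw [e4, e5] at hcs
  have h8 : ∫ x in box n R, psi u x / Real.sqrt 2 * |∑ i, x i * pd i u x|
      ≤ ∫ x in box n R, psi u x * |∑ i, x i * pd i u x| := by
    apply setIntegral_mono (integrableOn_box ((cψ.div_const _).mul crd.abs) hsub)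
      (integrableOn_box (cψ.mul crd.abs) hsub)
    intro x
    exact mul_le_mul_of_nonneg_right (div_le_self (ψ0 x) hs2) (abs_nonneg _)
  linarith

lemma flatn_h3 {u : (Fin n → ℝ) → ℝ} (hu : Sol u) {R A δ : ℝ} {p : ℕ} (hn : n = p + 1)
    (hR0 : 0 < R) (hA0 : 0 < A) (hδ : 0 < δ) (hR2 : 2 ^ n * A / δ ^ 2 ≤ R)
    (hA : ∫ x in box n R, psi u x ^ 2 ≤ A * R ^ p) :
    ∫ x in box n R, psi u x ≤ δ * R ^ (p + 1) := by
  have cψ : Continuous (psi u) := hu.psi_contDiff.continuous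
  have ψ0 := hu.psi_nonneg
  have hsub : (box n R : Set (Fin n → ℝ)) ⊆ box n R := subset_rfl
  obtain ⟨t1, ht1⟩ : ∃ t1 : ℝ, t1 = δ * R / A := ⟨_, rfl⟩
  have ht10 : 0 < t1 := by rw [ht1]; positivity
  have hB : ∫ x in box n R, (1:ℝ) ^ 2 ≤ (2 * R) ^ n := by
    simp only [one_pow]
    rw [setIntegral_const, smul_eq_mul, mul_one]
    exact le_of_eq (volume_box hR0.le)
  have hcs := cs_box (g := fun _ => (1:ℝ)) cψ continuous_const ψ0 (fun _ => zero_le_one) hsub hA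
    hB ht10
  simp only [mul_one] at hcs
  have e4 : t1 * (A * R ^ p) = δ * R ^ (p + 1) := by rw [ht1]; field_simp; ring
  have e5 : (2 * R) ^ n / t1 ≤ δ * R ^ (p + 1) := by
    rw [ht1, div_le_iff₀ (by positivity)]
    have h8 : 2 ^ n * A ≤ R * δ ^ 2 := by
      rwa [div_le_iff₀ (by positivity)] at hR2
    have h9 : δ * R ^ (p + 1) * (δ * R / A) = R ^ n * ((R * δ ^ 2) / A) := by rw [hn]; ring
    rw [h9]
    have h10 : 2 ^ n ≤ (R * δ ^ 2) / A := by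
      rw [le_div_iff₀ (by positivity)]; linarith
    calc (2 * R) ^ n = R ^ n * 2 ^ n := by rw [mul_pow]; ring
      _ ≤ _ := mul_le_mul_of_nonneg_left h10 (by positivity)
  rw [e4] at hcs
  linarith

/-- closeness to one of the four targets for the direction `e`. -/
theorem closen {u : (Fin (m + 4) → ℝ) → ℝ} (hu : Sol u) (hgs : ∀ x, 0 < gs u x) (hE : E3 u)
    (hS : S0 u) {κ : ℝ} (hκ : 0 < κ) : ∃ ν0 : ℝ, 0 < ν0 ∧ ∀ᶠ R : ℝ in atTop,
      ∀ e : Fin (m + 4) → ℝ, ∑ i, e i ^ 2 = 1 →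
      ∫ x in bl (((m + 4 : ℕ) : ℝ) * R), psi u x * wn u x * (1 - tau e u x ^ 2)
        ≤ ν0 * R ^ (m + 3) →
      ∃ t, Tgt e t ∧ ∫ x in box (m + 4) R, |Ps (t x) - Ps (u x)| ≤ κ * R ^ (m + 4) := by
  have cψ : Continuous (psi u) := hu.psi_contDiff.continuous
  have cw : Continuous (wn u) := continuous_gn (hu.c2.of_le (by norm_num))
  obtain ⟨C0, hC0⟩ := hE
  obtain ⟨C, hCpos, hC⟩ : ∃ C : ℝ, 0 < C ∧ ∀ R : ℝ, 1 ≤ R →
      ∫ x in bl R, psi u x ^ 2 ≤ C * R ^ (m + 3) :=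
    ⟨max C0 1, lt_of_lt_of_le one_pos (le_max_right _ _), fun R hR =>
      (hC0 R hR).trans (mul_le_mul_of_nonneg_right (le_max_left _ _) (by positivity))⟩
  obtain ⟨N, hN⟩ : ∃ N : ℝ, N = ((m + 4 : ℕ) : ℝ) := ⟨_, rfl⟩
  have hN1 : 1 ≤ N := by rw [hN]; push_cast; linarith [Nat.cast_nonneg (α := ℝ) m]
  obtain ⟨A, hA⟩ : ∃ A : ℝ, A = C * N ^ (m + 3) := ⟨_, rfl⟩
  have hA0 : 0 < A := by rw [hA]; positivity
  obtain ⟨η, hη0, hη1, hη2⟩ : ∃ η : ℝ, 0 < η ∧ η ≤ 1 / 4 ∧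
      2 ^ (m + 4) * (4 * ((m + 4 : ℕ) : ℝ) * η) ≤ κ / 4 :=
    ⟨min (1 / 4) (κ / (2 ^ (m + 4) * (16 * N))), lt_min (by norm_num) (by positivity),
      min_le_left _ _, by
        have h1 : min (1 / 4) (κ / (2 ^ (m + 4) * (16 * N))) ≤ κ / (2 ^ (m + 4) * (16 * N)) :=
          min_le_right _ _
        rw [le_div_iff₀ (by positivity)] at h1
        rw [← hN]
        linarith⟩
  obtain ⟨M, hM0, hM⟩ : ∃ M : ℝ, 0 < M ∧
      (8 * ((m + 4 : ℕ):ℝ)) ^ (m + 4) * (2 * ((m + 4 : ℕ):ℝ)) * (((m + 4 : ℕ):ℝ) + 2) / η + 1 = M :=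
    ⟨_, by positivity, rfl⟩
  obtain ⟨δ, hδ0, hδ⟩ : ∃ δ : ℝ, 0 < δ ∧ 2 * (M * δ) = κ / 4 :=
    ⟨κ / (8 * M), by positivity, by field_simp; ring⟩
  refine ⟨δ ^ 2 / A, by positivity, ?_⟩
  have hS1 := hS (δ ^ 2 / A / N ^ (m + 5)) (by positivity)
  have hdbl : Tendsto (fun R : ℝ => N * R) atTop atTop :=
    tendsto_id.const_mul_atTop (by linarith)
  filter_upwards [eventually_ge_atTop (1 : ℝ), eventually_ge_atTop (2 ^ (m + 4) * A / δ ^ 2),
    eventually_ge_atTop (2 ^ (m + 4) * 16 / (η * κ)), hdbl.eventually hS1]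
    with R hR1 hR2 hR3 hRS e he hfl
  have hR0 : 0 < R := by linarith
  have hNR : 1 ≤ N * R := one_le_mul_of_one_le_of_one_le hN1 hR1
  have hAb : ∫ x in box (m + 4) R, psi u x ^ 2 ≤ A * R ^ (m + 3) := by
    refine (hintn_box (by omega) hR0.le (cψ.pow 2) (fun _ => sq_nonneg _)).trans ?_
    rw [← hN]
    refine (hC _ hNR).trans (le_of_eq ?_)
    rw [hA, mul_pow]; ring
  have ctau : Continuous (tau e u) := by
    unfold tau
    exact (continuous_dd (hu.c2.of_le (by norm_num)) e).div cw fun x => (wn_pos (hgs x)).ne'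
  have hflb : ∫ x in box (m + 4) R, psi u x * wn u x * (1 - tau e u x ^ 2)
      ≤ δ ^ 2 / A * R ^ (m + 3) :=
    (hintn_box (by omega) hR0.le ((cψ.mul cw).mul (continuous_const.sub (ctau.pow 2)))
      (fun x => mul_nonneg (mul_nonneg (hu.psi_nonneg x) (wn_nonneg _ _))
        (one_sub_tau_nonneg hgs he x))).trans hfl
  have crd : Continuous (rd u) := (Sol.rd_c2 hu).continuous
  have hRSb : ∫ x in box (m + 4) R, rd u x ^ 2 ≤ δ ^ 2 / A * R ^ (m + 3 + 2) := by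
    refine (hintn_box (by omega) hR0.le (crd.pow 2) (fun _ => sq_nonneg _)).trans ?_
    rw [← hN]
    refine hRS.trans (le_of_eq ?_)
    rw [mul_pow]; field_simp
  obtain ⟨t, ht, hclose⟩ := flat_tgt (by omega) hu he hη0 hη1 hR0
    (flatn_h1 (p := m + 3) hu hgs he hR0 hA0 hδ0 hAb hflb)
    (flatn_h2 (p := m + 3) hu hR0 hA0 hδ0 hAb hRSb)
    (flatn_h3 (p := m + 3) hu rfl hR0 hA0 hδ0 hR2 hAb)
  rw [hM] at hclose
  have k2 : 2 ^ (m + 4) * (4 / (η * R)) ≤ κ / 4 := by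
    rw [← mul_div_assoc, div_le_div_iff₀ (by positivity) (by norm_num)]
    rw [div_le_iff₀ (by positivity)] at hR3
    nlinarith
  have hconst : (2 * (M * δ) + 2 ^ (m + 4) * (4 / (η * R) + 4 * ((m + 4 : ℕ):ℝ) * η)) ≤ κ := by
    rw [mul_add, hδ]
    linarith
  exact ⟨t, ht, hclose.trans (mul_le_mul_of_nonneg_right hconst (by positivity))⟩

end Vale.Agent.P134.R2.H561
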