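import Vale.Agent.P134.H981.Geo
import Vale.Agent.P134.H981.Kap
import Vale.Agent.P134.R2.H561.Defs

set_option linter.all false

namespace Vale.Agent.P134.R2.H561

open Vale.Agent.P134 Vale.Agent.P134.SM Vale.Agent.P134.H981

variable {m n : ℕ}

lemma sum4 {M : Type*} [AddCommMonoid M] (f : Fin (m + 4) → M) : ∑ k, f k
    = f 0 + f 1 + f 2 + ∑ j : Fin (m + 1), f j.succ.succ.succ := by
  rw [Fin.sum_univ_succ, Fin.sum_univ_succ, Fin.sum_univ_succ]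
  simp only [Fin.succ_zero_eq_one, Fin.succ_one_eq_two, add_assoc]

lemma cs_sum {ι : Type*} (s : Finset ι) (f g : ι → ℝ) :
    (∑ i ∈ s, f i * g i) ^ 2 ≤ (∑ i ∈ s, f i ^ 2) * ∑ i ∈ s, g i ^ 2 :=
  Finset.sum_mul_sq_le_sq_mul_sq s f g

/-- three by three block. -/
lemma blk3 (B : Fin 3 → Fin 3 → ℝ) (hB : ∀ i j, B i j = B j i) {v w : Fin 3 → ℝ}
    (hw : ∑ i, w i ^ 2 = 1) (hv1 : ∑ i, v i ^ 2 ≤ 1) (hv : 3 / 4 ≤ ∑ i, v i ^ 2)
    (hvw : (∑ i, w i * v i) ^ 2 ≤ 1 / 4) :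
    ∑ i, ∑ j, B i j ^ 2 ≤ 50 * (∑ i, (∑ j, B i j * v j) ^ 2)
      + 20 * (∑ i, (∑ j, B i j * w j) ^ 2) + 3 * (∑ i, B i i) ^ 2 := by
  rw [Fin.sum_univ_three] at hw hv1 hv hvw
  have key := mat_le ![![B 0 0, B 0 1, B 0 2, 0], ![B 1 0, B 1 1, B 1 2, 0],
      ![B 2 0, B 2 1, B 2 2, 0], ![0, 0, 0, 0]]
    (by
      intro i j
      fin_cases i <;> fin_cases j <;> simp [hB 0 1, hB 0 2, hB 1 2])
    (ν := ![0, 0, 0, 1]) (p := ![v 0, v 1, v 2, 0]) (y := ![w 0, w 1, w 2, 0])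
    (by simp [Fin.sum_univ_four])
    (by intro i; fin_cases i <;> simp [Fin.sum_univ_four])
    (by simp [Fin.sum_univ_four]) (by simp [Fin.sum_univ_four]) (c := 1 / 2)
    (K := 1) (by norm_num) le_rfl
    (by simpa [Fin.sum_univ_four] using hv1) (by simp [Fin.sum_univ_four, hw])
    (by
      have e : v 0 * w 0 + v 1 * w 1 + v 2 * w 2 = w 0 * v 0 + w 1 * v 1 + w 2 * v 2 := by ring
      simp only [Fin.sum_univ_four, Matrix.cons_val_zero, Matrix.cons_val_one, Matrix.cons_val,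
        mul_zero, add_zero, ne_eq, OfNat.ofNat_ne_zero, not_false_eq_true, zero_pow]
      rw [hw, e]
      linarith)
  simp only [Fin.sum_univ_four, Matrix.cons_val_zero, Matrix.cons_val_one, Matrix.cons_val,
    mul_zero, add_zero, zero_mul, ne_eq, OfNat.ofNat_ne_zero, not_false_eq_true, zero_pow] at key
  simp only [Fin.sum_univ_three]
  norm_num at key
  linarith

lemma tangn_le {ν t v : Fin n → ℝ} {c : ℝ} (hν : ∑ i, ν i ^ 2 = 1) (ht : ∑ i, ν i * t i = 0)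
    (hv : ∀ i, v i = t i + c * ν i) : ∑ i, t i ^ 2 ≤ ∑ i, v i ^ 2 := by
  have : ∑ i, v i ^ 2 = ∑ i, t i ^ 2 + c ^ 2 := by
    have e : ∀ i, v i ^ 2 = t i ^ 2 + 2 * c * (ν i * t i) + c ^ 2 * ν i ^ 2 := by
      intro i; rw [hv i]; ring
    rw [Finset.sum_congr rfl fun i _ => e i, Finset.sum_add_distrib, Finset.sum_add_distrib,
      ← Finset.mul_sum, ← Finset.mul_sum, ht, hν]; ring
  nlinarith [sq_nonneg c]

/-- row mass of the last columns. -/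
def cS (A : Fin (m + 4) → Fin (m + 4) → ℝ) (k : Fin (m + 4)) : ℝ :=
  ∑ j : Fin (m + 1), A k j.succ.succ.succ ^ 2

lemma cS_nonneg (A : Fin (m + 4) → Fin (m + 4) → ℝ) (k : Fin (m + 4)) : 0 ≤ cS A k :=
  Finset.sum_nonneg fun _ _ => sq_nonneg _

def io (m : ℕ) : Fin 3 → Fin (m + 4) := ![0, 1, 2]

lemma sum_io {M : Type*} [AddCommMonoid M] (f : Fin (m + 4) → M) :
    ∑ i : Fin 3, f (io m i) = f 0 + f 1 + f 2 := by
  rw [Fin.sum_univ_three]; rfl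

lemma sum_cS (A : Fin (m + 4) → Fin (m + 4) → ℝ) :
    ∑ j : Fin (m + 1), ∑ k, A k j.succ.succ.succ ^ 2 = ∑ k, cS A k := by
  rw [Finset.sum_comm]; rfl

lemma io_cS_le (A : Fin (m + 4) → Fin (m + 4) → ℝ) :
    ∑ i : Fin 3, cS A (io m i) ≤ ∑ k, cS A k := by
  rw [sum_io, sum4 (fun k => cS A k)]
  have : 0 ≤ ∑ j : Fin (m + 1), cS A j.succ.succ.succ :=
    Finset.sum_nonneg fun _ _ => cS_nonneg _ _
  linarith

lemma mt_tot (A : Fin (m + 4) → Fin (m + 4) → ℝ) (hA : ∀ i j, A i j = A j i) :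
    ∑ i, ∑ j, A i j ^ 2 ≤ ∑ i : Fin 3, ∑ j : Fin 3, A (io m i) (io m j) ^ 2
      + 2 * ∑ k, cS A k := by
  have e1 : ∀ i, ∑ j, A i j ^ 2 = A i 0 ^ 2 + A i 1 ^ 2 + A i 2 ^ 2 + cS A i := fun i => sum4 _
  rw [Finset.sum_congr rfl fun i _ => e1 i, Finset.sum_add_distrib,
    Finset.sum_add_distrib, Finset.sum_add_distrib]
  have e2 : ∀ c : Fin (m + 4), ∑ i, A i c ^ 2 = A 0 c ^ 2 + A 1 c ^ 2 + A 2 c ^ 2 + cS A c := by
    intro c
    rw [sum4]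
    congr 1
    exact Finset.sum_congr rfl fun j _ => by rw [hA]
  rw [e2 0, e2 1, e2 2]
  have e3 : ∀ i : Fin 3, ∑ j : Fin 3, A (io m i) (io m j) ^ 2
      = A (io m i) 0 ^ 2 + A (io m i) 1 ^ 2 + A (io m i) 2 ^ 2 := fun i =>
    sum_io (fun j => A (io m i) j ^ 2)
  rw [Finset.sum_congr rfl fun i _ => e3 i, sum_io (fun i => A i 0 ^ 2 + A i 1 ^ 2 + A i 2 ^ 2)]
  have h := io_cS_le A
  rw [sum_io] at h
  linarith

lemma mt_v (A : Fin (m + 4) → Fin (m + 4) → ℝ) {ν : Fin (m + 4) → ℝ}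
    (hAν : ∀ i, ∑ j, A i j * ν j = 0)
    (hν3 : ∑ j : Fin (m + 1), ν j.succ.succ.succ ^ 2 ≤ 1 / 4) (i : Fin (m + 4)) :
    (∑ j : Fin 3, A i (io m j) * ν (io m j)) ^ 2 ≤ cS A i := by
  have h1 := hAν i
  rw [sum4] at h1
  have h2 : ∑ j : Fin 3, A i (io m j) * ν (io m j)
      = - ∑ j : Fin (m + 1), A i j.succ.succ.succ * ν j.succ.succ.succ := by
    rw [sum_io (fun j => A i j * ν j)]
    linarith
  rw [h2, neg_sq]
  refine (cs_sum _ _ _).trans ?_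
  have h3 := cS_nonneg A i
  have h4 : 0 ≤ ∑ j : Fin (m + 1), ν j.succ.succ.succ ^ 2 :=
    Finset.sum_nonneg fun _ _ => sq_nonneg _
  change cS A i * _ ≤ _
  nlinarith

lemma mt_w (A : Fin (m + 4) → Fin (m + 4) → ℝ) {x : Fin (m + 4) → ℝ} {q r R : ℝ} (hq : 0 < q)
    (hr0 : 0 < r) (hr : q ^ 2 ≤ r ^ 2)
    (hXR : ∑ j : Fin (m + 1), x j.succ.succ.succ ^ 2 ≤ R ^ 2) (i : Fin (m + 4)) :
    (∑ j : Fin 3, A i (io m j) * (x (io m j) / r)) ^ 2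
      ≤ (1 / q ^ 2) * (2 * (∑ j, A i j * x j) ^ 2 + 2 * (R ^ 2 * cS A i)) := by
  have hr1 : 1 / r ^ 2 ≤ 1 / q ^ 2 := one_div_le_one_div_of_le (by positivity) hr
  have h1 : ∑ j, A i j * x j = A i 0 * x 0 + A i 1 * x 1 + A i 2 * x 2
      + ∑ j : Fin (m + 1), A i j.succ.succ.succ * x j.succ.succ.succ := sum4 _
  obtain ⟨p, hp⟩ : ∃ p : ℝ, p = ∑ j : Fin (m + 1), A i j.succ.succ.succ * x j.succ.succ.succ :=
    ⟨_, rfl⟩
  have hp2 : p ^ 2 ≤ R ^ 2 * cS A i := by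
    rw [hp]
    refine (cs_sum _ _ _).trans ?_
    have := cS_nonneg A i
    change cS A i * _ ≤ _
    rw [mul_comm]
    exact mul_le_mul_of_nonneg_right hXR this
  rw [← hp] at h1
  obtain ⟨y, hy⟩ : ∃ y : ℝ, y = ∑ j, A i j * x j := ⟨_, rfl⟩
  rw [← hy] at h1 ⊢
  have h2 : ∑ j : Fin 3, A i (io m j) * (x (io m j) / r) = (y - p) / r := by
    rw [sum_io (fun j => A i j * (x j / r)), h1]; ring
  rw [h2, div_pow, div_eq_mul_one_div, mul_comm]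
  refine mul_le_mul hr1 ?_ (sq_nonneg _) (by positivity)
  nlinarith [sq_nonneg (y + p)]

lemma mt_tr (A : Fin (m + 4) → Fin (m + 4) → ℝ) :
    (∑ i : Fin 3, A (io m i) (io m i)) ^ 2
      ≤ (4 / 3) * (∑ i, A i i) ^ 2 + 4 * ((m + 1) * ∑ k, cS A k) := by
  have h1 : ∑ i, A i i = A 0 0 + A 1 1 + A 2 2
      + ∑ j : Fin (m + 1), A j.succ.succ.succ j.succ.succ.succ := sum4 _
  obtain ⟨q, hq⟩ : ∃ q : ℝ, q = ∑ j : Fin (m + 1), A j.succ.succ.succ j.succ.succ.succ :=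
    ⟨_, rfl⟩
  have hq2 : q ^ 2 ≤ (m + 1) * ∑ k, cS A k := by
    have h3 := cs_sum Finset.univ (fun _ : Fin (m + 1) => (1:ℝ))
      (fun j => A j.succ.succ.succ j.succ.succ.succ)
    simp only [one_mul, one_pow, Finset.sum_const, Finset.card_univ, Fintype.card_fin,
      nsmul_eq_mul, mul_one] at h3
    rw [← hq] at h3
    have h4 : ∑ j : Fin (m + 1), A j.succ.succ.succ j.succ.succ.succ ^ 2
        ≤ ∑ j : Fin (m + 1), cS A j.succ.succ.succ := by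
      refine Finset.sum_le_sum fun j _ => ?_
      exact Finset.single_le_sum
        (f := fun l : Fin (m + 1) => A j.succ.succ.succ l.succ.succ.succ ^ 2)
        (fun _ _ => sq_nonneg _) (Finset.mem_univ j)
    have h5 : ∑ j : Fin (m + 1), cS A j.succ.succ.succ ≤ ∑ k, cS A k := by
      rw [sum4 (fun k => cS A k)]
      have := cS_nonneg A 0; have := cS_nonneg A 1; have := cS_nonneg A 2; linarith
    refine h3.trans ?_
    push_cast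
    exact mul_le_mul_of_nonneg_left (h4.trans h5) (by positivity)
  rw [← hq] at h1
  obtain ⟨y, hy⟩ : ∃ y : ℝ, y = ∑ i, A i i := ⟨_, rfl⟩
  rw [← hy] at h1 ⊢
  have h2 : ∑ i : Fin 3, A (io m i) (io m i) = y - q := by
    rw [sum_io (fun i => A i i), h1]; ring
  rw [h2]
  nlinarith [sq_nonneg (y / 3 + q)]

lemma mt_vw {ν x : Fin (m + 4) → ℝ} {ϱ r R : ℝ} (hϱ : 0 < ϱ) (hR : 0 < R) (hr0 : 0 < r)
    (hr : (ϱ * R) ^ 2 ≤ r ^ 2) (hXR : ∑ j : Fin (m + 1), x j.succ.succ.succ ^ 2 ≤ R ^ 2)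
    (hxν : (∑ i, x i * ν i) ^ 2 ≤ (ϱ * R / 4) ^ 2)
    (hν2 : ∑ j : Fin (m + 1), ν j.succ.succ.succ ^ 2 ≤ (ϱ / 4) ^ 2) :
    (∑ i : Fin 3, x (io m i) / r * ν (io m i)) ^ 2 ≤ 1 / 4 := by
  have h1 : ∑ i, x i * ν i = x 0 * ν 0 + x 1 * ν 1 + x 2 * ν 2
      + ∑ j : Fin (m + 1), x j.succ.succ.succ * ν j.succ.succ.succ := sum4 _
  obtain ⟨q, hq⟩ : ∃ q : ℝ, q = ∑ j : Fin (m + 1), x j.succ.succ.succ * ν j.succ.succ.succ :=
    ⟨_, rfl⟩
  have hq2 : q ^ 2 ≤ R ^ 2 * (ϱ / 4) ^ 2 := by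
    rw [hq]
    refine (cs_sum _ _ _).trans ?_
    exact mul_le_mul hXR hν2 (Finset.sum_nonneg fun _ _ => sq_nonneg _) (by positivity)
  rw [← hq] at h1
  obtain ⟨y, hy⟩ : ∃ y : ℝ, y = ∑ i, x i * ν i := ⟨_, rfl⟩
  rw [← hy] at h1 hxν
  have h2 : ∑ i : Fin 3, x (io m i) / r * ν (io m i) = (y - q) / r := by
    rw [sum_io (fun i => x i / r * ν i), h1]; ring
  rw [h2, div_pow, div_le_iff₀ (by positivity)]
  nlinarith [sq_nonneg (y + q)]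

/-- the matrix bound in dimension `m + 4`. -/
lemma matn_le (A : Fin (m + 4) → Fin (m + 4) → ℝ) (hA : ∀ i j, A i j = A j i)
    {ν x : Fin (m + 4) → ℝ} (hν : ∑ i, ν i ^ 2 = 1) (hAν : ∀ i, ∑ j, A i j * ν j = 0)
    {ϱ R : ℝ} (hϱ : 0 < ϱ) (hR : 0 < R) (hx : ∑ i, x i ^ 2 ≤ R ^ 2)
    (hx' : (ϱ * R) ^ 2 ≤ x 0 ^ 2 + x 1 ^ 2 + x 2 ^ 2)
    (hxν : (∑ i, x i * ν i) ^ 2 ≤ (ϱ * R / 4) ^ 2)
    (hν2 : ∑ j : Fin (m + 1), ν j.succ.succ.succ ^ 2 ≤ (ϱ / 4) ^ 2)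
    (hν3 : ∑ j : Fin (m + 1), ν j.succ.succ.succ ^ 2 ≤ 1 / 4) :
    ∑ i, ∑ j, A i j ^ 2 ≤ (52 + 12 * (m + 1) + 40 / ϱ ^ 2)
        * (∑ j : Fin (m + 1), ∑ k, A k j.succ.succ.succ ^ 2)
      + (40 / ϱ ^ 2) * ((∑ i, (∑ j, A i j * x j) ^ 2) / R ^ 2) + 4 * (∑ i, A i i) ^ 2 := by
  obtain ⟨r, hr⟩ : ∃ r : ℝ, r = √(x 0 ^ 2 + x 1 ^ 2 + x 2 ^ 2) := ⟨_, rfl⟩
  have hϱR : 0 < ϱ * R := by positivity
  have hr2 : r ^ 2 = x 0 ^ 2 + x 1 ^ 2 + x 2 ^ 2 := by rw [hr, Real.sq_sqrt (by positivity)]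
  have hr0 : 0 < r := by
    rw [hr]; exact Real.sqrt_pos.mpr (lt_of_lt_of_le (by positivity) hx')
  have hrr : (ϱ * R) ^ 2 ≤ r ^ 2 := by rw [hr2]; exact hx'
  have hXR : ∑ j : Fin (m + 1), x j.succ.succ.succ ^ 2 ≤ R ^ 2 := by
    rw [sum4] at hx
    nlinarith [sq_nonneg (x 0), sq_nonneg (x 1), sq_nonneg (x 2)]
  have hN0 : 0 ≤ ∑ j : Fin (m + 1), ν j.succ.succ.succ ^ 2 :=
    Finset.sum_nonneg fun _ _ => sq_nonneg _
  have hν' : ν 0 ^ 2 + ν 1 ^ 2 + ν 2 ^ 2 + ∑ j : Fin (m + 1), ν j.succ.succ.succ ^ 2 = 1 := by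
    rw [← hν, sum4]
  have tot := mt_tot A hA
  rw [sum_cS]
  obtain ⟨S2, hS2⟩ : ∃ S2 : ℝ, S2 = ∑ k, cS A k := ⟨_, rfl⟩
  have hio := io_cS_le A
  have key := blk3 (fun i j => A (io m i) (io m j)) (fun i j => hA _ _)
    (v := fun i => ν (io m i)) (w := fun i => x (io m i) / r)
    (by
      rw [sum_io (fun i => (x i / r) ^ 2)]
      rw [div_pow, div_pow, div_pow, ← add_div, ← add_div, ← hr2, div_self (by positivity)])
    (by rw [sum_io (fun i => ν i ^ 2)]; linarith)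
    (by rw [sum_io (fun i => ν i ^ 2)]; linarith)
    (mt_vw hϱ hR hr0 hrr hXR hxν hν2)
  have htr := mt_tr A
  have k1 : ∑ i : Fin 3, (∑ j : Fin 3, A (io m i) (io m j) * ν (io m j)) ^ 2 ≤ ∑ k, cS A k :=
    (Finset.sum_le_sum fun i _ => mt_v A hAν hν3 (io m i)).trans hio
  have k2 : ∑ i : Fin 3, (∑ j : Fin 3, A (io m i) (io m j) * (x (io m j) / r)) ^ 2
      ≤ (1 / (ϱ * R) ^ 2) * (2 * (∑ i, (∑ j, A i j * x j) ^ 2) + 2 * (R ^ 2 * ∑ k, cS A k)) := by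
    refine (Finset.sum_le_sum fun i _ => mt_w A hϱR hr0 hrr hXR (io m i)).trans ?_
    rw [← Finset.mul_sum]
    refine mul_le_mul_of_nonneg_left ?_ (by positivity)
    rw [Finset.sum_add_distrib, ← Finset.mul_sum, ← Finset.mul_sum, ← Finset.mul_sum]
    have a1 : ∑ i : Fin 3, (∑ j, A (io m i) j * x j) ^ 2 ≤ ∑ i, (∑ j, A i j * x j) ^ 2 := by
      rw [sum4 (fun i => (∑ j, A i j * x j) ^ 2), sum_io (fun i => (∑ j, A i j * x j) ^ 2)]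
      have : 0 ≤ ∑ i : Fin (m + 1), (∑ j, A i.succ.succ.succ j * x j) ^ 2 :=
        Finset.sum_nonneg fun _ _ => sq_nonneg _
      linarith
    have := mul_le_mul_of_nonneg_left hio (sq_nonneg R)
    linarith
  rw [← hS2] at tot htr k1 k2 hio ⊢
  obtain ⟨Y, hY⟩ : ∃ Y : ℝ, Y = ∑ i, (∑ j, A i j * x j) ^ 2 := ⟨_, rfl⟩
  rw [← hY] at k2 ⊢
  have e : (1 / (ϱ * R) ^ 2) * (2 * Y + 2 * (R ^ 2 * S2))
      = (2 / ϱ ^ 2) * (Y / R ^ 2) + (2 / ϱ ^ 2) * S2 := by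
    field_simp
  rw [e] at k2
  have e2 : (52 + 12 * ((m:ℝ) + 1) + 40 / ϱ ^ 2) * S2
      + (40 / ϱ ^ 2) * (Y / R ^ 2) + 4 * (∑ i, A i i) ^ 2
      = 50 * S2 + 20 * ((2 / ϱ ^ 2) * (Y / R ^ 2) + (2 / ϱ ^ 2) * S2)
        + 3 * ((4 / 3) * (∑ i, A i i) ^ 2 + 4 * (((m:ℝ) + 1) * S2)) + 2 * S2 := by ring
  rw [e2]
  linarith

/-- pointwise bound of `|∇ν|²`. -/
lemma dnn_le {u : (Fin (m + 4) → ℝ) → ℝ} {x : Fin (m + 4) → ℝ} (hu : Sol u) (h : 0 < gs u x)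
    {b : Fin (m + 1) → Fin (m + 4) → ℝ} {c : Fin (m + 1) → Fin (m + 1) → ℝ}
    (hc : ∀ j k, (Pi.single j.succ.succ.succ 1 : Fin (m + 4) → ℝ) k = ∑ i, c j i * b i k)
    {Kc : ℝ} (hKc : ∑ j, ∑ i, c j i ^ 2 ≤ Kc) {ϱ R : ℝ} (hϱ : 0 < ϱ) (hϱ1 : ϱ ≤ 1) (hR : 0 < R)
    (hx : ∑ i, x i ^ 2 ≤ R ^ 2) (hx' : (ϱ * R) ^ 2 ≤ x 0 ^ 2 + x 1 ^ 2 + x 2 ^ 2)
    (hvs : vs u x ^ 2 ≤ (ϱ * R / 4) ^ 2) (hτ : Kc * ∑ i, tau (b i) u x ^ 2 ≤ (ϱ / 4) ^ 2) :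
    dn u x ≤ ((52 + 12 * (m + 1) + 40 / ϱ ^ 2) * Kc) * (∑ i, gs (tau (b i) u) x)
      + (40 / ϱ ^ 2) * (gs (kap u) x / R ^ 2) + gs (defi u) x / wn u x ^ 4 := by
  have hν := sum_nu_sq h
  have hw := wn_pos h
  have hKc0 : 0 ≤ Kc := le_trans (Finset.sum_nonneg fun _ _ => Finset.sum_nonneg fun _ _ =>
    sq_nonneg _) hKc
  have hτb : ∀ a : Fin (m + 4) → ℝ, tau a u x = ∑ k, a k * nu u k x := by
    intro a
    unfold tau dd nu
    rw [Finset.sum_div]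
    refine Finset.sum_congr rfl fun i _ => ?_
    ring
  have hvse : ∑ i, x i * nu u i x = vs u x := by
    unfold vs rd nu
    rw [Finset.sum_div]
    refine Finset.sum_congr rfl fun i _ => ?_
    ring
  have hνj : ∀ j : Fin (m + 1), nu u j.succ.succ.succ x = ∑ i, c j i * tau (b i) u x := by
    intro j
    have e1 : nu u j.succ.succ.succ x
        = ∑ k, (Pi.single j.succ.succ.succ 1 : Fin (m + 4) → ℝ) k * nu u k x := by
      simp [Pi.single_apply]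
    rw [e1]
    simp_rw [hc, Finset.sum_mul]
    rw [Finset.sum_comm]
    refine Finset.sum_congr rfl fun i _ => ?_
    rw [hτb, Finset.mul_sum]
    exact Finset.sum_congr rfl fun k _ => by ring
  have hν2 : ∑ j : Fin (m + 1), nu u j.succ.succ.succ x ^ 2 ≤ (ϱ / 4) ^ 2 := by
    refine le_trans ?_ hτ
    have h1 : ∀ j, nu u j.succ.succ.succ x ^ 2
        ≤ (∑ i, c j i ^ 2) * ∑ i, tau (b i) u x ^ 2 := by
      intro j; rw [hνj]; exact cs_sum _ _ _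
    refine (Finset.sum_le_sum fun j _ => h1 j).trans ?_
    rw [← Finset.sum_mul]
    exact mul_le_mul_of_nonneg_right hKc (Finset.sum_nonneg fun _ _ => sq_nonneg _)
  have hsn : ∀ i, ∑ j, sff u i j x * nu u j x = 0 := fun i => Sol.sff_nu hu h i
  have hperp : ∀ v : Fin (m + 4) → ℝ, ∑ i, nu u i x * (∑ j, v j * sff u j i x) = 0 := by
    intro v
    simp_rw [Finset.mul_sum]
    rw [Finset.sum_comm]
    refine Finset.sum_eq_zero fun j _ => ?_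
    have : ∑ i, nu u i x * (v j * sff u j i x) = v j * ∑ i, sff u j i x * nu u i x := by
      rw [Finset.mul_sum]; refine Finset.sum_congr rfl fun i _ => ?_; ring
    rw [this, hsn, mul_zero]
  have hAb : ∀ i : Fin (m + 1), ∑ k, (∑ j, b i j * sff u j k x) ^ 2 ≤ gs (tau (b i) u) x := by
    intro i
    unfold gs
    exact tangn_le (ν := fun i => nu u i x) (c := ∑ k, b i k * nd u (nu u k) x) hν (hperp (b i))
      (fun k => Sol.pd_tau_eq hu h (b i) k)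
  have hAx : ∑ k, (∑ j, sff u k j x * x j) ^ 2 ≤ gs (kap u) x := by
    have e : ∀ k, ∑ j, sff u k j x * x j = ∑ j, x j * sff u j k x := fun k =>
      Finset.sum_congr rfl fun j _ => by rw [Sol.sff_symm hu h k j]; ring
    simp_rw [e]
    unfold gs
    refine tangn_le (ν := fun i => nu u i x)
      (c := 1 - (√2 * wn u x / psi u x) + ∑ i, x i * nd u (nu u i) x) hν (hperp x) ?_
    intro i
    rw [pd_kap' hu h i, Sol.pd_vs_eq hu h i]; ring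
  have hS2 : ∑ j : Fin (m + 1), ∑ k, sff u k j.succ.succ.succ x ^ 2
      ≤ Kc * ∑ i, gs (tau (b i) u) x := by
    have e1 : ∀ (j : Fin (m + 1)) (k : Fin (m + 4)), sff u k j.succ.succ.succ x
        = ∑ i, c j i * ∑ l, b i l * sff u l k x := by
      intro j k
      have e2 : sff u k j.succ.succ.succ x
          = ∑ l, (Pi.single j.succ.succ.succ 1 : Fin (m + 4) → ℝ) l * sff u l k x := by
        simp [Pi.single_apply, Sol.sff_symm hu h k]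
      rw [e2]
      simp_rw [hc, Finset.sum_mul]
      rw [Finset.sum_comm]
      refine Finset.sum_congr rfl fun i _ => ?_
      rw [Finset.mul_sum]
      exact Finset.sum_congr rfl fun l _ => by ring
    have h1 : ∀ (j : Fin (m + 1)), ∑ k, sff u k j.succ.succ.succ x ^ 2
        ≤ (∑ i, c j i ^ 2) * ∑ i, gs (tau (b i) u) x := by
      intro j
      have h2 : ∀ k, sff u k j.succ.succ.succ x ^ 2
          ≤ (∑ i, c j i ^ 2) * ∑ i, (∑ l, b i l * sff u l k x) ^ 2 := by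
        intro k; rw [e1]; exact cs_sum _ _ _
      refine (Finset.sum_le_sum fun k _ => h2 k).trans ?_
      rw [← Finset.mul_sum, Finset.sum_comm]
      refine mul_le_mul_of_nonneg_left (Finset.sum_le_sum fun i _ => hAb i)
        (Finset.sum_nonneg fun _ _ => sq_nonneg _)
    refine (Finset.sum_le_sum fun j _ => h1 j).trans ?_
    rw [← Finset.sum_mul]
    exact mul_le_mul_of_nonneg_right hKc (Finset.sum_nonneg fun _ _ => gs_nonneg _ _)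
  have key := matn_le (fun i j => sff u i j x) (fun i j => Sol.sff_symm hu h i j)
    (ν := fun i => nu u i x) (x := x) hν hsn hϱ hR hx hx' (by rw [hvse]; exact hvs) hν2
    (hν2.trans (by nlinarith))
  have htr : (∑ i, sff u i i x) ^ 2 = mc u x ^ 2 := by rw [Sol.mc_eq hu h]
  have hdn := Sol.dn_eq hu h
  have hgd := Sol.gs_defi_eq hu h
  have hgd' : gs (defi u) x / wn u x ^ 4 = 4 * (tl u x + mc u x ^ 2) := by
    rw [hgd]; field_simp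
  have htl := tl_nonneg u x
  have han : an u x = ∑ i, ∑ j, sff u i j x ^ 2 := rfl
  rw [hdn, hgd', han]
  rw [htr] at key
  have k1 : (52 + 12 * ((m:ℝ) + 1) + 40 / ϱ ^ 2)
      * (∑ j : Fin (m + 1), ∑ k, sff u k j.succ.succ.succ x ^ 2)
      ≤ (52 + 12 * ((m:ℝ) + 1) + 40 / ϱ ^ 2) * (Kc * ∑ i, gs (tau (b i) u) x) :=
    mul_le_mul_of_nonneg_left hS2 (by positivity)
  have k2 : (40 / ϱ ^ 2) * ((∑ i, (∑ j, sff u i j x * x j) ^ 2) / R ^ 2)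
      ≤ (40 / ϱ ^ 2) * (gs (kap u) x / R ^ 2) := by
    refine mul_le_mul_of_nonneg_left ?_ (by positivity)
    exact div_le_div_of_nonneg_right hAx (by positivity)
  calc _ ≤ (52 + 12 * ((m:ℝ) + 1) + 40 / ϱ ^ 2) * (Kc * ∑ i, gs (tau (b i) u) x)
        + (40 / ϱ ^ 2) * (gs (kap u) x / R ^ 2) + 4 * mc u x ^ 2 + tl u x := by linarith
    _ ≤ _ := by linarith

end Vale.Agent.P134.R2.H561
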