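import Vale.Agent.P134.H981.Cover
import Vale.Agent.P134.R2.H561.LinN

set_option linter.all false

namespace Vale.Agent.P134.R2.H561

open Vale.Agent.P134 Vale.Agent.P134.SM Vale.Agent.P134.H981 Filter Topology MeasureTheory

variable {m : ℕ}

/-- Mass of the thin cylinder. -/
lemma cyln_le {g : (Fin (m + 4) → ℝ) → ℝ} (hg : Continuous g) (hg0 : ∀ x, 0 ≤ g x) {C : ℝ}
    (hC : 0 ≤ C)
    (hE : ∀ (y : Fin (m + 4) → ℝ) (r : ℝ), 1 ≤ r →
      ∫ x in eb (m + 4) r, g (x + y) ≤ C * r ^ (m + 3))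
    {ϱ R : ℝ} (hϱ : 0 < ϱ) (hϱ1 : ϱ ≤ 1) (hR0 : 0 < R) (hR : 1 ≤ ϱ * R) :
    ∫ x in eb (m + 4) R ∩ {x | x 0 ^ 2 + x 1 ^ 2 + x 2 ^ 2 < (ϱ * R) ^ 2}, g x
      ≤ (3 ^ (m + 1) * ((m + 2 : ℝ) ^ (m + 3)) * C) * ϱ ^ 2 * R ^ (m + 3) := by
  obtain ⟨T, hTd⟩ : ∃ T : Set (Fin (m + 4) → ℝ),
    T = eb (m + 4) R ∩ {x | x 0 ^ 2 + x 1 ^ 2 + x 2 ^ 2 < (ϱ * R) ^ 2} := ⟨_, rfl⟩
  rw [← hTd]
  have hT : MeasurableSet T := by
    rw [hTd]
    refine (meas_eb R).inter (measurableSet_lt ?_ measurable_const)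
    exact (by fun_prop :
      Continuous fun x : Fin (m + 4) → ℝ => x 0 ^ 2 + x 1 ^ 2 + x 2 ^ 2).measurable
  obtain ⟨M, hM⟩ : ∃ M : ℕ, M = ⌊2 / ϱ⌋₊ := ⟨_, rfl⟩
  have hϱR : 0 < ϱ * R := by positivity
  let y : (Fin (m + 1) → Fin (M + 1)) → (Fin (m + 4) → ℝ) := fun j =>
    Fin.cons 0 (Fin.cons 0 (Fin.cons 0 (fun i => -R + ((j i : ℕ) : ℝ) * (ϱ * R))))
  have y0 : ∀ j, y j 0 = 0 := fun j => rfl
  have y1 : ∀ j, y j 1 = 0 := fun j => rfl
  have y2 : ∀ j, y j 2 = 0 := fun j => rfl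
  have ys : ∀ j (i : Fin (m + 1)), y j i.succ.succ.succ = -R + ((j i : ℕ) : ℝ) * (ϱ * R) :=
    fun j i => rfl
  obtain ⟨r, hr⟩ : ∃ r : ℝ, r = (m + 2) * (ϱ * R) := ⟨_, rfl⟩
  have hr1 : 1 ≤ r := by
    rw [hr]
    have : (0:ℝ) ≤ m := Nat.cast_nonneg m
    nlinarith
  let S : (Fin (m + 1) → Fin (M + 1)) → Set (Fin (m + 4) → ℝ) :=
    fun j => {x | x - y j ∈ eb (m + 4) r}
  have hS : ∀ j, MeasurableSet (S j) := fun j => (measurable_id.sub_const (y j)) (meas_eb _)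
  have hgi : IntegrableOn g T := by
    rw [hTd]; exact (int_on_eb hg R).mono_set Set.inter_subset_left
  have hcov : ∀ x ∈ T, ∃ j ∈ (Finset.univ : Finset (Fin (m + 1) → Fin (M + 1))), x ∈ S j := by
    intro x hx
    rw [hTd] at hx
    have h1 : rho Finset.univ x ≤ R ^ 2 := hx.1
    have h2 : x 0 ^ 2 + x 1 ^ 2 + x 2 ^ 2 < (ϱ * R) ^ 2 := hx.2
    have hz : ∀ i : Fin (m + 1), ∃ k : Fin (M + 1),
        (x i.succ.succ.succ - (-R + ((k : ℕ) : ℝ) * (ϱ * R))) ^ 2 ≤ (ϱ * R) ^ 2 := by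
      intro i
      have h3 : x i.succ.succ.succ ^ 2 ≤ R ^ 2 := (sq_le_rho (Finset.mem_univ _) x).trans h1
      have h4 := abs_le.mp (abs_le_of_sq_le_sq h3 hR0.le)
      obtain ⟨z, hz⟩ : ∃ z : ℝ, z = (x i.succ.succ.succ + R) / (ϱ * R) := ⟨_, rfl⟩
      have hz0 : 0 ≤ z := by rw [hz]; exact div_nonneg (by linarith [h4.1]) hϱR.le
      have hz1 : z ≤ 2 / ϱ := by
        rw [hz, div_le_div_iff₀ hϱR hϱ]
        nlinarith [h4.2]
      refine ⟨⟨⌊z⌋₊, ?_⟩, ?_⟩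
      · rw [Nat.lt_succ_iff, hM]
        exact Nat.floor_le_floor hz1
      · have h5 := Nat.floor_le hz0
        have h6 := Nat.lt_floor_add_one z
        have h7 : x i.succ.succ.succ = -R + z * (ϱ * R) := by rw [hz]; field_simp; ring
        have h8 : x i.succ.succ.succ - (-R + ⌊z⌋₊ * (ϱ * R)) = (z - ⌊z⌋₊) * (ϱ * R) := by
          rw [h7]; ring
        change (x i.succ.succ.succ - (-R + ⌊z⌋₊ * (ϱ * R))) ^ 2 ≤ _
        rw [h8]
        have h9 : (z - ⌊z⌋₊) ^ 2 ≤ 1 := by nlinarith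
        rw [mul_pow]
        calc (z - ⌊z⌋₊) ^ 2 * (ϱ * R) ^ 2 ≤ 1 * (ϱ * R) ^ 2 := by gcongr
          _ = _ := one_mul _
    choose k hk using hz
    refine ⟨k, Finset.mem_univ _, ?_⟩
    change rho Finset.univ (x - y k) ≤ r ^ 2
    unfold rho
    rw [sum4]
    simp only [Pi.sub_apply, y0, y1, y2, ys, sub_zero]
    have h3 : ∑ i : Fin (m + 1), (x i.succ.succ.succ - (-R + ((k i : ℕ) : ℝ) * (ϱ * R))) ^ 2
        ≤ (m + 1) * (ϱ * R) ^ 2 := by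
      refine (Finset.sum_le_sum fun i _ => hk i).trans (le_of_eq ?_)
      rw [Finset.sum_const, Finset.card_univ, Fintype.card_fin, nsmul_eq_mul]
      push_cast; ring
    rw [hr, mul_pow]
    have h4 : (m + 1 + 1 : ℝ) * (ϱ * R) ^ 2 ≤ (m + 2 : ℝ) ^ 2 * (ϱ * R) ^ 2 := by
      refine mul_le_mul_of_nonneg_right ?_ (by positivity)
      have : (0:ℝ) ≤ m := Nat.cast_nonneg m
      nlinarith
    linarith
  have key := cover_le hT hgi hg0 Finset.univ S (fun j _ => hS j) hcov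
  refine key.trans ?_
  have hb : ∀ j ∈ (Finset.univ : Finset (Fin (m + 1) → Fin (M + 1))),
      ∫ x in T ∩ S j, g x ≤ C * r ^ (m + 3) := by
    intro j _
    have hSi : IntegrableOn g (S j) := by
      refine hg.continuousOn.integrableOn_compact ?_
      have : S j = (fun x => x - y j) ⁻¹' (eb (m + 4) r) := rfl
      rw [this]
      exact (Homeomorph.subRight (y j)).isClosedEmbedding.isCompact_preimage (isCompact_eb _)
    calc ∫ x in T ∩ S j, g x ≤ ∫ x in S j, g x :=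
          setIntegral_mono_set hSi (Eventually.of_forall fun x => hg0 x)
            (Eventually.of_forall fun x hx => hx.2)
      _ = ∫ x in eb (m + 4) r, g (x + y j) := int_shift g (y j) _
      _ ≤ C * r ^ (m + 3) := hE _ _ hr1
  refine (Finset.sum_le_sum hb).trans ?_
  rw [Finset.sum_const, Finset.card_univ, Fintype.card_fun, Fintype.card_fin, Fintype.card_fin,
    nsmul_eq_mul]
  have hM1 : ((M + 1 : ℕ) : ℝ) ≤ 3 / ϱ := by
    push_cast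
    rw [hM]
    have := Nat.floor_le (show 0 ≤ 2 / ϱ by positivity)
    have h2 : 1 ≤ 1 / ϱ := by rw [le_div_iff₀ hϱ]; linarith
    have h3 : 3 / ϱ = 2 / ϱ + 1 / ϱ := by ring
    rw [h3]; exact add_le_add this h2
  have hr0 : 0 ≤ r := by linarith
  push_cast at hM1 ⊢
  calc ((M:ℝ) + 1) ^ (m + 1) * (C * r ^ (m + 3)) ≤ (3 / ϱ) ^ (m + 1) * (C * r ^ (m + 3)) := by
        gcongr
    _ = _ := by
        rw [hr, mul_pow, mul_pow, div_pow, show ϱ ^ (m + 3) = ϱ ^ (m + 1) * ϱ ^ 2 by ring]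
        field_simp

end Vale.Agent.P134.R2.H561
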