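import Vale.Agent.P134.H239.M4Out
import Vale.Agent.P134.R2.H561.Defs

set_option linter.all false

open MeasureTheory Filter Topology

namespace Vale.Agent.P134.R2.H561

open Vale.Agent.P134 Vale.Agent.P134.SM Vale.Agent.P134.H239
open Vale.Agent.P134.M4 (bl)

variable {m n : ℕ} {u : (Fin n → ℝ) → ℝ} {C c : ℝ}

section
variable (H : Std u)
include H

lemma s_boundn (hc : 0 ≤ c)
    (hcut : ∀ R : ℝ, 0 < R → Cutoff C R (chiR (n := n) R))
    (hE : ∀ R : ℝ, 1 ≤ R → ∫ x in box n R, psi u x ^ 2 ≤ c * R ^ (m + 3)) (R : ℝ) (hR : 1 ≤ R) :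
    ∫ x in box n R, psi u x ^ 3 * qq u x ≤ (48 * n * C ^ 2 * c * 2 ^ m) * R ^ (m + 1) := by
  have hR0 : 0 < R := by linarith
  have h1 := H.box_stab (hcut R hR0)
  have h2 := hE (2 * R) (by linarith)
  calc _ ≤ n * (C / R) ^ 2 * ∫ x in box n (2 * R), psi u x ^ 2 := h1
    _ ≤ n * (C / R) ^ 2 * (c * (2 * R) ^ (m + 3)) := mul_le_mul_of_nonneg_left h2 (by positivity)
    _ = (8 * n * C ^ 2 * c * 2 ^ m) * R ^ (m + 1) := by
        rw [mul_pow]; field_simp; ring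
    _ ≤ _ := by
        have : 0 ≤ n * C ^ 2 * c * 2 ^ m * R ^ (m + 1) := by positivity
        nlinarith

lemma h_boundn (hcut : ∀ R : ℝ, 0 < R → Cutoff C R (chiR (n := n) R))
    (hE : ∀ R : ℝ, 1 ≤ R → ∫ x in box n R, psi u x ^ 2 ≤ c * R ^ (m + 3)) (R : ℝ) (hR : 1 ≤ R) :
    ∫ x in box n R, psi u x ^ 2 * hh u x ≤ (48 * n * C ^ 2 * c * 2 ^ m) * R ^ (m + 1) := by
  have hR0 : 0 < R := by linarith
  have h1 := H.box_hess (hcut R hR0)
  have h2 := hE (2 * R) (by linarith)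
  calc _ ≤ 6 * (n * (C / R) ^ 2 * ∫ x in box n (2 * R), psi u x ^ 2) := h1
    _ ≤ 6 * (n * (C / R) ^ 2 * (c * (2 * R) ^ (m + 3))) := by gcongr
    _ = _ := by rw [mul_pow]; field_simp; ring

lemma g_cruden {K1 : ℝ} (hc : 0 ≤ c)
    (hE : ∀ R : ℝ, 1 ≤ R → ∫ x in box n R, psi u x ^ 2 ≤ c * R ^ (m + 3))
    (hH : ∀ R : ℝ, 1 ≤ R → ∫ x in box n R, psi u x ^ 2 * hh u x ≤ K1 * R ^ (m + 1))
    (R : ℝ) (hR : 1 ≤ R) :
    ∫ x in box n R, psi u x ^ 2 * gq u x ≤ (2 * n * K1 + c) * R ^ (m + 2) := by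
  have hR0 : 0 < R := by linarith
  have h1 := H.box_gq hR0 R
  have h2 := hH R hR
  have h3 := hE R hR
  calc _ ≤ 2 * n * R * (∫ x in box n R, psi u x ^ 2 * hh u x)
      + 1 / (2 * R) * ∫ x in box n R, psi u x ^ 2 := h1
    _ ≤ 2 * n * R * (K1 * R ^ (m + 1)) + 1 / (2 * R) * (c * R ^ (m + 3)) := by gcongr
    _ = (2 * n * K1 + c / 2) * R ^ (m + 2) := by field_simp; ring
    _ ≤ _ := by
        have : 0 ≤ c * R ^ (m + 2) := by positivity
        nlinarith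

lemma a_cruden (hE : ∀ R : ℝ, 1 ≤ R → ∫ x in box n R, psi u x ^ 2 ≤ c * R ^ (m + 3)) (R : ℝ)
    (hR : 1 ≤ R) : ∫ x in box n R, psi u x ^ 2 * qq u x ≤ c * R ^ (m + 3) := by
  refine le_trans ?_ (hE R hR)
  have cψ := H.psic
  have cq := H.qqc
  exact box_int_le (by fun_prop) (by fun_prop) fun x _ => by
    have := qq_le_one (u := u) (x := x)
    nlinarith [sq_nonneg (psi u x)]

lemma rec_boundn {K1 K2 : ℝ} (hC : 0 ≤ C) (hK1 : 0 ≤ K1) (hK2 : 0 ≤ K2)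
    (hcut : ∀ R : ℝ, 0 < R → Cutoff C R (chiR (n := n) R))
    (hS : ∀ R : ℝ, 1 ≤ R → ∫ x in box n R, psi u x ^ 3 * qq u x ≤ K1 * R ^ (m + 1))
    (hH : ∀ R : ℝ, 1 ≤ R → ∫ x in box n R, psi u x ^ 2 * hh u x ≤ K1 * R ^ (m + 1))
    (hX : ∀ R : ℝ, 1 ≤ R → ∫ x in box n R, psi u x ^ 2 * gq u x ≤ K2 * R ^ (m + 2))
    (R : ℝ) (hR : 1 ≤ R) :
    (∫ x in box n R, psi u x ^ 2 * qq u x) / R ^ m
      ≤ (2 ^ m * (4 ^ n + 5 * K1 + (n + 1) * (2 * K1 + 5 * n * C + 4 * C * K2)))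
        * (1 + Real.log R)
        * (R + ((∫ x in box n (2 * R), psi u x ^ 2 * qq u x) / (2 * R) ^ m) / R) := by
  have hR0 : 0 < R := by linarith
  have hl := Real.log_nonneg hR
  have h1 := H.main_ineq (hcut R hR0) hC hR (l := (R ^ n)⁻¹) (by positivity) (log_inv_pow n hR)
  have h2 := hS (2 * R) (by linarith)
  have h3 := hH (2 * R) (by linarith)
  have h4 := hX (2 * R) (by linarith)
  have ha20 : 0 ≤ ∫ x in box n (2 * R), psi u x ^ 2 * qq u x :=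
    box_int_nonneg fun x => mul_nonneg (sq_nonneg _) (H.q0 x)
  have e1 : 2 * (4 * R) ^ n * (R ^ n)⁻¹ = 2 * 4 ^ n := by
    rw [mul_pow]; field_simp
  rw [e1] at h1
  have hT : (0:ℝ) < (2 * R) ^ m := by positivity
  have hT1 : (1:ℝ) ≤ (2 * R) ^ m := one_le_pow₀ (by linarith)
  set a := ∫ x in box n R, psi u x ^ 2 * qq u x with ha
  set a2 := ∫ x in box n (2 * R), psi u x ^ 2 * qq u x with ha2
  set S := ∫ x in box n (2 * R), psi u x ^ 3 * qq u x with hSd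
  set X := ∫ x in box n (2 * R), psi u x ^ 2 * gq u x with hXd
  set Hh := ∫ x in box n (2 * R), psi u x ^ 2 * hh u x with hHd
  have key := rec_arith (N := n) (C := C) (K1 := K1) (K2 := K2) (ℓ := 1 + Real.log R) (R := R)
    (a := a / (2 * R) ^ m) (a2 := a2 / (2 * R) ^ m) (S := S / (2 * R) ^ m)
    (H := Hh / (2 * R) ^ m) (X := X / (2 * R) ^ m) (P := 4 ^ n) (Nat.cast_nonneg n) hC hK1 hK2
    (by linarith) hR (by positivity) (by positivity)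
    (by
      have h5 : 2 * a / (2 * R) ^ m ≤ (2 * 4 ^ n + 5 * S
        + ((n:ℝ) + 1) * (1 + Real.log R) * (2 * Hh + 5 * n * C / R * a2 + 2 * C / R * X))
          / (2 * R) ^ m := div_le_div_of_nonneg_right h1 hT.le
      have h6 : (2 * 4 ^ n + 5 * S
        + ((n:ℝ) + 1) * (1 + Real.log R) * (2 * Hh + 5 * n * C / R * a2 + 2 * C / R * X))
          / (2 * R) ^ m = (2 * 4 ^ n) / (2 * R) ^ m + 5 * (S / (2 * R) ^ m)
            + ((n:ℝ) + 1) * (1 + Real.log R) * (2 * (Hh / (2 * R) ^ m)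
              + 5 * n * C / R * (a2 / (2 * R) ^ m) + 2 * C / R * (X / (2 * R) ^ m)) := by
        field_simp
      have h7 : (2 * (4:ℝ) ^ n) / (2 * R) ^ m ≤ 2 * 4 ^ n := div_le_self (by positivity) hT1
      have h8 : 2 * (a / (2 * R) ^ m) = 2 * a / (2 * R) ^ m := by ring
      rw [h8]
      linarith)
    (by rw [div_le_iff₀ hT]; refine h2.trans (le_of_eq ?_); ring)
    (by rw [div_le_iff₀ hT]; refine h3.trans (le_of_eq ?_); ring)
    (by rw [div_le_iff₀ hT]; refine h4.trans (le_of_eq ?_); ring)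
  have e2 : a / R ^ m = 2 ^ m * (a / (2 * R) ^ m) := by
    rw [mul_pow]; field_simp
  rw [e2]
  have h9 := mul_le_mul_of_nonneg_left key (show (0:ℝ) ≤ 2 ^ m by positivity)
  refine h9.trans (le_of_eq ?_)
  ring

lemma g_boundn {K1 K2 K5 : ℝ} (hC : 0 ≤ C) (hK1 : 0 ≤ K1) (hK2 : 0 ≤ K2) (hK5 : 0 ≤ K5)
    (hc : 0 ≤ c)
    (hcut : ∀ R : ℝ, 0 < R → Cutoff C R (chiR (n := n) R))
    (hE : ∀ R : ℝ, 1 ≤ R → ∫ x in box n R, psi u x ^ 2 ≤ c * R ^ (m + 3))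
    (hS : ∀ R : ℝ, 1 ≤ R → ∫ x in box n R, psi u x ^ 3 * qq u x ≤ K1 * R ^ (m + 1))
    (hX : ∀ R : ℝ, 1 ≤ R → ∫ x in box n R, psi u x ^ 2 * gq u x ≤ K2 * R ^ (m + 2))
    (hA : ∀ R : ℝ, 1 ≤ R →
      ∫ x in box n R, psi u x ^ 2 * qq u x ≤ K5 * (1 + Real.log R) ^ 2 * R ^ (m + 1))
    (R : ℝ) (hR : 1 ≤ R) :
    ∫ x in box n R, psi u x ^ 2 * gq u x
      ≤ (2 ^ m * (2 * (4 * K1 + 4 * C * K2) + n * (K5 + c))) * (1 + Real.log R) ^ 2
        * R ^ (m + 1) := by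
  have hR0 : 0 < R := by linarith
  have hl := Real.log_nonneg hR
  have h0 : (0:ℝ) < (R ^ 2)⁻¹ := by positivity
  have h1 := H.grad_ineq (hcut R hR0) h0 (log_inv_pow 2 hR)
  have h2 := H.box_gq' h0 R
  have h3 := hS (2 * R) (by linarith)
  have h4 := hX (2 * R) (by linarith)
  have h5 := hA R hR
  have h6 := hE R hR
  have e1 : (((2:ℕ):ℝ) + 1) = 3 := by norm_num
  rw [e1] at h1
  have hT : (0:ℝ) < (2 * R) ^ m := by positivity
  have hRT : R ^ m ≤ (2 * R) ^ m := pow_le_pow_left₀ hR0.le (by linarith) m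
  set X0 := ∫ x in box n R, psi u x ^ 2 * gq u x with hX0
  set V := ∫ x in box n R, psi u x ^ 2 * ((∑ j, pd j (qq u) x ^ 2) / (qq u x + (R ^ 2)⁻¹)) with hV
  set S := ∫ x in box n (2 * R), psi u x ^ 3 * qq u x with hSd
  set X := ∫ x in box n (2 * R), psi u x ^ 2 * gq u x with hXd
  set a := ∫ x in box n R, psi u x ^ 2 * qq u x with ha
  set E := ∫ x in box n R, psi u x ^ 2 with hEd
  have key := grad_arith (N := n) (C := C) (K1 := K1) (K2 := K2) (K5 := K5) (c := c)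
    (ℓ := 1 + Real.log R) (R := R) (a := a / (2 * R) ^ m) (V := V / (2 * R) ^ m)
    (S := S / (2 * R) ^ m) (X := X / (2 * R) ^ m) (X0 := X0 / (2 * R) ^ m)
    (E := E / (2 * R) ^ m) (Nat.cast_nonneg n) hC hK1 hK2 hK5 hc (by linarith) hR
    (by
      have := div_le_div_of_nonneg_right h1 hT.le
      refine this.trans (le_of_eq ?_)
      field_simp)
    (by
      have := div_le_div_of_nonneg_right h2 hT.le
      refine this.trans (le_of_eq ?_)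
      field_simp)
    (by rw [div_le_iff₀ hT]; refine h3.trans (le_of_eq ?_); ring)
    (by rw [div_le_iff₀ hT]; refine h4.trans (le_of_eq ?_); ring)
    (by
      rw [div_le_iff₀ hT]
      refine h5.trans ?_
      calc K5 * (1 + Real.log R) ^ 2 * R ^ (m + 1) = K5 * (1 + Real.log R) ^ 2 * R * R ^ m := by ring
        _ ≤ K5 * (1 + Real.log R) ^ 2 * R * (2 * R) ^ m := by gcongr)
    (by
      rw [div_le_iff₀ hT]
      refine h6.trans ?_
      calc c * R ^ (m + 3) = c * R ^ 3 * R ^ m := by ring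
        _ ≤ c * R ^ 3 * (2 * R) ^ m := by gcongr)
  rw [div_le_iff₀ hT] at key
  refine key.trans (le_of_eq ?_)
  rw [mul_pow]; ring

end

lemma iterate_arithn {a : ℝ → ℝ} {K c : ℝ} (hK : 0 ≤ K) (hc : 0 ≤ c)
    (hrec : ∀ R : ℝ, 1 ≤ R → a R / R ^ m ≤ K * (1 + Real.log R) *
      (R + (a (2 * R) / (2 * R) ^ m) / R))
    (hE : ∀ R : ℝ, 1 ≤ R → a R ≤ c * R ^ (m + 3)) (R : ℝ) (hR : 1 ≤ R) :
    a R ≤ (K * (1 + 8 * (K * (1 + 8 * c)))) * (1 + Real.log R) ^ 2 * R ^ (m + 1) := by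
  have hR0 : 0 < R := by linarith
  have key := iterate_arith (a := fun R => a R / R ^ m) (K := K) (c := c) hK hc
    hrec (fun R hR => by
      have : 0 < R := by linarith
      rw [div_le_iff₀ (by positivity)]
      refine (hE R hR).trans (le_of_eq ?_)
      ring) R hR
  rw [div_le_iff₀ (by positivity)] at key
  refine key.trans (le_of_eq ?_)
  ring

lemma psi_boundn (H : Std u) (hC : 0 ≤ C) (hn : n = m + 4)
    (hcut : ∀ R : ℝ, 0 < R → Cutoff C R (chiR (n := n) R))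
    (hE : ∀ R : ℝ, 1 ≤ R → ∫ x in box n R, psi u x ^ 2 ≤ c * R ^ (m + 3)) (R : ℝ) (hR : 1 ≤ R) :
    ∫ x in box n R, psi u x ≤ (12 * 2 ^ m * c + n * C * 4 ^ n) * R ^ (m + 3) := by
  have hR0 : 0 < R := by linarith
  have cψ := H.psic
  have h1 := H.psi_ineq (hcut R hR0)
  have h2 := hE (2 * R) (by linarith)
  have h3 : ∫ x in box n (2 * R), psi u x ≤ ∫ _x in box n (2 * R), (1:ℝ) :=
    box_int_le (by fun_prop) (by fun_prop) fun x _ => psi_le_one u x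
  rw [box_int_const (by linarith)] at h3
  have h4 : (2 * (2 * R)) ^ n * 1 = 4 ^ n * R ^ (m + 4) := by
    rw [mul_one, show 2 * (2 * R) = 4 * R by ring, mul_pow, hn]
  have h5 : n * (C / R ^ 2) * (∫ x in box n (2 * R), psi u x)
      ≤ n * (C / R ^ 2) * (4 ^ n * R ^ (m + 4)) :=
    mul_le_mul_of_nonneg_left (h3.trans h4.le) (by positivity)
  have h6 : n * (C / R ^ 2) * (4 ^ n * R ^ (m + 4)) = n * C * 4 ^ n * R ^ (m + 2) := by
    field_simp; ring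
  have h7 : n * C * 4 ^ n * R ^ (m + 2) ≤ n * C * 4 ^ n * R ^ (m + 3) :=
    mul_le_mul_of_nonneg_left (pow_le_pow_right₀ hR (by omega)) (by positivity)
  have h8 : 0 ≤ n * C * 4 ^ n * R ^ (m + 3) := by positivity
  have h9 : 3 * (c * (2 * R) ^ (m + 3)) = 24 * 2 ^ m * c * R ^ (m + 3) := by
    rw [mul_pow]; ring
  nlinarith

/-- Box form of the D-estimates, with uniform constants. -/
theorem dboxn (m : ℕ) {u : (Fin (m + 4) → ℝ) → ℝ} (hst : DStab u) (hlt : ∀ x, |u x| < 1) {C0 : ℝ}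
    (hE' : ∀ R : ℝ, 1 ≤ R → ∫ x in box (m + 4) R, psi u x ^ 2 ≤ C0 * R ^ (m + 3)) :
    ∃ K : ℝ, 1 ≤ K ∧ (∀ R : ℝ, 1 ≤ R → ∫ x in box (m + 4) R, psi u x ≤ K * R ^ (m + 3)) ∧
      (∀ R : ℝ, 1 ≤ R → ∫ x in box (m + 4) R, defi u x
        ≤ K * (1 + Real.log R) ^ 2 * R ^ (m + 1)) ∧
      (∀ R : ℝ, 1 ≤ R → ∫ x in box (m + 4) R, ∑ j, |pd j (defi u) x|
        ≤ K * (1 + Real.log R) ^ 2 * R ^ (m + 1)) := by
  have H : Std u := ⟨hst, hlt⟩
  obtain ⟨C, hC1, hcut⟩ := exists_cutoff (m + 4)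
  obtain ⟨c, hc⟩ : ∃ c : ℝ, c = max C0 1 := ⟨_, rfl⟩
  have hc1 : 1 ≤ c := hc ▸ le_max_right _ _
  have hc0 : 0 ≤ c := by linarith
  have hC0 : 0 ≤ C := by linarith
  have hE : ∀ R : ℝ, 1 ≤ R → ∫ x in box (m + 4) R, psi u x ^ 2 ≤ c * R ^ (m + 3) := fun R hR =>
    (hE' R hR).trans (mul_le_mul_of_nonneg_right (hc ▸ le_max_left _ _) (by positivity))
  obtain ⟨K1, hK1⟩ : ∃ K1 : ℝ, K1 = 48 * ((m + 4 : ℕ) : ℝ) * C ^ 2 * c * 2 ^ m := ⟨_, rfl⟩
  have hK10 : 0 ≤ K1 := by rw [hK1]; positivity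
  have hS := s_boundn (m := m) H hc0 hcut hE
  have hH := h_boundn (m := m) H hcut hE
  rw [← hK1] at hS hH
  obtain ⟨K2, hK2⟩ : ∃ K2 : ℝ, K2 = 2 * ((m + 4 : ℕ) : ℝ) * K1 + c := ⟨_, rfl⟩
  have hK20 : 0 ≤ K2 := by rw [hK2]; positivity
  have hX := g_cruden (m := m) H hc0 hE hH
  rw [← hK2] at hX
  have hrec := rec_boundn (m := m) H hC0 hK10 hK20 hcut hS hH hX
  obtain ⟨K3, hK3⟩ : ∃ K3 : ℝ, K3 = 2 ^ m * (4 ^ (m + 4) + 5 * K1
    + (((m + 4 : ℕ) : ℝ) + 1) * (2 * K1 + 5 * ((m + 4 : ℕ) : ℝ) * C + 4 * C * K2)) := ⟨_, rfl⟩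
  have hK30 : 0 ≤ K3 := by rw [hK3]; positivity
  rw [← hK3] at hrec
  have hA := iterate_arithn (m := m) (a := fun R => ∫ x in box (m + 4) R, psi u x ^ 2 * qq u x)
    hK30 hc0 hrec (a_cruden (m := m) H hE)
  obtain ⟨K5, hK5⟩ : ∃ K5 : ℝ, K5 = K3 * (1 + 8 * (K3 * (1 + 8 * c))) := ⟨_, rfl⟩
  have hK50 : 0 ≤ K5 := by rw [hK5]; positivity
  rw [← hK5] at hA
  have hG := g_boundn (m := m) H hC0 hK10 hK20 hK50 hc0 hcut hE hS hX hA
  obtain ⟨K6, hK6⟩ : ∃ K6 : ℝ, K6 = 2 ^ m * (2 * (4 * K1 + 4 * C * K2)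
    + ((m + 4 : ℕ) : ℝ) * (K5 + c)) := ⟨_, rfl⟩
  have hK60 : 0 ≤ K6 := by rw [hK6]; positivity
  rw [← hK6] at hG
  have hP := psi_boundn (m := m) H hC0 rfl hcut hE
  obtain ⟨K7, hK7⟩ : ∃ K7 : ℝ, K7 = 12 * 2 ^ m * c + ((m + 4 : ℕ) : ℝ) * C * 4 ^ (m + 4) :=
    ⟨_, rfl⟩
  have hK70 : 0 ≤ K7 := by rw [hK7]; positivity
  rw [← hK7] at hP
  refine ⟨1 + K5 + (2 * ((m + 4 : ℕ) : ℝ) * K5 + K6) + K7, ?_, ?_, ?_, ?_⟩
  · have : 0 ≤ 2 * ((m + 4 : ℕ) : ℝ) * K5 := by positivity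
    linarith
  · intro R hR
    refine (hP R hR).trans (mul_le_mul_of_nonneg_right ?_ (by positivity))
    have : 0 ≤ 2 * ((m + 4 : ℕ) : ℝ) * K5 := by positivity
    linarith
  · intro R hR
    have hl := Real.log_nonneg hR
    refine ((H.D_le_a R).trans (hA R hR)).trans ?_
    have : 0 ≤ 2 * ((m + 4 : ℕ) : ℝ) * K5 := by positivity
    have h0 : 0 ≤ (1 + Real.log R) ^ 2 * R ^ (m + 1) := by positivity
    rw [mul_assoc, mul_assoc]
    exact mul_le_mul_of_nonneg_right (by linarith) h0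
  · intro R hR
    have hl := Real.log_nonneg hR
    refine (H.gD_le R).trans ?_
    have h1 := hA R hR
    have h2 := hG R hR
    have h3 : 2 * ((m + 4 : ℕ) : ℝ) * (∫ x in box (m + 4) R, psi u x ^ 2 * qq u x)
        ≤ 2 * ((m + 4 : ℕ) : ℝ) * (K5 * (1 + Real.log R) ^ 2 * R ^ (m + 1)) := by gcongr
    have h0 : 0 ≤ (1 + Real.log R) ^ 2 * R ^ (m + 1) := by positivity
    have h4 : 0 ≤ (1 + K5 + K7) * ((1 + Real.log R) ^ 2 * R ^ (m + 1)) := by positivity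
    nlinarith

/-- the outputs used by K1. -/
theorem d_estimatesn {u : (Fin (m + 4) → ℝ) → ℝ} (hu : Sol u) (hlt : ∀ x, |u x| < 1) (hE : E3 u)
    (hST : ST u) :
    (∃ C : ℝ, ∀ R : ℝ, 1 ≤ R → ∫ x in bl R, psi u x ≤ C * R ^ (m + 3)) ∧
    (∃ C : ℝ, ∀ R : ℝ, 1 ≤ R → ∫ x in bl R, defi u x ≤ C * R ^ (m + 2)) ∧
    (∃ C : ℝ, ∀ R : ℝ, 1 ≤ R → ∫ x in bl R, √(gs (defi u) x) ≤ C * R ^ (m + 2)) ∧
    (∀ ε : ℝ, 0 < ε → ∀ᶠ R : ℝ in atTop, ∫ x in bl R, √(gs (defi u) x) ≤ ε * R ^ (m + 2)) := by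
  have hst : DStab u := ⟨hu, fun η hη hc => hST.2 η hη hc⟩
  have H : Std u := ⟨hst, hlt⟩
  have cψ := H.psic
  obtain ⟨C0, hC0⟩ := hE
  have hsub : ∀ R : ℝ, 0 ≤ R → (box (m + 4) R : Set (Fin (m + 4) → ℝ)) ⊆ bl ((m + 4 : ℕ) * R) := by
    intro R hR x hx
    rw [mem_box] at hx
    simp only [bl, Set.mem_ofPred_eq, rho]
    have h1 : ∀ i ∈ (Finset.univ : Finset (Fin (m + 4))), x i ^ 2 ≤ R ^ 2 := fun i _ => by
      rw [← sq_abs]
      exact pow_le_pow_left₀ (abs_nonneg _) (hx i) 2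
    refine (Finset.sum_le_sum h1).trans ?_
    simp only [Finset.sum_const, Finset.card_univ, Fintype.card_fin, nsmul_eq_mul]
    rw [mul_pow]
    apply mul_le_mul_of_nonneg_right _ (sq_nonneg R)
    have : (1:ℝ) ≤ ((m + 4 : ℕ) : ℝ) := by push_cast; linarith [Nat.cast_nonneg (α := ℝ) m]
    nlinarith
  have hEb : ∀ R : ℝ, 1 ≤ R → ∫ x in box (m + 4) R, psi u x ^ 2
      ≤ (C0 * ((m + 4 : ℕ) : ℝ) ^ (m + 3)) * R ^ (m + 3) := by
    intro R hR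
    have hk : (1:ℝ) ≤ ((m + 4 : ℕ) : ℝ) := by push_cast; linarith [Nat.cast_nonneg (α := ℝ) m]
    have h1 : ∫ x in box (m + 4) R, psi u x ^ 2 ≤ ∫ x in bl ((m + 4 : ℕ) * R), psi u x ^ 2 :=
      setIntegral_mono_set
        ((cψ.pow 2).continuousOn.integrableOn_compact (H239.isCompact_bl (by positivity)))
        (Eventually.of_forall fun x => sq_nonneg _)
        (Eventually.of_forall (hsub R (by linarith)))
    refine h1.trans ((hC0 _ (by nlinarith)).trans (le_of_eq ?_))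
    rw [mul_pow]; ring
  obtain ⟨K, hK1, hP, hD, hG⟩ := dboxn m hst hlt hEb
  have cD2 : ContDiff ℝ 2 (defi u) := H.defi_contDiff
  have cDi : ∀ j, Continuous (pd j (defi u)) := fun j => continuous_pd (cD2.of_le (by norm_num))
  have cD : Continuous (defi u) := cD2.continuous
  have c1 : Continuous fun x => ∑ j, |pd j (defi u) x| :=
    continuous_finsetSum _ fun j _ => (cDi j).abs
  have c2 : Continuous fun x => √(gs (defi u) x) := by
    unfold gs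
    exact (continuous_finsetSum _ fun j _ => (cDi j).pow 2).sqrt
  have key : ∀ R : ℝ, 1 ≤ R → K * (1 + Real.log R) ^ 2 * R ^ (m + 1) ≤ 16 * K * (√R * R ^ (m + 1)) := by
    intro R hR
    have h1 := log_sq_le hR
    have h2 : 0 ≤ K * R ^ (m + 1) := by positivity
    have := mul_le_mul_of_nonneg_left h1 h2
    nlinarith
  have key2 : ∀ R : ℝ, 1 ≤ R → K * (1 + Real.log R) ^ 2 * R ^ (m + 1) ≤ 16 * K * R ^ (m + 2) := by
    intro R hR
    refine (key R hR).trans ?_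
    have h1 : √R ≤ R := by
      rw [Real.sqrt_le_left (by linarith)]; nlinarith
    have h2 : √R * R ^ (m + 1) ≤ R ^ (m + 2) := by
      calc √R * R ^ (m + 1) ≤ R * R ^ (m + 1) := by gcongr
        _ = R ^ (m + 2) := by ring
    exact mul_le_mul_of_nonneg_left h2 (by linarith)
  have key3 : ∀ ε : ℝ, 0 < ε → ∀ᶠ R : ℝ in atTop, 1 ≤ R ∧
      K * (1 + Real.log R) ^ 2 * R ^ (m + 1) ≤ ε * R ^ (m + 2) := by
    intro ε hε
    filter_upwards [eventually_ge_atTop (max 1 ((16 * K / ε) ^ 2))] with R hR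
    have hR1 : 1 ≤ R := (le_max_left _ _).trans hR
    have hR2 : (16 * K / ε) ^ 2 ≤ R := (le_max_right _ _).trans hR
    refine ⟨hR1, (key R hR1).trans ?_⟩
    have h1 : 16 * K / ε ≤ √R := Real.le_sqrt_of_sq_le hR2
    have h2 : 16 * K ≤ √R * ε := (div_le_iff₀ hε).mp h1
    have h3 : √R * √R = R := Real.mul_self_sqrt (by linarith)
    have h4 : 0 ≤ √R * R ^ (m + 1) := by positivity
    calc 16 * K * (√R * R ^ (m + 1)) ≤ √R * ε * (√R * R ^ (m + 1)) :=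
          mul_le_mul_of_nonneg_right h2 h4
      _ = ε * ((√R * √R) * R ^ (m + 1)) := by ring
      _ = ε * R ^ (m + 2) := by rw [h3]; ring
  have gD : ∀ R : ℝ, 1 ≤ R → ∫ x in bl R, √(gs (defi u) x)
      ≤ K * (1 + Real.log R) ^ 2 * R ^ (m + 1) := by
    intro R hR
    refine (int_bl_le_box (by linarith) c2 fun x => Real.sqrt_nonneg _).trans ?_
    refine (box_int_le c2 c1 fun x _ => sqrt_gs_le _ x).trans ?_
    exact hG R hR
  refine ⟨⟨K, fun R hR => ?_⟩, ⟨16 * K, fun R hR => ?_⟩,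
    ⟨16 * K, fun R hR => (gD R hR).trans (key2 R hR)⟩, fun ε hε => ?_⟩
  · exact (int_bl_le_box (by linarith) (by fun_prop) fun x => (H.psi_pos x).le).trans (hP R hR)
  · exact ((int_bl_le_box (by linarith) cD fun x => hu.defi_nonneg x).trans (hD R hR)).trans
      (key2 R hR)
  · filter_upwards [key3 ε hε] with R hR using (gD R hR.1).trans hR.2

end Vale.Agent.P134.R2.H561
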