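import Vale.Agent.P134.H765.SMP

set_option linter.all false

open Filter Topology

namespace Vale.Agent.P134.R2.H561

open Vale.Agent.P134 Vale.Agent.P134.H765

variable {n : ℕ} {u v : (Fin n → ℝ) → ℝ}

/-- Maximum principle on the whole space. -/
lemma mp_whole {w : (Fin n → ℝ) → ℝ} (hw : ContDiff ℝ 2 w) {M c : ℝ} (hc : 0 < c)
    (hM : ∀ x, -M ≤ w x) (h : ∀ x, w x < 0 → ∑ i, pd i (pd i w) x ≤ c * w x)
    (x1 : Fin n → ℝ) : 0 ≤ w x1 := by
  by_contra hneg
  push Not at hneg
  obtain ⟨A, hA⟩ : ∃ A : ℝ, A = 2 * n / c + 1 := ⟨_, rfl⟩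
  have hA0 : 0 < A := by rw [hA]; positivity
  have hcA : c * A = 2 * n + c := by rw [hA]; field_simp
  have hE0 : ∀ x : Fin n → ℝ, 0 ≤ esq x := fun x => Finset.sum_nonneg fun i _ => sq_nonneg _
  obtain ⟨δ, hδ⟩ : ∃ δ : ℝ, δ = -w x1 / (2 * (esq x1 + A)) := ⟨_, rfl⟩
  have hx1A : 0 < esq x1 + A := by linarith [hE0 x1]
  have hδ0 : 0 < δ := by rw [hδ]; apply div_pos (by linarith) (by positivity)
  have hδ1 : w x1 + δ * (esq x1 + A) < 0 := by
    have : δ * (esq x1 + A) = -w x1 / 2 := by rw [hδ]; field_simp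
    linarith
  obtain ⟨g, hg⟩ : ∃ g : (Fin n → ℝ) → ℝ, g = fun x => w x + δ * (esq (x - 0) + A) := ⟨_, rfl⟩
  have hgx : ∀ x, g x = w x + δ * (esq x + A) := by intro x; rw [hg]; simp
  have hq : ContDiff ℝ 2 (fun x : Fin n → ℝ => δ * (esq (x - 0) + A)) :=
    contDiff_const.mul ((esq_contDiff 0).add contDiff_const)
  have hgc : ContDiff ℝ 2 g := by rw [hg]; exact hw.add hq
  have hK := isCompact_esq_le (0 : Fin n → ℝ) (M / δ)
  have hout : ∀ x : Fin n → ℝ, x ∉ {x : Fin n → ℝ | esq (x - 0) ≤ M / δ} → 0 ≤ g x := by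
    intro x hx
    have h1 : M / δ < esq (x - 0) := not_le.mp hx
    rw [sub_zero, div_lt_iff₀ hδ0] at h1
    rw [hgx]
    have := hM x
    have : 0 ≤ δ * A := by positivity
    nlinarith
  have hx1K : x1 ∈ {x : Fin n → ℝ | esq (x - 0) ≤ M / δ} := by
    by_contra hcon
    have := hout x1 hcon
    rw [hgx] at this
    linarith
  obtain ⟨x0, hx0, hmin⟩ := hK.exists_isMinOn ⟨x1, hx1K⟩ hgc.continuous.continuousOn
  have hg0 : g x0 < 0 := by
    have h1 : g x0 ≤ g x1 := hmin hx1K
    rw [hgx x1] at h1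
    linarith
  have hglob : ∀ x, g x0 ≤ g x := by
    intro x
    by_cases hx : x ∈ {x : Fin n → ℝ | esq (x - 0) ≤ M / δ}
    · exact hmin hx
    · exact hg0.le.trans (hout x hx)
  have hloc : IsLocalMin g x0 := Eventually.of_forall hglob
  have h2 : 0 ≤ ∑ i, pd i (pd i g) x0 := Finset.sum_nonneg fun i _ =>
    pd2_nonneg_of_isLocalMin hgc hloc i
  have h3 : ∀ i, pd i (pd i g) x0 = pd i (pd i w) x0 + 2 * δ := by
    intro i
    have d1 : Differentiable ℝ w := hw.differentiable (by norm_num)
    have d2 : Differentiable ℝ (fun x : Fin n → ℝ => δ * (esq (x - 0) + A)) :=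
      hq.differentiable (by norm_num)
    have d0 : Differentiable ℝ (fun x : Fin n → ℝ => esq (x - 0)) :=
      (esq_contDiff (k := 1) 0).differentiable (by norm_num)
    have e1 : pd i g = fun x => pd i w x + 2 * δ * x i := by
      ext x
      rw [hg, pd_add (d1 x) (d2 x), pd_mul (f := fun _ => δ)
        (g := fun x : Fin n → ℝ => esq (x - 0) + A) (by fun_prop)
        ((d0 x).add (differentiableAt_const A)), pd_const,
        pd_add (f := fun x : Fin n → ℝ => esq (x - 0)) (g := fun _ => A) (d0 x)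
          (differentiableAt_const A), pd_const, pd_esq]
      simp; ring
    have d3 : DifferentiableAt ℝ (pd i w) x0 := (contDiff_pd_one hw).differentiable (by norm_num) x0
    rw [e1, pd_add d3 (by fun_prop), pd_mul (f := fun _ => 2 * δ) (g := fun x : Fin n → ℝ => x i)
      (by fun_prop) (by fun_prop), pd_const, pd_coord]
    simp
  simp_rw [h3] at h2
  rw [Finset.sum_add_distrib, Finset.sum_const, Finset.card_univ, Fintype.card_fin,
    nsmul_eq_mul] at h2
  rw [hgx] at hg0
  have hex := hE0 x0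
  have hw0 : w x0 < -(δ * A) := by nlinarith
  have hw1 : w x0 < 0 := by have : 0 < δ * A := by positivity
                            linarith
  have h4 := h x0 hw1
  have h5 : c * w x0 < c * (-(δ * A)) := mul_lt_mul_of_pos_left hw0 hc
  have h6 : c * (-(δ * A)) = -(δ * (2 * n + c)) := by rw [← hcA]; ring
  have h7 : 0 < δ * c := by positivity
  nlinarith

/-- Equation of a difference. -/
lemma lap_diff (hu : Sol u) (hv : Sol v) (x : Fin n → ℝ) :
    ∑ i, pd i (pd i (fun y => v y - u y)) x
      = (v x ^ 2 + v x * u x + u x ^ 2 - 1) * (v x - u x) := by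
  have h : ∀ i, pd i (pd i (fun y => v y - u y)) x = pd i (pd i v) x - pd i (pd i u) x := by
    intro i
    have d1 : Differentiable ℝ u := hu.c2.differentiable (by norm_num)
    have d2 : Differentiable ℝ v := hv.c2.differentiable (by norm_num)
    have e1 : pd i (fun y => v y - u y) = fun y => pd i v y - pd i u y := by
      funext y; exact pd_sub (d2 y) (d1 y)
    rw [e1]
    exact pd_sub ((contDiff_pd_one hv.c2).differentiable (by norm_num) x)
      ((contDiff_pd_one hu.c2).differentiable (by norm_num) x)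
  simp_rw [h]
  rw [Finset.sum_sub_distrib, hu.eq, hv.eq]
  ring

/-- Comparison of two solutions. -/
lemma slide_cmp (hu : Sol u) (hv : Sol v)
    (h : ∀ x, v x < u x → (7 / 10 ≤ v x ∧ 7 / 10 ≤ u x) ∨ (v x ≤ -(7 / 10) ∧ u x ≤ -(7 / 10)))
    (x : Fin n → ℝ) : u x ≤ v x := by
  have hw : ContDiff ℝ 2 (fun y => v y - u y) := hv.c2.sub hu.c2
  have := mp_whole hw (M := 2) (c := 47 / 100) (by norm_num)
    (fun x => by
      have h1 := abs_le.mp (hu.bd x)
      have h2 := abs_le.mp (hv.bd x)
      linarith)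
    (fun x hx => by
      rw [lap_diff hu hv]
      apply mul_le_mul_of_nonpos_right _ (by linarith)
      rcases h x (by linarith) with ⟨h1, h2⟩ | ⟨h1, h2⟩
      · nlinarith [mul_nonneg (sub_nonneg.mpr h1) (sub_nonneg.mpr h2)]
      · nlinarith [mul_nonneg (sub_nonneg.mpr h1) (sub_nonneg.mpr h2)]) x
  linarith

/-- Strong comparison. -/
lemma slide_smp (hu : Sol u) (hv : Sol v) (h : ∀ x, u x ≤ v x) {x0 : Fin n → ℝ}
    (hx0 : u x0 = v x0) (x : Fin n → ℝ) : u x = v x := by
  have hw : ContDiff ℝ 2 (fun y => v y - u y) := hv.c2.sub hu.c2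
  have := smp hw (fun x => sub_nonneg.mpr (h x)) (C := 2) (fun x => by
      rw [lap_diff hu hv]
      apply mul_le_mul_of_nonneg_right _ (sub_nonneg.mpr (h x))
      have h1 := abs_le.mp (hu.bd x)
      have h2 := abs_le.mp (hv.bd x)
      have : u x ^ 2 ≤ 1 := by nlinarith
      have : v x ^ 2 ≤ 1 := by nlinarith
      have : v x * u x ≤ 1 := by nlinarith [sq_nonneg (v x - u x)]
      linarith) (x0 := x0) (by simp [hx0]) x
  linarith

/-- Sliding. -/
theorem slide (hu : Sol u) {ν : Fin n → ℝ} {T : ℝ} (hT0 : 0 ≤ T)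
    (hI : ∀ y, |u y| ≤ 3 / 4 → ∀ t, T ≤ t → 3 / 4 ≤ u (y + t • ν) ∧ u (y + (-t) • ν) ≤ -(3 / 4)) :
    ∀ t : ℝ, 0 ≤ t → ∀ x, u x ≤ u (x + t • ν) := by
  have hcont : Continuous u := hu.c2.continuous
  have hsh : ∀ t : ℝ, Sol (fun x => u (x + t • ν)) := fun t => hu.shift _
  -- step 1
  have s1 : ∀ t, 2 * T ≤ t → ∀ x, u x ≤ u (x + t • ν) := by
    intro t ht
    apply slide_cmp hu (hsh t)
    intro x hx
    have hxx : x + t • ν + (-t) • ν = x := by rw [neg_smul]; abel
    have a1 : ¬ |u x| ≤ 3 / 4 := by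
      intro h1
      have h2 := (hI x h1 t (by linarith)).1
      have h3 := (abs_le.mp h1).2
      linarith
    have a2 : ¬ |u (x + t • ν)| ≤ 3 / 4 := by
      intro h1
      have h2 := (hI _ h1 t (by linarith)).2
      rw [hxx] at h2
      have h3 := (abs_le.mp h1).1
      linarith
    rw [abs_le] at a1 a2
    by_cases c1 : u x ≤ -(3 / 4)
    · right; constructor <;> linarith
    · push Not at c1
      have c2 : 3 / 4 < u x := by
        by_contra hcon
        exact a1 ⟨c1.le, not_lt.mp hcon⟩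
      by_cases c3 : -(3 / 4) ≤ u (x + t • ν)
      · have c4 : 3 / 4 < u (x + t • ν) := by
          by_contra hcon
          exact a2 ⟨c3, not_lt.mp hcon⟩
        left; constructor <;> linarith
      · push Not at c3
        exfalso
        have hc : Continuous (fun s : ℝ => u (x + s • ν)) := by fun_prop
        obtain ⟨s, hs, hus⟩ := intermediate_value_Icc' (show (0:ℝ) ≤ t by linarith) hc.continuousOn
          (show (0:ℝ) ∈ Set.Icc (u (x + t • ν)) (u (x + (0:ℝ) • ν)) by
            rw [zero_smul, add_zero]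
            constructor <;> linarith)
        have hI0 : |u (x + s • ν)| ≤ 3 / 4 := by
          have hus' : u (x + s • ν) = 0 := hus
          rw [hus', abs_zero]; norm_num
        by_cases hsT : T ≤ s
        · have h2 := (hI _ hI0 s hsT).2
          have e : x + s • ν + (-s) • ν = x := by rw [neg_smul]; abel
          rw [e] at h2
          linarith
        · have h2 := (hI _ hI0 (t - s) (by linarith)).1
          have e : x + s • ν + (t - s) • ν = x + t • ν := by rw [sub_smul]; abel
          rw [e] at h2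
          linarith
  -- step 2
  obtain ⟨S, hS⟩ : ∃ S : Set ℝ, S = {t | 0 ≤ t ∧ ∀ s, t ≤ s → ∀ x, u x ≤ u (x + s • ν)} := ⟨_, rfl⟩
  have hSne : S.Nonempty := ⟨2 * T, by rw [hS]; exact ⟨by linarith, s1⟩⟩
  have hSbd : BddBelow S := ⟨0, fun t ht => by rw [hS] at ht; exact ht.1⟩
  obtain ⟨τ, hτ⟩ : ∃ τ : ℝ, τ = sInf S := ⟨_, rfl⟩
  have hτ0 : 0 ≤ τ := by rw [hτ]; exact le_csInf hSne fun t ht => by rw [hS] at ht; exact ht.1
  have hgt : ∀ s, τ < s → ∀ x, u x ≤ u (x + s • ν) := by
    intro s hs
    rw [hτ] at hs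
    obtain ⟨t, ht, hts⟩ := exists_lt_of_csInf_lt hSne hs
    rw [hS] at ht
    exact ht.2 s hts.le
  have hge : ∀ x, u x ≤ u (x + τ • ν) := by
    intro x
    have hc : Continuous (fun s : ℝ => u (x + s • ν)) := by fun_prop
    have h1 : Tendsto (fun s : ℝ => u (x + s • ν)) (𝓝[>] τ) (𝓝 (u (x + τ • ν))) :=
      (hc.tendsto τ).mono_left nhdsWithin_le_nhds
    exact ge_of_tendsto h1 (eventually_nhdsWithin_of_forall fun s hs => hgt s hs x)
  have hτz : τ = 0 := by
    by_contra hne
    have hτpos : 0 < τ := lt_of_le_of_ne hτ0 (Ne.symm hne)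
    by_cases hm : ∃ m : ℝ, 0 < m ∧ ∀ y, |u y| ≤ 3 / 4 → m ≤ u (y + τ • ν) - u y
    · obtain ⟨m, hm0, hm⟩ := hm
      obtain ⟨L, hL⟩ : ∃ L : ℝ, L = (n * (n + 1) + 1) * (‖ν‖ + 1) := ⟨_, rfl⟩
      have hL0 : 0 < L := by rw [hL]; positivity
      obtain ⟨η, hη⟩ : ∃ η : ℝ, η = min τ (min m (1 / 20) / L) := ⟨_, rfl⟩
      have hη0 : 0 < η := by
        rw [hη]; exact lt_min hτpos (div_pos (lt_min hm0 (by norm_num)) hL0)
      have hητ : η ≤ τ := by rw [hη]; exact min_le_left _ _
      have hηL : L * η ≤ min m (1 / 20) := by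
        have : η ≤ min m (1 / 20) / L := by rw [hη]; exact min_le_right _ _
        rw [le_div_iff₀ hL0] at this
        linarith
      have hηm : L * η ≤ m := hηL.trans (min_le_left _ _)
      have hηt : L * η ≤ 1 / 20 := hηL.trans (min_le_right _ _)
      have hlip : ∀ s x, τ - η ≤ s → s ≤ τ → |u (x + s • ν) - u (x + τ • ν)| ≤ L * η := by
        intro s x h1 h2
        have h3 := hu.diff_le (x + τ • ν) ((s - τ) • ν)
        have e : x + τ • ν + (s - τ) • ν = x + s • ν := by rw [sub_smul]; abel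
        rw [e] at h3
        refine h3.trans ?_
        rw [norm_smul, Real.norm_eq_abs, abs_of_nonpos (by linarith : s - τ ≤ 0), hL]
        have h4 : -(s - τ) ≤ η := by linarith
        have hn : (0:ℝ) ≤ n * (n + 1) := by positivity
        have h5 : (n:ℝ) * (n + 1) * (-(s - τ) * ‖ν‖) ≤ (n * (n + 1) + 1) * (η * (‖ν‖ + 1)) := by
          apply mul_le_mul (by linarith) _ (mul_nonneg (by linarith) (norm_nonneg _)) (by linarith)
          exact mul_le_mul h4 (by linarith) (norm_nonneg _) hη0.le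
        linarith
      have hmem : τ - η ∈ S := by
        rw [hS]
        refine ⟨by linarith, fun s hs => ?_⟩
        by_cases hsτ : s ≤ τ
        · apply slide_cmp hu (hsh s)
          intro x hx
          have h1 := abs_le.mp (hlip s x hs hsτ)
          have a1 : ¬ |u x| ≤ 3 / 4 := by
            intro h2
            have h3 := hm x h2
            linarith
          rw [abs_le] at a1
          by_cases c1 : u x ≤ -(3 / 4)
          · right; constructor <;> linarith
          · push Not at c1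
            have c2 : 3 / 4 < u x := by
              by_contra hcon
              exact a1 ⟨c1.le, not_lt.mp hcon⟩
            have c3 := hge x
            left; constructor <;> linarith
        · exact hgt s (not_le.mp hsτ)
      have := csInf_le hSbd hmem
      linarith
    · push Not at hm
      have hseq : ∀ k : ℕ, ∃ y, |u y| ≤ 3 / 4 ∧ u (y + τ • ν) - u y < 1 / ((k:ℝ) + 1) := fun k =>
        hm _ (by positivity)
      choose y hy1 hy2 using hseq
      obtain ⟨φ, hφ, U, hlim⟩ := exists_subseq (fun k x => u (x + y k)) (fun k => hu.shift _)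
      obtain ⟨hU, -, -⟩ := Sol.of_tendsto (fun k => hu.shift (y (φ k))) hlim
      have hle : ∀ x, U x ≤ U (x + τ • ν) := by
        intro x
        refine le_of_tendsto_of_tendsto' (hlim x) (hlim (x + τ • ν)) fun k => ?_
        have h1 := hge (x + y (φ k))
        have e : x + y (φ k) + τ • ν = x + τ • ν + y (φ k) := by abel
        rw [e] at h1
        exact h1
      have h0 : U 0 = U (0 + τ • ν) := by
        apply le_antisymm (hle 0)
        have h1 := (hlim (0 + τ • ν)).sub (hlim 0)
        have h2 : Tendsto (fun k : ℕ => 1 / (((φ k : ℕ) : ℝ) + 1)) atTop (𝓝 0) :=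
          (tendsto_one_div_add_atTop_nhds_zero_nat (𝕜 := ℝ)).comp hφ.tendsto_atTop
        have h3 := le_of_tendsto_of_tendsto' h1 h2 fun k => by
          have h4 := (hy2 (φ k)).le
          have e : y (φ k) + τ • ν = 0 + τ • ν + y (φ k) := by abel
          have e2 : y (φ k) = 0 + y (φ k) := by abel
          rw [e] at h4
          nth_rewrite 2 [e2] at h4
          exact h4
        linarith
      have hper := slide_smp hU (hU.shift (τ • ν)) hle h0
      have hperk : ∀ j : ℕ, U ((j * τ) • ν) = U 0 := by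
        intro j
        induction j with
        | zero => simp
        | succ j ih =>
            have h1 := hper ((j * τ) • ν)
            have e : ((j:ℝ) * τ) • ν + τ • ν = (((j + 1 : ℕ) : ℝ) * τ) • ν := by
              rw [← add_smul]; congr 1; push_cast; ring
            rw [e] at h1
            rw [← h1, ih]
      have hpern : ∀ j : ℕ, U ((-(j * τ)) • ν) = U 0 := by
        intro j
        induction j with
        | zero => simp
        | succ j ih =>
            have h1 := hper ((-(((j + 1 : ℕ) : ℝ) * τ)) • ν)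
            have e : (-(((j + 1 : ℕ) : ℝ) * τ)) • ν + τ • ν = (-((j:ℝ) * τ)) • ν := by
              rw [← add_smul]; congr 1; push_cast; ring
            rw [e] at h1
            rw [h1, ih]
      obtain ⟨j, hj⟩ := exists_nat_ge (T / τ)
      have hjT : T ≤ j * τ := by rwa [div_le_iff₀ hτpos] at hj
      have p1 : 3 / 4 ≤ U 0 := by
        rw [← hperk j]
        refine ge_of_tendsto' (hlim _) fun k => ?_
        have := (hI _ (hy1 (φ k)) _ hjT).1
        rw [add_comm] at this
        exact this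
      have p2 : U 0 ≤ -(3 / 4) := by
        rw [← hpern j]
        refine le_of_tendsto' (hlim _) fun k => ?_
        have := (hI _ (hy1 (φ k)) _ hjT).2
        rw [add_comm] at this
        exact this
      linarith
  intro t ht
  rcases ht.eq_or_lt with h | h
  · intro x; rw [← h, zero_smul, add_zero]
  · exact hgt t (by rw [hτz]; exact h)

/-- One-dimensionality. -/
theorem oneD_of_slide (hu : Sol u) {e : Fin n → ℝ} (he : ∑ i, e i ^ 2 = 1)
    (hI : ∀ ν : Fin n → ℝ, 0 < ∑ i, e i * ν i → ∃ T : ℝ, 0 ≤ T ∧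
      ∀ y, |u y| ≤ 3 / 4 → ∀ t, T ≤ t → 3 / 4 ≤ u (y + t • ν) ∧ u (y + (-t) • ν) ≤ -(3 / 4)) :
    ∃ h : ℝ → ℝ, ∀ x, u x = h (∑ i, e i * x i) := by
  have hcont : Continuous u := hu.c2.continuous
  have m1 : ∀ ν : Fin n → ℝ, 0 < ∑ i, e i * ν i → ∀ x, u x ≤ u (x + ν) := by
    intro ν hν x
    obtain ⟨T, hT0, hT⟩ := hI ν hν
    have := slide hu hT0 hT 1 (by norm_num) x
    rwa [one_smul] at this
  have m2 : ∀ ν : Fin n → ℝ, 0 ≤ ∑ i, e i * ν i → ∀ x, u x ≤ u (x + ν) := by
    intro ν hν x
    have hc : Continuous (fun s : ℝ => u (x + (ν + s • e))) := by fun_prop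
    have h1 : Tendsto (fun s : ℝ => u (x + (ν + s • e))) (𝓝[>] 0) (𝓝 (u (x + (ν + (0:ℝ) • e)))) :=
      (hc.tendsto 0).mono_left nhdsWithin_le_nhds
    rw [zero_smul, add_zero] at h1
    refine ge_of_tendsto h1 (eventually_nhdsWithin_of_forall fun s hs => m1 _ ?_ x)
    have hs' : (0:ℝ) < s := hs
    have e1 : ∑ i, e i * (ν + s • e) i = ∑ i, e i * ν i + s * ∑ i, e i ^ 2 := by
      rw [Finset.mul_sum, ← Finset.sum_add_distrib]
      refine Finset.sum_congr rfl fun i _ => ?_
      simp; ring
    rw [e1, he]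
    linarith
  have m3 : ∀ ν : Fin n → ℝ, ∑ i, e i * ν i = 0 → ∀ x, u (x + ν) = u x := by
    intro ν hν x
    apply le_antisymm
    · have h1 := m2 (-ν) (by simp [hν]) (x + ν)
      have : x + ν + -ν = x := by abel
      rwa [this] at h1
    · exact m2 ν hν.ge x
  refine ⟨fun s => u (s • e), fun x => ?_⟩
  have h1 := m3 (x - (∑ i, e i * x i) • e) (by
    have e1 : ∑ i, e i * (x - (∑ i, e i * x i) • e) i
        = ∑ i, e i * x i - (∑ i, e i * x i) * ∑ i, e i ^ 2 := by
      rw [Finset.mul_sum, ← Finset.sum_sub_distrib]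
      refine Finset.sum_congr rfl fun i _ => ?_
      simp; ring
    rw [e1, he]; ring) ((∑ i, e i * x i) • e)
  rw [add_sub_cancel] at h1
  exact h1

end Vale.Agent.P134.R2.H561
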