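import Vale.Agent.P134.R2.H561.StartN
import Vale.Agent.P134.R2.H561.Slide

set_option linter.all false

open Filter Topology

namespace Vale.Agent.P134.R2.H561

open Vale.Agent.P134 Vale.Agent.P134.SM
open Vale.Agent.P134.H787 (rot LI)
open Vale.Agent.P134.H891 (FlatE flat_rot)
open Vale.Agent.P134.H370 (Flat)

variable {n : ℕ} {u v : (Fin n → ℝ) → ℝ}

/-- flatness at scale `R` over the hyperplane orthogonal to `e`, with centre `y`. -/
def Gf (u : (Fin n → ℝ) → ℝ) (K : ℝ) (y : Fin n → ℝ) (R : ℝ) (e : Fin n → ℝ) : Prop :=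
  ∀ x : Fin n → ℝ, esq x ≤ R ^ 2 → (K * √R < ∑ i, e i * x i → 3 / 4 ≤ u (x + y)) ∧
    (∑ i, e i * x i < -(K * √R) → u (x + y) ≤ -(3 / 4))

lemma log_le_two_sqrt {R : ℝ} (hR : 1 ≤ R) : Real.log R ≤ 2 * √R := by
  have h0 : 0 < √R := Real.sqrt_pos.mpr (by linarith)
  have h1 : Real.log (√R) ≤ √R - 1 := Real.log_le_sub_one_of_pos h0
  have h2 : Real.log R = 2 * Real.log (√R) := by
    conv_lhs => rw [← Real.sq_sqrt (by linarith : (0:ℝ) ≤ R)]
    rw [Real.log_pow]; norm_num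
  linarith

lemma gf_of_state {p : Fin n} {K R : ℝ} {y : Fin n → ℝ} (hK : 0 ≤ K) (hR : 1 ≤ R)
    (h : State p (fun x => u (x + y)) R (K * Real.log R)) :
    ∃ e : Fin n → ℝ, ∑ i, e i ^ 2 = 1 ∧ Gf u (4 * K) y R e := by
  obtain ⟨L, a, ha, hF⟩ := h
  rw [flat_rot (u := fun x => u (x + y))] at hF
  refine ⟨rot L (Pi.single p 1), ?_, ?_⟩
  · rw [H787.rot_sq]; simp [Pi.single_apply]
  have hl := log_le_two_sqrt hR
  have hl0 := Real.log_nonneg hR
  have h2 : 2 * (K * Real.log R) ≤ 4 * K * √R := by nlinarith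
  have ha' := abs_le.mp ha
  intro x hx
  exact ⟨fun h1 => (hF x hx).1 (by linarith), fun h1 => (hF x hx).2 (by linarith)⟩

/-- comparison of two directions. -/
lemma dir_cmp {z : Fin n → ℝ} {r A : ℝ} {e e' : Fin n → ℝ} (he : ∑ i, e i ^ 2 = 1)
    (he' : ∑ i, e' i ^ 2 = 1) (hr : 0 < r)
    (h1 : ∀ x : Fin n → ℝ, esq x ≤ r ^ 2 → A < ∑ i, e i * x i → 3 / 4 ≤ u (x + z))
    (h2 : ∀ x : Fin n → ℝ, esq x ≤ r ^ 2 → ∑ i, e' i * x i < -A → u (x + z) ≤ -(3 / 4))
    (hA : 0 ≤ A) (i : Fin n) : |e i - e' i| ≤ 2 * A / r := by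
  obtain ⟨D, hD⟩ : ∃ D : ℝ, D = ∑ i, (e i - e' i) ^ 2 := ⟨_, rfl⟩
  have hD0 : 0 ≤ D := by rw [hD]; exact Finset.sum_nonneg fun _ _ => sq_nonneg _
  obtain ⟨c, hc⟩ : ∃ c : ℝ, c = ∑ i, e i * e' i := ⟨_, rfl⟩
  have hDc : D = 2 - 2 * c := by
    have : ∀ i, (e i - e' i) ^ 2 = e i ^ 2 - 2 * (e i * e' i) + e' i ^ 2 := fun i => by ring
    rw [hD]; simp_rw [this]
    rw [Finset.sum_add_distrib, Finset.sum_sub_distrib, ← Finset.mul_sum, he, he', ← hc]; ring
  obtain ⟨s, hs⟩ : ∃ s : ℝ, s = √D := ⟨_, rfl⟩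
  have hs0 : 0 ≤ s := by rw [hs]; exact Real.sqrt_nonneg _
  have hsD : s ^ 2 = D := by rw [hs]; exact Real.sq_sqrt hD0
  have hi : |e i - e' i| ≤ s := by
    apply abs_le_of_sq_le_sq _ hs0
    rw [hsD, hD]
    exact Finset.single_le_sum (f := fun i => (e i - e' i) ^ 2) (fun j _ => sq_nonneg _)
      (Finset.mem_univ i)
  refine hi.trans ?_
  rw [le_div_iff₀ hr]
  by_contra hcon
  push Not at hcon
  have hspos : 0 < s := by
    rcases hs0.eq_or_lt with h | h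
    · rw [← h] at hcon; linarith
    · exact h
  have hx : esq (fun j => r / s * (e j - e' j)) ≤ r ^ 2 := by
    unfold esq
    simp_rw [mul_pow]
    rw [← Finset.mul_sum, ← hD, ← hsD, div_pow]
    rw [div_mul_cancel₀ _ (by positivity)]
  have e1 : ∑ j, e j * (r / s * (e j - e' j)) = r * s / 2 := by
    have : ∀ j, e j * (r / s * (e j - e' j)) = r / s * (e j ^ 2 - e j * e' j) := fun j => by ring
    simp_rw [this]
    rw [← Finset.mul_sum, Finset.sum_sub_distrib, he, ← hc]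
    have : 1 - c = s ^ 2 / 2 := by rw [hsD]; linarith
    rw [this]; field_simp
  have e2 : ∑ j, e' j * (r / s * (e j - e' j)) = -(r * s / 2) := by
    have : ∀ j, e' j * (r / s * (e j - e' j)) = r / s * (e j * e' j - e' j ^ 2) := fun j => by ring
    simp_rw [this]
    rw [← Finset.mul_sum, Finset.sum_sub_distrib, he', ← hc]
    have : c - 1 = -(s ^ 2 / 2) := by rw [hsD]; linarith
    rw [this]; field_simp
  have k1 := h1 _ hx (by rw [e1]; linarith)
  have k2 := h2 _ hx (by rw [e2]; linarith)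
  linarith

/-- Common direction. -/
theorem common_dir {K R0 : ℝ} (hK : 0 < K) (hR0 : 1 ≤ R0) (h0 : |u 0| ≤ 3 / 4)
    (h : ∀ y, |u y| ≤ 3 / 4 → ∀ R, R0 ≤ R → ∃ e : Fin n → ℝ, ∑ i, e i ^ 2 = 1 ∧ Gf u K y R e) :
    ∃ e : Fin n → ℝ, ∑ i, e i ^ 2 = 1 ∧ ∀ y, |u y| ≤ 3 / 4 → ∀ R, R0 ≤ R →
      ∃ e' : Fin n → ℝ, (∀ i, |e' i - e i| ≤ 8 * K / √R) ∧ Gf u K y R e' := by
  have h' : ∀ (y : Fin n → ℝ) (R : ℝ), ∃ e : Fin n → ℝ, |u y| ≤ 3 / 4 → R0 ≤ R →
      (∑ i, e i ^ 2 = 1 ∧ Gf u K y R e) := by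
    intro y R
    by_cases h1 : |u y| ≤ 3 / 4
    · by_cases h2 : R0 ≤ R
      · obtain ⟨e, he⟩ := h y h1 R h2
        exact ⟨e, fun _ _ => he⟩
      · exact ⟨0, fun _ h3 => absurd h3 h2⟩
    · exact ⟨0, fun h3 _ => absurd h3 h1⟩
  choose E hE using h'
  have hpow : ∀ j : ℕ, (1:ℝ) ≤ 4 ^ j := fun j => one_le_pow₀ (by norm_num)
  have hsc : ∀ (R : ℝ) (j : ℕ), R0 ≤ R → R0 ≤ 4 ^ j * R := by
    intro R j hR
    have h1 := hpow j
    nlinarith
  have hsq : ∀ (R : ℝ) (j : ℕ), √(4 ^ j * R) = 2 ^ j * √R := by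
    intro R j
    rw [Real.sqrt_mul (by positivity)]
    congr 1
    have : (4:ℝ) ^ j = (2 ^ j) ^ 2 := by rw [← pow_mul, mul_comm, pow_mul]; norm_num
    rw [this, Real.sqrt_sq (by positivity)]
  -- telescoping
  have tel : ∀ y, |u y| ≤ 3 / 4 → ∀ R, R0 ≤ R → ∀ j : ℕ,
      dist (E y (4 ^ j * R)) (E y (4 ^ (j + 1) * R)) ≤ 4 * K / √R * (1 / 2) ^ j := by
    intro y hy R hR j
    have hRp : 0 < R := by linarith
    have hs : 0 < √R := Real.sqrt_pos.mpr hRp
    have hb0 : 0 ≤ 4 * K / √R * (1 / 2) ^ j := by positivity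
    obtain ⟨a1, a2⟩ := hE y (4 ^ j * R) hy (hsc R j hR)
    obtain ⟨b1, b2⟩ := hE y (4 ^ (j + 1) * R) hy (hsc R (j + 1) hR)
    rw [dist_pi_le_iff hb0]
    intro i
    rw [Real.dist_eq]
    have hle : K * √(4 ^ j * R) ≤ K * √(4 ^ (j + 1) * R) := by
      rw [hsq, hsq]
      have : (2:ℝ) ^ j ≤ 2 ^ (j + 1) := pow_le_pow_right₀ (by norm_num) (by omega)
      gcongr
    have h4 : (4:ℝ) ^ j * R ≤ 4 ^ (j + 1) * R := by
      have : (4:ℝ) ^ j ≤ 4 ^ (j + 1) := pow_le_pow_right₀ (by norm_num) (by omega)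
      gcongr
    have hr : 0 < 4 ^ j * R := by positivity
    have := dir_cmp (u := u) (z := y) (r := 4 ^ j * R) (A := K * √(4 ^ (j + 1) * R)) a1 b1 hr
      (fun x hx hx2 => (a2 x hx).1 (by linarith))
      (fun x hx hx2 => (b2 x (hx.trans (by gcongr))).2 hx2) (by positivity) i
    refine this.trans (le_of_eq ?_)
    rw [hsq, pow_succ]
    have e1 : (4:ℝ) ^ j = 2 ^ j * 2 ^ j := by rw [← mul_pow]; norm_num
    rw [e1]
    have e2 : R = √R * √R := (Real.mul_self_sqrt hRp.le).symm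
    have e3 : ((1:ℝ) / 2) ^ j = 1 / 2 ^ j := by rw [one_div_pow]
    rw [e3]
    have h2j : (0:ℝ) < 2 ^ j := by positivity
    generalize √R = s at *
    subst e2
    field_simp
    norm_num
  have lim : ∀ (y : Fin n → ℝ) (R : ℝ), ∃ l : Fin n → ℝ, |u y| ≤ 3 / 4 → R0 ≤ R →
      (Tendsto (fun j : ℕ => E y (4 ^ j * R)) atTop (𝓝 l) ∧ dist (E y R) l ≤ 8 * K / √R) := by
    intro y R
    by_cases h1 : |u y| ≤ 3 / 4
    · by_cases h2 : R0 ≤ R
      · have hc := cauchySeq_of_le_geometric (1 / 2) (4 * K / √R) (by norm_num) (tel y h1 R h2)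
        obtain ⟨l, hl⟩ := cauchySeq_tendsto_of_complete hc
        refine ⟨l, fun _ _ => ⟨hl, ?_⟩⟩
        have h3 := dist_le_of_le_geometric_of_tendsto₀ (1 / 2) (4 * K / √R) (by norm_num)
          (tel y h1 R h2) hl
        simp only [pow_zero, one_mul] at h3
        refine h3.trans (le_of_eq ?_)
        ring
      · exact ⟨0, fun _ h3 => absurd h3 h2⟩
    · exact ⟨0, fun h3 _ => absurd h3 h1⟩
  choose l hl using lim
  obtain ⟨t0, d0⟩ := hl 0 R0 h0 le_rfl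
  have hunit : ∑ i, (l 0 R0) i ^ 2 = 1 := by
    have h1 : Tendsto (fun j : ℕ => ∑ i, E 0 (4 ^ j * R0) i ^ 2) atTop
        (𝓝 (∑ i, (l 0 R0) i ^ 2)) :=
      tendsto_finsetSum _ fun i _ => ((tendsto_pi_nhds.mp t0) i).pow 2
    have h2 : ∀ j : ℕ, ∑ i, E 0 (4 ^ j * R0) i ^ 2 = 1 := fun j =>
      (hE 0 (4 ^ j * R0) h0 (hsc R0 j le_rfl)).1
    simp_rw [h2] at h1
    exact (tendsto_nhds_unique h1 tendsto_const_nhds)
  have same : ∀ y, |u y| ≤ 3 / 4 → ∀ R, R0 ≤ R → l y R = l 0 R0 := by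
    intro y hy R hR
    obtain ⟨t1, d1⟩ := hl y R hy hR
    have hR0p : 0 < R0 := by linarith
    have hRp : 0 < R := by linarith
    obtain ⟨D, hD⟩ : ∃ D : ℝ, D = √(esq y) := ⟨_, rfl⟩
    have hy0 : 0 ≤ esq y := Finset.sum_nonneg fun _ _ => sq_nonneg _
    have hD0 : 0 ≤ D := by rw [hD]; exact Real.sqrt_nonneg _
    have hDs : D ^ 2 = esq y := by rw [hD]; exact Real.sq_sqrt hy0
    have hev : ∀ᶠ j : ℕ in atTop, dist (E y (4 ^ j * R)) (E 0 (4 ^ j * R0))
        ≤ 4 * K * √R / R0 * (1 / 2) ^ j + 4 * D / R0 * (1 / 4) ^ j := by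
      have h1 : Tendsto (fun j : ℕ => (4:ℝ) ^ j) atTop atTop :=
        tendsto_pow_atTop_atTop_of_one_lt (by norm_num)
      filter_upwards [h1.eventually_ge_atTop (2 * D / R0)] with j hj
      rw [div_le_iff₀ hR0p] at hj
      obtain ⟨a1, a2⟩ := hE y (4 ^ j * R) hy (hsc R j hR)
      obtain ⟨b1, b2⟩ := hE 0 (4 ^ j * R0) h0 (hsc R0 j le_rfl)
      rw [dist_pi_le_iff (by positivity)]
      intro i
      rw [Real.dist_eq]
      have hr : 0 < 4 ^ j * R0 / 2 := by positivity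
      have h4 : (4:ℝ) ^ j * R0 / 2 ≤ 4 ^ j * R := by
        have : (4:ℝ) ^ j * R0 ≤ 4 ^ j * R := by gcongr
        have : 0 < (4:ℝ) ^ j * R0 := by positivity
        linarith
      have hH : K * √(4 ^ j * R0) ≤ K * √(4 ^ j * R) := by
        gcongr
      have hcs : ∀ x : Fin n → ℝ, (∑ i, x i * y i) ^ 2 ≤ esq x * esq y := fun x =>
        Finset.sum_mul_sq_le_sq_mul_sq _ _ _
      have := dir_cmp (u := u) (z := y) (r := 4 ^ j * R0 / 2) (A := K * √(4 ^ j * R) + D) a1 b1 hr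
        (fun x hx hx2 => (a2 x (hx.trans (by gcongr))).1 (by linarith))
        (fun x hx hx2 => by
          have g1 : esq (x + y) ≤ (4 ^ j * R0) ^ 2 := by
            have e1 : esq (x + y) = esq x + 2 * (∑ i, x i * y i) + esq y := by
              unfold esq
              rw [Finset.mul_sum, ← Finset.sum_add_distrib, ← Finset.sum_add_distrib]
              refine Finset.sum_congr rfl fun i _ => ?_
              simp; ring
            have g2 : |∑ i, x i * y i| ≤ (4 ^ j * R0 / 2) * D := by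
              apply abs_le_of_sq_le_sq _ (by positivity)
              rw [mul_pow, hDs]
              exact (hcs x).trans (by gcongr)
            have g3 := (abs_le.mp g2).2
            have g4 : D ≤ 4 ^ j * R0 / 2 := by linarith
            have g5 : esq y ≤ (4 ^ j * R0 / 2) ^ 2 := by rw [← hDs]; gcongr
            have g6 : (4 ^ j * R0 / 2) * D ≤ (4 ^ j * R0 / 2) * (4 ^ j * R0 / 2) := by gcongr
            rw [e1]
            nlinarith
          have g7 : |∑ i, E 0 (4 ^ j * R0) i * y i| ≤ D := by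
            apply abs_le_of_sq_le_sq _ hD0
            have := hcs (E 0 (4 ^ j * R0))
            have e2 : esq (E 0 (4 ^ j * R0)) = 1 := b1
            rw [e2, one_mul, ← hDs] at this
            exact this
          have g8 := (abs_le.mp g7).2
          have e3 : ∑ i, E 0 (4 ^ j * R0) i * (x + y) i = ∑ i, E 0 (4 ^ j * R0) i * x i
              + ∑ i, E 0 (4 ^ j * R0) i * y i := by
            rw [← Finset.sum_add_distrib]
            refine Finset.sum_congr rfl fun i _ => ?_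
            simp; ring
          have := (b2 (x + y) g1).2 (by rw [e3]; linarith)
          rwa [add_zero] at this) (by positivity) i
      refine this.trans (le_of_eq ?_)
      rw [hsq]
      have e1 : (4:ℝ) ^ j = 2 ^ j * 2 ^ j := by rw [← mul_pow]; norm_num
      have e3 : ((1:ℝ) / 2) ^ j = 1 / 2 ^ j := by rw [one_div_pow]
      have e4 : ((1:ℝ) / 4) ^ j = 1 / 4 ^ j := by rw [one_div_pow]
      rw [e3, e4, e1]
      have h2j : (0:ℝ) < 2 ^ j := by positivity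
      field_simp
      ring
    have hz : Tendsto (fun j : ℕ => dist (E y (4 ^ j * R)) (E 0 (4 ^ j * R0))) atTop (𝓝 0) := by
      have hb : Tendsto (fun j : ℕ => 4 * K * √R / R0 * (1 / 2 : ℝ) ^ j
          + 4 * D / R0 * (1 / 4 : ℝ) ^ j) atTop (𝓝 (4 * K * √R / R0 * 0 + 4 * D / R0 * 0)) :=
        ((tendsto_pow_atTop_nhds_zero_of_lt_one (by norm_num) (by norm_num)).const_mul _).add
          ((tendsto_pow_atTop_nhds_zero_of_lt_one (by norm_num) (by norm_num)).const_mul _)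
      rw [mul_zero, mul_zero, add_zero] at hb
      exact squeeze_zero' (Eventually.of_forall fun j => dist_nonneg) hev hb
    exact tendsto_nhds_unique t1 ((tendsto_iff_of_dist hz).mpr t0)
  refine ⟨l 0 R0, hunit, fun y hy R hR => ⟨E y R, ?_, (hE y R hy hR).2⟩⟩
  intro i
  have h1 := (hl y R hy hR).2
  rw [same y hy R hR] at h1
  rw [← Real.dist_eq]
  exact (dist_le_pi_dist _ _ i).trans h1

/-- The input of sliding. -/
theorem slide_input {K R0 : ℝ} (hK : 0 < K) (hR0 : 1 ≤ R0) {e : Fin n → ℝ}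
    (h : ∀ y, |u y| ≤ 3 / 4 → ∀ R, R0 ≤ R →
      ∃ e' : Fin n → ℝ, (∀ i, |e' i - e i| ≤ 8 * K / √R) ∧ Gf u K y R e')
    {ν : Fin n → ℝ} (hν : 0 < ∑ i, e i * ν i) : ∃ T : ℝ, 0 ≤ T ∧
      ∀ y, |u y| ≤ 3 / 4 → ∀ t, T ≤ t → 3 / 4 ≤ u (y + t • ν) ∧ u (y + (-t) • ν) ≤ -(3 / 4) := by
  obtain ⟨σ, hσ⟩ : ∃ σ : ℝ, σ = ∑ i, e i * ν i := ⟨_, rfl⟩
  have hσ0 : 0 < σ := by rw [hσ]; exact hν
  have hE0 : 0 ≤ esq ν := Finset.sum_nonneg fun _ _ => sq_nonneg _
  have hEpos : 0 < esq ν := by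
    rcases hE0.eq_or_lt with h1 | h1
    · exfalso
      have h2 : ∀ i, ν i = 0 := by
        intro i
        have h3 : ν i ^ 2 ≤ esq ν := Finset.single_le_sum (f := fun i => ν i ^ 2)
          (fun j _ => sq_nonneg _) (Finset.mem_univ i)
        rw [← h1] at h3
        exact pow_eq_zero_iff (two_ne_zero) |>.mp (le_antisymm h3 (sq_nonneg _))
      rw [hσ] at hσ0
      simp [h2] at hσ0
    · exact h1
  obtain ⟨M, hM⟩ : ∃ M : ℝ, M = √(esq ν) := ⟨_, rfl⟩
  have hM0 : 0 < M := by rw [hM]; exact Real.sqrt_pos.mpr hEpos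
  have hM2 : M ^ 2 = esq ν := by rw [hM]; exact Real.sq_sqrt hE0
  obtain ⟨N, hN⟩ : ∃ N : ℝ, N = ∑ i, |ν i| := ⟨_, rfl⟩
  have hN0 : 0 ≤ N := by rw [hN]; exact Finset.sum_nonneg fun _ _ => abs_nonneg _
  obtain ⟨m, hm⟩ : ∃ m : ℝ, m = √M := ⟨_, rfl⟩
  have hm0 : 0 < m := by rw [hm]; exact Real.sqrt_pos.mpr hM0
  have hm2 : m * m = M := by rw [hm]; exact Real.mul_self_sqrt hM0.le
  obtain ⟨B, hB⟩ : ∃ B : ℝ, B = (8 * K * N / m + K * m) / σ + 1 := ⟨_, rfl⟩
  have hB0 : 0 < B := by rw [hB]; positivity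
  refine ⟨max (R0 / M) (B ^ 2), le_max_of_le_right (by positivity), ?_⟩
  intro y hy t ht
  have ht1 : R0 ≤ t * M := by
    have := (le_max_left _ _).trans ht
    rwa [div_le_iff₀ hM0] at this
  have ht2 : B ^ 2 ≤ t := (le_max_right _ _).trans ht
  have htp : 0 < t := lt_of_lt_of_le (by positivity) ht2
  obtain ⟨s, hs⟩ : ∃ s : ℝ, s = √t := ⟨_, rfl⟩
  have hs0 : 0 < s := by rw [hs]; exact Real.sqrt_pos.mpr htp
  have hs2 : s * s = t := by rw [hs]; exact Real.mul_self_sqrt htp.le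
  have hsB : B ≤ s := by
    rw [hs]; exact Real.le_sqrt_of_sq_le ht2
  have hR : √(t * M) = s * m := by rw [Real.sqrt_mul htp.le, ← hs, ← hm]
  obtain ⟨e', he', hG⟩ := h y hy (t * M) ht1
  rw [hR] at he'
  have hb : |∑ i, e' i * ν i - σ| ≤ 8 * K / (s * m) * N := by
    rw [hσ, ← Finset.sum_sub_distrib, hN, Finset.mul_sum]
    refine (Finset.abs_sum_le_sum_abs _ _).trans (Finset.sum_le_sum fun i _ => ?_)
    have : e' i * ν i - e i * ν i = (e' i - e i) * ν i := by ring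
    rw [this, abs_mul]
    exact mul_le_mul_of_nonneg_right (he' i) (abs_nonneg _)
  have hb1 := (abs_le.mp hb).1
  have hkey : K * (s * m) < t * ∑ i, e' i * ν i := by
    have h1 : t * (σ - 8 * K / (s * m) * N) ≤ t * ∑ i, e' i * ν i := by
      apply mul_le_mul_of_nonneg_left _ htp.le
      linarith
    have h2 : t * (σ - 8 * K / (s * m) * N) = s * (s * σ - 8 * K * N / m) := by
      rw [← hs2]; field_simp
    have h3 : 8 * K * N / m + K * m < s * σ := by
      have h4 : (8 * K * N / m + K * m) / σ < s := by linarith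
      rwa [div_lt_iff₀ hσ0] at h4
    have h5 : s * (K * m) < s * (s * σ - 8 * K * N / m) := by
      apply mul_lt_mul_of_pos_left _ hs0
      linarith
    calc K * (s * m) = s * (K * m) := by ring
      _ < _ := h5
      _ = _ := h2.symm
      _ ≤ _ := h1
  have hesq : ∀ c : ℝ, c ^ 2 = t ^ 2 → esq (c • ν) ≤ (t * M) ^ 2 := by
    intro c hc
    have : esq (c • ν) = c ^ 2 * esq ν := by
      unfold esq; rw [Finset.mul_sum]
      refine Finset.sum_congr rfl fun i _ => ?_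
      simp; ring
    rw [this, hc, ← hM2]
    apply le_of_eq; ring
  have hdot : ∀ c : ℝ, ∑ i, e' i * (c • ν) i = c * ∑ i, e' i * ν i := by
    intro c
    rw [Finset.mul_sum]
    refine Finset.sum_congr rfl fun i _ => ?_
    simp; ring
  constructor
  · have := (hG (t • ν) (hesq t rfl)).1 (by rw [hR, hdot]; exact hkey)
    rwa [add_comm] at this
  · have := (hG ((-t) • ν) (hesq (-t) (by ring))).2 (by rw [hR, hdot]; linarith)
    rwa [add_comm] at this

end Vale.Agent.P134.R2.H561
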