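import Vale.Agent.P134.R2.H561.Rig
import Vale.Agent.P134.H134.Main
import Vale.Agent.P134.H765.Stab
import Vale.Agent.P134.H765.SMP

set_option linter.all false

open MeasureTheory Filter Topology
open scoped InnerProductSpace Laplacian

namespace Vale.Agent.P134.R2.H561

open Vale.Agent.P134 Vale.Agent.P134.SM
open Vale.Agent.P134.H787 (rot LI)
open Vale.Agent.P134.H491 (HypN)
open Vale.Agent.P134.H765 (abs_le_one_of_bdd StableE stabV_of_stableE hypN_of_stable rigid_form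
  gp_eq_tanh dd_smp)

variable {m n k : ℕ}

lemma sum_sq_pos {e : Fin n → ℝ} (he : e ≠ 0) : 0 < ∑ i, e i ^ 2 := by
  apply lt_of_le_of_ne (Finset.sum_nonneg fun _ _ => sq_nonneg _)
  intro h
  apply he
  funext k
  have := (Finset.sum_eq_zero_iff_of_nonneg (fun k _ => sq_nonneg (e k))).mp h.symm k
    (Finset.mem_univ k)
  exact pow_eq_zero_iff (two_ne_zero) |>.mp this

/-- solutions increasing in a direction belong to the class. -/
theorem sh_of_dir {u : (Fin n → ℝ) → ℝ} (hu : Sol u) {e : Fin n → ℝ} (h : ∀ x, 0 < dd e u x) :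
    SH u := by
  have du : Differentiable ℝ u := hu.c2.differentiable (by norm_num)
  have he : e ≠ 0 := by
    rintro rfl
    have := h 0
    simp [dd] at this
  have hpos := sum_sq_pos he
  obtain ⟨β, hβ⟩ : ∃ β : ℝ, β = √(∑ k, e k ^ 2) := ⟨_, rfl⟩
  have hβ0 : 0 < β := by rw [hβ]; exact Real.sqrt_pos.mpr hpos
  have hβ2 : β ^ 2 = ∑ k, e k ^ 2 := by rw [hβ]; exact Real.sq_sqrt hpos.le
  obtain ⟨q⟩ : Nonempty (Fin n) := by
    by_contra hemp
    rw [not_nonempty_iff] at hemp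
    exact he (funext fun i => (hemp.false i).elim)
  obtain ⟨L, hL⟩ := H787.exists_rot q (a := fun k => β⁻¹ * e k) (by
    simp_rw [mul_pow]
    rw [← Finset.mul_sum, ← hβ2]; field_simp)
  obtain ⟨v, hv⟩ : ∃ v : (Fin n → ℝ) → ℝ, v = fun x => u (rot L x) := ⟨_, rfl⟩
  have hvs : Sol v := by rw [hv]; exact H787.Sol.rot hu L
  have hvp : ∀ y, 0 < pd q v y := by
    intro y
    rw [← single_dd, hv, H787.dd_comp_rot (du _), hL]
    have e1 : dd (fun k => β⁻¹ * e k) u (rot L y) = β⁻¹ * dd e u (rot L y) := by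
      unfold dd
      rw [Finset.mul_sum]
      exact Finset.sum_congr rfl fun i _ => by ring
    rw [e1]
    exact mul_pos (inv_pos.mpr hβ0) (h _)
  have h2 := hypN_rot L.symm (HypN.of_mono hvs hvp)
  refine ⟨hu, n * H283.cH n 2, ?_⟩
  have e2 : (fun x => 3 * v (rot L.symm x) ^ 2 - 1) = fun x => 3 * u x ^ 2 - 1 := by
    funext x
    rw [hv]
    simp only [H787.rot_rot_symm]
  rw [← e2]
  exact h2

/-- conclusion in coordinates gives the Euclidean conclusion. -/
theorem tanh_of_defi {u : EuclideanSpace ℝ (Fin n) → ℝ}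
    (hS : Sol (fun y => u (0 + coordMap (EuclideanSpace.basisFun (Fin n) ℝ) y)))
    (hD : ∀ y, defi (fun y => u (0 + coordMap (EuclideanSpace.basisFun (Fin n) ℝ) y)) y = 0) :
    (∀ x, u x = 1) ∨ (∀ x, u x = -1) ∨ ∃ (e : EuclideanSpace ℝ (Fin n)) (c : ℝ), ‖e‖ = 1 ∧
      ∀ x, u x = Real.tanh ((⟪e, x⟫_ℝ - c) / √2) := by
  set b := EuclideanSpace.basisFun (Fin n) ℝ with hbdef
  have hrep : ∀ x, u x = (fun y => u (0 + coordMap b y)) (fun i => ⟪b i, x - 0⟫_ℝ) := fun x => by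
    simp only [coordMap_repr b 0 x]
  rcases rigid_form hS hD with h | h | ⟨ν, hν, -, c, hc⟩
  · exact Or.inl fun x => (hrep x).trans (h _)
  · exact Or.inr (Or.inl fun x => (hrep x).trans (h _))
  · refine Or.inr (Or.inr ⟨∑ i, ν i • b i, -c, ?_, fun x => ?_⟩)
    · have h1 : ‖∑ i, ν i • b i‖ ^ 2 = 1 := by
        rw [← real_inner_self_eq_norm_sq, sum_inner]
        simp_rw [inner_sum, inner_smul_left, inner_smul_right, b.inner_eq_ite]
        simp only [mul_ite, mul_one, mul_zero, Finset.sum_ite_eq, Finset.mem_univ, if_true,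
          conj_trivial]
        rw [← hν]
        refine Finset.sum_congr rfl fun i _ => by ring
      have h2 : 0 ≤ ‖∑ i, ν i • b i‖ := norm_nonneg _
      nlinarith
    · refine ((hrep x).trans (hc _)).trans ?_
      rw [gp_eq_tanh, sub_neg_eq_add]
      congr 3
      rw [sum_inner]
      refine Finset.sum_congr rfl fun i _ => ?_
      rw [inner_smul_left, sub_zero]
      simp

lemma dd_std {u : EuclideanSpace ℝ (Fin n) → ℝ} (du : Differentiable ℝ u)
    (a : EuclideanSpace ℝ (Fin n)) (y : Fin n → ℝ) :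
    dd (fun i => a i) (fun y => u (0 + coordMap (EuclideanSpace.basisFun (Fin n) ℝ) y)) y
      = fderiv ℝ u (0 + coordMap (EuclideanSpace.basisFun (Fin n) ℝ) y) a := by
  rw [← dd_coord du (EuclideanSpace.basisFun (Fin n) ℝ) 0 a y]
  congr 1
  funext i
  rw [EuclideanSpace.basisFun_apply, EuclideanSpace.inner_single_left]
  simp

lemma li_std {a : Fin k → EuclideanSpace ℝ (Fin n)} (ha : LinearIndependent ℝ a) :
    LinearIndependent ℝ (fun i => (fun j => a i j : Fin n → ℝ)) := by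
  have h := ha.map' (EuclideanSpace.equiv (Fin n) ℝ).toLinearEquiv.toLinearMap
    (LinearEquiv.ker _)
  exact h

/-- the sign of the directional derivative of the profile. -/
lemma inner_nonneg_of {u : EuclideanSpace ℝ (Fin n) → ℝ} (hu : Differentiable ℝ u)
    {e : EuclideanSpace ℝ (Fin n)} {c : ℝ} (h : ∀ x, u x = Real.tanh ((⟪e, x⟫_ℝ - c) / √2))
    {a : EuclideanSpace ℝ (Fin n)} (ha : ∀ x, 0 ≤ fderiv ℝ u x a) : 0 ≤ ⟪e, a⟫_ℝ := by
  have h1 : Monotone fun t : ℝ => u (t • a) := by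
    have hd : ∀ t : ℝ, HasDerivAt (fun t : ℝ => u (t • a)) (fderiv ℝ u (t • a) a) t := by
      intro t
      have h3 : HasDerivAt (fun t : ℝ => t • a) a t := by
        simpa using (hasDerivAt_id t).smul_const a
      exact (hu (t • a)).hasFDerivAt.comp_hasDerivAt t h3
    refine monotone_of_deriv_nonneg (fun t => (hd t).differentiableAt) fun t => ?_
    rw [(hd t).deriv]
    exact ha _
  have h4 : u ((0:ℝ) • a) ≤ u ((1:ℝ) • a) := h1 zero_le_one
  rw [h, h] at h4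
  have h5 : ⟪e, (0:ℝ) • a⟫_ℝ - c ≤ ⟪e, (1:ℝ) • a⟫_ℝ - c := H147.g0_strictMono.le_iff_le.mp h4
  rw [zero_smul, one_smul, inner_zero_right] at h5
  linarith

lemma inner_pos_of {u : EuclideanSpace ℝ (Fin n) → ℝ} (hu : Differentiable ℝ u)
    {e : EuclideanSpace ℝ (Fin n)} {c : ℝ} (h : ∀ x, u x = Real.tanh ((⟪e, x⟫_ℝ - c) / √2))
    {a : EuclideanSpace ℝ (Fin n)} (ha : ∀ x, 0 ≤ fderiv ℝ u x a)
    (hx : ∃ x, 0 < fderiv ℝ u x a) : 0 < ⟪e, a⟫_ℝ := by
  refine lt_of_le_of_ne (inner_nonneg_of hu h ha) fun h0 => ?_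
  obtain ⟨x, hx⟩ := hx
  have h1 : HasDerivAt (fun t : ℝ => u (x + t • a)) (fderiv ℝ u (x + (0:ℝ) • a) a) 0 := by
    have h3 : HasDerivAt (fun t : ℝ => x + t • a) a 0 := by
      simpa using ((hasDerivAt_id (0:ℝ)).smul_const a).const_add x
    exact (hu (x + (0:ℝ) • a)).hasFDerivAt.comp_hasDerivAt 0 h3
  have h2 : (fun t : ℝ => u (x + t • a)) = fun _ => u x := by
    funext t
    rw [h, h x, inner_add_right, inner_smul_right, ← h0, mul_zero, add_zero]
  rw [h2] at h1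
  have h3 := h1.unique (hasDerivAt_const (0:ℝ) (u x))
  rw [zero_smul, add_zero] at h3
  rw [h3] at hx
  exact lt_irrefl _ hx

/-- strict positivity everywhere by the strong maximum principle. -/
lemma pos_of_smp {u : EuclideanSpace ℝ (Fin n) → ℝ} (hu : ContDiff ℝ 2 u)
    (heq : ∀ x, Δ u x = u x ^ 3 - u x) (hb : ∀ x, |u x| ≤ 1)
    {a : EuclideanSpace ℝ (Fin n)} (ha : ∀ x, 0 ≤ fderiv ℝ u x a)
    (hx : ∃ x, 0 < fderiv ℝ u x a) (x : EuclideanSpace ℝ (Fin n)) : 0 < fderiv ℝ u x a := by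
  have du : Differentiable ℝ u := hu.differentiable (by norm_num)
  set b := EuclideanSpace.basisFun (Fin n) ℝ with hbdef
  have hsol := sol_of_euclidean hu heq hb b 0
  have hdd : ∀ y, dd (fun i => a i) (fun y => u (0 + coordMap b y)) y
      = fderiv ℝ u (0 + coordMap b y) a := dd_std du a
  have hrep : ∀ x : EuclideanSpace ℝ (Fin n), 0 + coordMap b (fun i => ⟪b i, x - 0⟫_ℝ) = x :=
    fun x => coordMap_repr b 0 x
  refine lt_of_le_of_ne (ha x) fun h0 => ?_
  obtain ⟨z, hz⟩ := hx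
  have h1 := dd_smp (e := fun i => a i) hsol (fun y => by rw [hdd]; exact ha _)
    (x0 := fun i => ⟪b i, x - 0⟫_ℝ) (by rw [hdd, hrep]; exact h0.symm)
    (fun i => ⟪b i, z - 0⟫_ℝ)
  rw [hdd, hrep] at h1
  rw [h1] at hz
  exact lt_irrefl _ hz

/-- **Stable solutions, weakly monotone in all but three directions.** -/
theorem stable_dirs {u : EuclideanSpace ℝ (Fin (m + 3)) → ℝ} (hu : ContDiff ℝ 2 u)
    (heq : ∀ x, Δ u x = u x ^ 3 - u x) (hb : ∃ M : ℝ, ∀ x, |u x| ≤ M) (hs : StableE u)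
    {a : Fin m → EuclideanSpace ℝ (Fin (m + 3))} (hla : LinearIndependent ℝ a)
    (ha : ∀ i x, 0 ≤ fderiv ℝ u x (a i)) :
    (∀ x, u x = 1) ∨ (∀ x, u x = -1) ∨ ∃ (e : EuclideanSpace ℝ (Fin (m + 3))) (c : ℝ), ‖e‖ = 1 ∧
      ∀ x, u x = Real.tanh ((⟪e, x⟫_ℝ - c) / √2) := by
  have hb1 := abs_le_one_of_bdd hu heq hb
  have du : Differentiable ℝ u := hu.differentiable (by norm_num)
  have hsol := sol_of_euclidean hu heq hb1 (EuclideanSpace.basisFun (Fin (m + 3)) ℝ) 0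
  have hst := stabV_of_stableE hs
  exact tanh_of_defi hsol (pph m _ _ ⟨hsol, _, hypN_of_stable hsol hst⟩ (li_std hla)
    fun i y => by rw [dd_std du]; exact ha i _)

/-- **Monotone solutions, weakly monotone in all but three directions.** -/
theorem mono_dirs (hn : n ≤ k + 3) {u : EuclideanSpace ℝ (Fin n) → ℝ} (hu : ContDiff ℝ 2 u)
    (heq : ∀ x, Δ u x = u x ^ 3 - u x) (hb : ∃ M : ℝ, ∀ x, |u x| ≤ M)
    {a : Fin k → EuclideanSpace ℝ (Fin n)} (hla : LinearIndependent ℝ a)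
    (ha : ∀ i x, 0 ≤ fderiv ℝ u x (a i)) {a0 : EuclideanSpace ℝ (Fin n)}
    (ha0 : ∀ x, 0 ≤ fderiv ℝ u x a0) (hx : ∃ x, 0 < fderiv ℝ u x a0) :
    ∃ (e : EuclideanSpace ℝ (Fin n)) (c : ℝ), ‖e‖ = 1 ∧ 0 < ⟪e, a0⟫_ℝ ∧ (∀ i, 0 ≤ ⟪e, a i⟫_ℝ) ∧
      ∀ x, u x = Real.tanh ((⟪e, x⟫_ℝ - c) / √2) := by
  have hb1 := abs_le_one_of_bdd hu heq hb
  have du : Differentiable ℝ u := hu.differentiable (by norm_num)
  have hpos := pos_of_smp hu heq hb1 ha0 hx
  suffices H : ∃ (e : EuclideanSpace ℝ (Fin n)) (c : ℝ), ‖e‖ = 1 ∧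
      ∀ x, u x = Real.tanh ((⟪e, x⟫_ℝ - c) / √2) by
    obtain ⟨e, c, he, hec⟩ := H
    exact ⟨e, c, he, inner_pos_of du hec ha0 hx, fun i => inner_nonneg_of du hec (ha i), hec⟩
  rcases Nat.lt_or_ge n 3 with h3 | h3
  · obtain ⟨e, c, he, -, hec⟩ := H134.mono_of_S3 H134.stS3 (by omega) hu heq hb hpos
    exact ⟨e, c, he, hec⟩
  · obtain ⟨m, rfl⟩ : ∃ m, n = m + 3 := ⟨n - 3, by omega⟩
    have hmk : m ≤ k := by omega
    have hsol := sol_of_euclidean hu heq hb1 (EuclideanSpace.basisFun (Fin (m + 3)) ℝ) 0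
    have hSH := sh_of_dir (e := fun i => a0 i) hsol fun y => by rw [dd_std du]; exact hpos _
    have hli := (li_std hla).comp (Fin.castLE hmk) (Fin.castLE_injective hmk)
    have hD := pph m _ _ hSH hli fun i y => by
      simp only [Function.comp]
      rw [dd_std du]; exact ha _ _
    rcases tanh_of_defi hsol hD with h | h | h
    · exfalso
      have h1 : u = fun _ => 1 := funext h
      have h4 := hpos 0
      rw [h1] at h4
      simp at h4
    · exfalso
      have h1 : u = fun _ => -1 := funext h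
      have h4 := hpos 0
      rw [h1] at h4
      simp at h4
    · exact h

end Vale.Agent.P134.R2.H561
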