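import Vale.Agent.P134.H981.Star
import Vale.Agent.P134.R2.H561.Defs

set_option linter.all false

namespace Vale.Agent.P134.R2.H561

open Vale.Agent.P134 Vale.Agent.P134.SM Vale.Agent.P134.H981 Filter Topology MeasureTheory

variable {m n : ℕ} {u f g : (Fin n → ℝ) → ℝ} {x : Fin n → ℝ}

/-- Standing hypotheses for the block. -/
structure KBn (m : ℕ) (u : (Fin n → ℝ) → ℝ) (C : ℝ) : Prop where
  sol : Sol u
  pos : ∀ x, 0 < gs u x
  C1 : 1 ≤ C
  en : ∀ r, 1 ≤ r → ∫ x in eb n r, psi u x ^ 2 ≤ C * r ^ (m + 3)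
  st : ∀ r, 1 ≤ r → ∫ x in eb n r, wn u x ^ 2 * dn u x ≤ C * r ^ (m + 1)
  de : ∀ r, 1 ≤ r → ∫ x in eb n r, defi u x ≤ C * r ^ (m + 2)
  dg : ∀ r, 1 ≤ r → ∫ x in eb n r, Real.sqrt (gs (defi u) x) ≤ C * r ^ (m + 2)

/-- Step 1.6 (a). -/
theorem step6a {C : ℝ} (hK : KBn m u C) {a : Fin n → ℝ} (ha : ∑ i, a i ^ 2 = 1)
    (hτ : ∀ x, 0 < tau a u x) :
    ∃ C' : ℝ, 1 ≤ C' ∧ ∀ R, 1 ≤ R → ∀ t, 0 < t →
      ∫ x in eb n R ∩ {x | tau a u x ≤ t}, wn u x ^ 2 * gs (tau a u) x ≤ C' * t * R ^ (m + 1) := by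
  obtain ⟨C₀, hC₀1, hC₀⟩ := exists_gs_ct n
  have hu := hK.sol
  have hp := hK.pos
  have hC1 := hK.C1
  obtain ⟨P, hP⟩ : ∃ P : ℝ, P = 2 ^ m := ⟨_, rfl⟩
  have hP1 : 1 ≤ P := by rw [hP]; exact one_le_pow₀ (by norm_num)
  have hCP : 1 ≤ P * C := one_le_mul_of_one_le_of_one_le hP1 hC1
  have hCP' : 1 ≤ P * (C₀ * C) := one_le_mul_of_one_le_of_one_le hP1
    (one_le_mul_of_one_le_of_one_le hC₀1 hC1)
  refine ⟨4 * (4 * (P * C) + 8 * (P * (C₀ * C))), by linarith, fun R hR t ht => ?_⟩
  have hR0 : 0 < R := by linarith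
  set τ := tau a u with hτd
  have cτ : ∀ m : ℕ, ContDiff ℝ m τ := fun m => tau_cd hu hp a m
  have cτ1 : ContDiff ℝ 1 τ := by exact_mod_cast cτ 1
  have cτ2 : ContDiff ℝ 2 τ := by exact_mod_cast cτ 2
  have cw1 : ContDiff ℝ 1 (wn u) := by exact_mod_cast wn_cd hu hp 1
  have cW : ContDiff ℝ 1 (fun x => wn u x ^ 2) := cw1.pow 2
  have cdn := dn_cont hu hp
  have hden : ∀ x, 0 < t + τ x := fun x => by have := hτ x; linarith
  let F : (Fin n → ℝ) → ℝ := fun x => t * τ x / (t + τ x)
  let F' : (Fin n → ℝ) → ℝ := fun x => t ^ 2 / (t + τ x) ^ 2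
  have cF : ContDiff ℝ 1 F := (contDiff_const.mul cτ1).div (contDiff_const.add cτ1)
    fun x => (hden x).ne'
  have cF' : Continuous F' := continuous_const.div ((continuous_const.add cτ1.continuous).pow 2)
    fun x => (pow_pos (hden x) 2).ne'
  have hpF : ∀ k x, pd k F x = F' x * pd k τ x := by
    intro k x
    have d1 : DifferentiableAt ℝ τ x := cτ1.differentiable (by norm_num) x
    have h2 := (hden x).ne'
    simp only [F, F']
    rw [pd_div (d1.const_mul t) (d1.const_add t) h2,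
      pd_mul (f := fun _ => t) (differentiableAt_const _) d1, pd_const,
      pd_add (f := fun _ => t) (differentiableAt_const _) d1, pd_const]
    field_simp
    ring
  have hF0 : ∀ x, 0 ≤ F x := fun x => by
    have := (hτ x).le; have := hden x; simp only [F]; positivity
  have hFt : ∀ x, F x ≤ t := fun x => by
    simp only [F]
    rw [div_le_iff₀ (hden x)]; nlinarith [hτ x]
  have key := trunc_test cW cτ2 (fun x => Sol.div_tau hu (hp x) a)
    (Q := fun x => -(wn u x ^ 2 * dn u x * tau a u x))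
    (((cW.continuous.mul cdn).mul cτ1.continuous).neg) cF cF' hpF (ct_c1 R) (ct_hcs hR0)
  -- left side
  have l1 : (1/4) * ∫ x in eb n R ∩ {x | τ x ≤ t}, wn u x ^ 2 * gs τ x
      ≤ ∫ x, F' x * (wn u x ^ 2 * gs τ x) * ct R x ^ 2 := by
    refine low_le (E := fun x => F' x * (wn u x ^ 2 * gs τ x)) (cW.continuous.mul (gs_cont cτ1))
      (fun x => mul_nonneg (sq_nonneg _) (gs_nonneg _ _))
      (cF'.mul (cW.continuous.mul (gs_cont cτ1)))
      (fun x => mul_nonneg (by simp only [F']; positivity)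
        (mul_nonneg (sq_nonneg _) (gs_nonneg _ _)))
      (measurableSet_le cτ1.continuous.measurable measurable_const) hR0 ?_
    intro x hx
    refine mul_le_mul_of_nonneg_right ?_ (mul_nonneg (sq_nonneg _) (gs_nonneg _ _))
    simp only [F']
    rw [div_le_div_iff₀ (by norm_num) (pow_pos (hden x) 2)]
    have h1 : τ x ≤ t := hx.2
    have h2 := (hτ x).le
    nlinarith [hτ x]
  -- right side
  have r1 : - ∫ x, (-(wn u x ^ 2 * dn u x * tau a u x)) * F x * ct R x ^ 2
      ≤ ∫ x in eb n (2 * R), t * (wn u x ^ 2 * dn u x) := by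
    rw [← integral_neg]
    have hcont : Continuous (fun x => -(-(wn u x ^ 2 * dn u x * tau a u x) * F x * ct R x ^ 2)) :=
      ((((cW.continuous.mul cdn).mul cτ1.continuous).neg.mul cF.continuous).mul
        ((ct_c1 (n := n) R).continuous.pow 2)).neg
    refine int_le_eb (G := fun x => t * (wn u x ^ 2 * dn u x))
      (continuous_const.mul (cW.continuous.mul cdn)) ?_ ?_ ?_
    · exact hcont.integrable_of_hasCompactSupport
        ((HasCompactSupport.mul_left (hcs_sq (ct_hcs hR0))).neg)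
    · intro x hx
      rw [ct_zero hR0 hx]; ring
    · intro x _
      have h1 := abs_le.mp (tau_le_one (hp x) ha)
      have h2 := (hτ x).le
      have h3 : 0 ≤ wn u x ^ 2 * dn u x := mul_nonneg (sq_nonneg _) (dn_nonneg _ _)
      have h4 := ct_nonneg R x
      have h5 := ct_le_one R x
      have h6 : ct R x ^ 2 ≤ 1 := pow_le_one₀ h4 h5
      have e : -(-(wn u x ^ 2 * dn u x * tau a u x) * F x * ct R x ^ 2)
          = (wn u x ^ 2 * dn u x) * (tau a u x * F x * ct R x ^ 2) := by ring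
      rw [e, mul_comm t]
      refine mul_le_mul_of_nonneg_left ?_ h3
      calc tau a u x * F x * ct R x ^ 2 ≤ 1 * t * 1 := by
            have := hF0 x; have := hFt x; have := h1.2
            gcongr
        _ = t := by ring
  have r2 := cross_le hC₀ (W := fun x => wn u x ^ 2) (f := τ) (F := F) cW.continuous
    (fun x => sq_nonneg _) cτ1 cF.continuous (L := t)
    (fun x => by rw [abs_of_nonneg (hF0 x)]; exact hFt x) hR0 (l := 1) one_pos
  have h2R : (1:ℝ) ≤ 2 * R := by linarith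
  have s1 := hK.st (2 * R) h2R
  have s2 := hK.en (2 * R) h2R
  have r1' : ∫ x in eb n (2 * R), t * (wn u x ^ 2 * dn u x) ≤ t * (C * (2 * R) ^ (m + 1)) := by
    rw [integral_const_mul]; gcongr
  have iN : IntegrableOn (fun x => wn u x ^ 2 * dn u x) (eb n (2 * R)) :=
    int_on_eb (cW.continuous.mul cdn) _
  have iψ : IntegrableOn (fun x => psi u x ^ 2) (eb n (2 * R)) :=
    int_on_eb (hu.psi_contDiff.continuous.pow 2) _
  have r2' : ∫ x in eb n (2 * R), t * (1 * (wn u x ^ 2 * gs τ x)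
      + (1:ℝ)⁻¹ * (wn u x ^ 2 * (C₀ / R ^ 2))) ≤ t * (C * (2 * R) ^ (m + 1) + (C₀ / R ^ 2) * (C * (2 * R) ^ (m + 3))) := by
    calc ∫ x in eb n (2 * R), t * (1 * (wn u x ^ 2 * gs τ x)
          + (1:ℝ)⁻¹ * (wn u x ^ 2 * (C₀ / R ^ 2)))
        ≤ ∫ x in eb n (2 * R), t * (wn u x ^ 2 * dn u x + (C₀ / R ^ 2) * psi u x ^ 2) := by
          refine setIntegral_mono_on ?_ ((iN.add (iψ.const_mul _)).const_mul _) (meas_eb _) ?_
          · exact int_on_eb (continuous_const.mul ((continuous_const.mul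
              (cW.continuous.mul (gs_cont cτ1))).add (continuous_const.mul
                (cW.continuous.mul continuous_const)))) _
          · intro x _
            refine mul_le_mul_of_nonneg_left ?_ ht.le
            have h1 : wn u x ^ 2 * gs τ x ≤ wn u x ^ 2 * dn u x :=
              mul_le_mul_of_nonneg_left (gs_tau_le hu (hp x) ha) (sq_nonneg _)
            have h2 : wn u x ^ 2 ≤ psi u x ^ 2 := by
              rw [wn_sq]; have := two_gs_le hu x; have := gs_nonneg u x; linarith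
            have h3 : wn u x ^ 2 * (C₀ / R ^ 2) ≤ (C₀ / R ^ 2) * psi u x ^ 2 := by
              rw [mul_comm]; exact mul_le_mul_of_nonneg_left h2 (by positivity)
            simp only [one_mul, inv_one]
            linarith
      _ = t * ((∫ x in eb n (2 * R), wn u x ^ 2 * dn u x)
          + (C₀ / R ^ 2) * ∫ x in eb n (2 * R), psi u x ^ 2) := by
          rw [integral_const_mul, integral_add iN (iψ.const_mul _), integral_const_mul]
      _ ≤ _ := by gcongr
  have e3 : (C₀ / R ^ 2) * (C * (2 * R) ^ (m + 3)) = 8 * (P * (C₀ * C)) * R ^ (m + 1) := by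
    rw [mul_pow, hP, pow_add 2 m 3]; field_simp; ring
  have e4 : C * (2 * R) ^ (m + 1) = 2 * (P * C) * R ^ (m + 1) := by
    rw [mul_pow, hP, pow_succ 2 m]; ring
  rw [e3, e4] at r2'
  rw [e4] at r1'
  have tot : (1/4) * ∫ x in eb n R ∩ {x | τ x ≤ t}, wn u x ^ 2 * gs τ x
      ≤ t * (2 * (P * C) * R ^ (m + 1))
        + t * (2 * (P * C) * R ^ (m + 1) + 8 * (P * (C₀ * C)) * R ^ (m + 1)) := by
    linarith
  calc _ ≤ 4 * (t * (2 * (P * C) * R ^ (m + 1))
        + t * (2 * (P * C) * R ^ (m + 1) + 8 * (P * (C₀ * C)) * R ^ (m + 1))) := by linarith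
    _ = _ := by ring

/-- Step 1.6 (b). -/
theorem step6b {C : ℝ} (hK : KBn m u C) :
    ∃ C' : ℝ, 1 ≤ C' ∧ ∀ R, 1 ≤ R → ∀ ε, 0 < ε →
      ∫ x in eb n R ∩ {x | |kap u x| ≤ ε * R}, wn u x ^ 2 * gs (kap u) x ≤ C' * ε * R ^ (m + 3) := by
  obtain ⟨C₀, hC₀1, hC₀⟩ := exists_gs_ct n
  have hu := hK.sol
  have hp := hK.pos
  have hC1 := hK.C1
  obtain ⟨P, hP⟩ : ∃ P : ℝ, P = 2 ^ m := ⟨_, rfl⟩
  have hP1 : 1 ≤ P := by rw [hP]; exact one_le_pow₀ (by norm_num)
  have hCP : 1 ≤ P * C := one_le_mul_of_one_le_of_one_le hP1 hC1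
  have hCP' : 1 ≤ P * (C₀ * C) := one_le_mul_of_one_le_of_one_le hP1
    (one_le_mul_of_one_le_of_one_le hC₀1 hC1)
  refine ⟨2 * (64 * (P * C) + 2 * (80 * (P * C) + 8 * (P * (C₀ * C)))), by linarith,
    fun R hR ε hε => ?_⟩
  have q1 : C * (2 * R) ^ (m + 1) = 2 * (P * C) * R ^ (m + 1) := by
    rw [mul_pow, hP, pow_succ 2 m]; ring
  have q2 : C * (2 * R) ^ (m + 2) = 4 * (P * C) * R ^ (m + 2) := by
    rw [mul_pow, hP, pow_add 2 m 2]; ring
  have q3 : C * (2 * R) ^ (m + 3) = 8 * (P * C) * R ^ (m + 3) := by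
    rw [mul_pow, hP, pow_add 2 m 3]; ring
  have hR0 : 0 < R := by linarith
  set L : ℝ := ε * R with hLd
  have hL0 : 0 < L := by positivity
  set κ := kap u with hκd
  have cκ1 : ContDiff ℝ 1 κ := by exact_mod_cast kap_cd hu hp 1
  have cκ2 : ContDiff ℝ 2 κ := by exact_mod_cast kap_cd hu hp 2
  have cw1 : ContDiff ℝ 1 (wn u) := by exact_mod_cast wn_cd hu hp 1
  have cW : ContDiff ℝ 1 (fun x => wn u x ^ 2) := cw1.pow 2
  have cdn := dn_cont hu hp
  have cQ : Continuous (Qk u) := by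
    unfold Qk
    exact continuous_finsetSum _ fun k _ =>
      continuous_pd (cW.mul (contDiff_pd_one cκ2))
  let F : (Fin n → ℝ) → ℝ := fun x => L * Real.arctan (κ x / L)
  let F' : (Fin n → ℝ) → ℝ := fun x => 1 / (1 + (κ x / L) ^ 2)
  have hden : ∀ x, 0 < 1 + (κ x / L) ^ 2 := fun x => by positivity
  have cF : ContDiff ℝ 1 F := contDiff_const.mul (Real.contDiff_arctan.comp (cκ1.div_const L))
  have cF' : Continuous F' := continuous_const.div
    (continuous_const.add ((cκ1.continuous.div_const L).pow 2)) fun x => (hden x).ne'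
  have hpF : ∀ k x, pd k F x = F' x * pd k κ x := by
    intro k x
    have d1 : DifferentiableAt ℝ κ x := cκ1.differentiable (by norm_num) x
    have hg : HasDerivAt (fun t : ℝ => L * Real.arctan (t / L))
        (L * (1 / (1 + (κ x / L) ^ 2) * (1 / L))) (κ x) := by
      have h1 : HasDerivAt (fun t : ℝ => t / L) (1 / L) (κ x) := (hasDerivAt_id _).div_const L
      exact ((Real.hasDerivAt_arctan _).comp (κ x) h1).const_mul L
    have e : F = fun y => (fun t : ℝ => L * Real.arctan (t / L)) (κ y) := rfl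
    rw [e, pd_comp hg.differentiableAt d1, hg.deriv]
    simp only [F']
    field_simp
  have hFL : ∀ x, |F x| ≤ 2 * L := fun x => by
    simp only [F]
    rw [abs_mul, abs_of_pos hL0, mul_comm]
    refine mul_le_mul_of_nonneg_right ?_ hL0.le
    rw [abs_le]
    have h1 := Real.neg_pi_div_two_lt_arctan (κ x / L)
    have h2 := Real.arctan_lt_pi_div_two (κ x / L)
    have h3 := Real.pi_le_four
    constructor <;> linarith
  have key := trunc_test cW cκ2 (fun x => rfl) (Q := Qk u) cQ cF cF' hpF (ct_c1 R) (ct_hcs hR0)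
  have l1 : (1/2) * ∫ x in eb n R ∩ {x | |κ x| ≤ L}, wn u x ^ 2 * gs κ x
      ≤ ∫ x, F' x * (wn u x ^ 2 * gs κ x) * ct R x ^ 2 := by
    refine low_le (E := fun x => F' x * (wn u x ^ 2 * gs κ x)) (cW.continuous.mul (gs_cont cκ1))
      (fun x => mul_nonneg (sq_nonneg _) (gs_nonneg _ _))
      (cF'.mul (cW.continuous.mul (gs_cont cκ1)))
      (fun x => mul_nonneg (by simp only [F']; positivity)
        (mul_nonneg (sq_nonneg _) (gs_nonneg _ _)))
      (measurableSet_le (continuous_abs.comp cκ1.continuous).measurable measurable_const) hR0 ?_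
    intro x hx
    refine mul_le_mul_of_nonneg_right ?_ (mul_nonneg (sq_nonneg _) (gs_nonneg _ _))
    simp only [F']
    have h1 : |κ x| ≤ L := hx.2
    have h2 : (κ x / L) ^ 2 ≤ 1 := by
      rw [div_pow, div_le_one (by positivity), ← sq_abs (κ x)]
      gcongr
    exact one_div_le_one_div_of_le (hden x) (by linarith)
  have h2R : (1:ℝ) ≤ 2 * R := by linarith
  have s1 := hK.st (2 * R) h2R
  have s2 := hK.en (2 * R) h2R
  have s3 := hK.de (2 * R) h2R
  have s4 := hK.dg (2 * R) h2R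
  have cgd : Continuous (fun x => Real.sqrt (gs (defi u) x)) :=
    Real.continuous_sqrt.comp (gs_cont ((Sol.defi_c2 hu).of_le (by norm_num)))
  have iN : IntegrableOn (fun x => wn u x ^ 2 * dn u x) (eb n (2 * R)) :=
    int_on_eb (cW.continuous.mul cdn) _
  have iψ : IntegrableOn (fun x => psi u x ^ 2) (eb n (2 * R)) :=
    int_on_eb (hu.psi_contDiff.continuous.pow 2) _
  have iD : IntegrableOn (defi u) (eb n (2 * R)) := int_on_eb hu.defi_continuous _
  have iG : IntegrableOn (fun x => Real.sqrt (gs (defi u) x)) (eb n (2 * R)) := int_on_eb cgd _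
  -- right side, first term
  have r1 : - ∫ x, Qk u x * F x * ct R x ^ 2 ≤ ∫ x in eb n (2 * R), 2 * L * |Qk u x| := by
    rw [← integral_neg]
    have hcont : Continuous (fun x => -(Qk u x * F x * ct R x ^ 2)) :=
      ((cQ.mul cF.continuous).mul ((ct_c1 (n := n) R).continuous.pow 2)).neg
    refine int_le_eb (G := fun x => 2 * L * |Qk u x|)
      (continuous_const.mul (continuous_abs.comp cQ)) ?_ ?_ ?_
    · exact hcont.integrable_of_hasCompactSupport
        ((HasCompactSupport.mul_left (hcs_sq (ct_hcs hR0))).neg)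
    · intro x hx
      rw [ct_zero hR0 hx]; ring
    · intro x _
      have h4 := ct_nonneg R x
      have h5 := ct_le_one R x
      have h6 : ct R x ^ 2 ≤ 1 := pow_le_one₀ h4 h5
      calc -(Qk u x * F x * ct R x ^ 2) ≤ |Qk u x * F x * ct R x ^ 2| := neg_le_abs _
        _ = |Qk u x| * |F x| * ct R x ^ 2 := by
          rw [abs_mul, abs_mul, abs_of_nonneg (sq_nonneg (ct R x))]
        _ ≤ |Qk u x| * (2 * L) * 1 := by have := hFL x; gcongr
        _ = 2 * L * |Qk u x| := by ring
  have r1' : ∫ x in eb n (2 * R), 2 * L * |Qk u x| ≤ 2 * L * (32 * (P * C) * R ^ (m + 2)) := by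
    rw [integral_const_mul]
    refine mul_le_mul_of_nonneg_left ?_ (by positivity)
    calc ∫ x in eb n (2 * R), |Qk u x|
        ≤ ∫ x in eb n (2 * R), (6 * defi u x + (2 * R) * (wn u x ^ 2 * dn u x)
            + Real.sqrt (gs (defi u) x)) := by
          refine setIntegral_mono_on (int_on_eb (continuous_abs.comp cQ) _)
            (((iD.const_mul 6).add (iN.const_mul _)).add iG) (meas_eb _) ?_
          intro x hx
          have h1 := abs_Qk_le hu (hp x)
          have h2 : |vs u x| ≤ 2 * R := by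
            have h3 := vs_sq_le (x := x) (hp x)
            have h4 : rho Finset.univ x ≤ (2 * R) ^ 2 := hx
            exact abs_le_of_sq_le_sq (h3.trans h4) (by positivity)
          have h5 : wn u x ^ 2 * dn u x * |vs u x| ≤ (2 * R) * (wn u x ^ 2 * dn u x) := by
            rw [mul_comm]
            exact mul_le_mul_of_nonneg_right h2 (mul_nonneg (sq_nonneg _) (dn_nonneg _ _))
          linarith
      _ = 6 * (∫ x in eb n (2 * R), defi u x) + (2 * R) * (∫ x in eb n (2 * R), wn u x ^ 2 * dn u x)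
            + ∫ x in eb n (2 * R), Real.sqrt (gs (defi u) x) := by
          have j1 : IntegrableOn (fun x => 6 * defi u x + 2 * R * (wn u x ^ 2 * dn u x))
              (eb n (2 * R)) := (iD.const_mul 6).add (iN.const_mul _)
          rw [integral_add j1 iG, integral_add (iD.const_mul 6) (iN.const_mul _),
            integral_const_mul, integral_const_mul]
      _ ≤ 6 * (C * (2 * R) ^ (m + 2)) + (2 * R) * (C * (2 * R) ^ (m + 1)) + C * (2 * R) ^ (m + 2) := by gcongr
      _ = 32 * (P * C) * R ^ (m + 2) := by rw [q1, q2]; ring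
  have r2 := cross_le hC₀ (W := fun x => wn u x ^ 2) (f := κ) (F := F) cW.continuous
    (fun x => sq_nonneg _) cκ1 cF.continuous (L := 2 * L) hFL hR0 (l := R⁻¹) (by positivity)
  have r2' : ∫ x in eb n (2 * R), 2 * L * (R⁻¹ * (wn u x ^ 2 * gs κ x)
      + (R⁻¹)⁻¹ * (wn u x ^ 2 * (C₀ / R ^ 2)))
      ≤ 2 * L * (R⁻¹ * (6 * (C * (2 * R) ^ (m + 3)) + 16 * R ^ 2 * (C * (2 * R) ^ (m + 1)))
        + (C₀ / R) * (C * (2 * R) ^ (m + 3))) := by
    calc ∫ x in eb n (2 * R), 2 * L * (R⁻¹ * (wn u x ^ 2 * gs κ x)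
          + (R⁻¹)⁻¹ * (wn u x ^ 2 * (C₀ / R ^ 2)))
        ≤ ∫ x in eb n (2 * R), 2 * L * ((R⁻¹ * (16 * R ^ 2)) * (wn u x ^ 2 * dn u x)
            + (R⁻¹ * 6 + C₀ / R) * psi u x ^ 2) := by
          refine setIntegral_mono_on ?_ (((iN.const_mul _).add (iψ.const_mul _)).const_mul _)
            (meas_eb _) ?_
          · exact int_on_eb (continuous_const.mul ((continuous_const.mul
              (cW.continuous.mul (gs_cont cκ1))).add (continuous_const.mul
                (cW.continuous.mul continuous_const)))) _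
          · intro x hx
            refine mul_le_mul_of_nonneg_left ?_ (by positivity)
            have h4 : rho Finset.univ x ≤ (2 * R) ^ 2 := hx
            have h4' : ∑ i, x i ^ 2 ≤ 4 * R ^ 2 := by
              have : rho Finset.univ x = ∑ i, x i ^ 2 := rfl
              rw [← this]; linarith
            have hd := dn_nonneg u x
            have h1 : gs κ x ≤ 6 + 16 * R ^ 2 * dn u x := by
              have := gs_kap_le hu (hp x)
              have h5 : 4 * (∑ i, x i ^ 2) * dn u x ≤ 16 * R ^ 2 * dn u x := by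
                refine mul_le_mul_of_nonneg_right ?_ hd; linarith
              linarith
            have h2 := wn_sq_le hu x
            have h3 : wn u x ^ 2 * gs κ x ≤ 6 * psi u x ^ 2 + 16 * R ^ 2 * (wn u x ^ 2 * dn u x) := by
              calc wn u x ^ 2 * gs κ x ≤ wn u x ^ 2 * (6 + 16 * R ^ 2 * dn u x) :=
                    mul_le_mul_of_nonneg_left h1 (sq_nonneg _)
                _ = 6 * wn u x ^ 2 + 16 * R ^ 2 * (wn u x ^ 2 * dn u x) := by ring
                _ ≤ _ := by linarith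
            have h6 : (R⁻¹)⁻¹ * (wn u x ^ 2 * (C₀ / R ^ 2)) ≤ (C₀ / R) * psi u x ^ 2 := by
              have : (R⁻¹)⁻¹ * (wn u x ^ 2 * (C₀ / R ^ 2)) = (C₀ / R) * wn u x ^ 2 := by
                field_simp
              rw [this]
              exact mul_le_mul_of_nonneg_left h2 (by positivity)
            have h7 : R⁻¹ * (wn u x ^ 2 * gs κ x)
                ≤ R⁻¹ * (6 * psi u x ^ 2 + 16 * R ^ 2 * (wn u x ^ 2 * dn u x)) :=
              mul_le_mul_of_nonneg_left h3 (by positivity)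
            have h8 : (R⁻¹ * (16 * R ^ 2)) * (wn u x ^ 2 * dn u x) + (R⁻¹ * 6 + C₀ / R) * psi u x ^ 2
                = R⁻¹ * (6 * psi u x ^ 2 + 16 * R ^ 2 * (wn u x ^ 2 * dn u x))
                  + (C₀ / R) * psi u x ^ 2 := by ring

            rw [h8]
            exact add_le_add h7 h6
      _ = 2 * L * ((R⁻¹ * (16 * R ^ 2)) * (∫ x in eb n (2 * R), wn u x ^ 2 * dn u x)
            + (R⁻¹ * 6 + C₀ / R) * ∫ x in eb n (2 * R), psi u x ^ 2) := by
          rw [integral_const_mul, integral_add (iN.const_mul _) (iψ.const_mul _),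
            integral_const_mul, integral_const_mul]
      _ ≤ 2 * L * ((R⁻¹ * (16 * R ^ 2)) * (C * (2 * R) ^ (m + 1))
          + (R⁻¹ * 6 + C₀ / R) * (C * (2 * R) ^ (m + 3))) := by
          gcongr
      _ = _ := by ring
  have e3 : R⁻¹ * (6 * (C * (2 * R) ^ (m + 3)) + 16 * R ^ 2 * (C * (2 * R) ^ (m + 1))) + (C₀ / R) * (C * (2 * R) ^ (m + 3))
      = (80 * (P * C) + 8 * (P * (C₀ * C))) * R ^ (m + 2) := by rw [q1, q3]; field_simp; ring
  rw [e3] at r2'
  have tot : (1/2) * ∫ x in eb n R ∩ {x | |κ x| ≤ L}, wn u x ^ 2 * gs κ x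
      ≤ 2 * L * (32 * (P * C) * R ^ (m + 2))
        + 2 * L * ((80 * (P * C) + 8 * (P * (C₀ * C))) * R ^ (m + 2)) := by
    linarith
  rw [hLd] at tot ⊢
  calc _ ≤ 2 * (2 * (ε * R) * (32 * (P * C) * R ^ (m + 2))
        + 2 * (ε * R) * ((80 * (P * C) + 8 * (P * (C₀ * C))) * R ^ (m + 2))) := by linarith
    _ = _ := by ring

/-- Step 1.5. -/
theorem step5 {C : ℝ} (hK : KBn m u C) {a : Fin n → ℝ} (ha : ∑ i, a i ^ 2 = 1)
    (hτ : ∀ x, 0 < tau a u x) :
    ∃ C' : ℝ, 1 ≤ C' ∧ ∀ R, 1 ≤ R → ∀ ε, 0 ≤ ε → ∫ x in eb n (2 * R), rd u x ^ 2 ≤ ε * R ^ (m + 5) →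
      ∫ x in eb n R, (wn u x ^ 2 * dn u x) * tau a u x ≤ C' * Real.sqrt ε * R ^ (m + 1) := by
  obtain ⟨C₁, hC₁, hd1, hd2⟩ := exists_ddth_bound
  have hu := hK.sol
  have hp := hK.pos
  have hC1 := hK.C1
  have hC0 : 0 ≤ C := by linarith
  have hn0 : (0:ℝ) ≤ n := Nat.cast_nonneg n
  obtain ⟨P, hP⟩ : ∃ P : ℝ, P = 2 ^ m := ⟨_, rfl⟩
  have hP0 : 0 ≤ P := by rw [hP]; positivity
  refine ⟨2 * C₁ * Real.sqrt (2 * n * C * P) + 4 * C₁ * Real.sqrt (32 * C * P) + 1, ?_,
    fun R hR ε hε hs => ?_⟩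
  · have := Real.sqrt_nonneg (2 * n * C)
    have := Real.sqrt_nonneg (32 * C)
    have : 0 ≤ 2 * C₁ * Real.sqrt (2 * n * C * P) := by positivity
    have : 0 ≤ 4 * C₁ * Real.sqrt (32 * C * P) := by positivity
    linarith
  have hR0 : 0 < R := by linarith
  have h2R : (1:ℝ) ≤ 2 * R := by linarith
  have cτ1 : ContDiff ℝ 1 (tau a u) := by exact_mod_cast tau_cd hu hp a 1
  have cw1 : ContDiff ℝ 1 (wn u) := by exact_mod_cast wn_cd hu hp 1
  have cdn := dn_cont hu hp
  have crd : Continuous (rd u) := (Sol.rd_c2 hu).continuous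
  have cmc : Continuous (mc u) := by
    unfold mc
    exact continuous_finsetSum _ fun i _ => continuous_pd (by exact_mod_cast nu_cd hu hp i 1)
  have cN : Continuous (fun x => (wn u x ^ 2 * dn u x) * tau a u x) :=
    ((cw1.continuous.pow 2).mul cdn).mul cτ1.continuous
  have s1 := hK.st (2 * R) h2R
  have s2 := hK.en (2 * R) h2R
  have hA : ∫ x in eb n (2 * R), rd u x ^ 2 ≤ Real.sqrt (ε * R ^ (m + 5)) ^ 2 := by
    rw [Real.sq_sqrt (by positivity)]; exact hs
  -- `I1`
  have b1 : ∫ x in eb n (2 * R), |rd u x| * |wn u x * mc u x|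
      ≤ Real.sqrt (ε * R ^ (m + 5)) * Real.sqrt ((2 * n * C * P) * R ^ (m + 1)) := by
    refine cs_eb crd (cw1.continuous.mul cmc) (r := 2 * R) (subset_refl _) (Real.sqrt_nonneg _)
      (Real.sqrt_nonneg _) hA ?_
    rw [Real.sq_sqrt (by positivity)]
    calc ∫ x in eb n (2 * R), (wn u x * mc u x) ^ 2
        ≤ ∫ x in eb n (2 * R), n * (wn u x ^ 2 * dn u x) := by
          refine setIntegral_mono_on (int_on_eb ((cw1.continuous.mul cmc).pow 2) _)
            ((int_on_eb ((cw1.continuous.pow 2).mul cdn) _).const_mul _) (meas_eb _) ?_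
          intro x _
          have := mc_sq_le' hu (hp x)
          nlinarith [sq_nonneg (wn u x)]
      _ = n * ∫ x in eb n (2 * R), wn u x ^ 2 * dn u x := integral_const_mul _ _
      _ ≤ n * (C * (2 * R) ^ (m + 1)) := by gcongr
      _ = (2 * n * C * P) * R ^ (m + 1) := by rw [mul_pow, hP, pow_succ 2 m]; ring
  have b2 : ∫ x in eb n (2 * R), |rd u x| * |2 * R * wn u x|
      ≤ Real.sqrt (ε * R ^ (m + 5)) * Real.sqrt ((32 * C * P) * R ^ (m + 5)) := by
    refine cs_eb crd (continuous_const.mul cw1.continuous) (r := 2 * R) (subset_refl _)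
      (Real.sqrt_nonneg _) (Real.sqrt_nonneg _) hA ?_
    rw [Real.sq_sqrt (by positivity)]
    calc ∫ x in eb n (2 * R), (2 * R * wn u x) ^ 2
        ≤ ∫ x in eb n (2 * R), (4 * R ^ 2) * psi u x ^ 2 := by
          refine setIntegral_mono_on (int_on_eb ((continuous_const.mul cw1.continuous).pow 2) _)
            ((int_on_eb (hu.psi_contDiff.continuous.pow 2) _).const_mul _) (meas_eb _) ?_
          intro x _
          have := wn_sq_le hu x
          nlinarith [sq_nonneg R]
      _ = (4 * R ^ 2) * ∫ x in eb n (2 * R), psi u x ^ 2 := integral_const_mul _ _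
      _ ≤ (4 * R ^ 2) * (C * (2 * R) ^ (m + 3)) := by gcongr
      _ = (32 * C * P) * R ^ (m + 5) := by rw [mul_pow, hP, pow_add 2 m 3]; ring
  have b1' : Real.sqrt (ε * R ^ (m + 5)) * Real.sqrt ((2 * n * C * P) * R ^ (m + 1))
      = Real.sqrt ε * Real.sqrt (2 * n * C * P) * R ^ (m + 3) :=
    sqrt_aux hε (by positivity) hR0.le (by ring)
  have b2' : Real.sqrt (ε * R ^ (m + 5)) * Real.sqrt ((32 * C * P) * R ^ (m + 5))
      = Real.sqrt ε * Real.sqrt (32 * C * P) * R ^ (m + 5) :=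
    sqrt_aux hε (by positivity) hR0.le (by ring)
  rw [b1'] at b1
  rw [b2'] at b2
  have cp1 := (p1_c1 (n := n) R).continuous
  have cp2 := p2_cont (n := n) R
  have I1 : ∫ x, rd u x * (tau a u x * (wn u x * mc u x)) * p1 R x
      ≤ C₁ * (Real.sqrt ε * Real.sqrt (2 * n * C * P) * R ^ (m + 3)) := by
    have hle : ∫ x, rd u x * (tau a u x * (wn u x * mc u x)) * p1 R x
        ≤ ∫ x in eb n (2 * R), C₁ * (|rd u x| * |wn u x * mc u x|) := by
      refine int_le_eb (G := fun x => C₁ * (|rd u x| * |wn u x * mc u x|))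
        (continuous_const.mul ((continuous_abs.comp crd).mul
          (continuous_abs.comp (cw1.continuous.mul cmc)))) ?_ ?_ ?_
      · exact ((crd.mul (cτ1.continuous.mul (cw1.continuous.mul cmc))).mul
          cp1).integrable_of_hasCompactSupport (p1_hcs hR0).mul_left
      · intro x hx; rw [p1_zero hR0 hx]; ring
      · intro x _
        have h1 := tau_le_one (hp x) ha
        have h2 : |p1 R x| ≤ C₁ := hd1 _
        calc rd u x * (tau a u x * (wn u x * mc u x)) * p1 R x
            ≤ |rd u x * (tau a u x * (wn u x * mc u x)) * p1 R x| := le_abs_self _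
          _ = |rd u x| * (|tau a u x| * |wn u x * mc u x|) * |p1 R x| := by
            rw [abs_mul, abs_mul, abs_mul (tau a u x)]
          _ ≤ |rd u x| * (1 * |wn u x * mc u x|) * C₁ := by gcongr
          _ = C₁ * (|rd u x| * |wn u x * mc u x|) := by ring
    rw [integral_const_mul] at hle
    exact hle.trans (by gcongr)
  have I2 : - ∫ x, rd u x * (∑ k, Vf a u k x * x k) * p2 R x
      ≤ C₁ * (Real.sqrt ε * Real.sqrt (32 * C * P) * R ^ (m + 5)) := by
    have cV : Continuous (fun x => ∑ k, Vf a u k x * x k) :=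
      continuous_finsetSum _ fun k _ => (Vf_c1 hu hp a k).continuous.mul (continuous_apply k)
    have hle : - ∫ x, rd u x * (∑ k, Vf a u k x * x k) * p2 R x
        ≤ ∫ x in eb n (2 * R), C₁ * (|rd u x| * |2 * R * wn u x|) := by
      rw [← integral_neg]
      refine int_le_eb (G := fun x => C₁ * (|rd u x| * |2 * R * wn u x|))
        (continuous_const.mul ((continuous_abs.comp crd).mul
          (continuous_abs.comp (continuous_const.mul cw1.continuous)))) ?_ ?_ ?_
      · exact ((crd.mul cV).mul cp2).neg.integrable_of_hasCompactSupport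
          ((p2_hcs hR0).mul_left).neg
      · intro x hx; rw [p2_zero hR0 hx]; ring
      · intro x hx
        have h2 : |p2 R x| ≤ C₁ := hd2 _
        have hw := wn_nonneg u x
        have h3 : |∑ k, Vf a u k x * x k| ≤ |2 * R * wn u x| := by
          rw [abs_of_nonneg (show 0 ≤ 2 * R * wn u x by positivity)]
          apply abs_le_of_sq_le_sq _ (by positivity)
          have h4 := Finset.sum_mul_sq_le_sq_mul_sq Finset.univ (fun k => Vf a u k x) x
          have h5 := sum_Vf_sq (x := x) hu (hp x) ha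
          have h6 : ∑ i, x i ^ 2 ≤ (2 * R) ^ 2 := hx
          have h7 : 0 ≤ ∑ i, x i ^ 2 := Finset.sum_nonneg fun _ _ => sq_nonneg _
          calc (∑ k, Vf a u k x * x k) ^ 2 ≤ (∑ k, Vf a u k x ^ 2) * ∑ i, x i ^ 2 := h4
            _ ≤ wn u x ^ 2 * (2 * R) ^ 2 := by gcongr
            _ = (2 * R * wn u x) ^ 2 := by ring
        calc -(rd u x * (∑ k, Vf a u k x * x k) * p2 R x)
            ≤ |rd u x * (∑ k, Vf a u k x * x k) * p2 R x| := neg_le_abs _
          _ = |rd u x| * |∑ k, Vf a u k x * x k| * |p2 R x| := by rw [abs_mul, abs_mul]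
          _ ≤ |rd u x| * |2 * R * wn u x| * C₁ := by gcongr
          _ = C₁ * (|rd u x| * |2 * R * wn u x|) := by ring
    rw [integral_const_mul] at hle
    exact hle.trans (by gcongr)
  have hst := star_id hu hp a hR0
  have hlow : ∫ x in eb n R, (wn u x ^ 2 * dn u x) * tau a u x
      ≤ ∫ x, (wn u x ^ 2 * dn u x * tau a u x) * ct R x := by
    have hi : Integrable (fun x => (wn u x ^ 2 * dn u x * tau a u x) * ct R x) :=
      (cN.mul (ct_c1 (n := n) R).continuous).integrable_of_hasCompactSupport (ct_hcs hR0).mul_left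
    calc ∫ x in eb n R, (wn u x ^ 2 * dn u x) * tau a u x
        = ∫ x in eb n R, (wn u x ^ 2 * dn u x * tau a u x) * ct R x := by
          refine setIntegral_congr_fun (meas_eb R) fun x hx => ?_
          rw [ct_one hR0 hx, mul_one]
      _ ≤ _ := setIntegral_le_integral hi (Eventually.of_forall fun x =>
          mul_nonneg (mul_nonneg (mul_nonneg (sq_nonneg _) (dn_nonneg _ _)) (hτ x).le)
            (ct_nonneg R x))
  rw [hst] at hlow
  refine hlow.trans ?_
  have f1 : (2 / R ^ 2) * (∫ x, rd u x * (tau a u x * (wn u x * mc u x)) * p1 R x)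
      ≤ (2 / R ^ 2) * (C₁ * (Real.sqrt ε * Real.sqrt (2 * n * C * P) * R ^ (m + 3))) := by gcongr
  have f2 : (4 / R ^ 4) * (- ∫ x, rd u x * (∑ k, Vf a u k x * x k) * p2 R x)
      ≤ (4 / R ^ 4) * (C₁ * (Real.sqrt ε * Real.sqrt (32 * C * P) * R ^ (m + 5))) := by gcongr
  have f3 : (2 / R ^ 2) * (C₁ * (Real.sqrt ε * Real.sqrt (2 * n * C * P) * R ^ (m + 3)))
      = 2 * C₁ * Real.sqrt (2 * n * C * P) * Real.sqrt ε * R ^ (m + 1) := by field_simp; ring
  have f4 : (4 / R ^ 4) * (C₁ * (Real.sqrt ε * Real.sqrt (32 * C * P) * R ^ (m + 5)))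
      = 4 * C₁ * Real.sqrt (32 * C * P) * Real.sqrt ε * R ^ (m + 1) := by field_simp; ring
  have f5 : 0 ≤ Real.sqrt ε * R ^ (m + 1) := by positivity
  nlinarith

end Vale.Agent.P134.R2.H561
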