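import Vale.Agent.P134.H981.K1b
import Vale.Agent.P134.R2.H561.Trn
import Vale.Agent.P134.R2.H561.CovN

set_option linter.all false

namespace Vale.Agent.P134.R2.H561

open Vale.Agent.P134 Vale.Agent.P134.SM Vale.Agent.P134.H981 Filter Topology MeasureTheory

variable {m n : ℕ} {u : (Fin (m + 4) → ℝ) → ℝ} {x : Fin (m + 4) → ℝ}

lemma piecen {f g : (Fin n → ℝ) → ℝ} {R : ℝ} (hR0 : 0 ≤ R) {S : Set (Fin n → ℝ)} (hS : S ⊆ eb n R)
    (hf : Continuous f) (hg : Continuous g) {X Y k : ℝ} {p : ℕ} (hX0 : 0 ≤ X) (hY0 : 0 ≤ Y)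
    (hk : 0 ≤ k) (hX : ∫ x in S, f x ^ 2 ≤ X) (hY : ∫ x in S, g x ^ 2 ≤ Y)
    (hXY : X * Y ≤ (k * R ^ p) ^ 2) :
    ∫ x in S, |f x| * |g x| ≤ k * R ^ p := by
  have h1 := cs_eb hf hg hS (Real.sqrt_nonneg X) (Real.sqrt_nonneg Y)
    (by rw [Real.sq_sqrt hX0]; exact hX) (by rw [Real.sq_sqrt hY0]; exact hY)
  refine h1.trans ?_
  rw [← Real.sqrt_mul hX0]
  calc Real.sqrt (X * Y) ≤ Real.sqrt ((k * R ^ p) ^ 2) := Real.sqrt_le_sqrt hXY
    _ = k * R ^ p := Real.sqrt_sq (by positivity)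

/-- `|d|` is bounded where `ψ > t`. -/
lemma dphn_bound {t : ℝ} (ht : 0 < t) : ∃ M : ℝ, 0 ≤ M ∧ ∀ (u : (Fin n → ℝ) → ℝ), Sol u →
    ∀ x, t < psi u x → |dph u x| ≤ M := by
  refine ⟨(|Real.log 2| + |Real.log (t / 2)| + (|Real.log 2| + |Real.log (t / 2)|)) / Real.sqrt 2,
    by positivity, ?_⟩
  intro u hu x hx
  have h2 := abs_le.mp (hu.bd x)
  have h1 : t < (1 + u x) * (1 - u x) := by unfold psi at hx; nlinarith
  have a1 : t / 2 ≤ 1 + u x := by nlinarith
  have a2 : t / 2 ≤ 1 - u x := by nlinarith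
  have key : ∀ s : ℝ, t / 2 ≤ s → s ≤ 2 → |Real.log s| ≤ |Real.log 2| + |Real.log (t / 2)| := by
    intro s hs1 hs2
    have hs0 : 0 < s := by linarith
    have l1 := Real.log_le_log (by positivity) hs1
    have l2 := Real.log_le_log hs0 hs2
    rw [abs_le]
    constructor
    · have := neg_abs_le (Real.log (t / 2)); have := abs_nonneg (Real.log 2); linarith
    · have := le_abs_self (Real.log 2); have := abs_nonneg (Real.log (t / 2)); linarith
  unfold dph
  rw [abs_div, abs_of_pos (show (0:ℝ) < Real.sqrt 2 by positivity)]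
  refine div_le_div_of_nonneg_right ?_ (by positivity)
  exact (abs_sub _ _).trans (add_le_add (key _ a1 (by linarith)) (key _ a2 (by linarith)))

noncomputable def GG (b : Fin (m + 1) → Fin (m + 4) → ℝ) (u : (Fin (m + 4) → ℝ) → ℝ)
    (x : Fin (m + 4) → ℝ) : ℝ := ∑ i, gs (tau (b i) u) x

noncomputable def TT (b : Fin (m + 1) → Fin (m + 4) → ℝ) (u : (Fin (m + 4) → ℝ) → ℝ)
    (x : Fin (m + 4) → ℝ) : ℝ := ∑ i, tau (b i) u x

lemma GG_nonneg (b : Fin (m + 1) → Fin (m + 4) → ℝ) (u : (Fin (m + 4) → ℝ) → ℝ)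
    (x : Fin (m + 4) → ℝ) : 0 ≤ GG b u x := Finset.sum_nonneg fun _ _ => gs_nonneg _ _

/-- pointwise bound on the good set. -/
lemma goodn_bound (hu : Sol u) (h : 0 < gs u x) {b : Fin (m + 1) → Fin (m + 4) → ℝ}
    {K1 K2 R : ℝ} (hK1 : 0 ≤ K1) (hK2 : 0 ≤ K2) (hR : 0 < R)
    (hdn : dn u x ≤ K1 * GG b u x + K2 * (gs (kap u) x / R ^ 2) + gs (defi u) x / wn u x ^ 4)
    (hψ : psi u x ≤ 2 * wn u x) :
    psi u x * wn u x * Real.sqrt (dn u x)
      ≤ Real.sqrt K1 * (|psi u x| * |wn u x * Real.sqrt (GG b u x)|)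
        + (Real.sqrt K2 / R) * (|psi u x| * |wn u x * Real.sqrt (gs (kap u) x)|)
        + 2 * Real.sqrt (gs (defi u) x) := by
  have hw := wn_pos h
  have hψ0 := hu.psi_nonneg x
  obtain ⟨A, hA⟩ : ∃ A : ℝ, A = Real.sqrt (GG b u x) := ⟨_, rfl⟩
  obtain ⟨B, hB⟩ : ∃ B : ℝ, B = Real.sqrt (gs (kap u) x) := ⟨_, rfl⟩
  obtain ⟨E, hE⟩ : ∃ E : ℝ, E = Real.sqrt (gs (defi u) x) := ⟨_, rfl⟩
  have hA0 : 0 ≤ A := by rw [hA]; exact Real.sqrt_nonneg _
  have hB0 : 0 ≤ B := by rw [hB]; exact Real.sqrt_nonneg _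
  have hE0 : 0 ≤ E := by rw [hE]; exact Real.sqrt_nonneg _
  have hA2 : A ^ 2 = GG b u x := by rw [hA]; exact Real.sq_sqrt (GG_nonneg _ _ _)
  have hB2 : B ^ 2 = gs (kap u) x := by rw [hB]; exact Real.sq_sqrt (gs_nonneg _ _)
  have hE2 : E ^ 2 = gs (defi u) x := by rw [hE]; exact Real.sq_sqrt (gs_nonneg _ _)
  have k1 : Real.sqrt K1 ^ 2 = K1 := Real.sq_sqrt hK1
  have k2 : Real.sqrt K2 ^ 2 = K2 := Real.sq_sqrt hK2
  have k10 := Real.sqrt_nonneg K1
  have k20 := Real.sqrt_nonneg K2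
  rw [← hA, ← hB, ← hE]
  have hs : Real.sqrt (dn u x) ≤ Real.sqrt K1 * A + Real.sqrt K2 * B / R + E / wn u x ^ 2 := by
    have hnn : 0 ≤ Real.sqrt K1 * A + Real.sqrt K2 * B / R + E / wn u x ^ 2 := by positivity
    rw [Real.sqrt_le_left hnn]
    have p1 : 0 ≤ Real.sqrt K1 * A * (Real.sqrt K2 * B / R) := by positivity
    have p2 : 0 ≤ Real.sqrt K1 * A * (E / wn u x ^ 2) := by positivity
    have p3 : 0 ≤ Real.sqrt K2 * B / R * (E / wn u x ^ 2) := by positivity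
    have e1 : (Real.sqrt K1 * A) ^ 2 = K1 * GG b u x := by rw [mul_pow, k1, hA2]
    have e2 : (Real.sqrt K2 * B / R) ^ 2 = K2 * (gs (kap u) x / R ^ 2) := by
      rw [div_pow, mul_pow, k2, hB2]; ring
    have e3 : (E / wn u x ^ 2) ^ 2 = gs (defi u) x / wn u x ^ 4 := by
      rw [div_pow, hE2]; ring
    nlinarith
  rw [abs_of_nonneg hψ0, abs_of_nonneg (show 0 ≤ wn u x * A by positivity),
    abs_of_nonneg (show 0 ≤ wn u x * B by positivity)]
  calc psi u x * wn u x * Real.sqrt (dn u x)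
      ≤ psi u x * wn u x * (Real.sqrt K1 * A + Real.sqrt K2 * B / R + E / wn u x ^ 2) := by gcongr
    _ = Real.sqrt K1 * (psi u x * (wn u x * A)) + (Real.sqrt K2 / R) * (psi u x * (wn u x * B))
        + (psi u x / wn u x) * E := by field_simp
    _ ≤ _ := by
      have : psi u x / wn u x ≤ 2 := by rw [div_le_iff₀ hw]; exact hψ
      gcongr

/-- Standing data for 1.7. -/
structure K7n (u : (Fin (m + 4) → ℝ) → ℝ) (b : Fin (m + 1) → Fin (m + 4) → ℝ) (C : ℝ) : Prop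
    extends KBn m u C where
  unit : ∀ i, ∑ k, b i k ^ 2 = 1
  mono : ∀ i x, 0 < tau (b i) u x
  en' : ∀ (y : Fin (m + 4) → ℝ) (r : ℝ), 1 ≤ r →
    ∫ x in eb (m + 4) r, psi u (x + y) ^ 2 ≤ C * r ^ (m + 3)
  ps : ∀ r, 1 ≤ r → ∫ x in eb (m + 4) r, psi u x ≤ C * r ^ (m + 3)

/-- The integrand of (K1'). -/
noncomputable def gKn (u : (Fin n → ℝ) → ℝ) (x : Fin n → ℝ) : ℝ :=
  psi u x * wn u x * Real.sqrt (dn u x)

noncomputable def sNn (u : (Fin n → ℝ) → ℝ) (x : Fin n → ℝ) : ℝ := wn u x * Real.sqrt (dn u x)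

section
variable {u : (Fin n → ℝ) → ℝ} {x : Fin n → ℝ}

lemma sNn_cont (hu : Sol u) (hp : ∀ x, 0 < gs u x) : Continuous (sNn u) := by
  have cw1 : ContDiff ℝ 1 (wn u) := by exact_mod_cast wn_cd hu hp 1
  exact cw1.continuous.mul (Real.continuous_sqrt.comp (dn_cont hu hp))

lemma sNn_sq (u : (Fin n → ℝ) → ℝ) (x : Fin n → ℝ) : sNn u x ^ 2 = wn u x ^ 2 * dn u x := by
  unfold sNn; rw [mul_pow, Real.sq_sqrt (dn_nonneg u x)]

lemma gKn_eq (hu : Sol u) (x : Fin n → ℝ) : gKn u x = |psi u x| * |sNn u x| := by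
  have h1 : 0 ≤ sNn u x := mul_nonneg (wn_nonneg u x) (Real.sqrt_nonneg _)
  rw [abs_of_nonneg (hu.psi_nonneg x), abs_of_nonneg h1]
  unfold gKn sNn; ring

lemma gKn_nonneg (hu : Sol u) (x : Fin n → ℝ) : 0 ≤ gKn u x := by rw [gKn_eq hu]; positivity

lemma gKn_cont (hu : Sol u) (hp : ∀ x, 0 < gs u x) : Continuous (gKn u) := by
  have cw1 : ContDiff ℝ 1 (wn u) := by exact_mod_cast wn_cd hu hp 1
  exact (hu.psi_contDiff.continuous.mul cw1.continuous).mul
    (Real.continuous_sqrt.comp (dn_cont hu hp))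

lemma bψn {C R : ℝ} (hK : KBn m u C) (hR1 : 1 ≤ R) {S : Set (Fin n → ℝ)} (hS : S ⊆ eb n R) :
    ∫ x in S, psi u x ^ 2 ≤ C * R ^ (m + 3) :=
  (setIntegral_mono_set (int_on_eb (hK.sol.psi_contDiff.continuous.pow 2) R)
    (Eventually.of_forall fun x => sq_nonneg _) (Eventually.of_forall hS)).trans (hK.en R hR1)

lemma bNn {C R : ℝ} (hK : KBn m u C) (hR1 : 1 ≤ R) {S : Set (Fin n → ℝ)} (hS : S ⊆ eb n R) :
    ∫ x in S, sNn u x ^ 2 ≤ C * R ^ (m + 1) := by
  have h1 : ∫ x in S, sNn u x ^ 2 ≤ ∫ x in eb n R, sNn u x ^ 2 :=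
    setIntegral_mono_set (int_on_eb ((sNn_cont hK.sol hK.pos).pow 2) R)
      (Eventually.of_forall fun x => sq_nonneg _) (Eventually.of_forall hS)
  refine h1.trans ?_
  simp_rw [sNn_sq]
  exact hK.st R hR1

lemma PPn {C R k : ℝ} (hK : KBn m u C) (hR0 : 0 ≤ R) (hk0 : 0 ≤ k) {T : Set (Fin n → ℝ)}
    (hT : T ⊆ eb n R) {X Y : ℝ} (hX0 : 0 ≤ X) (hY0 : 0 ≤ Y) (hX : ∫ x in T, psi u x ^ 2 ≤ X)
    (hY : ∫ x in T, sNn u x ^ 2 ≤ Y) (hXY : X * Y ≤ (k * R ^ (m + 2)) ^ 2) :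
    ∫ x in T, gKn u x ≤ k * R ^ (m + 2) := by
  have := piecen hR0 hT hK.sol.psi_contDiff.continuous (sNn_cont hK.sol hK.pos) hX0 hY0 hk0 hX hY
    hXY
  refine le_trans (le_of_eq ?_) this
  congr 1; ext x; exact gKn_eq hK.sol x

lemma q0n {C R k t : ℝ} (hK : KBn m u C)
    (hps : ∀ r, 1 ≤ r → ∫ x in eb n r, psi u x ≤ C * r ^ (m + 3)) (hk0 : 0 < k) (hR1 : 1 ≤ R)
    (ht0 : 0 < t) (ht : t * C ^ 2 ≤ k ^ 2) :
    ∫ x in eb n R ∩ {x | psi u x ≤ t}, gKn u x ≤ k * R ^ (m + 2) := by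
  have hu := hK.sol
  have hC1 := hK.C1
  have hC0 : 0 < C := by linarith
  have hR0 : 0 < R := by linarith
  have cψ : Continuous (psi u) := hu.psi_contDiff.continuous
  have m0 : MeasurableSet {x : Fin n → ℝ | psi u x ≤ t} :=
    measurableSet_le cψ.measurable measurable_const
  refine PPn hK hR0.le hk0.le Set.inter_subset_left (X := t * (C * R ^ (m + 3)))
    (Y := C * R ^ (m + 1)) (by positivity) (by positivity) ?_
    (bNn hK hR1 Set.inter_subset_left) ?_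
  · calc ∫ x in eb n R ∩ {x | psi u x ≤ t}, psi u x ^ 2
        ≤ ∫ x in eb n R ∩ {x | psi u x ≤ t}, t * psi u x := by
          refine setIntegral_mono_on ((int_on_eb (cψ.pow 2) R).mono_set Set.inter_subset_left)
            (((int_on_eb cψ R).mono_set Set.inter_subset_left).const_mul t)
            ((meas_eb R).inter m0) ?_
          intro x hx
          have h1 : psi u x ≤ t := hx.2
          have h2 := hu.psi_nonneg x
          nlinarith
      _ = t * ∫ x in eb n R ∩ {x | psi u x ≤ t}, psi u x := integral_const_mul _ _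
      _ ≤ t * ∫ x in eb n R, psi u x := by
          refine mul_le_mul_of_nonneg_left ?_ ht0.le
          exact setIntegral_mono_set (int_on_eb cψ R)
            (Eventually.of_forall fun x => hu.psi_nonneg x)
            (Eventually.of_forall Set.inter_subset_left)
      _ ≤ t * (C * R ^ (m + 3)) := by gcongr; exact hps R hR1
  · have e1 : t * (C * R ^ (m + 3)) * (C * R ^ (m + 1)) = (t * C ^ 2) * R ^ (2 * m + 4) := by ring
    have e2 : (k * R ^ (m + 2)) ^ 2 = k ^ 2 * R ^ (2 * m + 4) := by ring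
    rw [e1, e2]
    gcongr

lemma q1n {C R k δ : ℝ} (hK : KBn m u C) (hk0 : 0 < k) (hR1 : 1 ≤ R) (hδp : 0 < δ)
    (hRa : C ^ 2 / (δ * k ^ 2) ≤ R) :
    ∫ x in eb n R ∩ {x | δ * psi u x ^ 2 < defi u x}, gKn u x ≤ k * R ^ (m + 2) := by
  have hu := hK.sol
  have hC1 := hK.C1
  have hC0 : 0 < C := by linarith
  have hR0 : 0 < R := by linarith
  have cψ : Continuous (psi u) := hu.psi_contDiff.continuous
  have cD : Continuous (defi u) := hu.defi_continuous
  refine PPn hK hR0.le hk0.le Set.inter_subset_left (X := C / δ * R ^ (m + 2))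
    (Y := C * R ^ (m + 1)) (by positivity) (by positivity) ?_
    (bNn hK hR1 Set.inter_subset_left) ?_
  · calc ∫ x in eb n R ∩ {x | δ * psi u x ^ 2 < defi u x}, psi u x ^ 2
        ≤ ∫ x in eb n R ∩ {x | δ * psi u x ^ 2 < defi u x}, (1 / δ) * defi u x := by
          refine setIntegral_mono_on ((int_on_eb (cψ.pow 2) R).mono_set Set.inter_subset_left)
            (((int_on_eb cD R).mono_set Set.inter_subset_left).const_mul _)
            ((meas_eb R).inter (measurableSet_lt (continuous_const.mul (cψ.pow 2)).measurable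
              cD.measurable)) ?_
          intro x hx
          have h1 : δ * psi u x ^ 2 < defi u x := hx.2
          rw [one_div, ← div_eq_inv_mul, le_div_iff₀ hδp]
          linarith
      _ = (1 / δ) * ∫ x in eb n R ∩ {x | δ * psi u x ^ 2 < defi u x}, defi u x :=
          integral_const_mul _ _
      _ ≤ (1 / δ) * ∫ x in eb n R, defi u x := by
          refine mul_le_mul_of_nonneg_left ?_ (by positivity)
          exact setIntegral_mono_set (int_on_eb cD R)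
            (Eventually.of_forall fun x => hu.defi_nonneg x)
            (Eventually.of_forall Set.inter_subset_left)
      _ ≤ (1 / δ) * (C * R ^ (m + 2)) := by gcongr; exact hK.de R hR1
      _ = C / δ * R ^ (m + 2) := by ring
  · rw [div_le_iff₀ (by positivity)] at hRa
    have e1 : C / δ * R ^ (m + 2) * (C * R ^ (m + 1)) = (C ^ 2 / δ) * R ^ (2 * m + 3) := by ring
    have e2 : (k * R ^ (m + 2)) ^ 2 = (k ^ 2 * R) * R ^ (2 * m + 3) := by ring
    rw [e1, e2]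
    refine mul_le_mul_of_nonneg_right ?_ (by positivity)
    rw [div_le_iff₀ hδp]; linarith

lemma q3n {C R k δ ε ε' : ℝ} (hK : KBn m u C) (hk0 : 0 < k) (hR1 : 1 ≤ R) (hδ4 : δ ≤ 1 / 4)
    (hε0 : 0 < ε) (hε'0 : 0 < ε') (hε1 : ε ≤ k ^ 2 * ε' ^ 2 / (16 * C))
    (hs : ∫ x in eb n (2 * R), rd u x ^ 2 ≤ ε * R ^ (m + 5)) :
    ∫ x in eb n R ∩ ({x | defi u x ≤ δ * psi u x ^ 2} ∩ {x | (ε' * R / 2) ^ 2 < vs u x ^ 2}),
      gKn u x ≤ k * R ^ (m + 2) := by
  have hu := hK.sol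
  have hp := hK.pos
  have hC1 := hK.C1
  have hC0 : 0 < C := by linarith
  have hR0 : 0 < R := by linarith
  have cψ : Continuous (psi u) := hu.psi_contDiff.continuous
  have cD : Continuous (defi u) := hu.defi_continuous
  have crd : Continuous (rd u) := (Sol.rd_c2 hu).continuous
  have cvs : Continuous (vs u) := by
    have : ContDiff ℝ 1 (vs u) := by exact_mod_cast vs_cd hu hp 1
    exact this.continuous
  obtain ⟨T, hT⟩ : ∃ T : Set (Fin n → ℝ), T = ({x : Fin n → ℝ | defi u x ≤ δ * psi u x ^ 2} ∩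
      {x | (ε' * R / 2) ^ 2 < vs u x ^ 2}) := ⟨_, rfl⟩
  rw [← hT]
  have hm : MeasurableSet T := by
    rw [hT]
    exact (measurableSet_le cD.measurable (continuous_const.mul (cψ.pow 2)).measurable).inter
      (measurableSet_lt measurable_const (cvs.pow 2).measurable)
  refine PPn hK hR0.le hk0.le Set.inter_subset_left (X := 16 * ε / ε' ^ 2 * R ^ (m + 3))
    (Y := C * R ^ (m + 1)) (by positivity) (by positivity) ?_
    (bNn hK hR1 Set.inter_subset_left) ?_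
  · calc ∫ x in eb n R ∩ T, psi u x ^ 2
        ≤ ∫ x in eb n R ∩ T, (16 / (ε' * R) ^ 2) * rd u x ^ 2 := by
          refine setIntegral_mono_on ((int_on_eb (cψ.pow 2) R).mono_set Set.inter_subset_left)
            (((int_on_eb (crd.pow 2) R).mono_set Set.inter_subset_left).const_mul _)
            ((meas_eb R).inter hm) ?_
          intro x hx
          rw [hT] at hx
          have h1 : defi u x ≤ δ * psi u x ^ 2 := hx.2.1
          have h3 : psi u x ^ 2 ≤ 4 * gs u x := by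
            rw [defi_eq] at h1
            nlinarith [sq_nonneg (psi u x)]
          have h2 : (ε' * R / 2) ^ 2 < vs u x ^ 2 := hx.2.2
          have hgx := hp x
          have h5 : vs u x ^ 2 * gs u x = rd u x ^ 2 := by
            unfold vs; rw [div_pow, wn_sq]; field_simp
          rw [div_mul_eq_mul_div, le_div_iff₀ (by positivity)]
          have h6 : (ε' * R / 2) ^ 2 * gs u x ≤ rd u x ^ 2 := by
            rw [← h5]; exact mul_le_mul_of_nonneg_right h2.le hgx.le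
          have h7 : psi u x ^ 2 * (ε' * R) ^ 2 ≤ 4 * gs u x * (ε' * R) ^ 2 :=
            mul_le_mul_of_nonneg_right h3 (sq_nonneg _)
          nlinarith
      _ = (16 / (ε' * R) ^ 2) * ∫ x in eb n R ∩ T, rd u x ^ 2 := integral_const_mul _ _
      _ ≤ (16 / (ε' * R) ^ 2) * ∫ x in eb n (2 * R), rd u x ^ 2 := by
          refine mul_le_mul_of_nonneg_left ?_ (by positivity)
          refine setIntegral_mono_set (int_on_eb (crd.pow 2) (2 * R))
            (Eventually.of_forall fun x => sq_nonneg _) (Eventually.of_forall ?_)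
          exact Set.inter_subset_left.trans (eb_mono hR0.le (by linarith))
      _ ≤ (16 / (ε' * R) ^ 2) * (ε * R ^ (m + 5)) := by gcongr
      _ = 16 * ε / ε' ^ 2 * R ^ (m + 3) := by field_simp; ring
  · rw [le_div_iff₀ (by positivity)] at hε1
    have e1 : 16 * ε / ε' ^ 2 * R ^ (m + 3) * (C * R ^ (m + 1))
        = (ε * (16 * C) / ε' ^ 2) * R ^ (2 * m + 4) := by ring
    have e2 : (k * R ^ (m + 2)) ^ 2 = k ^ 2 * R ^ (2 * m + 4) := by ring
    rw [e1, e2]
    refine mul_le_mul_of_nonneg_right ?_ (by positivity)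
    rw [div_le_iff₀ (by positivity)]; exact hε1

end

lemma q2n {C R k ϱ Cc : ℝ} (hK : KBn m u C)
    (hen' : ∀ (y : Fin (m + 4) → ℝ) (r : ℝ), 1 ≤ r →
      ∫ x in eb (m + 4) r, psi u (x + y) ^ 2 ≤ C * r ^ (m + 3))
    (hCc : Cc = 3 ^ (m + 1) * ((m + 2 : ℝ) ^ (m + 3)) * C) (hk0 : 0 < k) (hR1 : 1 ≤ R)
    (hϱ0 : 0 < ϱ) (hϱ1 : ϱ ≤ 1) (hϱ2 : Cc * C * ϱ ^ 2 ≤ k ^ 2) (hRc : 1 / ϱ ≤ R) :
    ∫ x in eb (m + 4) R ∩ {x | x 0 ^ 2 + x 1 ^ 2 + x 2 ^ 2 < (ϱ * R) ^ 2}, gKn u x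
      ≤ k * R ^ (m + 2) := by
  have hu := hK.sol
  have hC1 := hK.C1
  have hC0 : 0 < C := by linarith
  have hR0 : 0 < R := by linarith
  have cψ : Continuous (psi u) := hu.psi_contDiff.continuous
  have hCc0 : 0 ≤ Cc := by rw [hCc]; positivity
  refine PPn hK hR0.le hk0.le Set.inter_subset_left (X := Cc * ϱ ^ 2 * R ^ (m + 3))
    (Y := C * R ^ (m + 1)) (by positivity) (by positivity) ?_
    (bNn hK hR1 Set.inter_subset_left) ?_
  · have h2 : 1 ≤ ϱ * R := by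
      rw [div_le_iff₀ (by positivity)] at hRc; linarith
    rw [hCc]
    exact cyln_le (g := fun x => psi u x ^ 2) (cψ.pow 2) (fun x => sq_nonneg _) hC0.le
      (fun y r hr => hen' y r hr) hϱ0 hϱ1 hR0 h2
  · have e1 : Cc * ϱ ^ 2 * R ^ (m + 3) * (C * R ^ (m + 1)) = (Cc * C * ϱ ^ 2) * R ^ (2 * m + 4) := by
      ring
    have e2 : (k * R ^ (m + 2)) ^ 2 = k ^ 2 * R ^ (2 * m + 4) := by ring
    rw [e1, e2]
    exact mul_le_mul_of_nonneg_right hϱ2 (by positivity)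

lemma TT_cont (hu : Sol u) (hp : ∀ x, 0 < gs u x) (b : Fin (m + 1) → Fin (m + 4) → ℝ) :
    Continuous (TT b u) := by
  unfold TT
  exact continuous_finsetSum _ fun i _ => by
    have : ContDiff ℝ 1 (tau (b i) u) := by exact_mod_cast tau_cd hu hp (b i) 1
    exact this.continuous

lemma GG_cont (hu : Sol u) (hp : ∀ x, 0 < gs u x) (b : Fin (m + 1) → Fin (m + 4) → ℝ) :
    Continuous (GG b u) := by
  unfold GG
  exact continuous_finsetSum _ fun i _ => by
    have : ContDiff ℝ 1 (tau (b i) u) := by exact_mod_cast tau_cd hu hp (b i) 1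
    exact gs_cont this

/-- sum version of step 5. -/
lemma step5n {C : ℝ} {b : Fin (m + 1) → Fin (m + 4) → ℝ} (hK : K7n u b C) :
    ∃ C' : ℝ, 1 ≤ C' ∧ ∀ R, 1 ≤ R → ∀ ε, 0 ≤ ε →
      ∫ x in eb (m + 4) (2 * R), rd u x ^ 2 ≤ ε * R ^ (m + 5) →
      ∫ x in eb (m + 4) R, (wn u x ^ 2 * dn u x) * TT b u x
        ≤ C' * Real.sqrt ε * R ^ (m + 1) := by
  have h := fun i => step5 hK.toKBn (hK.unit i) (hK.mono i)
  choose D hD1 hD using h
  have hu := hK.sol
  have hp := hK.pos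
  refine ⟨∑ i, D i, ?_, fun R hR ε hε hs => ?_⟩
  · exact (hD1 0).trans (Finset.single_le_sum (f := D) (fun i _ => by linarith [hD1 i])
      (Finset.mem_univ 0))
  have cw1 : ContDiff ℝ 1 (wn u) := by exact_mod_cast wn_cd hu hp 1
  have cdn := dn_cont hu hp
  have e : ∀ x, (wn u x ^ 2 * dn u x) * TT b u x
      = ∑ i, (wn u x ^ 2 * dn u x) * tau (b i) u x := fun x => by unfold TT; rw [Finset.mul_sum]
  simp_rw [e]
  rw [integral_finsetSum _ fun i _ => ?_]
  · rw [Finset.sum_mul, Finset.sum_mul]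
    exact Finset.sum_le_sum fun i _ => hD i R hR ε hε hs
  · have : ContDiff ℝ 1 (tau (b i) u) := by exact_mod_cast tau_cd hu hp (b i) 1
    exact int_on_eb (((cw1.continuous.pow 2).mul cdn).mul this.continuous) R

lemma tau_le_TT {C : ℝ} {b : Fin (m + 1) → Fin (m + 4) → ℝ} (hK : K7n u b C) (i : Fin (m + 1))
    (x : Fin (m + 4) → ℝ) : tau (b i) u x ≤ TT b u x :=
  Finset.single_le_sum (f := fun i => tau (b i) u x) (fun j _ => (hK.mono j x).le)
    (Finset.mem_univ i)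

lemma TT_pos {C : ℝ} {b : Fin (m + 1) → Fin (m + 4) → ℝ} (hK : K7n u b C)
    (x : Fin (m + 4) → ℝ) : 0 < TT b u x := lt_of_lt_of_le (hK.mono 0 x) (tau_le_TT hK 0 x)

lemma sum_tau_sq_le {C : ℝ} {b : Fin (m + 1) → Fin (m + 4) → ℝ} (hK : K7n u b C)
    (x : Fin (m + 4) → ℝ) : ∑ i, tau (b i) u x ^ 2 ≤ TT b u x ^ 2 := by
  have h0 := TT_pos hK x
  calc ∑ i, tau (b i) u x ^ 2 ≤ ∑ i, tau (b i) u x * TT b u x := by
        refine Finset.sum_le_sum fun i _ => ?_
        rw [sq]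
        exact mul_le_mul_of_nonneg_left (tau_le_TT hK i x) (hK.mono i x).le
    _ = TT b u x ^ 2 := by rw [← Finset.sum_mul, sq]; rfl

/-- sum version of step 6 (a). -/
lemma step6an {C : ℝ} {b : Fin (m + 1) → Fin (m + 4) → ℝ} (hK : K7n u b C) :
    ∃ C' : ℝ, 1 ≤ C' ∧ ∀ R, 1 ≤ R → ∀ t, 0 < t →
      ∫ x in eb (m + 4) R ∩ {x | TT b u x ≤ t}, wn u x ^ 2 * GG b u x
        ≤ C' * t * R ^ (m + 1) := by
  have h := fun i => step6a hK.toKBn (hK.unit i) (hK.mono i)
  choose D hD1 hD using h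
  have hu := hK.sol
  have hp := hK.pos
  refine ⟨∑ i, D i, ?_, fun R hR t ht => ?_⟩
  · exact (hD1 0).trans (Finset.single_le_sum (f := D) (fun i _ => by linarith [hD1 i])
      (Finset.mem_univ 0))
  have cw1 : ContDiff ℝ 1 (wn u) := by exact_mod_cast wn_cd hu hp 1
  have e : ∀ x, wn u x ^ 2 * GG b u x
      = ∑ i, wn u x ^ 2 * gs (tau (b i) u) x := fun x => by unfold GG; rw [Finset.mul_sum]
  have hc : ∀ i, Continuous (fun x => wn u x ^ 2 * gs (tau (b i) u) x) := by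
    intro i
    have : ContDiff ℝ 1 (tau (b i) u) := by exact_mod_cast tau_cd hu hp (b i) 1
    exact (cw1.continuous.pow 2).mul (gs_cont this)
  simp_rw [e]
  rw [integral_finsetSum _ fun i _ => (int_on_eb (hc i) R).mono_set Set.inter_subset_left,
    Finset.sum_mul, Finset.sum_mul]
  refine Finset.sum_le_sum fun i _ => le_trans ?_ (hD i R hR t ht)
  refine setIntegral_mono_set ((int_on_eb (hc i) R).mono_set Set.inter_subset_left)
    (Eventually.of_forall fun x => mul_nonneg (sq_nonneg _) (gs_nonneg _ _))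
    (Eventually.of_forall ?_)
  intro x hx
  exact ⟨hx.1, (tau_le_TT hK i x).trans hx.2⟩

lemma q4n {C R k τ0 ε C5 : ℝ} {b : Fin (m + 1) → Fin (m + 4) → ℝ} (hK : K7n u b C)
    (hk0 : 0 < k) (hR1 : 1 ≤ R) (hτ00 : 0 < τ0) (hC50 : 0 < C5)
    (hε2 : Real.sqrt ε ≤ k ^ 2 * τ0 / (C * C5))
    (hs5 : ∫ x in eb (m + 4) R, (wn u x ^ 2 * dn u x) * TT b u x
      ≤ C5 * Real.sqrt ε * R ^ (m + 1)) :
    ∫ x in eb (m + 4) R ∩ {x | τ0 < TT b u x}, gKn u x ≤ k * R ^ (m + 2) := by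
  have hu := hK.sol
  have hp := hK.pos
  have hC1 := hK.C1
  have hC0 : 0 < C := by linarith
  have hR0 : 0 < R := by linarith
  have cw1 : ContDiff ℝ 1 (wn u) := by exact_mod_cast wn_cd hu hp 1
  have cT := TT_cont hu hp b
  have cdn := dn_cont hu hp
  have m4 : MeasurableSet {x : Fin (m + 4) → ℝ | τ0 < TT b u x} :=
    measurableSet_lt measurable_const cT.measurable
  refine PPn hK.toKBn hR0.le hk0.le Set.inter_subset_left (X := C * R ^ (m + 3))
    (Y := C5 * Real.sqrt ε / τ0 * R ^ (m + 1))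
    (by positivity) (by positivity) (bψn hK.toKBn hR1 Set.inter_subset_left) ?_ ?_
  · calc ∫ x in eb (m + 4) R ∩ {x | τ0 < TT b u x}, sNn u x ^ 2
        ≤ ∫ x in eb (m + 4) R ∩ {x | τ0 < TT b u x},
            (1 / τ0) * ((wn u x ^ 2 * dn u x) * TT b u x) := by
          refine setIntegral_mono_on ((int_on_eb ((sNn_cont hu hp).pow 2) R).mono_set
            Set.inter_subset_left)
            (((int_on_eb (((cw1.continuous.pow 2).mul cdn).mul cT) R).mono_set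
              Set.inter_subset_left).const_mul _) ((meas_eb R).inter m4) ?_
          intro x hx
          have h1 : τ0 < TT b u x := hx.2
          rw [sNn_sq, one_div, ← div_eq_inv_mul, le_div_iff₀ hτ00]
          exact mul_le_mul_of_nonneg_left h1.le (mul_nonneg (sq_nonneg _) (dn_nonneg _ _))
      _ = (1 / τ0) * ∫ x in eb (m + 4) R ∩ {x | τ0 < TT b u x},
            (wn u x ^ 2 * dn u x) * TT b u x := integral_const_mul _ _
      _ ≤ (1 / τ0) * ∫ x in eb (m + 4) R, (wn u x ^ 2 * dn u x) * TT b u x := by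
          refine mul_le_mul_of_nonneg_left ?_ (by positivity)
          refine setIntegral_mono_set (int_on_eb (((cw1.continuous.pow 2).mul cdn).mul
            cT) R) (Eventually.of_forall fun x =>
              mul_nonneg (mul_nonneg (sq_nonneg _) (dn_nonneg _ _)) (TT_pos hK x).le)
            (Eventually.of_forall Set.inter_subset_left)
      _ ≤ (1 / τ0) * (C5 * Real.sqrt ε * R ^ (m + 1)) := by gcongr
      _ = C5 * Real.sqrt ε / τ0 * R ^ (m + 1) := by ring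
  · rw [le_div_iff₀ (by positivity)] at hε2
    have e1 : C * R ^ (m + 3) * (C5 * Real.sqrt ε / τ0 * R ^ (m + 1))
        = (Real.sqrt ε * (C * C5) / τ0) * R ^ (2 * m + 4) := by ring
    have e2 : (k * R ^ (m + 2)) ^ 2 = k ^ 2 * R ^ (2 * m + 4) := by ring
    rw [e1, e2]
    refine mul_le_mul_of_nonneg_right ?_ (by positivity)
    rw [div_le_iff₀ hτ00]; exact hε2

/-- The good set. -/
def GSn (u : (Fin (m + 4) → ℝ) → ℝ) (b : Fin (m + 1) → Fin (m + 4) → ℝ) (t δ ϱ ε' τ0 R : ℝ) :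
    Set (Fin (m + 4) → ℝ) :=
  ({x | t < psi u x} ∩ {x | defi u x ≤ δ * psi u x ^ 2}) ∩
    ({x | (ϱ * R) ^ 2 ≤ x 0 ^ 2 + x 1 ^ 2 + x 2 ^ 2} ∩
      ({x | vs u x ^ 2 ≤ (ε' * R / 2) ^ 2} ∩ {x | TT b u x ≤ τ0}))

lemma GSn_meas (hu : Sol u) (hp : ∀ x, 0 < gs u x) (b : Fin (m + 1) → Fin (m + 4) → ℝ)
    (t δ ϱ ε' τ0 R : ℝ) : MeasurableSet (GSn u b t δ ϱ ε' τ0 R) := by
  have cvs : Continuous (vs u) := by
    have : ContDiff ℝ 1 (vs u) := by exact_mod_cast vs_cd hu hp 1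
    exact this.continuous
  have cψ : Continuous (psi u) := hu.psi_contDiff.continuous
  have cx : Continuous (fun x : Fin (m + 4) → ℝ => x 0 ^ 2 + x 1 ^ 2 + x 2 ^ 2) := by fun_prop
  exact ((measurableSet_lt measurable_const cψ.measurable).inter
      (measurableSet_le hu.defi_continuous.measurable
        (continuous_const.mul (cψ.pow 2)).measurable)).inter
      ((measurableSet_le measurable_const cx.measurable).inter
        ((measurableSet_le (cvs.pow 2).measurable measurable_const).inter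
          (measurableSet_le (TT_cont hu hp b).measurable measurable_const)))

noncomputable def fAn (b : Fin (m + 1) → Fin (m + 4) → ℝ) (u : (Fin (m + 4) → ℝ) → ℝ)
    (x : Fin (m + 4) → ℝ) : ℝ := wn u x * Real.sqrt (GG b u x)
noncomputable def fBn (u : (Fin n → ℝ) → ℝ) (x : Fin n → ℝ) : ℝ :=
  wn u x * Real.sqrt (gs (kap u) x)

lemma fAn_sq (b : Fin (m + 1) → Fin (m + 4) → ℝ) (u : (Fin (m + 4) → ℝ) → ℝ)
    (x : Fin (m + 4) → ℝ) : fAn b u x ^ 2 = wn u x ^ 2 * GG b u x := by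
  unfold fAn; rw [mul_pow, Real.sq_sqrt (GG_nonneg _ _ _)]
lemma fBn_sq (u : (Fin n → ℝ) → ℝ) (x : Fin n → ℝ) :
    fBn u x ^ 2 = wn u x ^ 2 * gs (kap u) x := by
  unfold fBn; rw [mul_pow, Real.sq_sqrt (gs_nonneg _ _)]

lemma fAn_cont (hu : Sol u) (hp : ∀ x, 0 < gs u x) (b : Fin (m + 1) → Fin (m + 4) → ℝ) :
    Continuous (fAn b u) := by
  have cw1 : ContDiff ℝ 1 (wn u) := by exact_mod_cast wn_cd hu hp 1
  exact cw1.continuous.mul (Real.continuous_sqrt.comp (GG_cont hu hp b))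
lemma fBn_cont (hu : Sol u) (hp : ∀ x, 0 < gs u x) : Continuous (fBn u) := by
  have cw1 : ContDiff ℝ 1 (wn u) := by exact_mod_cast wn_cd hu hp 1
  have cκ1 : ContDiff ℝ 1 (kap u) := by exact_mod_cast kap_cd hu hp 1
  exact cw1.continuous.mul (Real.continuous_sqrt.comp (gs_cont cκ1))

end Vale.Agent.P134.R2.H561
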