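import Vale.Agent.P134.R2.H561.OutT
import Vale.Agent.P134.H891.Liou
import Vale.Agent.P134.H765.Final4

set_option linter.all false

open MeasureTheory Filter Topology Set

namespace Vale.Agent.P134.R2.H561

open Vale.Agent.P134 Vale.Agent.P134.SM Vale.Agent.P134.H688
open Vale.Agent.P134.M4 (bl)
open Vale.Agent.P134.H891 (Psi ph mm pp gp GG TT ph_nonneg mm_nonneg mm_le_one mm_eq_zero
  ph_contDiff ph_hasCompactSupport continuous_Psi Psi_nonneg Psi_le_one ph_le_one Mix Low Clean
  exists_Dec clean_of_Dec Th_upper TT_one_eq NN_le Kd)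

variable {m n : ℕ} {u : (Fin n → ℝ) → ℝ}

lemma GG_eq_lay (p : Fin n) : GG p = lay (Pi.single p 1) 0 := by
  funext x
  unfold H891.GG lay
  rw [H765.gp_eq_tanh]
  congr 2
  simp [Pi.single_apply]

lemma mix_out1 {u : (Fin (m + 4) → ℝ) → ℝ} {p q : Fin (m + 4)} (h : Mix u p q)
    (hc : Clean u p) : OUT1 u := by
  obtain ⟨w, hw⟩ : ∃ w : ℝ, w = ∫ z : Fin (m + 3) → ℝ, ph 1 z := ⟨_, rfl⟩
  have hK := H891.K3_nonneg (n := m + 4)
  refine out1_of_lim h.sol fun ε hε => ?_
  filter_upwards [eventually_ge_atTop (max 1 (H891.K3 (m + 4) / ε))] with R hR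
  have hR1 : 1 ≤ R := (le_max_left _ _).trans hR
  have hRK : H891.K3 (m + 4) / ε ≤ R := (le_max_right _ _).trans hR
  have hR0 : 0 < R := by linarith
  have h1 := Th_upper h hc hR0
  have e0 : m + 4 - 1 = m + 3 := rfl
  have he : ∑ i, (Pi.single p 1 : Fin (m + 4) → ℝ) i ^ 2 = 1 := by simp [Pi.single_apply]
  have h2 := lay_energy_le (m := m + 3) he hR0
  rw [integral_ph (m + 3) hR0, ← hw, ← GG_eq_lay] at h2
  rw [TTn_eq, TTn_eq, e0, div_add' _ _ _ (by positivity),
    div_le_div_iff_of_pos_right (by positivity)] at h1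
  rw [← hw]
  have h3 : H891.K3 (m + 4) * (R ^ 2)⁻¹ * R ^ (m + 3) ≤ ε * R ^ (m + 3) := by
    apply mul_le_mul_of_nonneg_right _ (by positivity)
    rw [div_le_iff₀ hε] at hRK
    rw [← div_eq_mul_inv, div_le_iff₀ (by positivity)]
    nlinarith
  have e5 : (Psi 1 * w + ε) * R ^ (m + 3) = Psi 1 * w * R ^ (m + 3) + ε * R ^ (m + 3) := by ring
  linarith

lemma mix_out2 {u : (Fin (m + 4) → ℝ) → ℝ} {p q : Fin (m + 4)} (h : Mix u p q)
    (hc : Clean u p) : OUT2 u := by
  intro ε hε
  have he : ∑ i, (Pi.single p 1 : Fin (m + 4) → ℝ) i ^ 2 = 1 := by simp [Pi.single_apply]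
  obtain ⟨hG, -⟩ := h.profile
  have cu : Continuous (fun x => Psi (u x)) := continuous_Psi.comp h.sol.c2.continuous
  have cG : Continuous (fun x => Psi (GG p x)) := continuous_Psi.comp hG.c2.continuous
  have hK := H891.Kd_nonneg (n := m + 4)
  have hdbl : Tendsto (fun R : ℝ => 2 * R) atTop atTop :=
    tendsto_id.const_mul_atTop (by norm_num)
  obtain ⟨A, hA⟩ : ∃ A : ℝ, A = 4 / 3 * 4 ^ (m + 3) := ⟨_, rfl⟩
  have hA0 : 0 < A := by rw [hA]; positivity
  have hcl := hc (ε / (8 * A)) (by positivity)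
  filter_upwards [hdbl.eventually hcl, eventually_ge_atTop (max 1 (A * (4 * Kd (m + 4)) / (ε / 4))),
    eventually_layn_hsf (n := m + 4) (by omega) (ε := ε / 2) (by positivity)] with R hL hR hRL
  have hR1 : 1 ≤ R := (le_max_left _ _).trans hR
  have hRK : A * (4 * Kd (m + 4)) / (ε / 4) ≤ R := (le_max_right _ _).trans hR
  have hR0 : 0 < R := by linarith
  obtain ⟨L, hL0, hL1, hD⟩ := hL
  refine ⟨Pi.single p 1, he, ?_⟩
  have h2R : (0:ℝ) < 2 * R := by positivity
  have k1 := NN_le h h2R hL0 hD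
  have e0 : m + 4 - 1 = m + 3 := rfl
  rw [e0] at k1
  have hb := bl_subset_box (n := m + 4) hR0.le
  have hmb : MeasurableSet (bl R : Set (Fin (m + 4) → ℝ)) := measurableSet_bl R
  have i1 : Integrable (fun x => (Psi (GG p x) - Psi (u x)) * mm (2 * R) x) :=
    ((cG.sub cu).mul (H891.continuous_mm _)).integrable_of_hasCompactSupport
      (H891.mm_hasCompactSupport h2R).mul_left
  have k2 : ∫ x in bl R, |Psi (u x) - Psi (GG p x)|
      ≤ 4 / 3 * ∫ x, (Psi (GG p x) - Psi (u x)) * mm (2 * R) x := by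
    rw [← integral_indicator hmb, ← integral_const_mul]
    apply integral_mono_of_nonneg
    · exact Eventually.of_forall fun x => indicator_nonneg (fun _ _ => abs_nonneg _) _
    · exact i1.const_mul _
    · refine Eventually.of_forall fun x => ?_
      simp only []
      have h3 := h.Psi_le x
      have h4 := mm_nonneg (2 * R) x
      by_cases hx : x ∈ (bl R : Set (Fin (m + 4) → ℝ))
      · rw [indicator_of_mem hx, abs_sub_comm, abs_of_nonneg (by linarith)]
        have hx' : esq x ≤ R ^ 2 := hx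
        have h6 : (3:ℝ) / 4 ≤ mm (2 * R) x := by
          unfold H891.mm
          refine le_trans ?_ (H891.le_pp _)
          have : esq x / (2 * R) ^ 2 ≤ 1 / 4 := by
            rw [div_le_iff₀ (by positivity)]
            nlinarith
          linarith
        nlinarith
      · rw [indicator_of_notMem hx]
        have : 0 ≤ Psi (GG p x) - Psi (u x) := by linarith
        positivity
  have k3 : ∫ x in bl R, |Psi (u x) - Psi (GG p x)| ≤ ε / 2 * R ^ (m + 4) := by
    refine k2.trans ?_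
    calc 4 / 3 * ∫ x, (Psi (GG p x) - Psi (u x)) * mm (2 * R) x
        ≤ 4 / 3 * ((4 * Kd (m + 4) + L) * (2 * (2 * R)) ^ (m + 3)) := by gcongr
      _ = (A * (4 * Kd (m + 4)) + A * L) * R ^ (m + 3) := by
          rw [hA, ← mul_assoc 2, mul_pow]; norm_num; ring
      _ ≤ (ε / 4 * R + ε / 4 * R) * R ^ (m + 3) := by
          apply mul_le_mul_of_nonneg_right _ (by positivity)
          rw [div_le_iff₀ (by positivity)] at hRK
          have : A * L ≤ A * (ε / (8 * A) * (2 * R)) := mul_le_mul_of_nonneg_left hL1 hA0.le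
          have e1 : A * (ε / (8 * A) * (2 * R)) = ε / 4 * R := by field_simp; norm_num
          linarith
      _ = _ := by ring
  have k4 : ∫ x in bl R, |Psi (GG p x) - hsf (Pi.single p 1) x| ≤ ε / 2 * R ^ (m + 4) := by
    refine le_trans ?_ (hRL _ he)
    rw [← GG_eq_lay]
    exact setIntegral_mono_set (integrableOn_hsf cG _ subset_rfl)
      (Eventually.of_forall fun _ => abs_nonneg _) hb.eventuallyLE
  have j1 : IntegrableOn (fun x => |Psi (u x) - Psi (GG p x)|) (bl R : Set (Fin (m + 4) → ℝ)) :=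
    integrableOn_box (cu.sub cG).abs hb
  have j2 := integrableOn_hsf cG (Pi.single p 1) hb
  have k5 : ∫ x in bl R, |Psi (u x) - hsf (Pi.single p 1) x|
      ≤ ∫ x in bl R, (|Psi (u x) - Psi (GG p x)| + |Psi (GG p x) - hsf (Pi.single p 1) x|) := by
    apply setIntegral_mono (integrableOn_hsf cu _ hb) (j1.add j2)
    intro x
    exact abs_sub_le _ _ _
  rw [integral_add j1 j2] at k5
  have e5 : ∫ x in bl R, |Psi (u x) - if 0 < ∑ i, (Pi.single p 1 : Fin (m + 4) → ℝ) i * x i
      then Psi 1 else 0| = ∫ x in bl R, |Psi (u x) - hsf (Pi.single p 1) x| := rfl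
  rw [e5]
  linarith

/-- block X: the mixed case. -/
theorem mix_out {u : (Fin (m + 4) → ℝ) → ℝ} {p q : Fin (m + 4)} (h : Mix u p q)
    (hlow : Low u p q) : OUT1 u ∧ OUT2 u := by
  obtain ⟨C, hC, hD⟩ := exists_Dec h hlow
  have hc := clean_of_Dec h hC hD
  exact ⟨mix_out1 h hc, mix_out2 h hc⟩

/-- a mixed solution takes the value `0`. -/
lemma mix_exists {u : (Fin n → ℝ) → ℝ} {p q : Fin n} (h : Mix u p q) : ∃ y, |u y| ≤ 3 / 4 := by
  have h1 := h.lim 0
  have e : gp ((0 : Fin n → ℝ) p) = 0 := by unfold H891.gp; norm_num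
  rw [e] at h1
  have h2 := h1.abs
  rw [abs_zero] at h2
  obtain ⟨t, ht⟩ := (h2.eventually (gt_mem_nhds (show (0:ℝ) < 3 / 4 by norm_num))).exists
  exact ⟨_, ht.le⟩

end Vale.Agent.P134.R2.H561
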