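import Vale.Agent.P134.R2.H561.StE

set_option linter.all false

open MeasureTheory Filter Topology Set

namespace Vale.Agent.P134.R2.H561

open Vale.Agent.P134 Vale.Agent.P134.SM Vale.Agent.P134.H688
open Vale.Agent.P134.M4 (bl)
open Vale.Agent.P134.H891 (Psi ph mm pp ph_nonneg mm_nonneg mm_le_one mm_eq_zero ph_contDiff
  ph_hasCompactSupport continuous_Psi Psi_nonneg Psi_le_one ph_le_one)

variable {m n : ℕ} {u : (Fin n → ℝ) → ℝ}

lemma pp_lip (a b : ℝ) : |pp a - pp b| ≤ |a - b| := by
  unfold H891.pp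
  exact abs_max_sub_max_le_abs a b 0

lemma esq_sub_eq (x y : Fin n → ℝ) : esq (x - y) = esq x - 2 * (∑ i, x i * y i) + esq y := by
  unfold esq
  rw [Finset.mul_sum, ← Finset.sum_sub_distrib, ← Finset.sum_add_distrib]
  refine Finset.sum_congr rfl fun i _ => ?_
  simp; ring

lemma abs_dot_le {x y : Fin n → ℝ} {A D : ℝ} (hA : 0 ≤ A) (hD : 0 ≤ D) (hx : esq x ≤ A ^ 2)
    (hy : esq y ≤ D ^ 2) : |∑ i, x i * y i| ≤ A * D := by
  apply abs_le_of_sq_le_sq _ (by positivity)
  have hx0 : 0 ≤ esq x := Finset.sum_nonneg fun _ _ => sq_nonneg _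
  have hy0 : 0 ≤ esq y := Finset.sum_nonneg fun _ _ => sq_nonneg _
  calc (∑ i, x i * y i) ^ 2 ≤ esq x * esq y := Finset.sum_mul_sq_le_sq_mul_sq _ _ _
    _ ≤ A ^ 2 * D ^ 2 := mul_le_mul hx hy hy0 (by positivity)
    _ = (A * D) ^ 2 := by ring

/-- shift of the cut-off. -/
lemma ph_shift_le {R D : ℝ} (hR : 0 < R) (hD0 : 0 ≤ D) (hDR : D ≤ R) {y : Fin n → ℝ}
    (hy : esq y = D ^ 2) (x : Fin n → ℝ) :
    ph R (x - y) ≤ ph R x + 10 * D / R * (16 / 9 * ph (4 * R) x) := by
  have hdot : ∀ A : ℝ, 0 ≤ A → esq x ≤ A ^ 2 → |∑ i, x i * y i| ≤ A * D := fun A hA hx =>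
    abs_dot_le hA hD0 hx hy.le
  have hy0 : 0 ≤ esq y := Finset.sum_nonneg fun _ _ => sq_nonneg _
  have hx0 : 0 ≤ esq x := Finset.sum_nonneg fun _ _ => sq_nonneg _
  by_cases hx : esq x ≤ (2 * R) ^ 2
  · have h1 := abs_le.mp (hdot (2 * R) (by positivity) hx)
    have h2 : |esq (x - y) - esq x| ≤ 5 * R * D := by
      rw [esq_sub_eq, abs_le]
      have h3 : D ^ 2 ≤ R * D := by nlinarith
      constructor <;> nlinarith
    have h3 : |mm R (x - y) - mm R x| ≤ 5 * D / R := by
      unfold H891.mm
      refine (pp_lip _ _).trans ?_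
      have e : (1 - esq (x - y) / R ^ 2) - (1 - esq x / R ^ 2)
          = -((esq (x - y) - esq x) / R ^ 2) := by ring
      rw [e, abs_neg, abs_div, abs_of_pos (by positivity : (0:ℝ) < R ^ 2),
        div_le_div_iff₀ (by positivity) hR]
      calc |esq (x - y) - esq x| * R ≤ 5 * R * D * R := mul_le_mul_of_nonneg_right h2 hR.le
        _ = 5 * D * R ^ 2 := by ring
    have h4 : ph R (x - y) - ph R x ≤ 10 * D / R := by
      unfold H891.ph
      have a1 := mm_le_one (r := R) (x - y)
      have a2 := mm_le_one (r := R) x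
      have a3 := mm_nonneg R (x - y)
      have a4 := mm_nonneg R x
      have a5 := (abs_le.mp h3).2
      have a6 : 0 ≤ 5 * D / R := by positivity
      have a7 : mm R (x - y) ^ 2 - mm R x ^ 2
          = (mm R (x - y) - mm R x) * (mm R (x - y) + mm R x) := by ring
      rw [a7]
      have a8 : 10 * D / R = 5 * D / R * 2 := by ring
      rw [a8]
      calc (mm R (x - y) - mm R x) * (mm R (x - y) + mm R x)
          ≤ 5 * D / R * (mm R (x - y) + mm R x) := mul_le_mul_of_nonneg_right a5 (by linarith)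
        _ ≤ 5 * D / R * 2 := mul_le_mul_of_nonneg_left (by linarith) a6
    have h5 : (9:ℝ) / 16 ≤ ph (4 * R) x := by
      have h6 : (3:ℝ) / 4 ≤ mm (4 * R) x := by
        unfold H891.mm
        refine le_trans ?_ (H891.le_pp _)
        have : esq x / (4 * R) ^ 2 ≤ 1 / 4 := by
          rw [div_le_iff₀ (by positivity)]
          nlinarith
        linarith
      unfold H891.ph
      nlinarith
    have h6 : 10 * D / R * 1 ≤ 10 * D / R * (16 / 9 * ph (4 * R) x) :=
      mul_le_mul_of_nonneg_left (by linarith) (by positivity)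
    linarith
  · push Not at hx
    have h7 : ph R (x - y) = 0 := by
      unfold H891.ph
      rw [mm_eq_zero hR, zero_pow two_ne_zero]
      obtain ⟨A, hA⟩ : ∃ A : ℝ, A = √(esq x) := ⟨_, rfl⟩
      have hA0 : 0 ≤ A := by rw [hA]; exact Real.sqrt_nonneg _
      have hA2 : A ^ 2 = esq x := by rw [hA]; exact Real.sq_sqrt hx0
      have hAR : 2 * R ≤ A := by
        rw [← hA2] at hx
        exact (lt_of_pow_lt_pow_left₀ 2 hA0 hx).le
      have h1 := (abs_le.mp (hdot A hA0 hA2.ge)).2
      rw [esq_sub_eq, ← hA2, hy]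
      have h8 : R ≤ A - D := by linarith
      have h9 : R ^ 2 ≤ (A - D) ^ 2 := pow_le_pow_left₀ hR.le h8 2
      nlinarith
    rw [h7]
    have := ph_nonneg R x
    have := ph_nonneg (4 * R) x
    positivity

lemma en_shift (u : (Fin n → ℝ) → ℝ) (y x : Fin n → ℝ) : en (fun z => u (z + y)) x = en u (x + y) := by
  unfold en
  simp_rw [pd_shift]

/-- the sharp energy bound does not depend on the centre. -/
lemma out1_shift {u : (Fin (m + 4) → ℝ) → ℝ} (hu : Sol u) (h : OUT1 u) (y : Fin (m + 4) → ℝ) :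
    OUT1 (fun x => u (x + y)) := by
  obtain ⟨w, hw⟩ : ∃ w : ℝ, w = ∫ z : Fin (m + 3) → ℝ, ph 1 z := ⟨_, rfl⟩
  have hw0 : 0 ≤ w := by rw [hw]; exact integral_nonneg fun z => ph_nonneg _ _
  have hPsi : 0 ≤ Psi 1 := Psi_nonneg (by norm_num)
  have hy0 : 0 ≤ esq y := Finset.sum_nonneg fun _ _ => sq_nonneg _
  obtain ⟨D, hD⟩ : ∃ D : ℝ, D = √(esq y) := ⟨_, rfl⟩
  have hD0 : 0 ≤ D := by rw [hD]; exact Real.sqrt_nonneg _
  have hD2 : esq y = D ^ 2 := by rw [hD, Real.sq_sqrt hy0]
  obtain ⟨E, hE⟩ : ∃ E : ℝ, E = 10 * D * (16 / 9 * (Psi 1 * w * 4 ^ (m + 3))) := ⟨_, rfl⟩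
  have hE0 : 0 ≤ E := by rw [hE]; positivity
  have ce : Continuous (en u) := continuous_en (hu.c2.of_le (by norm_num))
  refine out1_of_lim (hu.shift y) fun ε hε => ?_
  filter_upwards [eventually_ge_atTop (max 1 (max D (E / ε)))] with R hR
  have hR1 : 1 ≤ R := (le_max_left _ _).trans hR
  have hRD : D ≤ R := ((le_max_left _ _).trans (le_max_right _ _)).trans hR
  have hRE : E / ε ≤ R := ((le_max_right _ _).trans (le_max_right _ _)).trans hR
  have hR0 : 0 < R := by linarith
  have e1 : ∫ x, ph R x * en (fun z => u (z + y)) x = ∫ x, ph R (x - y) * en u x := by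
    rw [← integral_add_right_eq_self (fun x => ph R (x - y) * en u x) y]
    refine integral_congr_ae (Eventually.of_forall fun x => ?_)
    simp only [add_sub_cancel_right, en_shift]
  have i1 : Integrable (fun x => ph R x * en u x) :=
    ((ph_contDiff R).continuous.mul ce).integrable_of_hasCompactSupport
      (ph_hasCompactSupport hR0).mul_right
  have i2 : Integrable (fun x => ph (4 * R) x * en u x) :=
    ((ph_contDiff (4 * R)).continuous.mul ce).integrable_of_hasCompactSupport
      (ph_hasCompactSupport (by positivity)).mul_right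
  have h1 : ∫ x, ph R (x - y) * en u x
      ≤ ∫ x, (ph R x * en u x + 10 * D / R * (16 / 9) * (ph (4 * R) x * en u x)) := by
    apply integral_mono_of_nonneg
    · exact Eventually.of_forall fun x => mul_nonneg (ph_nonneg _ _) (en_nonneg _ _)
    · exact i1.add (i2.const_mul _)
    · refine Eventually.of_forall fun x => ?_
      simp only []
      have h2 := mul_le_mul_of_nonneg_right (ph_shift_le hR0 hD0 hRD hD2 x) (en_nonneg u x)
      refine h2.trans (le_of_eq ?_)
      ring
  rw [integral_add i1 (i2.const_mul _), integral_const_mul] at h1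
  have h2 := h R hR0
  have h3 := h (4 * R) (by positivity)
  have e2 : ∫ x, ph R x * en u x = ∫ x, en u x * ph R x := by congr 1; ext x; ring
  have e3 : ∫ x, ph (4 * R) x * en u x = ∫ x, en u x * ph (4 * R) x := by congr 1; ext x; ring
  rw [e1]
  rw [e2, e3] at h1
  rw [← hw] at h2 h3 ⊢
  have h4 : 10 * D / R * (16 / 9) * ∫ x, en u x * ph (4 * R) x ≤ ε * R ^ (m + 3) := by
    calc 10 * D / R * (16 / 9) * ∫ x, en u x * ph (4 * R) x
        ≤ 10 * D / R * (16 / 9) * (Psi 1 * w * (4 * R) ^ (m + 3)) :=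
          mul_le_mul_of_nonneg_left h3 (by positivity)
      _ = E / R * R ^ (m + 3) := by rw [hE, mul_pow]; field_simp
      _ ≤ ε * R ^ (m + 3) := by
          apply mul_le_mul_of_nonneg_right _ (by positivity)
          rw [div_le_iff₀ hR0]
          rw [div_le_iff₀ hε] at hRE
          linarith
  have e5 : (Psi 1 * w + ε) * R ^ (m + 3) = Psi 1 * w * R ^ (m + 3) + ε * R ^ (m + 3) := by ring
  linarith

lemma hsf_diff_le (e : Fin n → ℝ) {D R : ℝ} {y : Fin n → ℝ} (hD : |∑ i, e i * y i| ≤ D)
    {z : Fin n → ℝ} (hz : z ∈ box n R) :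
    |hsf e z - hsf e (z - y)| ≤ (slab e D R).indicator (fun _ => (1:ℝ)) z := by
  have h0 := hsf_mem e z
  have h1 := hsf_mem e (z - y)
  by_cases hs : z ∈ slab e D R
  · rw [indicator_of_mem hs, abs_le]
    constructor <;> linarith
  · rw [indicator_of_notMem hs]
    have h2 : D < |∑ i, e i * z i| := by
      by_contra hcon
      exact hs ⟨hz, not_lt.mp hcon⟩
    have e1 : ∑ i, e i * (z - y) i = ∑ i, e i * z i - ∑ i, e i * y i := by
      rw [← Finset.sum_sub_distrib]
      refine Finset.sum_congr rfl fun i _ => ?_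
      simp; ring
    have hD' := abs_le.mp hD
    have : hsf e z = hsf e (z - y) := by
      unfold hsf
      rw [e1]
      rcases lt_abs.mp h2 with h3 | h3
      · rw [if_pos (by linarith), if_pos (by linarith)]
      · rw [if_neg (by linarith), if_neg (by linarith)]
    rw [this, sub_self, abs_zero]

/-- the blow-down does not depend on the centre. -/
lemma out2_shift {u : (Fin (m + 4) → ℝ) → ℝ} (hu : Sol u) (h : OUT2 u) (y : Fin (m + 4) → ℝ) :
    OUT2 (fun x => u (x + y)) := by
  have hy0 : 0 ≤ esq y := Finset.sum_nonneg fun _ _ => sq_nonneg _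
  obtain ⟨D, hD⟩ : ∃ D : ℝ, D = √(esq y) := ⟨_, rfl⟩
  have hD0 : 0 ≤ D := by rw [hD]; exact Real.sqrt_nonneg _
  have hD2 : esq y ≤ D ^ 2 := by rw [hD, Real.sq_sqrt hy0]
  obtain ⟨N, hN⟩ : ∃ N : ℝ, N = ((m + 4 : ℕ) : ℝ) := ⟨_, rfl⟩
  have hN1 : 1 ≤ N := by rw [hN]; push_cast; linarith [Nat.cast_nonneg (α := ℝ) m]
  intro ε hε
  have hlin : Tendsto (fun R : ℝ => N * (2 * R)) atTop atTop :=
    (tendsto_id.const_mul_atTop (by norm_num : (0:ℝ) < 2)).const_mul_atTop (by linarith)
  obtain ⟨B, hB⟩ : ∃ B : ℝ, B = N * (2 * D) * 4 ^ (m + 3) := ⟨_, rfl⟩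
  have hB0 : 0 ≤ B := by rw [hB]; positivity
  have cu : Continuous (fun x => Psi (u x)) := continuous_Psi.comp hu.c2.continuous
  filter_upwards [hlin.eventually (h (ε / 2 / (2 * N) ^ (m + 4)) (by positivity)),
    eventually_ge_atTop (max 1 (max D (B / (ε / 2))))] with R ⟨e, he, hE⟩ hR
  have hR1 : 1 ≤ R := (le_max_left _ _).trans hR
  have hRD : D ≤ R := ((le_max_left _ _).trans (le_max_right _ _)).trans hR
  have hRB : B / (ε / 2) ≤ R := ((le_max_right _ _).trans (le_max_right _ _)).trans hR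
  have hR0 : 0 < R := by linarith
  refine ⟨e, he, ?_⟩
  have hey : |∑ i, e i * y i| ≤ D := by
    have := abs_dot_le (x := e) (y := y) (A := 1) (D := D) zero_le_one hD0
      (by show esq e ≤ 1 ^ 2; unfold esq; rw [he]; norm_num) hD2
    rwa [one_mul] at this
  have hmb : MeasurableSet (bl R : Set (Fin (m + 4) → ℝ)) := measurableSet_bl R
  have hmB : MeasurableSet (box (m + 4) (2 * R)) := (isCompact_box _).measurableSet
  -- change of variables
  have e1 : ∫ x in bl R, |Psi (u (x + y)) - hsf e x|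
      = ∫ z, (bl R).indicator (fun x => |Psi (u (x + y)) - hsf e x|) (z - y) := by
    rw [← integral_indicator hmb]
    exact (integral_sub_right_eq_self (μ := volume)
      ((bl R).indicator (fun x => |Psi (u (x + y)) - hsf e x|)) y).symm
  have j1 : IntegrableOn (fun z => |Psi (u z) - hsf e z|) (box (m + 4) (2 * R)) :=
    integrableOn_hsf cu e subset_rfl
  have hms : MeasurableSet (slab e D (2 * R)) := measurableSet_slab _ _ _
  have hsb : slab e D (2 * R) ⊆ box (m + 4) (2 * R) := fun z hz => hz.1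
  have hvf : volume (slab e D (2 * R)) ≠ ⊤ :=
    ((measure_mono hsb).trans_lt (isCompact_box _).measure_lt_top).ne
  have j2 : Integrable ((slab e D (2 * R)).indicator (fun _ => (1:ℝ))) :=
    (integrable_indicator_iff hms).mpr (integrableOn_const hvf)
  have h1 : ∫ z, (bl R).indicator (fun x => |Psi (u (x + y)) - hsf e x|) (z - y)
      ≤ ∫ z, ((box (m + 4) (2 * R)).indicator (fun z => |Psi (u z) - hsf e z|) z
        + (slab e D (2 * R)).indicator (fun _ => (1:ℝ)) z) := by
    apply integral_mono_of_nonneg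
    · exact Eventually.of_forall fun z => indicator_nonneg (fun _ _ => abs_nonneg _) _
    · exact (j1.integrable_indicator hmB).add j2
    · refine Eventually.of_forall fun z => ?_
      simp only []
      by_cases hz : z - y ∈ (bl R : Set (Fin (m + 4) → ℝ))
      · have hzb : z ∈ box (m + 4) (2 * R) := by
          have h2 := mem_box.mp (bl_subset_box hR0.le hz)
          rw [mem_box]
          intro i
          have h3 : y i ^ 2 ≤ D ^ 2 := by
            refine le_trans ?_ hD2
            exact Finset.single_le_sum (f := fun i => y i ^ 2) (fun _ _ => sq_nonneg _)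
              (Finset.mem_univ i)
          have h4 := abs_le_of_sq_le_sq h3 hD0
          have h5 := h2 i
          simp only [Pi.sub_apply] at h5
          have h6 : z i = (z i - y i) + y i := by ring
          rw [h6]
          exact (abs_add_le _ _).trans (by linarith)
        rw [indicator_of_mem hz, indicator_of_mem hzb]
        have h7 := hsf_diff_le e hey hzb
        have e2 : z - y + y = z := by abel
        rw [e2]
        have h8 := abs_sub_le (Psi (u z)) (hsf e z) (hsf e (z - y))
        linarith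
      · rw [indicator_of_notMem hz]
        exact add_nonneg (indicator_nonneg (fun _ _ => abs_nonneg _) _)
          (indicator_nonneg (fun _ _ => zero_le_one) _)
  rw [integral_add (j1.integrable_indicator hmB) j2, integral_indicator hmB,
    integral_indicator hms, setIntegral_const, smul_eq_mul, mul_one] at h1
  have h2 : ∫ z in box (m + 4) (2 * R), |Psi (u z) - hsf e z| ≤ ε / 2 * R ^ (m + 4) := by
    have h3 : ∫ z in box (m + 4) (2 * R), |Psi (u z) - hsf e z|
        ≤ ∫ z in bl (((m + 4 : ℕ) : ℝ) * (2 * R)), |Psi (u z) - hsf e z| := by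
      apply setIntegral_mono_set
      · exact integrableOn_hsf cu e (bl_subset_box (by positivity))
      · exact Eventually.of_forall fun _ => abs_nonneg _
      · exact (boxn_subset_bl (by omega)).eventuallyLE
    rw [← hN] at h3
    refine h3.trans (le_trans (le_of_eq (by unfold hsf; rfl)) (hE.trans (le_of_eq ?_)))
    have : (N * (2 * R)) ^ (m + 4) = (2 * N) ^ (m + 4) * R ^ (m + 4) := by
      rw [← mul_pow]; ring
    rw [this]
    field_simp
  have h3 : volume.real (slab e D (2 * R)) ≤ ε / 2 * R ^ (m + 4) := by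
    have h4 := volume_slab_le (n := m + 4) (by omega) he hD0 (by positivity : (0:ℝ) ≤ 2 * R)
    have e0 : m + 4 - 1 = m + 3 := rfl
    rw [e0, ← hN] at h4
    have h5 : volume.real (slab e D (2 * R)) = (volume (slab e D (2 * R))).toReal := rfl
    rw [h5]
    refine h4.trans ?_
    calc N * (2 * D) * (2 * (2 * R)) ^ (m + 3) = B * R ^ (m + 3) := by
          rw [hB, ← mul_assoc 2, mul_pow]; norm_num; ring
      _ ≤ (ε / 2 * R) * R ^ (m + 3) := by
          apply mul_le_mul_of_nonneg_right _ (by positivity)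
          rw [div_le_iff₀ (by positivity)] at hRB
          linarith
      _ = _ := by ring
  have e5 : ∫ x in bl R, |Psi (u (x + y)) - if 0 < ∑ i, e i * x i then Psi 1 else 0|
      = ∫ x in bl R, |Psi (u (x + y)) - hsf e x| := rfl
  rw [e5, e1]
  linarith

end Vale.Agent.P134.R2.H561
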