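import Vale.Agent.P134.H787.Rot
import Mathlib.Analysis.InnerProductSpace.GramSchmidtOrtho

set_option linter.all false

open InnerProductSpace
open scoped InnerProductSpace

namespace Vale.Agent.P134.R2.H561

open Vale.Agent.P134 Vale.Agent.P134.SM
open Vale.Agent.P134.H787 (rot LI)

variable {m n : ℕ}

/-- the first vector of the Gram-Schmidt family. -/
lemma gs_first {E : Type*} [NormedAddCommGroup E] [InnerProductSpace ℝ E] (f : Fin (m + 1) → E) :
    gramSchmidtNormed ℝ f 0 = (‖f 0‖)⁻¹ • f 0 := by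
  unfold gramSchmidtNormed
  have h : gramSchmidt ℝ f 0 = f 0 := by
    rw [gramSchmidt_def]
    have : Finset.Iio (0 : Fin (m + 1)) = ∅ := by
      ext x; simp
    rw [this]
    simp
  rw [h]
  simp

/-- A rotation adapted to a linearly independent family. -/
theorem exists_rot_span {b : Fin (m + 1) → Fin (m + 4) → ℝ} (hb : LinearIndependent ℝ b) :
    ∃ (L : LI (m + 4)) (β : ℝ), 0 < β ∧
      b 0 = β • rot L (Pi.single (Fin.last (m + 3)) 1) ∧
      ∀ j : Fin (m + 1), ∃ c : Fin (m + 1) → ℝ,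
        rot L (Pi.single j.succ.succ.succ 1) = ∑ i, c i • b i := by
  classical
  obtain ⟨B, hB⟩ : ∃ B : Fin (m + 1) → EuclideanSpace ℝ (Fin (m + 4)),
      B = fun i => WithLp.toLp 2 (b i) := ⟨_, rfl⟩
  have hBL : LinearIndependent ℝ B := by
    rw [hB]
    exact hb.map' (WithLp.linearEquiv 2 ℝ (Fin (m + 4) → ℝ)).symm.toLinearMap
      (LinearEquiv.ker _)
  obtain ⟨g, hg⟩ : ∃ g : Fin (m + 1) → EuclideanSpace ℝ (Fin (m + 4)),
      g = gramSchmidtNormed ℝ B := ⟨_, rfl⟩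
  have hgo : Orthonormal ℝ g := by rw [hg]; exact gramSchmidtNormed_orthonormal hBL
  have hgs : ∀ i, ∃ c : Fin (m + 1) → ℝ, ∑ j, c j • B j = g i := by
    intro i
    have h1 : g i ∈ Submodule.span ℝ (Set.range B) := by
      rw [hg, ← span_gramSchmidt ℝ B]
      unfold gramSchmidtNormed
      exact Submodule.smul_mem _ _ (Submodule.subset_span ⟨i, rfl⟩)
    exact (Submodule.mem_span_range_iff_exists_fun ℝ).mp h1
  obtain ⟨v, hv⟩ : ∃ v : Fin (m + 4) → EuclideanSpace ℝ (Fin (m + 4)),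
      v = Fin.cons 0 (Fin.cons 0 (Fin.cons 0 (fun j : Fin (m + 1) => g (Fin.rev j)))) := ⟨_, rfl⟩
  have hvj : ∀ j : Fin (m + 1), v j.succ.succ.succ = g (Fin.rev j) := by
    intro j; rw [hv, Fin.cons_succ, Fin.cons_succ, Fin.cons_succ]
  have horth : Orthonormal ℝ ((Set.range fun j : Fin (m + 1) => j.succ.succ.succ).restrict v) := by
    constructor
    · rintro ⟨i, j, rfl⟩
      show ‖v j.succ.succ.succ‖ = 1
      rw [hvj]; exact hgo.1 _
    · rintro ⟨i, j, rfl⟩ ⟨i', j', rfl⟩ hij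
      show ⟪v j.succ.succ.succ, v j'.succ.succ.succ⟫_ℝ = 0
      rw [hvj, hvj]
      apply hgo.2
      intro h
      have : j = j' := Fin.rev_injective h
      subst this
      exact hij rfl
  obtain ⟨bb, hbb⟩ := Orthonormal.exists_orthonormalBasis_extension_of_card_eq (𝕜 := ℝ)
    (E := EuclideanSpace ℝ (Fin (m + 4))) (ι := Fin (m + 4)) (by simp) horth
  have hrot : ∀ j : Fin (m + 1), rot bb.repr.symm (Pi.single j.succ.succ.succ 1)
      = WithLp.ofLp (g (Fin.rev j)) := by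
    intro j
    have h1 : bb.repr.symm (EuclideanSpace.single j.succ.succ.succ 1) = bb j.succ.succ.succ :=
      bb.repr_symm_single _
    have h2 := hbb j.succ.succ.succ ⟨j, rfl⟩
    rw [hvj] at h2
    have h3 : (WithLp.toLp 2 (Pi.single j.succ.succ.succ (1:ℝ)) : EuclideanSpace ℝ (Fin (m + 4)))
      = EuclideanSpace.single j.succ.succ.succ 1 := rfl
    rw [H787.rot_apply, h3, h1, h2]
  have hB0 : B 0 ≠ 0 := hBL.ne_zero 0
  have hn0 : 0 < ‖B 0‖ := norm_pos_iff.mpr hB0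
  refine ⟨bb.repr.symm, ‖B 0‖, hn0, ?_, ?_⟩
  · have h1 := hrot (Fin.last m)
    have h2 : (Fin.last m).succ.succ.succ = Fin.last (m + 3) := rfl
    rw [h2, Fin.rev_last, hg, gs_first] at h1
    rw [h1]
    have h3 : WithLp.ofLp ((‖B 0‖)⁻¹ • B 0) = (‖B 0‖)⁻¹ • b 0 := by
      rw [hB]; rfl
    rw [h3, smul_smul, mul_inv_cancel₀ hn0.ne', one_smul]
  · intro j
    obtain ⟨c, hc⟩ := hgs (Fin.rev j)
    refine ⟨c, ?_⟩
    rw [hrot, ← hc, hB]
    funext k
    simp

end Vale.Agent.P134.R2.H561
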