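import Vale.Agent.P134.R2.H561.Defs
import Vale.Agent.P134.B331.StG
import Vale.Agent.P134.B331.StR
import Vale.Agent.P134.H919.StA

set_option linter.all false

open MeasureTheory Filter Topology

namespace Vale.Agent.P134.R2.H561

open Vale.Agent.P134
open Vale.Agent.P134.H891 (rd)
open Vale.Agent.P134.M4 (bl)
open Vale.Agent.P134.H919 (Th Gs setInt_bl_le integrable_cutb Th_mono Gs_le Th_zero_eq Gs_zero_eq
  prof_th psi_sq_le_en)
open Vale.Agent.P134.B331 (dd_single int_grad_cutb cutb_univ_hasCompactSupport)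

variable {m : ℕ}

/-- one constant for all centres and radii. -/
theorem exists_energy {u U : (Fin (m + 4) → ℝ) → ℝ} {q : Fin (m + 4)} (hu : Sol u)
    (hpos : ∀ x, 0 < pd q u x) (hU : Sol U)
    (hlim : ∀ x, Tendsto (fun t : ℝ => u (x + t • Pi.single q 1)) atTop (𝓝 (U x)))
    (hD : ∀ x, defi U x = 0) : ∃ C : ℝ, 0 ≤ C ∧ ∀ (z : Fin (m + 4) → ℝ) (R : ℝ), 0 < R →
      ∫ x, cutb Finset.univ R x * en (fun y => u (y + z)) x ≤ C * R ^ (m + 3) := by
  obtain ⟨C, hC0, hC1, hC2, -⟩ := hu.exists_bound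
  obtain ⟨C', hC'1, hC'⟩ := exists_th_bound
  have hC'0 : 0 ≤ C' := (abs_nonneg _).trans (hC' 0)
  refine ⟨(1 / 2 + 2 * C) * ((m + 4) * (3 * C') * 4 ^ (m + 4)), by positivity, fun z R hR => ?_⟩
  set e : Fin (m + 4) → ℝ := Pi.single q 1 with he
  set v : (Fin (m + 4) → ℝ) → ℝ := fun x => u (x + z) with hv
  set W : (Fin (m + 4) → ℝ) → ℝ := fun x => U (x + z) with hW
  have hvS : Sol v := hu.shift z
  have hWS : Sol W := hU.shift z
  have hpdv : ∀ i, pd i v = fun x => pd i u (x + z) := fun i => pd_shift_fun u z i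
  have hpdW : ∀ i, pd i W = fun x => pd i U (x + z) := fun i => pd_shift_fun U z i
  have hvpos : ∀ x, 0 < dd e v x := by
    intro x
    rw [he, dd_single, hpdv]
    exact hpos _
  obtain ⟨W', hW', hlW, hlW', hiW⟩ := DStab.exists_profile_dir hvS hvpos
  have hWW : W' = W := by
    funext x
    have h1 := hlim (x + z)
    have h2 := hlW x
    refine tendsto_nhds_unique h2 ?_
    refine h1.congr fun t => ?_
    simp only [hv]
    congr 1
    abel
  rw [hWW] at hlW hlW'
  have hDW : ∀ x, defi W x = 0 := by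
    intro x
    have h := hD (x + z)
    unfold defi at h ⊢
    simp_rw [hpdW]
    exact h
  have hχ : ContDiff ℝ 1 (cutb (Finset.univ : Finset (Fin (m + 4))) R) := cutb_contDiff _ _
  have hc : HasCompactSupport (cutb (Finset.univ : Finset (Fin (m + 4))) R) :=
    cutb_univ_hasCompactSupport hR
  have hC1v : ∀ x i, |pd i v x| ≤ C := fun x i => by rw [hpdv]; exact hC1 _ _
  have hC2v : ∀ x i j, |pd i (pd j v) x| ≤ C := fun x i j => by
    rw [hpdv, pd_shift_fun]
    exact hC2 _ _ _
  have hcmp := energy_comparison_dir hvS hC1v hC2v hC0.le hvpos hWS hlW hlW' hχ hc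
    (cutb_nonneg _ _)
  have hen := hWS.energy_of_defi_zero hDW hχ hc
  have hgr := int_grad_cutb (n := m + 4) hC' hR
  set G := ∫ x, ∑ j, |pd j (cutb (Finset.univ : Finset (Fin (m + 4))) R) x| with hG
  have hG0 : 0 ≤ G := integral_nonneg fun x => Finset.sum_nonneg fun _ _ => abs_nonneg _
  have hcW : Continuous (fun x => psi W x ^ 2) := hWS.psi_contDiff.continuous.pow 2
  have hup : ∫ x, en W x * cutb Finset.univ R x ≤ (1 / 2) * G := by
    have h1 : ∫ x, en W x * cutb Finset.univ R x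
        ≤ ∫ x, (1 / 2) * (psi W x ^ 2 * cutb Finset.univ R x) := by
      apply integral_mono_of_nonneg
      · exact Eventually.of_forall fun x => mul_nonneg (en_nonneg _ _) (cutb_nonneg _ _ _)
      · exact ((hcW.mul hχ.continuous).integrable_of_hasCompactSupport hc.mul_left).const_mul _
      · refine Eventually.of_forall fun x => ?_
        simp only []
        have h2 := hWS.en_le x
        have h3 := mul_le_mul_of_nonneg_right h2 (cutb_nonneg Finset.univ R x)
        linarith only [h3]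
    rw [integral_const_mul] at h1
    linarith only [h1, hen]
  have hfin : ∫ x, cutb Finset.univ R x * en v x ≤ (1 / 2 + 2 * C) * G := by
    have e1 : (fun x => cutb Finset.univ R x * en v x)
        = fun x => en v x * cutb Finset.univ R x := by
      funext x; ring
    rw [e1]
    linarith only [hcmp, hup]
  have hval : ((m + 4 : ℕ) : ℝ) * (3 * C' / R) * (2 * (2 * R)) ^ (m + 4)
      = ((m + 4) * (3 * C') * 4 ^ (m + 4)) * R ^ (m + 3) := by
    push_cast
    rw [show (2 * (2 * R)) = 4 * R by ring, mul_pow, pow_succ R (m + 3)]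
    field_simp
  rw [hval] at hgr
  have h9 := mul_le_mul_of_nonneg_left hgr (show (0 : ℝ) ≤ 1 / 2 + 2 * C by linarith only [hC0])
  calc _ ≤ _ := hfin
    _ ≤ _ := h9
    _ = _ := by ring

theorem e3'_of {u : (Fin (m + 4) → ℝ) → ℝ} (hu : Sol u) {C : ℝ}
    (hC : ∀ (z : Fin (m + 4) → ℝ) (R : ℝ), 0 < R →
      ∫ x, cutb Finset.univ R x * en (fun y => u (y + z)) x ≤ C * R ^ (m + 3)) : E3' u := by
  refine ⟨4 * C, fun y R hR => ?_⟩
  have hR0 : 0 < R := by linarith
  have hv : Sol (fun x => u (x + y)) := hu.shift y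
  have h1 := hC y R hR0
  have cen : Continuous (en (fun x => u (x + y))) := (en_contDiff hv.c2).continuous
  have cpsi : Continuous (fun x => psi u (x + y) ^ 2) := by
    have : Continuous u := hu.c2.continuous
    unfold psi
    fun_prop
  calc ∫ x in bl R, psi u (x + y) ^ 2 ≤ ∫ x, cutb Finset.univ R x * psi u (x + y) ^ 2 :=
        setInt_bl_le hR0 cpsi (fun x => sq_nonneg _)
    _ ≤ ∫ x, 4 * (cutb Finset.univ R x * en (fun x => u (x + y)) x) := by
        apply integral_mono (integrable_cutb hR0 cpsi) ((integrable_cutb hR0 cen).const_mul 4)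
        intro x
        simp only
        have h2 : psi u (x + y) ^ 2 ≤ 4 * en (fun x => u (x + y)) x :=
          psi_sq_le_en (fun x => u (x + y)) x
        have h3 := cutb_nonneg Finset.univ R x
        calc _ ≤ cutb Finset.univ R x * (4 * en (fun x => u (x + y)) x) :=
              mul_le_mul_of_nonneg_left h2 h3
          _ = _ := by ring
    _ = 4 * ∫ x, cutb Finset.univ R x * en (fun x => u (x + y)) x := integral_const_mul _ _
    _ ≤ 4 * (C * R ^ (m + 3)) := by linarith
    _ = 4 * C * R ^ (m + 3) := by ring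

theorem s0_of {u : (Fin (m + 4) → ℝ) → ℝ} (hu : Sol u) {C : ℝ}
    (hC : ∀ (z : Fin (m + 4) → ℝ) (R : ℝ), 0 < R →
      ∫ x, cutb Finset.univ R x * en (fun y => u (y + z)) x ≤ C * R ^ (m + 3)) : S0 u := by
  have hmono := Th_mono (n := m + 4) (by omega) hu prof_th 0
  have hTh : ∀ R : ℝ, 0 < R → Th u th 0 R ≤ C := by
    intro R hR
    rw [Th_zero_eq, div_le_iff₀ (by positivity)]
    have := hC 0 R hR
    simpa using this
  set S : Set ℝ := Th u th 0 '' Set.Ioi 0 with hS
  have hSne : S.Nonempty := ⟨_, 1, by simp, rfl⟩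
  have hSb : BddAbove S := ⟨C, by rintro _ ⟨R, hR, rfl⟩; exact hTh R hR⟩
  intro ε hε
  obtain ⟨_, ⟨r, hr, rfl⟩, hr2⟩ := exists_lt_of_lt_csSup hSne (show sSup S - ε / 4 < sSup S by linarith)
  have hr0 : (0:ℝ) < r := hr
  have hlim : Tendsto (fun R : ℝ => Gs u th 0 r / R ^ (m + 5)) atTop (𝓝 0) :=
    Tendsto.div_atTop tendsto_const_nhds (tendsto_pow_atTop (by omega))
  filter_upwards [eventually_ge_atTop r, hlim.eventually (gt_mem_nhds (show (0:ℝ) < ε / 2 by linarith))]
    with R hrR hR2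
  have hR0 : 0 < R := lt_of_lt_of_le hr0 hrR
  have h1 := Gs_le (n := m + 4) (by omega) hu prof_th 0 hr0 hrR
  have h2 : Th u th 0 R ≤ sSup S := le_csSup hSb ⟨R, hR0, rfl⟩
  have h3 : Gs u th 0 R / R ^ (m + 5) ≤ ε := by
    have e : (m + 4 + 1 : ℕ) = m + 5 := rfl
    rw [e] at h1
    linarith
  rw [div_le_iff₀ (by positivity), Gs_zero_eq] at h3
  have crd : Continuous (fun x => rd u x ^ 2) := (H891.rd_continuous hu.c2).pow 2
  exact (setInt_bl_le hR0 crd (fun x => sq_nonneg _)).trans h3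

theorem stA (m : ℕ) : StA m := by
  intro u U q hu hpos hU hlim hD
  obtain ⟨C, -, hC⟩ := exists_energy hu hpos hU hlim hD
  exact ⟨e3'_of hu hC, s0_of hu hC⟩

end Vale.Agent.P134.R2.H561
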