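import Vale.Agent.P134.H688.StB
import Vale.Agent.P134.R2.H561.Defs

set_option linter.all false

open MeasureTheory Filter Topology

namespace Vale.Agent.P134.R2.H561

open Vale.Agent.P134 Vale.Agent.P134.SM Vale.Agent.P134.H688

variable {m n : ℕ}

lemma gs_pos_of_pd {u : (Fin n → ℝ) → ℝ} {q : Fin n} {x : Fin n → ℝ} (h : 0 < pd q u x) :
    0 < gs u x := by
  unfold gs
  exact lt_of_lt_of_le (pow_pos h 2)
    (Finset.single_le_sum (f := fun i => pd i u x ^ 2) (fun i _ => sq_nonneg _)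
      (Finset.mem_univ q))

theorem stB {q : Fin (m + 4)} {u : (Fin (m + 4) → ℝ) → ℝ} (hu : Sol u)
    (hpos : ∀ x, 0 < pd q u x) : ST u := by
  obtain ⟨C, hC0, hC1, hC2, -⟩ := hu.exists_bound
  have hW : WeakLin (fun x => 3 * u x ^ 2 - 1) (pd q u) := hu.weakLin hC1 hC2 q
  have hφ : ContDiff ℝ 1 (pd q u) := contDiff_pd_one hu.c2
  have hVc : Continuous (fun x => 3 * u x ^ 2 - 1) :=
    (continuous_const.mul (hu.c2.continuous.pow 2)).sub continuous_const
  refine ⟨?_, ?_⟩
  · intro η hη hc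
    have hgs : ∀ x, 0 < gs u x := fun x => gs_pos_of_pd (hpos x)
    have hw2 : ContDiff ℝ 2 (wn u) := contDiff_iff_contDiffAt.mpr fun x => Sol.wn_c2 hu (hgs x)
    have h := stab_gen hVc (fun ξ h1 h2 => stability_ineq hφ hpos hVc hW h1 h2) hw2 hη hc
    refine le_trans (le_of_eq ?_) (h.trans (le_of_eq ?_))
    · congr 1; ext x
      rw [Sol.lap_wn hu (hgs x), ← wn_sq]
      ring
    · congr 1; ext x
      rw [wn_sq]
  · intro η hη hc
    exact (DStab.of_weakLin hu hφ hpos hW).ineq η hη hc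

end Vale.Agent.P134.R2.H561
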