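import Vale.Agent.P134.R2.H561.K1n
import Vale.Agent.P134.R2.H561.DL

set_option linter.all false

namespace Vale.Agent.P134.R2.H561

open Vale.Agent.P134 Vale.Agent.P134.H981 Filter Topology MeasureTheory
open Vale.Agent.P134.SM hiding eb

variable {m n : ℕ} {u : (Fin (m + 4) → ℝ) → ℝ} {x : Fin (m + 4) → ℝ}

noncomputable def KN1 (m : ℕ) (ϱ Kc : ℝ) : ℝ := (52 + 12 * (m + 1) + 40 / ϱ ^ 2) * Kc
noncomputable def KN2 (ϱ : ℝ) : ℝ := 40 / ϱ ^ 2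

lemma KN1_pos {ϱ Kc : ℝ} (h : 0 < ϱ) (hK : 0 < Kc) : 0 < KN1 m ϱ Kc := by
  unfold KN1; positivity
lemma KN2_pos {ϱ : ℝ} (h : 0 < ϱ) : 0 < KN2 ϱ := by unfold KN2; positivity

/-- coordinates in terms of the monotone directions. -/
def Sp (b : Fin (m + 1) → Fin (m + 4) → ℝ) (Kc : ℝ) : Prop :=
  ∃ c : Fin (m + 1) → Fin (m + 1) → ℝ,
    (∀ j k, (Pi.single j.succ.succ.succ 1 : Fin (m + 4) → ℝ) k = ∑ i, c j i * b i k) ∧
    ∑ j, ∑ i, c j i ^ 2 ≤ Kc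

lemma goodn_pt {C : ℝ} {b : Fin (m + 1) → Fin (m + 4) → ℝ} (hK : K7n u b C) {Kc : ℝ}
    (hsp : Sp b Kc) (hKc : 1 ≤ Kc) {t δ ϱ ε' τ0 R : ℝ} (hR0 : 0 < R) (hϱ0 : 0 < ϱ)
    (hϱ1 : ϱ ≤ 1) (hδ4 : δ ≤ 1 / 4) (hε' : ε' ≤ ϱ / 4) (hε'0 : 0 < ε')
    (hτ00 : 0 < τ0) (hτ0 : Kc * τ0 ^ 2 ≤ (ϱ / 4) ^ 2)
    (hx : x ∈ eb (m + 4) R ∩ GSn u b t δ ϱ ε' τ0 R) :
    gKn u x ≤ Real.sqrt (KN1 m ϱ Kc) * (|psi u x| * |fAn b u x|)
        + (Real.sqrt (KN2 ϱ) / R) * (|psi u x| * |fBn u x|) + 2 * Real.sqrt (gs (defi u) x) := by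
  have hu := hK.sol
  have hp := hK.pos
  obtain ⟨hxR, ⟨h1, h2⟩, h3, h5, h6⟩ := hx
  have h2' : defi u x ≤ δ * psi u x ^ 2 := h2
  have h3' : (ϱ * R) ^ 2 ≤ x 0 ^ 2 + x 1 ^ 2 + x 2 ^ 2 := h3
  have h5' : vs u x ^ 2 ≤ (ε' * R / 2) ^ 2 := h5
  have h6' : TT b u x ≤ τ0 := h6
  have hψw : psi u x ≤ 2 * wn u x := by
    have h7 : psi u x ^ 2 ≤ (2 * wn u x) ^ 2 := by
      rw [mul_pow, wn_sq]
      rw [defi_eq] at h2'
      nlinarith [sq_nonneg (psi u x)]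
    have := wn_nonneg u x
    exact le_of_abs_le (abs_le_of_sq_le_sq h7 (by positivity))
  have hxx : ∑ i, x i ^ 2 ≤ R ^ 2 := hxR
  have h8 : vs u x ^ 2 ≤ (ϱ * R / 4) ^ 2 := by
    refine h5'.trans ?_
    have : ε' * R / 2 ≤ ϱ * R / 4 := by nlinarith
    gcongr
  have h9 : Kc * ∑ i, tau (b i) u x ^ 2 ≤ (ϱ / 4) ^ 2 := by
    refine le_trans ?_ hτ0
    refine mul_le_mul_of_nonneg_left ?_ (by linarith)
    refine (sum_tau_sq_le hK x).trans ?_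
    exact pow_le_pow_left₀ (TT_pos hK x).le h6' 2
  obtain ⟨c, hc, hc2⟩ := hsp
  have hdn := dnn_le hu (hp x) hc hc2 hϱ0 hϱ1 hR0 hxx h3' h8 h9
  exact goodn_bound hu (hp x) (KN1_pos hϱ0 (by linarith)).le (KN2_pos hϱ0).le hR0 hdn hψw

lemma q5n {C : ℝ} {b : Fin (m + 1) → Fin (m + 4) → ℝ} (hK : K7n u b C) {Kc : ℝ}
    (hsp : Sp b Kc) (hKc : 1 ≤ Kc)
    {t δ ϱ ε' τ0 R k M C6 C7 : ℝ} (hk0 : 0 < k) (hR1 : 1 ≤ R)
    (hϱ0 : 0 < ϱ) (hϱ1 : ϱ ≤ 1) (hδ4 : δ ≤ 1 / 4) (hε' : ε' ≤ ϱ / 4) (hε'0 : 0 < ε')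
    (hτ00 : 0 < τ0) (hτ0 : Kc * τ0 ^ 2 ≤ (ϱ / 4) ^ 2) (hC60 : 0 < C6) (hC70 : 0 < C7)
    (hτb : τ0 ≤ k ^ 2 / (KN1 m ϱ Kc * (C * C6))) (hεb : ε' ≤ k ^ 2 / (KN2 ϱ * (C * C7)))
    (hM : ∀ x, t < psi u x → |dph u x| ≤ M) (hRb : 2 * M / ε' ≤ R)
    (s6 : ∫ x in eb (m + 4) R ∩ {x | TT b u x ≤ τ0}, wn u x ^ 2 * GG b u x
      ≤ C6 * τ0 * R ^ (m + 1))
    (s7 : ∫ x in eb (m + 4) R ∩ {x | |kap u x| ≤ ε' * R}, wn u x ^ 2 * gs (kap u) x
      ≤ C7 * ε' * R ^ (m + 3))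
    (hd : ∫ x in eb (m + 4) R, Real.sqrt (gs (defi u) x) ≤ k / 2 * R ^ (m + 2)) :
    ∫ x in eb (m + 4) R ∩ GSn u b t δ ϱ ε' τ0 R, gKn u x ≤ 3 * (k * R ^ (m + 2)) := by
  have hu := hK.sol
  have hp := hK.pos
  have hC1 := hK.C1
  have hC0 : 0 < C := by linarith
  have hR0 : 0 < R := by linarith
  have cψ : Continuous (psi u) := hu.psi_contDiff.continuous
  have cgd : Continuous (fun x => Real.sqrt (gs (defi u) x)) :=
    Real.continuous_sqrt.comp (gs_cont ((Sol.defi_c2 hu).of_le (by norm_num)))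
  have cfA := fAn_cont hu hp b
  have cfB := fBn_cont hu hp
  obtain ⟨T, hT⟩ : ∃ T : Set (Fin (m + 4) → ℝ),
    T = eb (m + 4) R ∩ GSn u b t δ ϱ ε' τ0 R := ⟨_, rfl⟩
  have hTm : MeasurableSet T := by rw [hT]; exact (meas_eb R).inter (GSn_meas hu hp _ _ _ _ _ _ _)
  have hTs : T ⊆ eb (m + 4) R := by rw [hT]; exact Set.inter_subset_left
  have i1 : IntegrableOn (fun x => |psi u x| * |fAn b u x|) T :=
    (int_on_eb ((continuous_abs.comp cψ).mul (continuous_abs.comp cfA)) R).mono_set hTs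
  have i2 : IntegrableOn (fun x => |psi u x| * |fBn u x|) T :=
    (int_on_eb ((continuous_abs.comp cψ).mul (continuous_abs.comp cfB)) R).mono_set hTs
  have i3 : IntegrableOn (fun x => Real.sqrt (gs (defi u) x)) T :=
    (int_on_eb cgd R).mono_set hTs
  obtain ⟨K1, hK1⟩ : ∃ K1 : ℝ, K1 = KN1 m ϱ Kc := ⟨_, rfl⟩
  obtain ⟨K2, hK2⟩ : ∃ K2 : ℝ, K2 = KN2 ϱ := ⟨_, rfl⟩
  have hK10 : 0 < K1 := by rw [hK1]; exact KN1_pos hϱ0 (by linarith)
  have hK20 : 0 < K2 := by rw [hK2]; exact KN2_pos hϱ0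
  have hle : ∫ x in T, gKn u x ≤ Real.sqrt K1 * (∫ x in T, |psi u x| * |fAn b u x|)
      + (Real.sqrt K2 / R) * (∫ x in T, |psi u x| * |fBn u x|)
      + 2 * ∫ x in T, Real.sqrt (gs (defi u) x) := by
    have j12 : IntegrableOn (fun x => Real.sqrt K1 * (|psi u x| * |fAn b u x|)
        + (Real.sqrt K2 / R) * (|psi u x| * |fBn u x|)) T := (i1.const_mul _).add (i2.const_mul _)
    rw [← integral_const_mul, ← integral_const_mul, ← integral_const_mul,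
      ← integral_add (i1.const_mul _) (i2.const_mul _), ← integral_add j12 (i3.const_mul _)]
    refine setIntegral_mono_on ((int_on_eb (gKn_cont hu hp) R).mono_set hTs)
      (j12.add (i3.const_mul _)) hTm (fun x hx => ?_)
    rw [hT] at hx
    rw [hK1, hK2]
    exact goodn_pt hK hsp hKc hR0 hϱ0 hϱ1 hδ4 hε' hε'0 hτ00 hτ0 hx
  have k1s : 0 < Real.sqrt K1 := Real.sqrt_pos.mpr hK10
  have k2s : 0 < Real.sqrt K2 := Real.sqrt_pos.mpr hK20
  have w1 : ∫ x in T, |psi u x| * |fAn b u x| ≤ (k / Real.sqrt K1) * R ^ (m + 2) := by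
    refine piecen hR0.le hTs cψ cfA (X := C * R ^ (m + 3)) (Y := C6 * τ0 * R ^ (m + 1))
      (by positivity) (by positivity) (by positivity) (bψn hK.toKBn hR1 hTs) ?_ ?_
    · refine le_trans ?_ s6
      simp_rw [← fAn_sq]
      refine setIntegral_mono_set ((int_on_eb (cfA.pow 2) R).mono_set
        Set.inter_subset_left) (Eventually.of_forall fun x => sq_nonneg _)
        (Eventually.of_forall ?_)
      intro x hx
      rw [hT] at hx
      exact ⟨hx.1, hx.2.2.2.2⟩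
    · rw [← hK1, le_div_iff₀ (by positivity)] at hτb
      have e1 : (k / Real.sqrt K1 * R ^ (m + 2)) ^ 2 = k ^ 2 / K1 * R ^ (2 * m + 4) := by
        rw [mul_pow, div_pow, Real.sq_sqrt hK10.le]; ring
      have e2 : C * R ^ (m + 3) * (C6 * τ0 * R ^ (m + 1)) = (C * C6 * τ0) * R ^ (2 * m + 4) := by
        ring
      rw [e1, e2]
      refine mul_le_mul_of_nonneg_right ?_ (by positivity)
      rw [le_div_iff₀ hK10]; linarith
  have w2 : ∫ x in T, |psi u x| * |fBn u x| ≤ (k / Real.sqrt K2) * R ^ (m + 3) := by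
    refine piecen hR0.le hTs cψ cfB (X := C * R ^ (m + 3)) (Y := C7 * ε' * R ^ (m + 3))
      (by positivity) (by positivity) (by positivity) (bψn hK.toKBn hR1 hTs) ?_ ?_
    · refine le_trans ?_ s7
      simp_rw [← fBn_sq]
      refine setIntegral_mono_set ((int_on_eb (cfB.pow 2) R).mono_set
        Set.inter_subset_left) (Eventually.of_forall fun x => sq_nonneg _)
        (Eventually.of_forall ?_)
      intro x hx
      rw [hT] at hx
      refine ⟨hx.1, ?_⟩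
      have h1 : t < psi u x := hx.2.1.1
      have h5 : vs u x ^ 2 ≤ (ε' * R / 2) ^ 2 := hx.2.2.2.1
      have h7 : |vs u x| ≤ ε' * R / 2 := abs_le_of_sq_le_sq h5 (by positivity)
      have h8 := hM x h1
      rw [div_le_iff₀ hε'0] at hRb
      change |kap u x| ≤ ε' * R
      unfold kap
      calc |vs u x - dph u x| ≤ |vs u x| + |dph u x| := abs_sub _ _
        _ ≤ ε' * R / 2 + M := add_le_add h7 h8
        _ ≤ ε' * R := by linarith
    · rw [← hK2, le_div_iff₀ (by positivity)] at hεb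
      have e1 : (k / Real.sqrt K2 * R ^ (m + 3)) ^ 2 = k ^ 2 / K2 * R ^ (2 * m + 6) := by
        rw [mul_pow, div_pow, Real.sq_sqrt hK20.le]; ring
      have e2 : C * R ^ (m + 3) * (C7 * ε' * R ^ (m + 3)) = (C * C7 * ε') * R ^ (2 * m + 6) := by
        ring
      rw [e1, e2]
      refine mul_le_mul_of_nonneg_right ?_ (by positivity)
      rw [le_div_iff₀ hK20]; linarith
  have w3 : ∫ x in T, Real.sqrt (gs (defi u) x) ≤ k / 2 * R ^ (m + 2) := by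
    refine le_trans ?_ hd
    exact setIntegral_mono_set (int_on_eb cgd R)
      (Eventually.of_forall fun x => Real.sqrt_nonneg _) (Eventually.of_forall hTs)
  calc ∫ x in eb (m + 4) R ∩ GSn u b t δ ϱ ε' τ0 R, gKn u x = ∫ x in T, gKn u x := by rw [hT]
    _ ≤ Real.sqrt K1 * (∫ x in T, |psi u x| * |fAn b u x|)
      + (Real.sqrt K2 / R) * (∫ x in T, |psi u x| * |fBn u x|)
      + 2 * ∫ x in T, Real.sqrt (gs (defi u) x) := hle
    _ ≤ Real.sqrt K1 * ((k / Real.sqrt K1) * R ^ (m + 2))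
      + (Real.sqrt K2 / R) * ((k / Real.sqrt K2) * R ^ (m + 3)) + 2 * (k / 2 * R ^ (m + 2)) := by
        gcongr
    _ = 3 * (k * R ^ (m + 2)) := by field_simp; ring

/-- (K1'), step 1.7. -/
theorem k1n_of {C : ℝ} {b : Fin (m + 1) → Fin (m + 4) → ℝ} (hK : K7n u b C) {Kc : ℝ}
    (hsp : Sp b Kc) (hKc : 1 ≤ Kc)
    (hS : ∀ ε : ℝ, 0 < ε → ∀ᶠ R : ℝ in atTop, ∫ x in eb (m + 4) R, rd u x ^ 2 ≤ ε * R ^ (m + 5))
    (h4 : ∀ η : ℝ, 0 < η → ∀ᶠ R : ℝ in atTop,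
      ∫ x in eb (m + 4) R, Real.sqrt (gs (defi u) x) ≤ η * R ^ (m + 2)) :
    ∀ θ : ℝ, 0 < θ → ∀ᶠ R : ℝ in atTop,
      ∫ x in eb (m + 4) R, psi u x * wn u x * Real.sqrt (dn u x) ≤ θ * R ^ (m + 2) := by
  intro θ hθ
  have hu := hK.sol
  have hp := hK.pos
  have hC1 := hK.C1
  have hC0 : 0 < C := by linarith
  have hKc0 : 0 < Kc := by linarith
  obtain ⟨C5, hC5, s5⟩ := step5n hK
  obtain ⟨C6, hC6, s6⟩ := step6an hK
  obtain ⟨C7, hC7, s7⟩ := step6b hK.toKBn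
  have hC50 : 0 < C5 := by linarith
  have hC60 : 0 < C6 := by linarith
  have hC70 : 0 < C7 := by linarith
  obtain ⟨k, hk⟩ : ∃ k : ℝ, k = θ / 8 := ⟨_, rfl⟩
  have hk0 : 0 < k := by rw [hk]; positivity
  obtain ⟨t, ht⟩ : ∃ t : ℝ, t = k ^ 2 / C ^ 2 := ⟨_, rfl⟩
  have ht0 : 0 < t := by rw [ht]; positivity
  obtain ⟨Cc, hCc⟩ : ∃ Cc : ℝ, Cc = 3 ^ (m + 1) * ((m + 2 : ℝ) ^ (m + 3)) * C := ⟨_, rfl⟩
  have hCc0 : 0 < Cc := by rw [hCc]; positivity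
  obtain ⟨ϱ, hϱ⟩ : ∃ ϱ : ℝ, ϱ = min 1 (k ^ 2 / (Cc * C)) := ⟨_, rfl⟩
  have hϱ0 : 0 < ϱ := by rw [hϱ]; exact lt_min one_pos (by positivity)
  have hϱ1 : ϱ ≤ 1 := by rw [hϱ]; exact min_le_left _ _
  have hϱ2 : Cc * C * ϱ ^ 2 ≤ k ^ 2 := by
    have h1 : ϱ ≤ k ^ 2 / (Cc * C) := by rw [hϱ]; exact min_le_right _ _
    rw [le_div_iff₀ (by positivity)] at h1
    have h2 : ϱ ^ 2 ≤ ϱ := by nlinarith
    calc Cc * C * ϱ ^ 2 ≤ Cc * C * ϱ := by gcongr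
      _ ≤ k ^ 2 := by linarith
  have hK10 : 0 < KN1 m ϱ Kc := KN1_pos hϱ0 hKc0
  have hK20 := KN2_pos hϱ0
  obtain ⟨τ0, hτ0⟩ : ∃ τ0 : ℝ, τ0 = min (ϱ / (4 * Kc)) (k ^ 2 / (KN1 m ϱ Kc * (C * C6))) :=
    ⟨_, rfl⟩
  have hτ00 : 0 < τ0 := by rw [hτ0]; exact lt_min (by positivity) (by positivity)
  have hτ01 : Kc * τ0 ^ 2 ≤ (ϱ / 4) ^ 2 := by
    have h1 : τ0 ≤ ϱ / (4 * Kc) := by rw [hτ0]; exact min_le_left _ _
    rw [le_div_iff₀ (by positivity)] at h1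
    have h2 : Kc * τ0 ≤ ϱ / 4 := by linarith
    have h3 : 0 ≤ Kc * τ0 := by positivity
    have h4 : (Kc * τ0) ^ 2 ≤ (ϱ / 4) ^ 2 := pow_le_pow_left₀ h3 h2 2
    have h5 : Kc * τ0 ^ 2 ≤ (Kc * τ0) ^ 2 := by
      rw [mul_pow, sq Kc]
      have : 0 ≤ Kc * τ0 ^ 2 := by positivity
      nlinarith
    linarith
  obtain ⟨ε', hε'⟩ : ∃ ε' : ℝ, ε' = min (ϱ / 4) (k ^ 2 / (KN2 ϱ * (C * C7))) := ⟨_, rfl⟩
  have hε'0 : 0 < ε' := by rw [hε']; exact lt_min (by positivity) (by positivity)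
  obtain ⟨δ, hδ⟩ : ∃ δ : ℝ, δ = 1 / 4 := ⟨_, rfl⟩
  have hδp : 0 < δ := by rw [hδ]; norm_num
  have hδ4 : δ ≤ 1 / 4 := by rw [hδ]
  obtain ⟨M, hM0, hM⟩ := dphn_bound (n := m + 4) ht0
  obtain ⟨ε, hε⟩ : ∃ ε : ℝ, ε = min (k ^ 2 * ε' ^ 2 / (16 * C)) ((k ^ 2 * τ0 / (C * C5)) ^ 2) :=
    ⟨_, rfl⟩
  have hε0 : 0 < ε := by rw [hε]; exact lt_min (by positivity) (by positivity)
  have hε1 : ε ≤ k ^ 2 * ε' ^ 2 / (16 * C) := by rw [hε]; exact min_le_left _ _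
  have hε2 : Real.sqrt ε ≤ k ^ 2 * τ0 / (C * C5) := by
    calc Real.sqrt ε ≤ Real.sqrt ((k ^ 2 * τ0 / (C * C5)) ^ 2) :=
          Real.sqrt_le_sqrt (by rw [hε]; exact min_le_right _ _)
      _ = _ := Real.sqrt_sq (by positivity)
  have ev1 : ∀ᶠ R : ℝ in atTop, ∫ x in eb (m + 4) (2 * R), rd u x ^ 2 ≤ ε * R ^ (m + 5) := by
    have h1 := (tendsto_id.const_mul_atTop (show (0:ℝ) < 2 by norm_num)).eventually
      (hS (ε / 2 ^ (m + 5)) (by positivity))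
    filter_upwards [h1] with R hR
    simp only [id] at hR
    refine hR.trans (le_of_eq ?_)
    rw [mul_pow]
    field_simp
  filter_upwards [ev1, h4 (k / 2) (by positivity), eventually_ge_atTop 1,
    eventually_ge_atTop (C ^ 2 / (δ * k ^ 2)), eventually_ge_atTop (2 * M / ε'),
    eventually_ge_atTop (1 / ϱ)] with R hs hd hR1 hRa hRb hRc
  have cψ : Continuous (psi u) := hu.psi_contDiff.continuous
  have cD : Continuous (defi u) := hu.defi_continuous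
  have cT := TT_cont hu hp b
  have cvs : Continuous (vs u) := by
    have : ContDiff ℝ 1 (vs u) := by exact_mod_cast vs_cd hu hp 1
    exact this.continuous
  let S : Fin 6 → Set (Fin (m + 4) → ℝ) := ![
    {x | psi u x ≤ t},
    {x | δ * psi u x ^ 2 < defi u x},
    {x | x 0 ^ 2 + x 1 ^ 2 + x 2 ^ 2 < (ϱ * R) ^ 2},
    {x | defi u x ≤ δ * psi u x ^ 2} ∩ {x | (ε' * R / 2) ^ 2 < vs u x ^ 2},
    {x | τ0 < TT b u x},
    GSn u b t δ ϱ ε' τ0 R]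
  have cx : Continuous (fun x : Fin (m + 4) → ℝ => x 0 ^ 2 + x 1 ^ 2 + x 2 ^ 2) := by fun_prop
  have m1 : MeasurableSet {x : Fin (m + 4) → ℝ | defi u x ≤ δ * psi u x ^ 2} :=
    measurableSet_le cD.measurable (continuous_const.mul (cψ.pow 2)).measurable
  have hSm : ∀ i ∈ (Finset.univ : Finset (Fin 6)), MeasurableSet (S i) := by
    intro i _
    fin_cases i
    · exact measurableSet_le cψ.measurable measurable_const
    · exact measurableSet_lt (continuous_const.mul (cψ.pow 2)).measurable cD.measurable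
    · exact measurableSet_lt cx.measurable measurable_const
    · exact m1.inter (measurableSet_lt measurable_const (cvs.pow 2).measurable)
    · exact measurableSet_lt measurable_const cT.measurable
    · exact GSn_meas hu hp _ _ _ _ _ _ _
  have hcov : ∀ x ∈ eb (m + 4) R, ∃ i ∈ (Finset.univ : Finset (Fin 6)), x ∈ S i := by
    intro x _
    by_cases c0 : psi u x ≤ t
    · exact ⟨0, Finset.mem_univ _, c0⟩
    by_cases c1 : δ * psi u x ^ 2 < defi u x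
    · exact ⟨1, Finset.mem_univ _, c1⟩
    by_cases c2 : x 0 ^ 2 + x 1 ^ 2 + x 2 ^ 2 < (ϱ * R) ^ 2
    · exact ⟨2, Finset.mem_univ _, c2⟩
    by_cases c3 : (ε' * R / 2) ^ 2 < vs u x ^ 2
    · exact ⟨3, Finset.mem_univ _, ⟨not_lt.mp c1, c3⟩⟩
    by_cases c4 : τ0 < TT b u x
    · exact ⟨4, Finset.mem_univ _, c4⟩
    exact ⟨5, Finset.mem_univ _, ⟨⟨not_le.mp c0, not_lt.mp c1⟩, not_lt.mp c2, not_lt.mp c3,
      not_lt.mp c4⟩⟩
  have key := cover_le (meas_eb R) (int_on_eb (gKn_cont hu hp) R) (gKn_nonneg hu) Finset.univ S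
    hSm hcov
  rw [Fin.sum_univ_six] at key
  have r0 : ∫ x in eb (m + 4) R ∩ S 0, gKn u x ≤ k * R ^ (m + 2) :=
    q0n hK.toKBn hK.ps hk0 hR1 ht0 (by rw [ht]; field_simp; exact le_refl _)
  have r1 : ∫ x in eb (m + 4) R ∩ S 1, gKn u x ≤ k * R ^ (m + 2) :=
    q1n hK.toKBn hk0 hR1 hδp hRa
  have r2 : ∫ x in eb (m + 4) R ∩ S 2, gKn u x ≤ k * R ^ (m + 2) :=
    q2n hK.toKBn hK.en' hCc hk0 hR1 hϱ0 hϱ1 hϱ2 hRc
  have r3 : ∫ x in eb (m + 4) R ∩ S 3, gKn u x ≤ k * R ^ (m + 2) :=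
    q3n hK.toKBn hk0 hR1 hδ4 hε0 hε'0 hε1 hs
  have r4 : ∫ x in eb (m + 4) R ∩ S 4, gKn u x ≤ k * R ^ (m + 2) :=
    q4n hK hk0 hR1 hτ00 hC50 hε2 (s5 R hR1 ε hε0.le hs)
  have r5 : ∫ x in eb (m + 4) R ∩ S 5, gKn u x ≤ 3 * (k * R ^ (m + 2)) :=
    q5n hK hsp hKc hk0 hR1 hϱ0 hϱ1 hδ4 (by rw [hε']; exact min_le_left _ _) hε'0 hτ00 hτ01
      hC60 hC70 (by rw [hτ0]; exact min_le_right _ _)
      (by rw [hε']; exact min_le_right _ _) (fun x hx => hM u hu x hx) hRb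
      (s6 R hR1 τ0 hτ00) (s7 R hR1 ε' hε'0) hd
  change ∫ x in eb (m + 4) R, gKn u x ≤ _
  have : θ = 8 * k := by rw [hk]; ring
  rw [this]
  linarith

/-- growth of the curvature integral. -/
theorem cun_of (hu : Sol u) (hp : ∀ x, 0 < gs u x) (hE : E3 u) (hST : ST u) : CU u := by
  obtain ⟨C, hC⟩ := hE
  obtain ⟨C₀, hC₀1, hC₀⟩ := exists_gs_ct (m + 4)
  refine ⟨C₀ * (2 ^ (m + 3) * C), fun R hR => ?_⟩
  have hR0 : 0 < R := by linarith
  have h2R : (1:ℝ) ≤ 2 * R := by linarith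
  have cgs : Continuous (gs u) := gs_cont (hu.c2.of_le (by norm_num))
  have cdn := dn_cont hu hp
  have cct := (ct_c1 (n := m + 4) R).continuous
  have hi : Integrable (fun x => gs u x * dn u x * ct R x ^ 2) :=
    ((cgs.mul cdn).mul (cct.pow 2)).integrable_of_hasCompactSupport (hcs_sq (ct_hcs hR0)).mul_left
  have h1 : ∫ x in M4.bl R, gs u x * dn u x ≤ ∫ x, gs u x * dn u x * ct R x ^ 2 := by
    calc ∫ x in M4.bl R, gs u x * dn u x = ∫ x in M4.bl R, gs u x * dn u x * ct R x ^ 2 := by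
          refine setIntegral_congr_fun (meas_eb R) fun x hx => ?_
          show gs u x * dn u x = gs u x * dn u x * ct R x ^ 2
          rw [ct_one hR0 hx, one_pow, mul_one]
      _ ≤ _ := setIntegral_le_integral hi (Eventually.of_forall fun x =>
          mul_nonneg (mul_nonneg (gs_nonneg _ _) (dn_nonneg _ _)) (sq_nonneg _))
  refine h1.trans ((hST.1 (ct R) (ct_c1 R) (ct_hcs hR0)).trans ?_)
  have h2 : ∫ x, gs u x * gs (ct R) x ≤ ∫ x in eb (m + 4) (2 * R), (C₀ / R ^ 2) * psi u x ^ 2 := by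
    refine int_le_eb (G := fun x => (C₀ / R ^ 2) * psi u x ^ 2)
      (continuous_const.mul (hu.psi_contDiff.continuous.pow 2)) ?_ ?_ ?_
    · refine (cgs.mul (gs_cont (ct_c1 R))).integrable_of_hasCompactSupport ?_
      refine HasCompactSupport.intro (isCompact_eb (2 * R)) fun x hx => ?_
      have : gs (ct R) x = 0 := by
        unfold gs
        exact Finset.sum_eq_zero fun k _ => by rw [pd_ct_zero hR0 hx]; ring
      show gs u x * gs (ct R) x = 0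
      rw [this, mul_zero]
    · intro x hx
      have : gs (ct R) x = 0 := by
        unfold gs
        exact Finset.sum_eq_zero fun k _ => by rw [pd_ct_zero hR0 hx]; ring
      rw [this, mul_zero]
    · intro x _
      have a1 := hC₀ R hR0 x
      have a2 := two_gs_le hu x
      have a3 := gs_nonneg u x
      have a4 : gs u x ≤ psi u x ^ 2 := by linarith
      calc gs u x * gs (ct R) x ≤ psi u x ^ 2 * (C₀ / R ^ 2) := by
            have := gs_nonneg (ct (n := m + 4) R) x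
            gcongr
        _ = _ := mul_comm _ _
  refine h2.trans ?_
  rw [integral_const_mul]
  have h3 := hC (2 * R) h2R
  calc (C₀ / R ^ 2) * ∫ x in eb (m + 4) (2 * R), psi u x ^ 2
      ≤ (C₀ / R ^ 2) * (C * (2 * R) ^ (m + 3)) := by
        gcongr; exact h3
    _ = C₀ * (2 ^ (m + 3) * C) * R ^ (m + 1) := by
        rw [mul_pow, show R ^ (m + 3) = R ^ (m + 1) * R ^ 2 by ring]; field_simp

/-- Steps 1.4 - 1.7. -/
theorem stC (m : ℕ) : StC m := by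
  intro u b hu hlt hp hb1 hb hspan hE' hS0 hST
  have hE : E3 u := by
    obtain ⟨C, hC⟩ := hE'
    refine ⟨C, fun R hR => ?_⟩
    have := hC 0 R hR
    simpa using this
  obtain ⟨⟨c1, h1⟩, ⟨c2, h2⟩, ⟨c3, h3⟩, h6⟩ := d_estimatesn hu hlt hE hST
  obtain ⟨c4, h4⟩ := cun_of hu hp hE hST
  obtain ⟨c5, h5⟩ := hE'
  obtain ⟨C, hC⟩ : ∃ C : ℝ, C = max 1 (max c1 (max c2 (max c3 (max c4 c5)))) := ⟨_, rfl⟩
  have hC1 : 1 ≤ C := by rw [hC]; exact le_max_left _ _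
  have l1 : c1 ≤ C := by rw [hC]; simp
  have l2 : c2 ≤ C := by rw [hC]; simp
  have l3 : c3 ≤ C := by rw [hC]; simp
  have l4 : c4 ≤ C := by rw [hC]; simp
  have l5 : c5 ≤ C := by rw [hC]; simp
  choose c hc using hspan
  obtain ⟨Kc, hKc⟩ : ∃ Kc : ℝ, Kc = max 1 (∑ j, ∑ i, c j i ^ 2) := ⟨_, rfl⟩
  have hsp : Sp b Kc := ⟨c, hc, by rw [hKc]; exact le_max_right _ _⟩
  have hK : K7n u b C :=
    { sol := hu
      pos := hp
      C1 := hC1
      en := fun r hr => by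
        have := h5 0 r hr
        simp only [add_zero] at this
        refine this.trans ?_
        gcongr
      st := fun r hr => by
        have := h4 r hr
        simp_rw [wn_sq]
        refine this.trans ?_
        gcongr
      de := fun r hr => (h2 r hr).trans (by gcongr)
      dg := fun r hr => (h3 r hr).trans (by gcongr)
      unit := hb1
      mono := fun i x => div_pos (hb i x) (wn_pos (hp x))
      en' := fun y r hr => (h5 y r hr).trans (by gcongr)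
      ps := fun r hr => (h1 r hr).trans (by gcongr) }
  exact k1n_of hK hsp (by rw [hKc]; exact le_max_left _ _) hS0 h6

end Vale.Agent.P134.R2.H561
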