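import Vale.Agent.P134.H355.StD
import Vale.Agent.P134.R2.H561.Defs

set_option linter.all false

open MeasureTheory Set Metric Filter Topology

namespace Vale.Agent.P134.R2.H561

open Vale.Agent.P134 Vale.Agent.P134.SM Vale.Agent.P134.H919 Vale.Agent.P134.H355

/-- block D. -/
theorem stD (m : ℕ) : StD m := by
  intro u hu hp hE hS hK
  obtain ⟨C, hC⟩ := hE
  have hdef : ∀ ε : ℝ, 0 < ε → ∀ᶠ R : ℝ in atTop,
      ∫ x in blE (m + 4) R, defi u x ≤ ε * R ^ (m + 3) :=
    fun ε hε => deficit_small (n := m + 4) (by omega) hu (C := C) hC hε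
  have cpsi := hu.psi_contDiff.continuous
  have cwn := wn_continuous (m := m + 2) hu
  have hM : ∀ᶠ R : ℝ in atTop,
      ∫ x in blE (m + 2 + 2) R, psi u x * wn u x ≤ C * R ^ (m + 2 + 1) := by
    filter_upwards [eventually_ge_atTop (1:ℝ)] with R hR
    refine le_trans ?_ (hC R hR)
    apply setIntegral_mono_on
      ((cpsi.mul cwn).continuousOn.integrableOn_compact (isCompact_blE (m + 4) R))
      ((cpsi.pow 2).continuousOn.integrableOn_compact (isCompact_blE (m + 4) R))
      (isCompact_blE (m + 4) R).measurableSet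
    intro x _
    have h1 := wn_le_psi hu x
    have h2 := hu.psi_nonneg x
    change psi u x * wn u x ≤ psi u x ^ 2
    nlinarith
  have hSS : ∀ ε : ℝ, 0 < ε → ∀ᶠ R : ℝ in atTop,
      ∫ x in blE (m + 2 + 2) R, psi u x * wn u x * vs u x ^ 2 ≤ ε * R ^ (m + 2 + 3) := by
    intro ε hε
    filter_upwards [hS (ε / 8) (by positivity), hdef (ε / 2) (by positivity),
      eventually_gt_atTop (0:ℝ)] with R h1 h2 hR
    have crd : Continuous (rd u) := (Sol.rd_c2 hu).continuous
    have cvs : Continuous (vs u) := crd.div cwn fun x => (wn_pos (hp x)).ne'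
    have i1 : IntegrableOn (fun x => psi u x * wn u x * vs u x ^ 2) (blE (m + 4) R) :=
      ((cpsi.mul cwn).mul (cvs.pow 2)).continuousOn.integrableOn_compact (isCompact_blE (m + 4) R)
    have i2 : IntegrableOn (fun x => 4 * rd u x ^ 2) (blE (m + 4) R) :=
      (continuous_const.mul (crd.pow 2)).continuousOn.integrableOn_compact
        (isCompact_blE (m + 4) R)
    have i3 : IntegrableOn (fun x => R ^ 2 * defi u x) (blE (m + 4) R) :=
      (continuous_const.mul hu.defi_continuous).continuousOn.integrableOn_compact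
        (isCompact_blE (m + 4) R)
    calc ∫ x in blE (m + 2 + 2) R, psi u x * wn u x * vs u x ^ 2
        ≤ ∫ x in blE (m + 4) R, (4 * rd u x ^ 2 + R ^ 2 * defi u x) :=
          setIntegral_mono_on i1 (i2.add i3) (isCompact_blE (m + 4) R).measurableSet
            fun x hx => support_le hu (hp x) hx
      _ = 4 * (∫ x in blE (m + 4) R, rd u x ^ 2) + R ^ 2 * ∫ x in blE (m + 4) R, defi u x := by
          rw [integral_add i2 i3, integral_const_mul, integral_const_mul]
      _ ≤ 4 * (ε / 8 * R ^ (m + 5)) + R ^ 2 * (ε / 2 * R ^ (m + 3)) := by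
          have : ∫ x in blE (m + 4) R, rd u x ^ 2 ≤ ε / 8 * R ^ (m + 5) := h1
          gcongr
      _ = ε * R ^ (m + 2 + 3) := by ring
  exact flat_u (m := m + 2) hu hp hM hK hSS

end Vale.Agent.P134.R2.H561
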