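import Vale.Agent.P134.R2.H561.StF
import Vale.Agent.P134.R2.H561.MixN
import Vale.Agent.P134.R2.H561.StA
import Vale.Agent.P134.R2.H561.StB
import Vale.Agent.P134.R2.H561.StC
import Vale.Agent.P134.R2.H561.StD
import Vale.Agent.P134.R2.H561.Drop
import Vale.Agent.P134.R2.H561.RotS

set_option linter.all false

open MeasureTheory Filter Topology

namespace Vale.Agent.P134.R2.H561

open Vale.Agent.P134 Vale.Agent.P134.SM
open Vale.Agent.P134.H787 (rot LI)
open Vale.Agent.P134.H491 (HypN)
open Vale.Agent.P134.H891 (gp Mix Low line_mono gp_lt_one neg_one_lt_gp gp_strictMono)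
open Vale.Agent.P134.H765 (dd_zero_of_one_dim defi_zero_of_one_dim rigid_form pd_odd gp_neg
  lin_zero)

variable {m n : ℕ} {u v U : (Fin n → ℝ) → ℝ} {p q : Fin n}

lemma defi_shift (u : (Fin n → ℝ) → ℝ) (y x : Fin n → ℝ) :
    defi (fun z => u (z + y)) x = defi u (x + y) := by
  unfold defi
  simp_rw [pd_shift_fun]
  rfl

lemma single_dd (q : Fin n) (x : Fin n → ℝ) : dd (Pi.single q 1) u x = pd q u x := by
  unfold dd
  simp [Pi.single_apply]

/-- rigidity from the sharp energy bound and the blow-down. -/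
theorem rigid_of_out {u : (Fin (m + 4) → ℝ) → ℝ} {q : Fin (m + 4)} (hu : Sol u)
    (hpos : ∀ x, 0 < pd q u x) {y0 : Fin (m + 4) → ℝ} (h0 : |u y0| ≤ 3 / 4) (h1 : OUT1 u)
    (h2 : OUT2 u) (x : Fin (m + 4) → ℝ) : defi u x = 0 := by
  obtain ⟨w, hw⟩ : ∃ w : (Fin (m + 4) → ℝ) → ℝ, w = fun x => u (x + y0) := ⟨_, rfl⟩
  have hws : Sol w := by rw [hw]; exact hu.shift y0
  have hw0 : |w 0| ≤ 3 / 4 := by rw [hw]; simpa using h0
  obtain ⟨e, g, he, hg⟩ := stF' m w hws hw0 (fun y => by
    have e1 : (fun x => w (x + y)) = fun x => u (x + (y + y0)) := by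
      funext x; rw [hw]; simp only [add_assoc]
    rw [e1]
    exact ⟨out1_shift hu h1 _, out2_shift hu h2 _⟩)
  have hD : DStab w := DStab.of_dir (e := Pi.single q 1) hws (fun x => by
    rw [single_dd, hw, pd_shift]; exact hpos _)
  have h3 := defi_zero_of_one_dim (by omega) he hD (fun a ha x => dd_zero_of_one_dim hws hg ha x)
    (x - y0)
  rw [hw, defi_shift, sub_add_cancel] at h3
  exact h3

theorem mix_rigid {u : (Fin (m + 4) → ℝ) → ℝ} {p q : Fin (m + 4)} (h : Mix u p q)
    (hlow : Low u p q) (x : Fin (m + 4) → ℝ) : defi u x = 0 := by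
  obtain ⟨y0, hy0⟩ := mix_exists h
  obtain ⟨h1, h2⟩ := mix_out h hlow
  exact rigid_of_out h.sol h.pos hy0 h1 h2 x

/-- The mixed case in general position. -/
theorem mixed_rigid {u : (Fin (m + 4) → ℝ) → ℝ} {q : Fin (m + 4)} (hu : Sol u)
    (hpos : ∀ x, 0 < pd q u x) {ν : Fin (m + 4) → ℝ} (hν : ∑ i, ν i ^ 2 = 1) (hνq : ν q = 0)
    {c : ℝ} (hlim : ∀ x, Tendsto (fun t : ℝ => u (x + t • Pi.single q 1)) atTop
      (𝓝 (gp (∑ i, ν i * x i + c))))
    (hlow : (∀ x, Tendsto (fun t : ℝ => u (x + t • Pi.single q 1)) atBot (𝓝 (-1))) ∨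
      ∃ c' : ℝ, ∀ x, gp (∑ i, ν i * x i + c') ≤ u x) (x : Fin (m + 4) → ℝ) : defi u x = 0 := by
  classical
  obtain ⟨p, hp⟩ : ∃ p, ν p ≠ 0 := by
    by_contra h
    push Not at h
    have : ∑ i, ν i ^ 2 = 0 := Finset.sum_eq_zero fun i _ => by rw [h]; ring
    rw [this] at hν
    norm_num at hν
  have hpq : p ≠ q := by rintro rfl; exact hp hνq
  obtain ⟨L, hLp, hLq⟩ := H787.exists_rot_two (p := p) (q := q) (a := ν)
    (b := (Pi.single q 1 : Fin (m + 4) → ℝ)) hpq hν (by simp [Pi.single_apply]) (by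
      simp [Pi.single_apply, hνq])
  obtain ⟨z0, hz0⟩ : ∃ z0 : Fin (m + 4) → ℝ, z0 = (-c) • ν := ⟨_, rfl⟩
  have hin : ∀ y : Fin (m + 4) → ℝ, ∑ k, ν k * (rot L y + z0) k = y p - c := by
    intro y
    have e1 : ∑ k, ν k * rot L y k = y p := by
      rw [← hLp]; exact H891.rot_single_dot L p y
    have e3 : ∑ k, ν k * z0 k = -c := by
      have : ∀ k, ν k * z0 k = -c * ν k ^ 2 := by
        intro k; simp only [hz0, Pi.smul_apply, smul_eq_mul]; ring
      simp_rw [this]
      rw [← Finset.mul_sum, hν, mul_one]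
    simp only [Pi.add_apply, mul_add, Finset.sum_add_distrib]
    rw [e1, e3]; ring
  have hline : ∀ (y : Fin (m + 4) → ℝ) (t : ℝ), rot L (y + t • Pi.single q 1) + z0
      = (rot L y + z0) + t • Pi.single q 1 := by
    intro y t
    rw [map_add, map_smul, hLq]
    abel
  have hus := hu.shift z0
  have dus : Differentiable ℝ (fun x => u (x + z0)) := hus.c2.differentiable (by norm_num)
  obtain ⟨w, hw⟩ : ∃ w : (Fin (m + 4) → ℝ) → ℝ, w = fun y => u (rot L y + z0) := ⟨_, rfl⟩
  have hwr : w = fun y => (fun x => u (x + z0)) (rot L y) := hw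
  have hws : Sol w := by rw [hwr]; exact H787.Sol.rot hus L
  have hmix : Mix w p q := by
    refine ⟨hws, hpq, fun y => ?_, fun y => ?_⟩
    · rw [hwr, ← single_dd, H787.dd_comp_rot (dus _), hLq, single_dd, pd_shift]
      exact hpos _
    · rw [hw]
      simp_rw [hline]
      have h1 := hlim (rot L y + z0)
      rw [hin] at h1
      simpa using h1
  have hlow' : Low w p q := by
    rcases hlow with h1 | ⟨c', h1⟩
    · left
      intro y
      rw [hw]
      simp_rw [hline]
      exact h1 _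
    · right
      refine ⟨c - c', fun y => ?_⟩
      have h2 := h1 (rot L y + z0)
      rw [hin] at h2
      have e : y p - (c - c') = y p - c + c' := by ring
      rw [e, hw]; exact h2
  have h1 := mix_rigid hmix hlow' (rot L.symm (x - z0))
  rw [hwr, H787.defi_comp_rot dus, H787.rot_rot_symm, defi_shift, sub_add_cancel] at h1
  exact h1

/-- Upper profile: either identically one or a translate of the profile in a horizontal
direction. -/
theorem upper_profile' (hP : ∀ U : (Fin n → ℝ) → ℝ, Sol U →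
      (∀ x, Tendsto (fun t : ℝ => u (x + t • Pi.single q 1)) atTop (𝓝 (U x))) →
      ∀ x, defi U x = 0) (hu : Sol u) (hpos : ∀ x, 0 < pd q u x) :
    (∀ x, Tendsto (fun t : ℝ => u (x + t • Pi.single q 1)) atTop (𝓝 1)) ∨
      ∃ ν : Fin n → ℝ, ∑ i, ν i ^ 2 = 1 ∧ ν q = 0 ∧ ∃ c : ℝ,
        ∀ x, Tendsto (fun t : ℝ => u (x + t • Pi.single q 1)) atTop (𝓝 (gp (∑ i, ν i * x i + c))) := by
  obtain ⟨U, hU, hlim, -, -, htr⟩ := hu.exists_profile q hpos
  have hD := hP U hU hlim
  rcases rigid_form hU hD with h1 | h1 | ⟨ν, hν, hpd, c, hc⟩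
  · left
    intro x
    have h2 := hlim x
    rwa [h1 x] at h2
  · exfalso
    have hle : ∀ x, u x ≤ -1 := by
      intro x
      have h2 := (line_mono hu hpos x).ge_of_tendsto (hlim x) 0
      rw [h1] at h2
      simpa using h2
    have h2 : ∀ x, u x = -1 := fun x => le_antisymm (hle x) (abs_le.mp (hu.bd x)).1
    have h3 : u = fun _ => -1 := funext h2
    have h4 := hpos 0
    rw [h3, pd_const] at h4
    exact lt_irrefl _ h4
  · right
    have hpd0 : ∀ x, pd q U x = 0 := by
      intro x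
      have h1 := hasDerivAt_dir (w := U) (x := x) (v := Pi.single q 1) (s := 0)
        ((hU.c2.differentiable (by norm_num)) _)
      have h2 : (fun s : ℝ => U (x + s • Pi.single q 1)) = fun _ => U x := by
        funext s; exact htr x s
      rw [h2] at h1
      have h3 := h1.unique (hasDerivAt_const 0 (U x))
      unfold pd
      simpa using h3
    have hνq : ν q = 0 := by
      have h1 := hpd 0 q
      rw [hpd0] at h1
      have h2 : 0 < psi U 0 := by
        unfold psi
        rw [hc]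
        have h3 := gp_lt_one (∑ i, ν i * (0 : Fin n → ℝ) i + c)
        have h4 := neg_one_lt_gp (∑ i, ν i * (0 : Fin n → ℝ) i + c)
        nlinarith
      have h3 : psi U 0 / √2 ≠ 0 := by positivity
      rcases mul_eq_zero.mp h1.symm with h4 | h4
      · exact h4
      · exact absurd h4 h3
    refine ⟨ν, hν, hνq, c, fun x => ?_⟩
    rw [← hc]; exact hlim x

lemma defi_odd (hu : Sol u) (x : Fin n → ℝ) : defi (fun x => - u (-x)) x = defi u (-x) := by
  unfold defi
  simp_rw [pd_odd hu]
  unfold psi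
  ring_nf

/-- Structure of the profiles: limits `±1`, or the deficit vanishes. -/
theorem struct' {u : (Fin (m + 4) → ℝ) → ℝ} {q : Fin (m + 4)}
    (hP : ∀ U : (Fin (m + 4) → ℝ) → ℝ, Sol U →
      (∀ x, Tendsto (fun t : ℝ => u (x + t • Pi.single q 1)) atTop (𝓝 (U x))) →
      ∀ x, defi U x = 0)
    (hP' : ∀ U : (Fin (m + 4) → ℝ) → ℝ, Sol U →
      (∀ x, Tendsto (fun t : ℝ => -u (-(x + t • Pi.single q 1))) atTop (𝓝 (U x))) →
      ∀ x, defi U x = 0) (hu : Sol u) (hpos : ∀ x, 0 < pd q u x) :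
    ((∀ x, Tendsto (fun t : ℝ => u (x + t • Pi.single q 1)) atTop (𝓝 1)) ∧
      (∀ x, Tendsto (fun t : ℝ => u (x + t • Pi.single q 1)) atBot (𝓝 (-1)))) ∨
      ∀ x, defi u x = 0 := by
  -- the reflected solution
  set v : (Fin (m + 4) → ℝ) → ℝ := fun x => - u (-x) with hv
  have hvs : Sol v := H765.Sol.odd hu
  have hvpos : ∀ x, 0 < pd q v x := fun x => by rw [hv, pd_odd hu]; exact hpos _
  have hdv : (∀ x, defi v x = 0) → ∀ x, defi u x = 0 := by
    intro h x
    have h1 := h (-x)
    rw [hv, defi_odd hu, neg_neg] at h1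
    exact h1
  have hconv : ∀ {L : (Fin (m + 4) → ℝ) → ℝ},
      (∀ x, Tendsto (fun t : ℝ => v (x + t • Pi.single q 1)) atTop (𝓝 (L x))) →
      ∀ x, Tendsto (fun t : ℝ => u (x + t • Pi.single q 1)) atBot (𝓝 (- L (-x))) := by
    intro L h x
    have h1 := (h (-x)).neg
    have h2 : Tendsto (fun t : ℝ => - v (-x + (-t) • Pi.single q 1)) atBot (𝓝 (- L (-x))) :=
      h1.comp tendsto_neg_atBot_atTop
    refine h2.congr fun t => ?_
    simp only [hv, neg_neg]
    congr 1
    rw [neg_add, neg_neg, neg_smul, neg_neg]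
  have hconv2 : ∀ {L : (Fin (m + 4) → ℝ) → ℝ},
      (∀ x, Tendsto (fun t : ℝ => u (x + t • Pi.single q 1)) atTop (𝓝 (L x))) →
      ∀ x, Tendsto (fun t : ℝ => v (x + t • Pi.single q 1)) atBot (𝓝 (- L (-x))) := by
    intro L h x
    have h1 := (h (-x)).neg
    have h2 : Tendsto (fun t : ℝ => - u (-x + (-t) • Pi.single q 1)) atBot (𝓝 (- L (-x))) :=
      h1.comp tendsto_neg_atBot_atTop
    refine h2.congr fun t => ?_
    simp only [hv]
    congr 2
    rw [neg_add, neg_smul]
  rcases upper_profile' hP hu hpos with h1 | ⟨ν, hν, hνq, c, h1⟩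
  · rcases upper_profile' (u := v) hP' hvs hvpos with h2 | ⟨ν', hν', hνq', c', h2⟩
    · left
      refine ⟨h1, fun x => ?_⟩
      have := hconv (L := fun _ => 1) h2 x
      simpa using this
    · right
      refine hdv (mixed_rigid hvs hvpos hν' hνq' h2 (Or.inl fun x => ?_))
      have := hconv2 (L := fun _ => 1) h1 x
      simpa using this
  · right
    rcases upper_profile' (u := v) hP' hvs hvpos with h2 | ⟨ν', hν', hνq', c', h2⟩
    · refine mixed_rigid hu hpos hν hνq h1 (Or.inl fun x => ?_)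
      have := hconv (L := fun _ => 1) h2 x
      simpa using this
    · have h3 : ∀ x, gp (∑ i, ν' i * x i - c') ≤ u x := by
        intro x
        have h4 : v (-x) ≤ gp (∑ i, ν' i * (-x) i + c') := by
          have := (line_mono hvs hvpos (-x)).ge_of_tendsto (h2 (-x)) 0
          simpa using this
        simp only [hv, neg_neg] at h4
        have h5 : gp (∑ i, ν' i * x i - c') = - gp (∑ i, ν' i * (-x) i + c') := by
          rw [← gp_neg]
          congr 1
          simp only [Pi.neg_apply, mul_neg, Finset.sum_neg_distrib]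
          ring
        rw [h5]; linarith
      have h4 : ∀ x, u x ≤ gp (∑ i, ν i * x i + c) := by
        intro x
        have := (line_mono hu hpos x).ge_of_tendsto (h1 x) 0
        simpa using this
      have h5 : ∀ x : Fin (m + 4) → ℝ, ∑ i, (ν' i - ν i) * x i ≤ c + c' := by
        intro x
        have h6 := gp_strictMono.le_iff_le.mp ((h3 x).trans (h4 x))
        simp only [sub_mul, Finset.sum_sub_distrib]
        linarith
      have h6 : (fun i => ν' i - ν i) = 0 := lin_zero h5
      have h7 : ν' = ν := by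
        funext i
        have := congrFun h6 i
        simp only [Pi.zero_apply] at this
        linarith
      rw [h7] at h3
      exact mixed_rigid hu hpos hν hνq h1 (Or.inr ⟨-c', fun x => by
        have := h3 x
        rwa [sub_eq_add_neg] at this⟩)

/-- Rigidity of the profiles from the induction hypothesis. -/
theorem prof_rigid (hP : PPH m) {u : (Fin (m + 4) → ℝ) → ℝ} {b : Fin (m + 1) → Fin (m + 4) → ℝ}
    {β : ℝ} {q : Fin (m + 4)} (hu : Sol u) (hb : LinearIndependent ℝ b)
    (hpos : ∀ i x, 0 < dd (b i) u x) (hβ : 0 < β) (h0 : b 0 = β • Pi.single q 1)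
    {U : (Fin (m + 4) → ℝ) → ℝ} (hU : Sol U)
    (hlim : ∀ x, Tendsto (fun t : ℝ => u (x + t • Pi.single q 1)) atTop (𝓝 (U x)))
    (x : Fin (m + 4) → ℝ) : defi U x = 0 := by
  have hb0 : ∀ (w : (Fin (m + 4) → ℝ) → ℝ) x, dd (b 0) w x = β * pd q w x := by
    intro w x
    rw [h0, ← single_dd]
    unfold dd
    rw [Finset.mul_sum]
    refine Finset.sum_congr rfl fun k _ => ?_
    simp only [Pi.smul_apply, smul_eq_mul]; ring
  have hq : ∀ x, 0 < pd q u x := by
    intro x
    have h1 := hpos 0 x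
    rw [hb0] at h1
    exact (mul_pos_iff_of_pos_left hβ).mp h1
  have hinv : ∀ x (t : ℝ), U (x + t • Pi.single q 1) = U x := by
    intro x t
    have h4 : Tendsto (fun s : ℝ => u (x + (s + t) • Pi.single q 1)) atTop (𝓝 (U x)) :=
      (hlim x).comp (tendsto_atTop_add_const_right atTop t tendsto_id)
    have h5 := hlim (x + t • Pi.single q 1)
    have e : (fun s : ℝ => u (x + t • Pi.single q 1 + s • Pi.single q 1))
        = fun s : ℝ => u (x + (s + t) • Pi.single q 1) := by
      funext s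
      congr 1
      rw [add_smul]; abel
    rw [e] at h5
    exact tendsto_nhds_unique h5 h4
  have hSH : SH U := ⟨hU, _, HypN.of_tendsto (L := atTop)
    (F := fun (t : ℝ) x => u (x + t • Pi.single q 1)) (fun t => hu.shift _) hU hlim
    (fun t => (HypN.of_mono hu hq).translate (t • Pi.single q 1))⟩
  obtain ⟨-, hpd, -⟩ := Sol.of_tendsto (ι := ℝ) (F := fun t x => u (x + t • Pi.single q 1))
    (fun t => hu.shift _) hlim
  have hdd : ∀ i x, 0 ≤ dd (b i) U x := by
    intro i x
    have h1 : Tendsto (fun t : ℝ => dd (b i) (fun x => u (x + t • Pi.single q 1)) x) atTop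
        (𝓝 (dd (b i) U x)) := by
      unfold dd
      exact tendsto_finsetSum _ fun k _ => (hpd x k).const_mul _
    refine ge_of_tendsto' h1 fun t => ?_
    have h2 : dd (b i) (fun x => u (x + t • Pi.single q 1)) x
        = dd (b i) u (x + t • Pi.single q 1) := by
      unfold dd
      simp_rw [pd_shift]
    rw [h2]
    exact (hpos _ _).le
  have hz : ∀ x, dd (b 0) U x = 0 := by
    intro x
    rw [hb0]
    have h1 := hasDerivAt_dir (w := U) (x := x) (v := Pi.single q 1) (s := 0)
      ((hU.c2.differentiable (by norm_num)) _)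
    have h2 : (fun s : ℝ => U (x + s • Pi.single q 1)) = fun _ => U x := by
      funext s; exact hinv x s
    rw [h2] at h1
    have h3 := h1.unique (hasDerivAt_const 0 (U x))
    have h4 : pd q U x = 0 := by
      unfold pd
      simpa using h3
    rw [h4, mul_zero]
  exact drop_dir hP hSH hb hdd 0 hz x

/-- The core of the induction step, in an adapted frame. -/
theorem core (hP : PPH m) {u : (Fin (m + 4) → ℝ) → ℝ} {b : Fin (m + 1) → Fin (m + 4) → ℝ}
    {β : ℝ} (hu : Sol u) (hb : LinearIndependent ℝ b)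
    (hpos : ∀ i x, 0 < dd (b i) u x) (hβ : 0 < β)
    (h0 : b 0 = β • Pi.single (Fin.last (m + 3)) 1)
    (hs : ∀ j : Fin (m + 1), ∃ c : Fin (m + 1) → ℝ,
      (Pi.single j.succ.succ.succ 1 : Fin (m + 4) → ℝ) = ∑ i, c i • b i)
    (x : Fin (m + 4) → ℝ) : defi u x = 0 := by
  obtain ⟨q, hqd⟩ : ∃ q : Fin (m + 4), q = Fin.last (m + 3) := ⟨_, rfl⟩
  rw [← hqd] at h0
  have hb0 : ∀ (w : (Fin (m + 4) → ℝ) → ℝ) x, dd (b 0) w x = β * pd q w x := by
    intro w x
    rw [h0, ← single_dd]
    unfold dd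
    rw [Finset.mul_sum]
    refine Finset.sum_congr rfl fun k _ => ?_
    simp only [Pi.smul_apply, smul_eq_mul]; ring
  have hq : ∀ x, 0 < pd q u x := by
    intro x
    have h1 := hpos 0 x
    rw [hb0] at h1
    exact (mul_pos_iff_of_pos_left hβ).mp h1
  have hv : Sol (fun x => - u (-x)) := H765.Sol.odd hu
  have hvpos : ∀ i x, 0 < dd (b i) (fun x => - u (-x)) x := by
    intro i x
    have : dd (b i) (fun x => - u (-x)) x = dd (b i) u (-x) := by
      unfold dd
      simp_rw [pd_odd hu]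
    rw [this]
    exact hpos _ _
  rcases struct' (q := q) (fun U hU hlim => prof_rigid hP hu hb hpos hβ h0 hU hlim)
    (fun U hU hlim => prof_rigid hP hv hb hvpos hβ h0 hU hlim) hu hq with ⟨ht, hbt⟩ | h
  swap
  · exact h x
  have hMo : Mo q u := ⟨hu, hq, ht, hbt⟩
  have hgs : ∀ x, 0 < gs u x := fun x => gs_pos_of_pd (hq x)
  have hsm := H688.strictMono_line (hu.c2.differentiable (by norm_num)) hq
  have hlt : ∀ x, |u x| < 1 := by
    intro x
    have h1 := hsm x (show (0:ℝ) < 1 by norm_num)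
    have h2 := hsm x (show (-1:ℝ) < 0 by norm_num)
    simp only [zero_smul, add_zero] at h1 h2
    have h3 := abs_le.mp (hu.bd (x + (1:ℝ) • Pi.single q 1))
    have h4 := abs_le.mp (hu.bd (x + (-1:ℝ) • Pi.single q 1))
    rw [_root_.abs_lt]
    constructor <;> linarith
  have hone : Sol (fun _ : Fin (m + 4) → ℝ => (1:ℝ)) := by
    refine ⟨contDiff_const, fun _ => by norm_num, fun x => ?_⟩
    have : ∀ i : Fin (m + 4), pd i (fun _ : Fin (m + 4) → ℝ => (1:ℝ)) = fun _ => 0 := fun i =>
      funext fun y => pd_const _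
    simp_rw [this, pd_const]
    simp
  obtain ⟨hE3, hS0⟩ := stA m u (fun _ => 1) q hu hq hone ht (fun x => by
    unfold defi psi
    simp [pd_const])
  have hST : ST u := stB hu hq
  have hbn : ∀ i, 0 < ∑ k, b i k ^ 2 := by
    intro i
    apply lt_of_le_of_ne (Finset.sum_nonneg fun _ _ => sq_nonneg _)
    intro h
    apply hb.ne_zero i
    funext k
    have := (Finset.sum_eq_zero_iff_of_nonneg (fun k _ => sq_nonneg (b i k))).mp h.symm k
      (Finset.mem_univ k)
    exact pow_eq_zero_iff (two_ne_zero) |>.mp this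
  obtain ⟨r, hr⟩ : ∃ r : Fin (m + 1) → ℝ, r = fun i => √(∑ k, b i k ^ 2) := ⟨_, rfl⟩
  have hr0 : ∀ i, 0 < r i := fun i => by rw [hr]; exact Real.sqrt_pos.mpr (hbn i)
  have hr2 : ∀ i, r i ^ 2 = ∑ k, b i k ^ 2 := fun i => by rw [hr]; exact Real.sq_sqrt (hbn i).le
  have hK : K1 u := by
    refine stC m u (fun i k => (r i)⁻¹ * b i k) hu hlt hgs (fun i => ?_) (fun i x => ?_)
      (fun j => ?_) hE3 hS0 hST
    · simp_rw [mul_pow]
      rw [← Finset.mul_sum, ← hr2]
      have := (hr0 i).ne'
      field_simp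
    · have : dd (fun k => (r i)⁻¹ * b i k) u x = (r i)⁻¹ * dd (b i) u x := by
        unfold dd
        rw [Finset.mul_sum]
        exact Finset.sum_congr rfl fun k _ => by ring
      rw [this]
      exact mul_pos (inv_pos.mpr (hr0 i)) (hpos i x)
    · obtain ⟨c, hc⟩ := hs j
      refine ⟨fun i => c i * r i, fun k => ?_⟩
      rw [hc]
      simp only [Finset.sum_apply, Pi.smul_apply, smul_eq_mul]
      refine Finset.sum_congr rfl fun i _ => ?_
      have := (hr0 i).ne'
      field_simp
  have hFl := stD m u hu hgs hE3.e3 hS0 hK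
  obtain ⟨o1, o2⟩ := stE m q u hMo hE3 hS0 hFl
  have hc : Continuous (fun t : ℝ => u (0 + t • Pi.single q 1)) :=
    hu.c2.continuous.comp (by fun_prop)
  obtain ⟨t1, ht1⟩ := ((ht 0).eventually (lt_mem_nhds (show (0:ℝ) < 1 by norm_num))).exists
  obtain ⟨t2, ht2⟩ := ((hbt 0).eventually (gt_mem_nhds (show (-1:ℝ) < 0 by norm_num))).exists
  obtain ⟨t, ht'⟩ := mem_range_of_exists_le_of_exists_ge hc ⟨t2, ht2.le⟩ ⟨t1, ht1.le⟩
  refine rigid_of_out (q := q) hu hq (y0 := 0 + t • Pi.single q 1) ?_ o1 o2 x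
  have ht'' : u (0 + t • Pi.single q 1) = 0 := ht'
  rw [ht'', abs_zero]; norm_num

/-- **The induction step.** -/
theorem pph_succ (hP : PPH m) : PPH (m + 1) := by
  intro u b hu hb hd x
  by_cases hz : ∃ i x0, dd (b i) u x0 = 0
  · obtain ⟨i, x0, hx0⟩ := hz
    exact drop_dir hP hu hb hd i (fun y => H765.dd_smp hu.1 (hd i) hx0 y) x
  · push Not at hz
    have hpos : ∀ i y, 0 < dd (b i) u y := fun i y => lt_of_le_of_ne (hd i y) (Ne.symm (hz i y))
    obtain ⟨L, β, hβ, hb0, hs⟩ := exists_rot_span hb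
    have du : Differentiable ℝ u := hu.1.c2.differentiable (by norm_num)
    have hsv := H787.Sol.rot hu.1 L
    have hb' : LinearIndependent ℝ (fun i => rot L.symm (b i)) := by
      have hinj : Function.Injective (rot L.symm).toLinearMap := by
        intro x y hxy
        have h1 := congrArg (rot L) hxy
        have h2 : rot L (rot L.symm x) = rot L (rot L.symm y) := h1
        rwa [H787.rot_rot_symm, H787.rot_rot_symm] at h2
      exact hb.map' _ (LinearMap.ker_eq_bot.mpr hinj)
    have h1 := core hP hsv hb' (β := β) (fun i y => by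
        rw [H787.dd_comp_rot (du _), H787.rot_rot_symm]; exact hpos _ _) hβ
      (by
        show rot L.symm (b 0) = _
        rw [hb0, map_smul, H787.rot_symm_rot])
      (fun j => by
        obtain ⟨c, hc⟩ := hs j
        refine ⟨c, ?_⟩
        have h2 := congrArg (rot L.symm) hc
        rw [H787.rot_symm_rot, map_sum] at h2
        rw [h2]
        exact Finset.sum_congr rfl fun i _ => map_smul _ _ _) (rot L.symm x)
    rw [H787.defi_comp_rot du, H787.rot_rot_symm] at h1
    exact h1

theorem pph (m : ℕ) : PPH m := by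
  induction m with
  | zero => exact pph_zero
  | succ m ih => exact pph_succ ih

end Vale.Agent.P134.R2.H561
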