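import Vale.Agent.P134.R2.H561.Euc
import Vale.Agent.P134.H891.Liou
import Vale.Agent.P134.B331.Coord

set_option linter.all false

open MeasureTheory Filter Topology

namespace Vale.Agent.P134.R2.H561

open Vale.Agent.P134 Vale.Agent.P134.SM
open Vale.Agent.P134.H491 (HypN)
open Vale.Agent.P134.H891 (avn avn_contDiff avn_hasCompactSupport avn_grad cutb_grad_le rho_univ
  ph ph_contDiff ph_hasCompactSupport ph_nonneg ph_le_one mm)

variable {n : ℕ} {u : (Fin n → ℝ) → ℝ}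

/-- energy of the averaged cut-offs under quadratic growth. -/
lemma avn_growth {g : (Fin n → ℝ) → ℝ} (hgc : Continuous g) (hg0 : ∀ x, 0 ≤ g x) {B : ℝ}
    (hB : 0 ≤ B) (hg : ∀ᶠ R in atTop, ∫ x, g x * ph R x ≤ B * R ^ 2) :
    ∃ K : ℝ, 0 ≤ K ∧ ∃ R0 : ℝ, ∀ ρ : ℝ, 1 ≤ ρ → R0 ≤ ρ → ∀ N : ℕ, 0 < N →
      ∫ x, g x * ∑ j, pd j (avn ρ N) x ^ 2 ≤ K / N := by
  obtain ⟨C, hC1, hC⟩ := exists_th_bound
  obtain ⟨K, hK⟩ : ∃ K : ℝ, K = n * (3 * C) ^ 2 * 4 * (B * 4) := ⟨_, rfl⟩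
  have hK0 : 0 ≤ K := by rw [hK]; positivity
  obtain ⟨R0, hR0⟩ := eventually_atTop.mp hg
  refine ⟨K, hK0, R0, ?_⟩
  intro ρ hρ1 hρ N hN
  have hρ0 : 0 < ρ := by linarith
  have hN0 : (0:ℝ) < N := by exact_mod_cast hN
  have hcb : ∀ k : ℕ, HasCompactSupport (cutb (Finset.univ : Finset (Fin n)) (2 ^ k * ρ)) := by
    intro k
    apply HasCompactSupport.intro (isCompact_box (2 * (2 ^ k * ρ)))
    intro x hx
    rw [mem_box] at hx
    push Not at hx
    obtain ⟨i, hi⟩ := hx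
    exact cutb_eq_zero_of_abs (by positivity) (Finset.mem_univ i) hi
  have hi : ∀ k ∈ Finset.range N,
      Integrable (fun x => g x * ∑ j, pd j (cutb (Finset.univ : Finset (Fin n)) (2 ^ k * ρ)) x ^ 2) := by
    intro k _
    have : (fun x => g x * ∑ j, pd j (cutb (Finset.univ : Finset (Fin n)) (2 ^ k * ρ)) x ^ 2)
        = fun x => ∑ j, g x * pd j (cutb (Finset.univ : Finset (Fin n)) (2 ^ k * ρ)) x ^ 2 := by
      ext x; rw [Finset.mul_sum]
    rw [this]
    apply integrable_finsetSum; intro j _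
    exact (hgc.mul ((continuous_pd (cutb_contDiff _ _)).pow 2)).integrable_of_hasCompactSupport
      (hcs_sq (hasCompactSupport_pd (hcb k))).mul_left
  have e1 : ∫ x, g x * ∑ j, pd j (avn ρ N) x ^ 2
      = (N : ℝ)⁻¹ ^ 2 * ∑ k ∈ Finset.range N,
        ∫ x, g x * ∑ j, pd j (cutb (Finset.univ : Finset (Fin n)) (2 ^ k * ρ)) x ^ 2 := by
    rw [← integral_finsetSum _ hi, ← integral_const_mul]
    congr 1; ext x
    rw [avn_grad hρ0, ← Finset.mul_sum]
    ring
  rw [e1]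
  have hk : ∀ k ∈ Finset.range N,
      ∫ x, g x * ∑ j, pd j (cutb (Finset.univ : Finset (Fin n)) (2 ^ k * ρ)) x ^ 2 ≤ K := by
    intro k hkN
    obtain ⟨r, hr⟩ : ∃ r : ℝ, r = 2 ^ k * ρ := ⟨_, rfl⟩
    rw [← hr]
    have h2k : (1:ℝ) ≤ 2 ^ k := one_le_pow₀ (by norm_num)
    have hr0 : 0 < r := by rw [hr]; positivity
    have hr1 : ρ ≤ r := by rw [hr]; nlinarith
    have i2 : Integrable (fun x => g x * ph (2 * r) x) :=
      (hgc.mul (ph_contDiff _).continuous).integrable_of_hasCompactSupport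
        (ph_hasCompactSupport (by positivity)).mul_left
    calc ∫ x, g x * ∑ j, pd j (cutb (Finset.univ : Finset (Fin n)) r) x ^ 2
        ≤ ∫ x, (n * (3 * C / r) ^ 2 * 4) * (g x * ph (2 * r) x) := by
          apply integral_mono (by rw [hr]; exact hi k hkN) (i2.const_mul _)
          intro x
          simp only
          have h2 := cutb_grad_le hC hr0 x
          have h3 := mul_le_mul_of_nonneg_left h2 (hg0 x)
          linarith
      _ = (n * (3 * C / r) ^ 2 * 4) * ∫ x, g x * ph (2 * r) x := integral_const_mul _ _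
      _ ≤ (n * (3 * C / r) ^ 2 * 4) * (B * (2 * r) ^ 2) := by
          apply mul_le_mul_of_nonneg_left _ (by positivity)
          exact hR0 (2 * r) (by linarith)
      _ = K := by
          rw [hK]; field_simp
          ring
  calc (N : ℝ)⁻¹ ^ 2 * ∑ k ∈ Finset.range N,
        ∫ x, g x * ∑ j, pd j (cutb (Finset.univ : Finset (Fin n)) (2 ^ k * ρ)) x ^ 2
      ≤ (N : ℝ)⁻¹ ^ 2 * ∑ _k ∈ Finset.range N, K := by
        apply mul_le_mul_of_nonneg_left (Finset.sum_le_sum hk) (by positivity)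
    _ = K / N := by
        rw [Finset.sum_const, Finset.card_range, nsmul_eq_mul]
        field_simp

/-- the basic inequality for approximate Riccati fields. -/
lemma riccati_ineq {V w η : (Fin n → ℝ) → ℝ} {X : Fin n → (Fin n → ℝ) → ℝ} {ε κ R : ℝ}
    (hw : ContDiff ℝ 2 w) (hη : ContDiff ℝ 1 η) (hηc : HasCompactSupport η)
    (hX : ∀ j, ContDiff ℝ 1 (X j)) (hsupp : ∀ x, x ∉ box n R → η x = 0)
    (hric : ∀ x ∈ box n R, ∑ j, pd j (X j) x + ∑ j, X j x ^ 2 ≤ V x + ε)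
    (hLw : ∀ x, V x * w x - κ ≤ SM.lap w x) (hw0 : ∀ x, 0 ≤ w x) :
    ∫ x, ∑ j, (pd j (fun y => w y * η y) x - X j x * (w x * η x)) ^ 2
      ≤ ∫ x, (w x ^ 2 * ∑ j, pd j η x ^ 2 + κ * (w x * η x ^ 2) + ε * (w x ^ 2 * η x ^ 2)) := by
  have dw : Differentiable ℝ w := hw.differentiable (by norm_num)
  have dη : Differentiable ℝ η := hη.differentiable (by norm_num)
  have w1 : ContDiff ℝ 1 w := hw.of_le (by norm_num)
  have wj : ∀ j, ContDiff ℝ 1 (pd j w) := fun j => contDiff_pd_one hw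
  have hy1 : ContDiff ℝ 1 (fun y => w y * η y) := w1.mul hη
  have hyc : HasCompactSupport (fun y => w y * η y) := hηc.mul_left
  obtain ⟨F, hF⟩ : ∃ F : Fin n → (Fin n → ℝ) → ℝ,
      F = fun j x => (w x * pd j w x) * η x ^ 2 - X j x * (w x * η x) ^ 2 := ⟨_, rfl⟩
  have hF1 : ∀ j, ContDiff ℝ 1 (F j) := by
    intro j; rw [hF]
    exact ((w1.mul (wj j)).mul (hη.pow 2)).sub ((hX j).mul ((w1.mul hη).pow 2))
  have hFc : ∀ j, HasCompactSupport (F j) := by
    intro j; rw [hF]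
    have h1 : HasCompactSupport (fun x => (w x * pd j w x) * η x ^ 2) := (hcs_sq hηc).mul_left
    have h2 : HasCompactSupport (fun x => X j x * (w x * η x) ^ 2) := (hcs_sq hyc).mul_left
    exact h1.sub h2
  have hzero : ∫ x, ∑ j, pd j (F j) x = 0 := by
    rw [integral_finsetSum _ fun j _ => (continuous_pd (hF1 j)).integrable_of_hasCompactSupport
      (hasCompactSupport_pd (hFc j))]
    exact Finset.sum_eq_zero fun j _ => int_pd_zero (hF1 j) (hFc j) j
  have hpt : ∀ x, ∑ j, (pd j (fun y => w y * η y) x - X j x * (w x * η x)) ^ 2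
      ≤ ∑ j, pd j (F j) x
        + (w x ^ 2 * ∑ j, pd j η x ^ 2 + κ * (w x * η x ^ 2) + ε * (w x ^ 2 * η x ^ 2)) := by
    intro x
    have e1 : ∀ j, pd j (fun y => w y * η y) x = pd j w x * η x + w x * pd j η x := by
      intro j; rw [pd_mul (dw x) (dη x)]; ring
    have dX : ∀ j, DifferentiableAt ℝ (X j) x := fun j => (hX j).differentiable (by norm_num) x
    have dwj : ∀ j, DifferentiableAt ℝ (pd j w) x := fun j => (wj j).differentiable (by norm_num) x
    have e2 : ∀ j, pd j (F j) x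
        = pd j w x ^ 2 * η x ^ 2 + w x * pd j (pd j w) x * η x ^ 2
          + w x * pd j w x * (2 * η x * pd j η x)
          - (pd j (X j) x * (w x * η x) ^ 2
            + X j x * (2 * (w x * η x) * (pd j w x * η x + w x * pd j η x))) := by
      intro j
      have d1 : DifferentiableAt ℝ (fun x => w x * pd j w x) x := (dw x).mul (dwj j)
      have d2 : DifferentiableAt ℝ (fun x => η x ^ 2) x := (dη x).fun_pow 2
      have d3 : DifferentiableAt ℝ (fun x => w x * η x) x := (dw x).mul (dη x)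
      have d4 : DifferentiableAt ℝ (fun x => (w x * η x) ^ 2) x := d3.fun_pow 2
      have d5 : DifferentiableAt ℝ (fun x => w x * pd j w x * η x ^ 2) x := d1.mul d2
      have d6 : DifferentiableAt ℝ (fun x => X j x * (w x * η x) ^ 2) x := (dX j).mul d4
      rw [hF]
      simp only
      rw [pd_sub d5 d6, pd_mul d1 d2, pd_mul (dw x) (dwj j), pd_sq (dη x),
        pd_mul (dX j) d4, pd_sq d3, e1 j]
      ring
    have e3 : ∑ j, (pd j (fun y => w y * η y) x - X j x * (w x * η x)) ^ 2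
        = ∑ j, pd j (F j) x + w x ^ 2 * ∑ j, pd j η x ^ 2 - w x * η x ^ 2 * SM.lap w x
          + (∑ j, pd j (X j) x + ∑ j, X j x ^ 2) * (w x * η x) ^ 2 := by
      unfold SM.lap
      rw [Finset.mul_sum, Finset.mul_sum, ← Finset.sum_add_distrib, ← Finset.sum_add_distrib,
        Finset.sum_mul, ← Finset.sum_sub_distrib, ← Finset.sum_add_distrib]
      refine Finset.sum_congr rfl fun j _ => ?_
      rw [e1, e2]
      ring
    rw [e3]
    by_cases hx : x ∈ box n R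
    · have h1 := hric x hx
      have h2 := mul_le_mul_of_nonneg_right h1 (sq_nonneg (w x * η x))
      have h3 := mul_le_mul_of_nonneg_left (hLw x) (mul_nonneg (hw0 x) (sq_nonneg (η x)))
      nlinarith
    · have h0 := hsupp x hx
      rw [h0]
      have hd : ∀ j, 0 ≤ pd j η x ^ 2 := fun j => sq_nonneg _
      nlinarith
  have i1 : Integrable (fun x => ∑ j, pd j (F j) x) :=
    integrable_finsetSum _ fun j _ => (continuous_pd (hF1 j)).integrable_of_hasCompactSupport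
      (hasCompactSupport_pd (hFc j))
  have i2 : Integrable (fun x => w x ^ 2 * ∑ j, pd j η x ^ 2 + κ * (w x * η x ^ 2)
      + ε * (w x ^ 2 * η x ^ 2)) := by
    have j1 : Integrable (fun x => w x ^ 2 * ∑ j, pd j η x ^ 2) := by
      have : (fun x => w x ^ 2 * ∑ j, pd j η x ^ 2) = fun x => ∑ j, w x ^ 2 * pd j η x ^ 2 := by
        funext x; rw [Finset.mul_sum]
      rw [this]
      exact integrable_finsetSum _ fun j _ =>
        ((hw.continuous.pow 2).mul ((continuous_pd hη).pow 2)).integrable_of_hasCompactSupport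
          (hcs_sq (hasCompactSupport_pd hηc)).mul_left
    have j2 : Integrable (fun x => κ * (w x * η x ^ 2)) :=
      ((hw.continuous.mul (hη.continuous.pow 2)).integrable_of_hasCompactSupport
        (hcs_sq hηc).mul_left).const_mul κ
    have j3 : Integrable (fun x => ε * (w x ^ 2 * η x ^ 2)) :=
      (((hw.continuous.pow 2).mul (hη.continuous.pow 2)).integrable_of_hasCompactSupport
        (hcs_sq hηc).mul_left).const_mul ε
    exact (j1.add j2).add j3
  have i0 : Integrable (fun x => ∑ j, (pd j (fun y => w y * η y) x - X j x * (w x * η x)) ^ 2) := by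
    refine integrable_finsetSum _ fun j _ => ?_
    refine Continuous.integrable_of_hasCompactSupport ?_ ?_
    · exact ((continuous_pd hy1).sub ((hX j).continuous.mul
        (hw.continuous.mul hη.continuous))).pow 2
    · have h2 : HasCompactSupport (fun x => X j x * (w x * η x)) := hyc.mul_left
      exact hcs_sq ((hasCompactSupport_pd hyc).sub h2)
  calc ∫ x, ∑ j, (pd j (fun y => w y * η y) x - X j x * (w x * η x)) ^ 2
      ≤ ∫ x, (∑ j, pd j (F j) x
        + (w x ^ 2 * ∑ j, pd j η x ^ 2 + κ * (w x * η x ^ 2) + ε * (w x ^ 2 * η x ^ 2))) :=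
        integral_mono i0 (i1.add i2) hpt
    _ = _ := by
        rw [integral_add i1 i2, hzero, zero_add]

/-- smooth negative part. -/
noncomputable def gsn (δ : ℝ) (s : ℝ) : ℝ := √(s ^ 2 + δ ^ 2) - s

section gsn

variable {δ : ℝ}

lemma gsn_rt_pos (hδ : 0 < δ) (s : ℝ) : 0 < √(s ^ 2 + δ ^ 2) := Real.sqrt_pos.mpr (by positivity)

lemma gsn_rt_sq (s : ℝ) : √(s ^ 2 + δ ^ 2) ^ 2 = s ^ 2 + δ ^ 2 := Real.sq_sqrt (by positivity)

lemma gsn_contDiff (hδ : 0 < δ) {k : WithTop ℕ∞} : ContDiff ℝ k (gsn δ) := by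
  refine ContDiff.sub ?_ contDiff_id
  exact ContDiff.sqrt ((contDiff_id.pow 2).add contDiff_const) fun s => by
    have : 0 < s ^ 2 + δ ^ 2 := by positivity
    exact this.ne'

lemma gsn_deriv (hδ : 0 < δ) (s : ℝ) :
    HasDerivAt (gsn δ) (s / √(s ^ 2 + δ ^ 2) - 1) s := by
  have h1 : HasDerivAt (fun s : ℝ => s ^ 2 + δ ^ 2) (2 * s) s := by
    simpa using (hasDerivAt_pow 2 s).add_const (δ ^ 2)
  have h2 := h1.sqrt (by positivity : s ^ 2 + δ ^ 2 ≠ 0)
  have h3 := h2.sub (hasDerivAt_id s)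
  refine h3.congr_deriv ?_
  have := (gsn_rt_pos hδ s).ne'
  field_simp

lemma gsn_deriv2 (hδ : 0 < δ) (s : ℝ) :
    HasDerivAt (fun s => s / √(s ^ 2 + δ ^ 2) - 1) (δ ^ 2 / √(s ^ 2 + δ ^ 2) ^ 3) s := by
  have h1 : HasDerivAt (fun s : ℝ => s ^ 2 + δ ^ 2) (2 * s) s := by
    simpa using (hasDerivAt_pow 2 s).add_const (δ ^ 2)
  have h2 := h1.sqrt (by positivity : s ^ 2 + δ ^ 2 ≠ 0)
  have hne := (gsn_rt_pos hδ s).ne'
  have h3 := ((hasDerivAt_id s).div h2 hne).sub_const 1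
  refine h3.congr_deriv ?_
  have h4 := gsn_rt_sq (δ := δ) s
  simp only [id]
  field_simp
  linear_combination h4

lemma gsn_pos (hδ : 0 < δ) (s : ℝ) : 0 < gsn δ s := by
  unfold gsn
  have h1 : |s| < √(s ^ 2 + δ ^ 2) := by
    rw [← Real.sqrt_sq_eq_abs]
    exact Real.sqrt_lt_sqrt (sq_nonneg _) (by nlinarith)
  have := le_abs_self s
  linarith

lemma gsn_rt_le (hδ : 0 < δ) (s : ℝ) : √(s ^ 2 + δ ^ 2) ≤ |s| + δ := by
  rw [Real.sqrt_le_left (by positivity)]
  have := abs_nonneg s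
  nlinarith [sq_abs s]

lemma gsn_le (hδ : 0 < δ) (s : ℝ) : gsn δ s ≤ 2 * |min s 0| + δ := by
  unfold gsn
  have h1 := gsn_rt_le hδ s
  rcases le_total s 0 with h | h
  · rw [min_eq_left h, abs_of_nonpos h] at *
    linarith
  · rw [min_eq_right h, abs_of_nonneg h] at *
    simp only [abs_zero, mul_zero, zero_add]
    linarith

lemma gsn_ge (s : ℝ) : -2 * s ≤ gsn δ s := by
  unfold gsn
  have h1 : |s| ≤ √(s ^ 2 + δ ^ 2) := by
    rw [← Real.sqrt_sq_eq_abs]
    exact Real.sqrt_le_sqrt (by nlinarith [sq_nonneg δ])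
  have := neg_abs_le s
  linarith

end gsn

lemma pd_gsn {f : (Fin n → ℝ) → ℝ} {δ : ℝ} (hδ : 0 < δ) (hf : ContDiff ℝ 2 f) (j : Fin n)
    (x : Fin n → ℝ) :
    pd j (fun y => gsn δ (f y)) x = (f x / √(f x ^ 2 + δ ^ 2) - 1) * pd j f x := by
  have h1 := gsn_deriv hδ (f x)
  rw [pd_comp h1.differentiableAt (hf.differentiable (by norm_num) x), h1.deriv]

/-- the differential inequality for the smooth negative part. -/
lemma lap_gsn {f V : (Fin n → ℝ) → ℝ} {δ : ℝ} (hδ : 0 < δ) (hf : ContDiff ℝ 2 f)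
    (hL : ∀ x, SM.lap f x = V x * f x) (hV : ∀ x, |V x| ≤ 2) (x : Fin n → ℝ) :
    V x * gsn δ (f x) - 2 * δ ≤ SM.lap (fun y => gsn δ (f y)) x := by
  have df : Differentiable ℝ f := hf.differentiable (by norm_num)
  have hj1 : ∀ j, ContDiff ℝ 1 (pd j f) := fun j => contDiff_pd_one hf
  obtain ⟨s, hs⟩ : ∃ s : ℝ, s = √(f x ^ 2 + δ ^ 2) := ⟨_, rfl⟩
  have hs0 : 0 < s := by rw [hs]; exact gsn_rt_pos hδ _
  have hs2 : s ^ 2 = f x ^ 2 + δ ^ 2 := by rw [hs]; exact gsn_rt_sq _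
  have e1 : ∀ j, pd j (pd j (fun y => gsn δ (f y))) x
      = δ ^ 2 / s ^ 3 * pd j f x ^ 2 + (f x / s - 1) * pd j (pd j f) x := by
    intro j
    have e2 : pd j (fun y => gsn δ (f y))
        = fun y => (fun t => t / √(t ^ 2 + δ ^ 2) - 1) (f y) * pd j f y :=
      funext fun y => pd_gsn hδ hf j y
    have h2 := gsn_deriv2 hδ (f x)
    have d1 : DifferentiableAt ℝ (fun y => (fun t => t / √(t ^ 2 + δ ^ 2) - 1) (f y)) x :=
      h2.differentiableAt.comp x (df x)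
    rw [e2, pd_mul d1 ((hj1 j).differentiable (by norm_num) x),
      pd_comp h2.differentiableAt (df x), h2.deriv]
    simp only
    rw [← hs]; ring
  have e3 : SM.lap (fun y => gsn δ (f y)) x
      = δ ^ 2 / s ^ 3 * (∑ j, pd j f x ^ 2) + (f x / s - 1) * (V x * f x) := by
    rw [← hL]
    unfold SM.lap
    simp_rw [e1]
    rw [Finset.sum_add_distrib, Finset.mul_sum, Finset.mul_sum]
  rw [e3]
  have h4 : 0 ≤ δ ^ 2 / s ^ 3 * (∑ j, pd j f x ^ 2) :=
    mul_nonneg (by positivity) (Finset.sum_nonneg fun _ _ => sq_nonneg _)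
  have h5 : (f x / s - 1) * (V x * f x) = V x * gsn δ (f x) - V x * (δ ^ 2 / s) := by
    unfold gsn
    rw [← hs]
    field_simp
    linear_combination (-V x) * hs2
  have h6 : δ ≤ s := by
    rw [hs]
    apply Real.le_sqrt_of_sq_le
    nlinarith [sq_nonneg (f x)]
  have h7 : 0 ≤ δ ^ 2 / s ∧ δ ^ 2 / s ≤ δ := by
    refine ⟨by positivity, ?_⟩
    rw [div_le_iff₀ hs0]; nlinarith
  have h8 := abs_le.mp (hV x)
  rw [h5]
  nlinarith [h7.1, h7.2, h8.1, h8.2]

lemma avn_bound {ρ : ℝ} (hρ : 0 < ρ) (N : ℕ) :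
    ∀ x : Fin n → ℝ, x ∉ box n (2 * (2 ^ N * ρ)) → avn ρ N x = 0 := by
  intro x hx
  unfold Vale.Agent.P134.H891.avn
  rw [Finset.sum_eq_zero, mul_zero]
  intro k hk
  rw [mem_box] at hx
  push Not at hx
  obtain ⟨i, hi⟩ := hx
  apply cutb_eq_zero_of_abs (by positivity) (Finset.mem_univ i)
  refine lt_of_le_of_lt ?_ hi
  have : (2:ℝ) ^ k ≤ 2 ^ N := pow_le_pow_right₀ (by norm_num) (Finset.mem_range.mp hk).le
  nlinarith

lemma avn_one {ρ : ℝ} (hρ : 0 < ρ) {N : ℕ} (hN : 0 < N) {x : Fin n → ℝ} (hx : esq x ≤ ρ ^ 2) :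
    avn ρ N x = 1 := by
  have hN0 : (0:ℝ) < N := by exact_mod_cast hN
  unfold Vale.Agent.P134.H891.avn
  have : ∀ k ∈ Finset.range N, cutb Finset.univ (2 ^ k * ρ) x = 1 := by
    intro k _
    unfold cutb
    apply th_one
    rw [rho_univ, div_le_one (by positivity)]
    have h2k : (1:ℝ) ≤ 2 ^ k := one_le_pow₀ (by norm_num)
    have h3 : ρ ≤ 2 ^ k * ρ := by nlinarith
    have h4 := pow_le_pow_left₀ hρ.le h3 2
    linarith
  rw [Finset.sum_congr rfl this]
  simp only [Finset.sum_const, Finset.card_range, nsmul_eq_mul, mul_one]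
  field_simp

/-- triangle inequality with a factor. -/
lemma sum_sq_sub_ge {a b : Fin n → ℝ} {C θ w : ℝ} (hC : 0 ≤ C) (hθ : 0 ≤ θ) (hw : 0 ≤ w)
    (ha : ((C + θ) * w) ^ 2 ≤ ∑ j, a j ^ 2) (hb : ∑ j, b j ^ 2 ≤ C ^ 2 * w ^ 2) :
    (θ * w) ^ 2 ≤ ∑ j, (a j - b j) ^ 2 := by
  have h1 := B331.M.eno_add_le (fun j => a j - b j) b
  have e1 : (fun j => a j - b j) + b = a := by funext j; simp
  rw [e1] at h1
  have h2 : (C + θ) * w ≤ eno a := by
    unfold eno
    apply Real.le_sqrt_of_sq_le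
    exact ha
  have h3 : eno b ≤ C * w := by
    unfold eno
    rw [Real.sqrt_le_left (by positivity)]
    calc esq b ≤ C ^ 2 * w ^ 2 := hb
      _ = (C * w) ^ 2 := by ring
  have h4 : θ * w ≤ eno (fun j => a j - b j) := by nlinarith
  have h5 : (θ * w) ^ 2 ≤ eno (fun j => a j - b j) ^ 2 :=
    pow_le_pow_left₀ (mul_nonneg hθ hw) h4 2
  rw [eno_sq] at h5
  exact h5

/-- upper bound of the error terms. -/
lemma err_le {f w η : (Fin n → ℝ) → ℝ} {δ ε M : ℝ} (hf : Continuous f) (hw : Continuous w)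
    (hη : ContDiff ℝ 1 η) (hηc : HasCompactSupport η) (hδ : 0 < δ) (hε : 0 < ε)
    (hw0 : ∀ x, 0 ≤ w x) (hwM : ∀ x, w x ≤ 2 * M + 1)
    (hwsq : ∀ x, w x ^ 2 ≤ 8 * (min (f x) 0) ^ 2 + 2 * δ) :
    ∫ x, (w x ^ 2 * ∑ j, pd j η x ^ 2 + 2 * δ * (w x * η x ^ 2) + ε * (w x ^ 2 * η x ^ 2))
      ≤ 8 * (∫ x, (min (f x) 0) ^ 2 * ∑ j, pd j η x ^ 2)
        + δ * (2 * (∫ x, ∑ j, pd j η x ^ 2) + 2 * (2 * M + 1) * (∫ x, η x ^ 2))
        + ε * ((2 * M + 1) ^ 2 * (∫ x, η x ^ 2)) := by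
  have ig : Integrable (fun x => ∑ j, pd j η x ^ 2) :=
    integrable_finsetSum _ fun j _ => ((continuous_pd hη).pow 2).integrable_of_hasCompactSupport
      (hcs_sq (hasCompactSupport_pd hηc))
  have ie : Integrable (fun x => η x ^ 2) :=
    (hη.continuous.pow 2).integrable_of_hasCompactSupport (hcs_sq hηc)
  have i1 : Integrable (fun x => (min (f x) 0) ^ 2 * ∑ j, pd j η x ^ 2) := by
    have : (fun x => (min (f x) 0) ^ 2 * ∑ j, pd j η x ^ 2)
        = fun x => ∑ j, (min (f x) 0) ^ 2 * pd j η x ^ 2 := by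
      funext x; rw [Finset.mul_sum]
    rw [this]
    exact integrable_finsetSum _ fun j _ =>
      (((hf.min continuous_const).pow 2).mul
        ((continuous_pd hη).pow 2)).integrable_of_hasCompactSupport
        (hcs_sq (hasCompactSupport_pd hηc)).mul_left
  have j1 : Integrable (fun x => w x ^ 2 * ∑ j, pd j η x ^ 2) := by
    have : (fun x => w x ^ 2 * ∑ j, pd j η x ^ 2)
        = fun x => ∑ j, w x ^ 2 * pd j η x ^ 2 := by
      funext x; rw [Finset.mul_sum]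
    rw [this]
    exact integrable_finsetSum _ fun j _ =>
      ((hw.pow 2).mul ((continuous_pd hη).pow 2)).integrable_of_hasCompactSupport
        (hcs_sq (hasCompactSupport_pd hηc)).mul_left
  have j2 : Integrable (fun x => 2 * δ * (w x * η x ^ 2)) :=
    ((hw.mul (hη.continuous.pow 2)).integrable_of_hasCompactSupport
      (hcs_sq hηc).mul_left).const_mul _
  have j3 : Integrable (fun x => ε * (w x ^ 2 * η x ^ 2)) :=
    (((hw.pow 2).mul (hη.continuous.pow 2)).integrable_of_hasCompactSupport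
      (hcs_sq hηc).mul_left).const_mul _
  have jt : Integrable (fun x => w x ^ 2 * ∑ j, pd j η x ^ 2 + 2 * δ * (w x * η x ^ 2)
      + ε * (w x ^ 2 * η x ^ 2)) := (j1.add j2).add j3
  have k1 : Integrable (fun x => 8 * ((min (f x) 0) ^ 2 * ∑ j, pd j η x ^ 2)) := i1.const_mul 8
  have k2 : Integrable (fun x => 2 * δ * ∑ j, pd j η x ^ 2) := ig.const_mul _
  have k3 : Integrable (fun x => (2 * δ * (2 * M + 1) + ε * (2 * M + 1) ^ 2) * η x ^ 2) :=
    ie.const_mul _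
  have k12 : Integrable (fun x => 8 * ((min (f x) 0) ^ 2 * ∑ j, pd j η x ^ 2)
      + 2 * δ * ∑ j, pd j η x ^ 2) := k1.add k2
  have kt : Integrable (fun x => 8 * ((min (f x) 0) ^ 2 * ∑ j, pd j η x ^ 2)
      + 2 * δ * ∑ j, pd j η x ^ 2
      + (2 * δ * (2 * M + 1) + ε * (2 * M + 1) ^ 2) * η x ^ 2) := k12.add k3
  have hpt : ∀ x, w x ^ 2 * ∑ j, pd j η x ^ 2 + 2 * δ * (w x * η x ^ 2)
      + ε * (w x ^ 2 * η x ^ 2) ≤ 8 * ((min (f x) 0) ^ 2 * ∑ j, pd j η x ^ 2)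
      + 2 * δ * ∑ j, pd j η x ^ 2
      + (2 * δ * (2 * M + 1) + ε * (2 * M + 1) ^ 2) * η x ^ 2 := by
    intro x
    have a1 : 0 ≤ ∑ j, pd j η x ^ 2 := Finset.sum_nonneg fun _ _ => sq_nonneg _
    have a2 := mul_le_mul_of_nonneg_right (hwsq x) a1
    have a3 : 0 ≤ η x ^ 2 := sq_nonneg _
    have a4 := mul_le_mul_of_nonneg_left (mul_le_mul_of_nonneg_right (hwM x) a3)
      (by positivity : 0 ≤ 2 * δ)
    have a5 : w x ^ 2 ≤ (2 * M + 1) ^ 2 := pow_le_pow_left₀ (hw0 x) (hwM x) 2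
    have a6 := mul_le_mul_of_nonneg_left (mul_le_mul_of_nonneg_right a5 a3) hε.le
    linarith
  calc _ ≤ ∫ x, (8 * ((min (f x) 0) ^ 2 * ∑ j, pd j η x ^ 2) + 2 * δ * ∑ j, pd j η x ^ 2
        + (2 * δ * (2 * M + 1) + ε * (2 * M + 1) ^ 2) * η x ^ 2) := integral_mono jt kt hpt
    _ = _ := by
      rw [integral_add k12 k3, integral_add k1 k2, integral_const_mul, integral_const_mul,
        integral_const_mul]
      ring

/-- lower bound near a point where the gradient is large. -/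
lemma low_ge {f η : (Fin n → ℝ) → ℝ} {X : Fin n → (Fin n → ℝ) → ℝ} {C θ σ δ r : ℝ}
    {x0 : Fin n → ℝ} (hf : ContDiff ℝ 2 f) (hη : ContDiff ℝ 1 η) (hηc : HasCompactSupport η)
    (hX1 : ∀ j, ContDiff ℝ 1 (X j)) (hX2 : ∀ x ∈ Metric.ball x0 r, ∑ j, X j x ^ 2 ≤ C ^ 2)
    (hC : 0 ≤ C) (hθ : 0 < θ) (hσ : 0 < σ) (hδ : 0 < δ) (hδθ : δ ≤ θ)
    (hη1 : ∀ x ∈ Metric.ball x0 r, η x = 1)
    (hr : ∀ x ∈ Metric.ball x0 r, f x ≤ -σ ∧
      (C + θ) ^ 2 * (f x ^ 2 + θ ^ 2) ≤ ∑ j, pd j f x ^ 2) :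
    4 * θ ^ 2 * σ ^ 2 * (volume (Metric.ball x0 r)).toReal
      ≤ ∫ x, ∑ j, (pd j (fun y => gsn δ (f y) * η y) x - X j x * (gsn δ (f x) * η x)) ^ 2 := by
  obtain ⟨w, hw⟩ : ∃ w : (Fin n → ℝ) → ℝ, w = fun x => gsn δ (f x) := ⟨_, rfl⟩
  have hwx' : ∀ x, gsn δ (f x) = w x := fun x => by rw [hw]
  simp_rw [hwx']
  have hw2 : ContDiff ℝ 2 w := by rw [hw]; exact (gsn_contDiff hδ).comp hf
  have hw0 : ∀ x, 0 ≤ w x := fun x => by rw [hw]; exact (gsn_pos hδ _).le
  have hy1 : ContDiff ℝ 1 (fun y => w y * η y) := (hw2.of_le (by norm_num)).mul hη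
  have hyc : HasCompactSupport (fun y => w y * η y) := hηc.mul_left
  have i0 : Integrable (fun x => ∑ j, (pd j (fun y => w y * η y) x
      - X j x * (w x * η x)) ^ 2) := by
    refine integrable_finsetSum _ fun j _ => ?_
    refine Continuous.integrable_of_hasCompactSupport ?_ ?_
    · exact ((continuous_pd hy1).sub ((hX1 j).continuous.mul
        (hw2.continuous.mul hη.continuous))).pow 2
    · have h2 : HasCompactSupport (fun x => X j x * (w x * η x)) := hyc.mul_left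
      exact hcs_sq ((hasCompactSupport_pd hyc).sub h2)
  have hpt : ∀ x ∈ Metric.ball x0 r, (4 * θ ^ 2 * σ ^ 2 : ℝ)
      ≤ ∑ j, (pd j (fun y => w y * η y) x - X j x * (w x * η x)) ^ 2 := by
    intro x hx
    obtain ⟨hx1, hx2⟩ := hr x hx
    have hpd : ∀ j, pd j (fun y => w y * η y) x = pd j w x := by
      intro j
      have hev : (fun y => w y * η y) =ᶠ[𝓝 x] w := by
        filter_upwards [Metric.isOpen_ball.mem_nhds hx] with y hy
        rw [hη1 y hy, mul_one]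
      unfold pd
      rw [hev.fderiv_eq]
    have hX4 := hX2 x hx
    obtain ⟨s, hs⟩ : ∃ s : ℝ, s = √(f x ^ 2 + δ ^ 2) := ⟨_, rfl⟩
    have hs0 : 0 < s := by rw [hs]; exact gsn_rt_pos hδ _
    have hs2 : s ^ 2 = f x ^ 2 + δ ^ 2 := by rw [hs]; exact gsn_rt_sq _
    have hwx : w x = s - f x := by rw [hw, hs]; rfl
    have hpw : ∀ j, pd j w x = -(w x / s) * pd j f x := by
      intro j
      have h1 := pd_gsn hδ hf j x
      rw [← hs] at h1
      have h2 : pd j w x = (f x / s - 1) * pd j f x := by rw [hw]; exact h1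
      rw [h2, hwx]
      field_simp
      ring
    have h2 : ((C + θ) * w x) ^ 2 ≤ ∑ j, pd j w x ^ 2 := by
      have e1 : ∑ j, pd j w x ^ 2 = (w x / s) ^ 2 * ∑ j, pd j f x ^ 2 := by
        rw [Finset.mul_sum]
        exact Finset.sum_congr rfl fun j _ => by rw [hpw]; ring
      have e2 : (C + θ) ^ 2 * s ^ 2 ≤ ∑ j, pd j f x ^ 2 := by
        refine le_trans ?_ hx2
        apply mul_le_mul_of_nonneg_left _ (sq_nonneg _)
        rw [hs2]
        nlinarith
      rw [e1]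
      calc ((C + θ) * w x) ^ 2 = (w x / s) ^ 2 * ((C + θ) ^ 2 * s ^ 2) := by
            field_simp
        _ ≤ _ := mul_le_mul_of_nonneg_left e2 (sq_nonneg _)
    have h3 : ∑ j, (X j x * (w x * η x)) ^ 2 ≤ C ^ 2 * w x ^ 2 := by
      rw [hη1 x hx, mul_one]
      simp_rw [mul_pow]
      rw [← Finset.sum_mul]
      exact mul_le_mul_of_nonneg_right hX4 (sq_nonneg _)
    have h4 := sum_sq_sub_ge (a := fun j => pd j w x)
      (b := fun j => X j x * (w x * η x)) hC hθ.le (hw0 x) h2 h3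
    simp_rw [hpd]
    refine le_trans ?_ h4
    have h5 : 2 * σ ≤ w x := by
      have := gsn_ge (δ := δ) (f x)
      rw [hwx'] at this
      linarith
    have h6 : (2 * σ) ^ 2 ≤ w x ^ 2 := pow_le_pow_left₀ (by positivity) h5 2
    have h7 := mul_le_mul_of_nonneg_left h6 (sq_nonneg θ)
    calc (4 * θ ^ 2 * σ ^ 2 : ℝ) = θ ^ 2 * (2 * σ) ^ 2 := by ring
      _ ≤ θ ^ 2 * w x ^ 2 := h7
      _ = (θ * w x) ^ 2 := by ring
  have h1 : ∫ x in Metric.ball x0 r, (4 * θ ^ 2 * σ ^ 2 : ℝ)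
      ≤ ∫ x in Metric.ball x0 r, ∑ j, (pd j (fun y => w y * η y) x
        - X j x * (w x * η x)) ^ 2 :=
    setIntegral_mono_on (integrableOn_const measure_ball_lt_top.ne) i0.integrableOn
      measurableSet_ball hpt
  rw [setIntegral_const, smul_eq_mul] at h1
  have h2 : ∫ x in Metric.ball x0 r, ∑ j, (pd j (fun y => w y * η y) x
        - X j x * (w x * η x)) ^ 2
      ≤ ∫ x, ∑ j, (pd j (fun y => w y * η y) x - X j x * (w x * η x)) ^ 2 :=
    setIntegral_le_integral i0 (Eventually.of_forall fun x =>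
      Finset.sum_nonneg fun _ _ => sq_nonneg _)
  rw [mul_comm]
  exact h1.trans h2

/-- **Pointwise Harnack bound on the negativity set.** -/
theorem grad_le_of_growth {f V : (Fin n → ℝ) → ℝ} {C M B : ℝ} (hf : ContDiff ℝ 2 f)
    (hM : ∀ x, |f x| ≤ M) (hL : ∀ x, SM.lap f x = V x * f x) (hV : ∀ x, |V x| ≤ 2)
    (hC : 0 ≤ C) (hH : HypN n C V) (hB : 0 ≤ B)
    (hg : ∀ᶠ R in atTop, ∫ x, (min (f x) 0) ^ 2 * ph R x ≤ B * R ^ 2) (x0 : Fin n → ℝ)
    (hx0 : f x0 < 0) : ∑ j, pd j f x0 ^ 2 ≤ C ^ 2 * f x0 ^ 2 := by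
  by_contra hcon
  push Not at hcon
  have cj : ∀ j, Continuous (pd j f) := fun j => continuous_pd (hf.of_le (by norm_num))
  obtain ⟨K, hK0, R0, hK⟩ := avn_growth (g := fun x => (min (f x) 0) ^ 2)
    ((hf.continuous.min continuous_const).pow 2) (fun x => sq_nonneg _) hB hg
  have hM0 : 0 ≤ M := (abs_nonneg _).trans (hM x0)
  -- constants
  obtain ⟨θ, hθ0, hθ⟩ : ∃ θ : ℝ, 0 < θ ∧ (C + θ) ^ 2 * (f x0 ^ 2 + θ ^ 2) < ∑ j, pd j f x0 ^ 2 := by
    have h1 : Tendsto (fun θ : ℝ => (C + θ) ^ 2 * (f x0 ^ 2 + θ ^ 2)) (𝓝[>] 0)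
        (𝓝 ((C + 0) ^ 2 * (f x0 ^ 2 + 0 ^ 2))) := by
      apply Tendsto.mono_left _ nhdsWithin_le_nhds
      have : Continuous (fun θ : ℝ => (C + θ) ^ 2 * (f x0 ^ 2 + θ ^ 2)) := by fun_prop
      exact this.tendsto 0
    have h2 : (C + 0) ^ 2 * (f x0 ^ 2 + 0 ^ 2) < ∑ j, pd j f x0 ^ 2 := by
      simpa using hcon
    obtain ⟨θ, h3, h4⟩ := ((h1.eventually (gt_mem_nhds h2)).and self_mem_nhdsWithin).exists
    exact ⟨θ, h4, h3⟩
  obtain ⟨σ, hσ⟩ : ∃ σ : ℝ, σ = - f x0 / 2 := ⟨_, rfl⟩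
  have hσ0 : 0 < σ := by rw [hσ]; linarith
  obtain ⟨r, hr0, hr⟩ : ∃ r : ℝ, 0 < r ∧ ∀ x ∈ Metric.ball x0 r, f x ≤ -σ ∧
      (C + θ) ^ 2 * (f x ^ 2 + θ ^ 2) ≤ ∑ j, pd j f x ^ 2 := by
    have h1 : ∀ᶠ x in 𝓝 x0, f x < -σ :=
      (hf.continuous.tendsto x0).eventually (gt_mem_nhds (by rw [hσ]; linarith))
    have h2 : ∀ᶠ x in 𝓝 x0, (C + θ) ^ 2 * (f x ^ 2 + θ ^ 2) < ∑ j, pd j f x ^ 2 := by
      have c1 : Continuous fun x => (C + θ) ^ 2 * (f x ^ 2 + θ ^ 2) :=
        continuous_const.mul ((hf.continuous.pow 2).add continuous_const)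
      have c2 : Continuous fun x => ∑ j, pd j f x ^ 2 :=
        continuous_finsetSum _ fun j _ => (cj j).pow 2
      exact (c1.tendsto x0).eventually_lt (c2.tendsto x0) hθ
    obtain ⟨r, hr0, hr⟩ := Metric.eventually_nhds_iff_ball.mp (h1.and h2)
    exact ⟨r, hr0, fun x hx => ⟨(hr x hx).1.le, (hr x hx).2.le⟩⟩
  -- the base radius
  obtain ⟨ρ, hρ1, hρR, hρball⟩ : ∃ ρ : ℝ, 1 ≤ ρ ∧ R0 ≤ ρ ∧
      ∀ x ∈ Metric.ball x0 r, esq x < ρ ^ 2 := by
    obtain ⟨A, hA⟩ := (ProperSpace.isCompact_closedBall x0 r).exists_bound_of_continuousOn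
      (f := fun x => esq x) (by unfold esq; fun_prop)
    refine ⟨max (max 1 R0) (|A| + 1), (le_max_left _ _).trans (le_max_left _ _),
      (le_max_right _ _).trans (le_max_left _ _), fun x hx => ?_⟩
    have h1 := hA x (Metric.ball_subset_closedBall hx)
    rw [Real.norm_eq_abs] at h1
    have h2 := le_abs_self (esq x)
    have h3 := le_abs_self A
    have h4 : |A| + 1 ≤ max (max 1 R0) (|A| + 1) := le_max_right _ _
    have h5 := abs_nonneg A
    nlinarith
  have hρ0 : 0 < ρ := by linarith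
  have hvol : 0 < (volume (Metric.ball x0 r)).toReal :=
    ENNReal.toReal_pos (Metric.measure_ball_pos volume x0 hr0).ne' measure_ball_lt_top.ne
  -- the main estimate
  have hmain : ∀ N : ℕ, 0 < N →
      4 * θ ^ 2 * σ ^ 2 * (volume (Metric.ball x0 r)).toReal ≤ (8 * K + 2) / N := by
    intro N hN
    have hN0 : (0:ℝ) < N := by exact_mod_cast hN
    obtain ⟨η, hη⟩ : ∃ η : (Fin n → ℝ) → ℝ, η = avn ρ N := ⟨_, rfl⟩
    have ηc : ContDiff ℝ 1 η := by rw [hη]; exact avn_contDiff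
    have ηs : HasCompactSupport η := by rw [hη]; exact avn_hasCompactSupport hρ0
    have ηb : ∀ x, x ∉ box n (2 * (2 ^ N * ρ)) → η x = 0 := by rw [hη]; exact avn_bound hρ0 N
    have η1 : ∀ x ∈ Metric.ball x0 r, η x = 1 := fun x hx => by
      rw [hη]; exact avn_one hρ0 hN (hρball x hx).le
    have hK2 : ∫ x, (min (f x) 0) ^ 2 * ∑ j, pd j η x ^ 2 ≤ K / N := by
      rw [hη]; exact hK ρ hρ1 hρR N hN
    clear hη
    obtain ⟨D, hD⟩ : ∃ D : ℝ, D = ∫ x : Fin n → ℝ, ∑ j, pd j η x ^ 2 := ⟨_, rfl⟩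
    obtain ⟨E, hE⟩ : ∃ E : ℝ, E = ∫ x : Fin n → ℝ, η x ^ 2 := ⟨_, rfl⟩
    have hD0 : 0 ≤ D := by
      rw [hD]; exact integral_nonneg fun x => Finset.sum_nonneg fun _ _ => sq_nonneg _
    have hE0 : 0 ≤ E := by rw [hE]; exact integral_nonneg fun x => sq_nonneg _
    obtain ⟨δ, hδ0, hδ1, hδθ, hδ⟩ : ∃ δ : ℝ, 0 < δ ∧ δ ≤ 1 ∧ δ ≤ θ ∧
        δ * (2 * D + 2 * (2 * M + 1) * E) ≤ 1 / N := by
      have hP : 0 ≤ 2 * D + 2 * (2 * M + 1) * E := by positivity
      refine ⟨min (min 1 θ) (1 / (N * (2 * D + 2 * (2 * M + 1) * E + 1))), by positivity,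
        (min_le_left _ _).trans (min_le_left _ _), (min_le_left _ _).trans (min_le_right _ _), ?_⟩
      have h1 : min (min 1 θ) (1 / (N * (2 * D + 2 * (2 * M + 1) * E + 1)))
          ≤ 1 / (N * (2 * D + 2 * (2 * M + 1) * E + 1)) := min_le_right _ _
      refine (mul_le_mul_of_nonneg_right h1 hP).trans ?_
      rw [div_mul_eq_mul_div, one_mul, div_le_div_iff₀ (by positivity) hN0]
      nlinarith
    obtain ⟨ε, hε0, hε⟩ : ∃ ε : ℝ, 0 < ε ∧ ε * ((2 * M + 1) ^ 2 * E) ≤ 1 / N := by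
      refine ⟨1 / (N * ((2 * M + 1) ^ 2 * E + 1)), by positivity, ?_⟩
      rw [div_mul_eq_mul_div, one_mul, div_le_div_iff₀ (by positivity) hN0]
      nlinarith
    obtain ⟨X, hX1, hX2, hX3⟩ := hH (2 * (2 ^ N * ρ)) ε (by positivity) hε0
    have hw0 : ∀ x, 0 ≤ gsn δ (f x) := fun x => (gsn_pos hδ0 _).le
    have hwM : ∀ x, gsn δ (f x) ≤ 2 * M + 1 := by
      intro x
      refine (gsn_le hδ0 _).trans ?_
      have h1 : |min (f x) 0| ≤ M := by
        refine le_trans ?_ (hM x)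
        rcases le_total (f x) 0 with h | h
        · rw [min_eq_left h]
        · rw [min_eq_right h, abs_zero]; exact abs_nonneg _
      linarith
    have hwsq : ∀ x, gsn δ (f x) ^ 2 ≤ 8 * (min (f x) 0) ^ 2 + 2 * δ := by
      intro x
      have h1 : gsn δ (f x) ≤ 2 * |min (f x) 0| + δ := gsn_le hδ0 _
      have h2 := hw0 x
      have h3 : gsn δ (f x) ^ 2 ≤ (2 * |min (f x) 0| + δ) ^ 2 := pow_le_pow_left₀ h2 h1 2
      have h4 := sq_abs (min (f x) 0)
      nlinarith [sq_nonneg (2 * |min (f x) 0| - δ)]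
    have hineq := riccati_ineq (κ := 2 * δ) (w := fun x => gsn δ (f x))
      ((gsn_contDiff hδ0).comp hf) ηc ηs hX1 ηb hX3 (fun x => lap_gsn hδ0 hf hL hV x) hw0
    have hup := err_le (w := fun x => gsn δ (f x)) hf.continuous
      (((gsn_contDiff hδ0).comp hf : ContDiff ℝ 2 _).continuous) ηc ηs hδ0 hε0 hw0 hwM hwsq
    rw [← hD, ← hE] at hup
    have hlow := low_ge hf ηc ηs hX1 (fun x hx => hX2 x (by
      by_contra hxn
      have h1 := ηb x hxn
      rw [η1 x hx] at h1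
      exact one_ne_zero h1)) hC hθ0 hσ0 hδ0 hδθ η1 hr
    refine hlow.trans (hineq.trans (hup.trans ?_))
    calc _ ≤ 8 * (K / N) + 1 / N + 1 / N := by linarith
      _ = (8 * K + 2) / N := by ring
  have hlim : Tendsto (fun N : ℕ => (8 * K + 2) / (N:ℝ)) atTop (𝓝 0) :=
    tendsto_const_div_atTop_nhds_zero_nat _
  have h1 : 4 * θ ^ 2 * σ ^ 2 * (volume (Metric.ball x0 r)).toReal ≤ 0 := ge_of_tendsto hlim (by
    filter_upwards [eventually_gt_atTop 0] with N hN using hmain N hN)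
  have h2 : 0 < 4 * θ ^ 2 * σ ^ 2 * (volume (Metric.ball x0 r)).toReal := by positivity
  linarith

/-- **Sign from quadratic growth of the negative part.** -/
theorem sign_of_growth {f V : (Fin n → ℝ) → ℝ} {C M B : ℝ} (hf : ContDiff ℝ 2 f)
    (hM : ∀ x, |f x| ≤ M) (hL : ∀ x, SM.lap f x = V x * f x) (hV : ∀ x, |V x| ≤ 2)
    (hC : 0 ≤ C) (hH : HypN n C V) (hB : 0 ≤ B)
    (hg : ∀ᶠ R in atTop, ∫ x, (min (f x) 0) ^ 2 * ph R x ≤ B * R ^ 2) :
    (∀ x, 0 ≤ f x) ∨ (∀ x, f x < 0) := by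
  by_cases h : ∃ y, f y < 0
  swap
  · push Not at h
    exact Or.inl h
  refine Or.inr fun z => ?_
  obtain ⟨y, hy⟩ := h
  have df : Differentiable ℝ f := hf.differentiable (by norm_num)
  obtain ⟨v, hv⟩ : ∃ v : Fin n → ℝ, v = z - y := ⟨_, rfl⟩
  have hd : ∀ t, HasDerivAt (fun s : ℝ => f (y + s • v)) (dd v f (y + t • v)) t :=
    fun t => hasDerivAt_dd df y v t
  obtain ⟨L, hLd⟩ : ∃ L : ℝ, L = C * eno v + 1 := ⟨_, rfl⟩
  have hB' : ∀ t : ℝ, HasDerivAt (fun t : ℝ => f y * Real.exp (-L * t))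
      (f y * (Real.exp (-L * t) * (-L))) t := by
    intro t
    have h1 : HasDerivAt (fun t : ℝ => -L * t) (-L) t := by
      simpa using (hasDerivAt_id t).const_mul (-L)
    exact (h1.exp).const_mul _
  have h1 := image_le_of_deriv_right_lt_deriv_boundary (f := fun s : ℝ => f (y + s • v))
    (f' := fun t => dd v f (y + t • v)) (a := 0) (b := 1)
    (fun t _ => (hd t).continuousAt.continuousWithinAt)
    (fun t _ => (hd t).hasDerivWithinAt) (B := fun t => f y * Real.exp (-L * t))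
    (B' := fun t => f y * (Real.exp (-L * t) * (-L))) (by simp) hB' (fun t _ ht => by
      have hneg : f (y + t • v) < 0 := by
        rw [ht]; exact mul_neg_of_neg_of_pos hy (Real.exp_pos _)
      have h2 := grad_le_of_growth hf hM hL hV hC hH hB hg _ hneg
      have h3 : dd v f (y + t • v) ≤ eno v * (C * - f (y + t • v)) := by
        have h4 : dd v f (y + t • v) ^ 2 ≤ (∑ i, v i ^ 2) * ∑ i, pd i f (y + t • v) ^ 2 := by
          unfold dd
          exact Finset.sum_mul_sq_le_sq_mul_sq _ _ _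
        have h5 : dd v f (y + t • v) ^ 2 ≤ (eno v * (C * - f (y + t • v))) ^ 2 := by
          refine h4.trans ?_
          have e : (eno v * (C * - f (y + t • v))) ^ 2
              = (∑ i, v i ^ 2) * (C ^ 2 * f (y + t • v) ^ 2) := by
            have : eno v ^ 2 = ∑ i, v i ^ 2 := eno_sq v
            rw [← this]; ring
          rw [e]
          exact mul_le_mul_of_nonneg_left h2 (Finset.sum_nonneg fun _ _ => sq_nonneg _)
        exact abs_le_of_sq_le_sq' h5 (mul_nonneg (Real.sqrt_nonneg _)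
          (mul_nonneg hC (by linarith))) |>.2
      have h6 : f y * (Real.exp (-L * t) * (-L)) = L * - f (y + t • v) := by
        rw [ht]; ring
      rw [h6, hLd]
      nlinarith)
  have h2 := h1 (Set.right_mem_Icc.mpr zero_le_one)
  simp only [one_smul] at h2
  have e : y + v = z := by rw [hv]; abel
  rw [e] at h2
  exact lt_of_le_of_lt h2 (mul_neg_of_neg_of_pos hy (Real.exp_pos _))

/-- a directional derivative whose negative part grows quadratically has a sign. -/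
theorem dd_sign (hu : SH u) {a : Fin n → ℝ} {B : ℝ} (hB : 0 ≤ B)
    (hg : ∀ᶠ R in atTop, ∫ x, (min (dd a u x) 0) ^ 2 * ph R x ≤ B * R ^ 2) :
    (∀ x, 0 ≤ dd a u x) ∨ (∀ x, dd a u x < 0) := by
  obtain ⟨hs, C, hC⟩ := hu
  have hC' : HypN n |C| (fun x => 3 * u x ^ 2 - 1) := by
    intro R ε hR hε
    obtain ⟨X, h1, h2, h3⟩ := hC R ε hR hε
    exact ⟨X, h1, fun x hx => by rw [sq_abs]; exact h2 x hx, h3⟩
  obtain ⟨K, hK0, hK, -⟩ := hs.exists_bound
  refine sign_of_growth (M := (∑ i, |a i|) * K) (H765.dd_contDiff2 hs a) (fun x => ?_)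
    (fun x => H765.lap_dd hs a x) (fun x => H765.VV_abs hs x) (abs_nonneg C) hC' hB hg
  unfold dd
  rw [Finset.sum_mul]
  refine (Finset.abs_sum_le_sum_abs _ _).trans (Finset.sum_le_sum fun i _ => ?_)
  rw [abs_mul]
  exact mul_le_mul_of_nonneg_left (hK x i) (abs_nonneg _)

end Vale.Agent.P134.R2.H561
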