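import Vale.Agent.P134.R2.H561.Cls
import Vale.Agent.P134.R2.H561.StB

set_option linter.all false

open MeasureTheory Filter Topology Set

namespace Vale.Agent.P134.R2.H561

open Vale.Agent.P134 Vale.Agent.P134.SM Vale.Agent.P134.H688
open Vale.Agent.P134.M4 (bl)
open Vale.Agent.P134.H891 (Psi ph mm pp ph_nonneg mm_nonneg mm_le_one mm_eq_zero ph_contDiff
  ph_hasCompactSupport hasDerivAt_Psi contDiff_Psi Psi_neg_one continuous_Psi ph_grad_le TT II
  Th_mono Psi_one_le Psi_nonneg Psi_le_Psi_one Psi_le_one ph_le_one)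

variable {m n : ℕ} {u V φ f g η : (Fin n → ℝ) → ℝ} {x : Fin n → ℝ} {K : Set (Fin n → ℝ)}

/-- The layer is close to the half space. -/
theorem layn_hsf (hn : 0 < n) {e : Fin n → ℝ} (he : ∑ i, e i ^ 2 = 1) {η R : ℝ} (hη : 0 < η)
    (hR : 0 < R) : ∫ x in box n R, |Psi (lay e 0 x) - hsf e x|
      ≤ 2 ^ n * (2 / (η * R) + n * η) * R ^ n := by
  have hηR : 0 < η * R := mul_pos hη hR
  obtain ⟨S, hS⟩ : ∃ S : Set (Fin n → ℝ), S = slab e (η * R) R := ⟨_, rfl⟩
  have hSb : S ⊆ box n R := by rw [hS]; exact fun x hx => hx.1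
  have mS : MeasurableSet S := by rw [hS]; exact measurableSet_slab _ _ _
  have mB : MeasurableSet (box n R) := (isCompact_box R).measurableSet
  have cl : Continuous (fun x => Psi (lay e 0 x)) :=
    continuous_Psi.comp (contDiff_lay (k := 1) e 0).continuous
  have hpsi : ∀ x, 0 ≤ Psi (lay e 0 x) ∧ Psi (lay e 0 x) ≤ 1 := fun x =>
    ⟨Psi_nonneg (abs_lay_lt _ _ _).le, Psi_le_one (abs_lay_lt _ _ _).le⟩
  have h1 : ∀ x, |Psi (lay e 0 x) - hsf e x| ≤ 1 := by
    intro x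
    have := hpsi x; have := hsf_mem e x
    rw [_root_.abs_le]; constructor <;> linarith
  have h2 : ∀ x ∈ box n R \ S, |Psi (lay e 0 x) - hsf e x| ≤ 2 / (η * R) := by
    rintro x ⟨hx, hxS⟩
    have h3 : η * R < |∑ i, e i * x i| := by
      by_contra hcon
      exact hxS (by rw [hS]; exact ⟨hx, not_lt.mp hcon⟩)
    rcases lt_abs.mp h3 with h4 | h4
    · have h5 : hsf e x = Psi 1 := if_pos (hηR.trans h4)
      rw [h5, Psi_eq_Ps, Psi_eq_Ps, add_sub_add_right_eq_sub, abs_sub_comm]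
      refine (abs_Ps_sub_le (by simp) (abs_lay_lt _ _ _).le).trans ?_
      exact lay_near (Or.inl rfl) hηR (by linarith)
    · have h5 : hsf e x = Psi (-1) := by
        rw [Psi_neg_one]; exact if_neg (by linarith)
      rw [h5, Psi_eq_Ps, Psi_eq_Ps, add_sub_add_right_eq_sub, abs_sub_comm]
      refine (abs_Ps_sub_le (by simp) (abs_lay_lt _ _ _).le).trans ?_
      exact lay_near (Or.inr rfl) hηR (by linarith)
  have iF : ∀ {K : Set (Fin n → ℝ)}, K ⊆ box n R →
      IntegrableOn (fun x => |Psi (lay e 0 x) - hsf e x|) K := fun h => integrableOn_hsf cl e h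
  have hsplit : ∫ x in box n R, |Psi (lay e 0 x) - hsf e x|
      = (∫ x in S, |Psi (lay e 0 x) - hsf e x|)
        + ∫ x in box n R \ S, |Psi (lay e 0 x) - hsf e x| := by
    rw [← setIntegral_union disjoint_sdiff_right (mB.diff mS) (iF hSb) (iF diff_subset),
      union_diff_cancel hSb]
  have b1 : ∫ x in S, |Psi (lay e 0 x) - hsf e x| ≤ (volume S).toReal := by
    have c1 : ∫ x in S, |Psi (lay e 0 x) - hsf e x| ≤ ∫ x in S, (1:ℝ) :=
      setIntegral_mono (iF hSb) (integrableOn_box continuous_const hSb) h1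
    rw [setIntegral_const, smul_eq_mul, mul_one] at c1
    exact c1
  have b1' : (volume S).toReal ≤ 2 ^ n * (n * η) * R ^ n := by
    have c2 := volume_slab_le hn he hηR.le hR.le
    rw [← hS] at c2
    refine c2.trans (le_of_eq ?_)
    obtain ⟨k, rfl⟩ : ∃ k, n = k + 1 := ⟨n - 1, by omega⟩
    rw [Nat.add_sub_cancel, mul_pow, pow_succ 2 k, pow_succ R k]
    push_cast
    ring
  have b2 : ∫ x in box n R \ S, |Psi (lay e 0 x) - hsf e x| ≤ 2 ^ n * (2 / (η * R)) * R ^ n := by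
    have hsub : box n R \ S ⊆ box n R := diff_subset
    have c1 : ∫ x in box n R \ S, |Psi (lay e 0 x) - hsf e x|
        ≤ ∫ x in box n R \ S, (2 / (η * R)) :=
      setIntegral_mono_on (iF hsub) (integrableOn_box continuous_const hsub) (mB.diff mS) h2
    rw [setIntegral_const, smul_eq_mul] at c1
    have c2 : (volume (box n R \ S)).toReal ≤ (2 * R) ^ n := by
      rw [← volume_box hR.le]
      exact ENNReal.toReal_mono (isCompact_box _).measure_lt_top.ne (measure_mono hsub)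
    have c3 : volume.real (box n R \ S) * (2 / (η * R)) ≤ (2 * R) ^ n * (2 / (η * R)) :=
      mul_le_mul_of_nonneg_right c2 (by positivity)
    refine c1.trans (c3.trans (le_of_eq ?_))
    rw [mul_pow]; ring
  rw [hsplit]
  linarith

lemma eventually_layn_hsf (hn : 0 < n) {ε : ℝ} (hε : 0 < ε) : ∀ᶠ R : ℝ in atTop,
    ∀ e : Fin n → ℝ, ∑ i, e i ^ 2 = 1 →
      ∫ x in box n R, |Psi (lay e 0 x) - hsf e x| ≤ ε * R ^ n := by
  have hn' : (0:ℝ) < n := by exact_mod_cast hn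
  obtain ⟨η, hη⟩ : ∃ η : ℝ, η = ε / (2 ^ n * (2 * n)) := ⟨_, rfl⟩
  have hη0 : 0 < η := by rw [hη]; positivity
  filter_upwards [eventually_ge_atTop (2 ^ n * 4 / (η * ε) + 1)] with R hR e he
  have hR0 : 0 < R := by
    have : 0 < 2 ^ n * 4 / (η * ε) := by positivity
    linarith
  refine (layn_hsf hn he hη0 hR0).trans ?_
  apply mul_le_mul_of_nonneg_right _ (by positivity)
  have h1 : 2 ^ n * (2 / (η * R)) ≤ ε / 2 := by
    rw [← mul_div_assoc, div_le_div_iff₀ (by positivity) (by norm_num)]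
    have h2 : 2 ^ n * 4 / (η * ε) ≤ R := by linarith
    rw [div_le_iff₀ (by positivity)] at h2
    linarith
  have h3 : 2 ^ n * (n * η) = ε / 2 := by rw [hη]; field_simp
  linarith

lemma TTn_eq (u : (Fin n → ℝ) → ℝ) (R : ℝ) :
    TT (fun _ => 1) u R = (∫ x, ph R x * en u x) / R ^ (n - 1) := by
  unfold TT II
  congr 1
  · congr 1; ext x; ring

/-- sharp bound from one large radius. -/
lemma out1_of_lim {u : (Fin (m + 4) → ℝ) → ℝ} (hu : Sol u)
    (h : ∀ ε : ℝ, 0 < ε → ∀ᶠ R : ℝ in atTop, ∫ x, ph R x * en u x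
      ≤ (Psi 1 * (∫ y : Fin (m + 3) → ℝ, ph 1 y) + ε) * R ^ (m + 3)) : OUT1 u := by
  intro R0 hR0
  obtain ⟨w, hw⟩ : ∃ w : ℝ, w = ∫ y : Fin (m + 3) → ℝ, ph 1 y := ⟨_, rfl⟩
  have e0 : m + 4 - 1 = m + 3 := rfl
  suffices hTT : TT (fun _ => 1) u R0 ≤ Psi 1 * w by
    rw [TTn_eq, e0, div_le_iff₀ (by positivity)] at hTT
    rw [hw] at hTT
    refine le_trans (le_of_eq ?_) hTT
    congr 1; ext x; ring
  apply le_of_forall_pos_le_add
  intro ε hε
  obtain ⟨R, hR1, hR2⟩ := ((eventually_ge_atTop R0).and (h ε hε)).exists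
  have hR : 0 < R := lt_of_lt_of_le hR0 hR1
  have hmono := Th_mono hu (0 : Fin (m + 4)) (Set.mem_Ioi.mpr hR0) (Set.mem_Ioi.mpr hR) hR1
  refine hmono.trans ?_
  rw [TTn_eq, e0, div_le_iff₀ (by positivity), hw]
  exact hR2

theorem out1n_of_out2 {q : Fin (m + 4)} {u : (Fin (m + 4) → ℝ) → ℝ} (h : Mo q u) (h2 : OUT2 u) :
    OUT1 u := by
  have hu : Sol u := h.toSol
  have hl : Lim q u := ⟨h.top, h.bot⟩
  refine out1_of_lim hu fun ε hε => ?_
  filter_upwards [eventually_gt_atTop 0, h2 (ε / 8) (by positivity),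
    eventually_layn_hsf (n := m + 4) (by omega) (ε := ε / 8) (by positivity)] with R hR hR2 hR3
  obtain ⟨w, hw⟩ : ∃ w : ℝ, w = ∫ y : Fin (m + 3) → ℝ, ph 1 y := ⟨_, rfl⟩
  obtain ⟨e, he, hE⟩ := hR2
  have k1 := lay_upper hu h.pos hl e 0 (ph_contDiff R) (ph_hasCompactSupport hR)
    (ph_nonneg R)
  have k2 := lay_energy_le (m := m + 3) he hR
  rw [integral_ph (m + 3) hR, ← hw] at k2
  have cl : Continuous (fun x => Psi (lay e 0 x)) :=
    continuous_Psi.comp (contDiff_lay (k := 1) e 0).continuous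
  have cu : Continuous (fun x => Psi (u x)) := continuous_Psi.comp hu.c2.continuous
  have hb := bl_subset_box (n := m + 4) hR.le
  have k3 : err (ph R) u e 0 ≤ 4 / R * ∫ x in bl R, |Psi (lay e 0 x) - Psi (u x)| := by
    unfold err
    have e1 : ∀ x, |Ps (lay e 0 x) - Ps (u x)| = |Psi (lay e 0 x) - Psi (u x)| := fun x => by
      rw [Psi_eq_Ps, Psi_eq_Ps, add_sub_add_right_eq_sub]
    simp_rw [e1]
    exact integral_gn_ph_le hR (cl.sub cu).abs (fun _ => abs_nonneg _)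
  have k4 : ∫ x in bl R, |Psi (lay e 0 x) - Psi (u x)|
      ≤ (∫ x in bl R, |Psi (lay e 0 x) - hsf e x|) + ∫ x in bl R, |Psi (u x) - hsf e x| := by
    have j1 := integrableOn_hsf cl e hb
    have j2 := integrableOn_hsf cu e hb
    rw [← integral_add j1 j2]
    apply setIntegral_mono (integrableOn_box (cl.sub cu).abs hb) (j1.add j2)
    intro x
    simp only [Pi.add_apply]
    have := abs_sub_le (Psi (lay e 0 x)) (hsf e x) (Psi (u x))
    rw [abs_sub_comm (hsf e x)] at this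
    exact this
  have k5 : ∫ x in bl R, |Psi (lay e 0 x) - hsf e x| ≤ ε / 8 * R ^ (m + 4) := by
    refine le_trans ?_ (hR3 e he)
    exact setIntegral_mono_set (integrableOn_hsf cl e subset_rfl)
      (Eventually.of_forall fun _ => abs_nonneg _) hb.eventuallyLE
  have k6 : ∫ x in bl R, |Psi (u x) - hsf e x| ≤ ε / 8 * R ^ (m + 4) := by
    refine le_trans (le_of_eq ?_) hE
    unfold hsf
    rfl
  have k7 : err (ph R) u e 0 ≤ ε * R ^ (m + 3) := by
    calc err (ph R) u e 0 ≤ 4 / R * (ε / 8 * R ^ (m + 4) + ε / 8 * R ^ (m + 4)) := by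
          refine k3.trans (mul_le_mul_of_nonneg_left (k4.trans (add_le_add k5 k6)) (by positivity))
      _ = ε * R ^ (m + 3) := by field_simp; ring
  calc ∫ x, ph R x * en u x ≤ Psi 1 * (R ^ (m + 3) * w) + ε * R ^ (m + 3) := by linarith
    _ = (Psi 1 * w + ε) * R ^ (m + 3) := by ring
    _ = _ := by rw [hw]

lemma lown_density {u : (Fin (m + 4) → ℝ) → ℝ} (hu : Sol u) (hgs : ∀ x, 0 < gs u x) :
    ∃ c : ℝ, 0 < c ∧ ∀ R : ℝ, 1 ≤ R → c * R ^ (m + 3) ≤ ∫ x, ph R x * en u x := by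
  have hu1 : ContDiff ℝ 1 u := hu.c2.of_le (by norm_num)
  refine ⟨TT (fun _ => 1) u 1, ?_, fun R hR1 => ?_⟩
  · rw [TTn_eq]
    have hen : ∀ x, 0 < en u x := by
      intro x
      unfold en
      have h1 : 0 < ∑ j, pd j u x ^ 2 := hgs x
      positivity
    have hpos : 0 < ∫ x, ph 1 x * en u x := by
      apply Continuous.integral_pos_of_hasCompactSupport_nonneg_nonzero
        ((ph_contDiff 1).continuous.mul (continuous_en hu1))
        (ph_hasCompactSupport one_pos).mul_right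
        (fun x => mul_nonneg (ph_nonneg _ _) (hen x).le) (x := 0)
      have e1 : ph 1 (0 : Fin (m + 4) → ℝ) = 1 := by
        unfold ph mm pp esq
        simp
      show ph 1 (0 : Fin (m + 4) → ℝ) * en u 0 ≠ 0
      rw [e1, one_mul]
      exact (hen 0).ne'
    simpa using hpos
  · have hR0 : 0 < R := by linarith
    have hmono := Th_mono hu (0 : Fin (m + 4)) (Set.mem_Ioi.mpr one_pos) (Set.mem_Ioi.mpr hR0) hR1
    have e0 : m + 4 - 1 = m + 3 := rfl
    rw [TTn_eq u R, e0, le_div_iff₀ (by positivity)] at hmono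
    exact hmono

/-- constants are excluded by the flux estimate and the lower density. -/
lemma excln_const {u : (Fin (m + 4) → ℝ) → ℝ} (hu : Sol u) {c κ R σ : ℝ} (hR0 : 0 < R)
    (hc : 0 < c) (hκ2 : κ ≤ c / 16)
    (hfx : ∫ x, ph R x * en u x ≤ ∫ x, gn (ph R) x * |Ps σ - Ps (u x)|)
    (hlow : c * R ^ (m + 3) ≤ ∫ x, ph R x * en u x)
    (hcl : ∫ x in box (m + 4) R, |Ps σ - Ps (u x)| ≤ κ * R ^ (m + 4)) : False := by
  have cP : Continuous (fun x => |Ps σ - Ps (u x)|) :=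
    (continuous_const.sub (continuous_Ps.comp hu.c2.continuous)).abs
  have k2 := integral_gn_ph_le hR0 cP (fun _ => abs_nonneg _)
  have k3 : ∫ x in bl R, |Ps σ - Ps (u x)| ≤ κ * R ^ (m + 4) := by
    refine le_trans ?_ hcl
    exact setIntegral_mono_set (integrableOn_box cP subset_rfl)
      (Eventually.of_forall fun _ => abs_nonneg _) (bl_subset_box hR0.le).eventuallyLE
  have k4 : c * R ^ (m + 3) ≤ 4 / R * (κ * R ^ (m + 4)) :=
    hlow.trans (hfx.trans (k2.trans (mul_le_mul_of_nonneg_left k3 (by positivity))))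
  have k5 : 4 / R * (κ * R ^ (m + 4)) = 4 * κ * R ^ (m + 3) := by field_simp; ring
  rw [k5] at k4
  have k6 : 0 < R ^ (m + 3) := by positivity
  nlinarith

theorem out2n_of_flat {q : Fin (m + 4)} {u : (Fin (m + 4) → ℝ) → ℝ} (h : Mo q u) (hE : E3 u)
    (hS : S0 u) (hF : FLAT u) : OUT2 u := by
  have hu : Sol u := h.toSol
  have hl : Lim q u := ⟨h.top, h.bot⟩
  have hgs : ∀ x, 0 < gs u x := fun x => gs_pos_of_pd (h.pos x)
  obtain ⟨c, hcpos, hlow⟩ := lown_density hu hgs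
  intro ε hε
  obtain ⟨κ, hκ0, hκ1, hκ2⟩ : ∃ κ : ℝ, 0 < κ ∧ κ ≤ ε / 4 ∧ κ ≤ c / 16 :=
    ⟨min (ε / 4) (c / 16), lt_min (by positivity) (by positivity), min_le_left _ _, min_le_right _ _⟩
  obtain ⟨ν0, hν0, hcl⟩ := closen hu hgs hE hS hκ0
  obtain ⟨N, hN⟩ : ∃ N : ℝ, N = ((m + 4 : ℕ) : ℝ) := ⟨_, rfl⟩
  have hN1 : 1 ≤ N := by rw [hN]; push_cast; linarith [Nat.cast_nonneg (α := ℝ) m]
  have hdbl : Tendsto (fun R : ℝ => N * R) atTop atTop :=
    tendsto_id.const_mul_atTop (by linarith)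
  have hF1 := hF (ν0 / N ^ (m + 3)) (by positivity)
  filter_upwards [eventually_ge_atTop (1 : ℝ), hcl, hdbl.eventually hF1,
    eventually_layn_hsf (n := m + 4) (by omega) (ε := ε / 4) (by positivity)]
    with R hR1 hR2 hRF hRL
  have hR0 : 0 < R := by linarith
  obtain ⟨e, he, hfl⟩ := hRF
  obtain ⟨t, ht, hclose'⟩ := hR2 e he (by
    rw [← hN]
    refine hfl.trans (le_of_eq ?_)
    rw [mul_pow]; field_simp)
  have hfin : ∀ e' : Fin (m + 4) → ℝ, ∑ i, e' i ^ 2 = 1 → t = lay e' 0 →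
      ∫ x in bl R, |Psi (u x) - hsf e' x| ≤ ε * R ^ (m + 4) := by
    intro e' he' hte
    rw [hte] at hclose'
    refine (hsf_of_lay hu hR0.le hclose' (hRL e' he')).trans ?_
    nlinarith [pow_pos hR0 (m + 4)]
  rcases ht with ht | ht | ht | ht
  · exact (excln_const hu hR0 hcpos hκ2 (flux hu h.pos hl (ph_contDiff R)
      (ph_hasCompactSupport hR0) (ph_nonneg R) (ε := 1) (by norm_num)) (hlow R hR1)
      (by rw [ht] at hclose'; exact hclose')).elim
  · exact (excln_const hu hR0 hcpos hκ2 (flux hu h.pos hl (ph_contDiff R)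
      (ph_hasCompactSupport hR0) (ph_nonneg R) (ε := -1) (by norm_num)) (hlow R hR1)
      (by rw [ht] at hclose'; exact hclose')).elim
  · exact ⟨e, he, hfin e he ht⟩
  · exact ⟨fun i => - e i, by simpa using he, hfin _ (by simpa using he) ht⟩

lemma E3'.e3 {u : (Fin (m + 4) → ℝ) → ℝ} (h : E3' u) : E3 u := by
  obtain ⟨C, hC⟩ := h
  refine ⟨C, fun R hR => ?_⟩
  have := hC 0 R hR
  simpa using this

theorem stE (m : ℕ) : StE m := fun q u h hE hS hF =>
  have h2 := out2n_of_flat h hE.e3 hS hF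
  ⟨out1n_of_out2 h h2, h2⟩

end Vale.Agent.P134.R2.H561
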