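import Vale.Agent.P134.R2.H561.Dirn

set_option linter.all false

open Filter Topology MeasureTheory

namespace Vale.Agent.P134.R2.H561

open Vale.Agent.P134 Vale.Agent.P134.SM
open Vale.Agent.P134.H787 (rot LI KB KB_nonneg bridge)
open Vale.Agent.P134.H891 (Psi Cls cls_rot rot_trans)
open Vale.Agent.P134.H370 (Flat)
open Vale.Agent.P134.M4 (bl)

variable {n m : ℕ}

/-- block F, for all translates. -/
def StF' (m : ℕ) : Prop := ∀ u : (Fin (m + 4) → ℝ) → ℝ, Sol u → |u 0| ≤ 3 / 4 →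
  (∀ y, OUT1 (fun x => u (x + y)) ∧ OUT2 (fun x => u (x + y))) →
  ∃ (e : Fin (m + 4) → ℝ) (h : ℝ → ℝ), ∑ i, e i ^ 2 = 1 ∧ ∀ x, u x = h (∑ i, e i * x i)

/-- The flatness at all large scales, uniformly on the class. -/
theorem states_of (p : Fin (m + 3)) {K : ℝ} (hK : 0 ≤ K) : ∃ K' R0 : ℝ, 0 < K' ∧ 1 ≤ R0 ∧
    ∀ v : (Fin (m + 3) → ℝ) → ℝ, Cls (m + 3) p K v → |v 0| ≤ 3 / 4 →
      (∀ ε : ℝ, 0 < ε → ∀ᶠ R : ℝ in atTop, ∃ e : Fin (m + 3) → ℝ, ∑ i, e i ^ 2 = 1 ∧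
        ∫ x in bl R, |Psi (v x) - if 0 < ∑ i, e i * x i then Psi 1 else 0| ≤ ε * R ^ (m + 3)) →
      ∀ R, R0 ≤ R → State p v R (K' * Real.log R) := by
  obtain ⟨θ, c1, C1, R1, hθ, hθ1, hc1, h⟩ := stepn p hK
  obtain ⟨K', R0, hK', hR0, hit⟩ := itern_core (C1 := C1) (R1 := R1) hθ hθ1 hc1
  refine ⟨K', R0, hK', hR0, fun v hv hv0 hO => ?_⟩
  apply hit (State p v) (fun R H H' h hH => h.mono_H hH) (fun R R' H h h0 hR => h.mono_R h0 hR)
  · rintro R H hR hlog hHR ⟨L, a, ha, hF⟩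
    obtain ⟨L', a', ha', hF'⟩ := h (fun x => v (rot L x)) (cls_rot hv L)
      (by
        have : rot L 0 = 0 := map_zero _
        show |v (rot L 0)| ≤ 3 / 4
        rw [this]; exact hv0) R a H hR hlog hHR ha hF
    refine ⟨L'.trans L, a', ha', ?_⟩
    intro x hx
    have := hF' x hx
    simp only [rot_trans]
    exact this
  · exact startn p hv hO

/-- **Block F**. -/
theorem stF' (m : ℕ) : StF' m := by
  intro u hu h0 hO
  obtain ⟨K', R0, hK', hR0, hst⟩ := states_of (m := m + 1) (0 : Fin (m + 4))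
    (K := KB (m + 3)) KB_nonneg
  have hI : ∀ y, |u y| ≤ 3 / 4 → ∀ R, R0 ≤ R → ∃ e : Fin (m + 4) → ℝ, ∑ i, e i ^ 2 = 1 ∧
      Gf u (4 * K') y R e := by
    intro y hy R hR
    apply gf_of_state (p := (0 : Fin (m + 4))) hK'.le (hR0.trans hR)
    have hcl : Cls (m + 4) (0 : Fin (m + 4)) (KB (m + 3)) (fun x => u (x + y)) := by
      refine ⟨hu.shift y, fun r hr => ?_⟩
      have hr0 : 0 < r := by linarith
      exact bridge (hO y).1 0 hr0
    exact hst (fun x => u (x + y)) hcl (by simpa using hy) (hO y).2 R hR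
  obtain ⟨e, he, hd⟩ := common_dir (K := 4 * K') (by positivity) hR0 h0 hI
  obtain ⟨g, hg⟩ := oneD_of_slide hu he fun ν hν =>
    slide_input (K := 4 * K') (by positivity) hR0 hd hν
  exact ⟨e, g, he, hg⟩

end Vale.Agent.P134.R2.H561
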