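import Vale.Agent.P134.R2.H561.StpN
import Vale.Agent.P134.H787.StartEnd

set_option linter.all false

open MeasureTheory Filter Topology

namespace Vale.Agent.P134.R2.H561

open Vale.Agent.P134 Vale.Agent.P134.SM
open Vale.Agent.P134.H891 (Psi gp GG TT ph mm kap esq_rot rot_single_dot sqrt2_pos sqrt2_sq
  one_lt_sqrt2 ph_nonneg mm_nonneg mm_le_one mm_hasCompactSupport continuous_mm continuous_Psi
  ph_contDiff ph_hasCompactSupport sq_le_esq Cls cls_rot C22 C23)
open Vale.Agent.P134.H370 (gap JJ J0 TL TILT PA Ga tilt_le Flat)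
open Vale.Agent.P134.H787 (rot LI st st_gp st_measurable conv_gt)
open Vale.Agent.P134.M4 (bl)

variable {n N : ℕ}

/-- Height `H` at scale `R` with respect to some plane through a point at distance at most `H` of
the centre. -/
def State (p : Fin n) (u : (Fin n → ℝ) → ℝ) (R H : ℝ) : Prop :=
  ∃ (L : LI n) (a : ℝ), |a| ≤ H ∧ Flat (fun x => u (rot L x)) p a R H

lemma State.mono_H {p : Fin n} {u : (Fin n → ℝ) → ℝ} {R H H' : ℝ} (h : State p u R H)
    (hH : H ≤ H') : State p u R H' := by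
  obtain ⟨L, a, ha, hF⟩ := h
  refine ⟨L, a, ha.trans hH, fun x hx => ⟨fun h1 => (hF x hx).1 (by linarith), fun h1 =>
    (hF x hx).2 (by linarith)⟩⟩

lemma State.mono_R {p : Fin n} {u : (Fin n → ℝ) → ℝ} {R R' H : ℝ} (h : State p u R H)
    (h0 : 0 < R') (hR : R' ≤ R) : State p u R' H := by
  obtain ⟨L, a, ha, hF⟩ := h
  refine ⟨L, a, ha, fun x hx => hF x (hx.trans (by gcongr))⟩

/-- Distance to the half space. -/
noncomputable def hdn (p : Fin n) (v : (Fin n → ℝ) → ℝ) (x : Fin n → ℝ) : ℝ :=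
  |Psi (v x) - st (x p)|

lemma hdn_nonneg (p : Fin n) (v : (Fin n → ℝ) → ℝ) (x : Fin n → ℝ) : 0 ≤ hdn p v x :=
  abs_nonneg _

lemma hdn_measurable (p : Fin n) {v : (Fin n → ℝ) → ℝ} (hv : Continuous v) :
    Measurable (hdn p v) := by
  unfold hdn
  exact continuous_abs.measurable.comp ((continuous_Psi.comp hv).measurable.sub
    (st_measurable.comp (measurable_pi_apply p)))

lemma hdn_integrableOn (p : Fin n) {v : (Fin n → ℝ) → ℝ} (hv : Sol v) {A : Set (Fin n → ℝ)}
    (hA : IsCompact A) : IntegrableOn (hdn p v) A := by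
  apply Measure.integrableOn_of_bounded (M := 2 * Psi 1) hA.measure_lt_top.ne
  · exact (hdn_measurable p hv.c2.continuous).aestronglyMeasurable
  · refine Eventually.of_forall fun x => ?_
    have h1 := H891.Psi_nonneg (hv.bd x)
    have h2 := H891.Psi_le_Psi_one (hv.bd x)
    have h3 : 0 ≤ st (x p) := by
      unfold H787.st; split_ifs
      · linarith
      · exact le_rfl
    have h4 : st (x p) ≤ Psi 1 := by
      unfold H787.st; split_ifs
      · exact le_rfl
      · linarith
    unfold hdn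
    rw [Real.norm_eq_abs, abs_abs, abs_le]
    constructor <;> linarith

lemma isCompact_bln (R : ℝ) : IsCompact (bl R : Set (Fin n → ℝ)) := H919.isCompact_rho_le _

/-- The weighted L¹ distance in terms of the distance to the half space. -/
lemma JJn_le (p : Fin (N + 1)) {v : (Fin (N + 1) → ℝ) → ℝ} (hv : Sol v) {R : ℝ} (hR : 0 < R) :
    JJ v p 0 R ≤ R * (∫ x in bl R, hdn p v x) + 48 * 2 ^ N * R ^ (N + 1) := by
  unfold H370.JJ
  have hm : MeasurableSet (bl R : Set (Fin (N + 1) → ℝ)) := (isCompact_bln R).measurableSet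
  have cdd : Continuous (fun x : Fin (N + 1) → ℝ => 12 / (1 + x p ^ 2)) := by
    apply Continuous.div continuous_const (by fun_prop)
    intro x; positivity
  have i1 : Integrable (fun x : Fin (N + 1) → ℝ => (bl R).indicator (hdn p v) x) :=
    (hdn_integrableOn p hv (isCompact_bln R)).integrable_indicator hm
  have i2 : Integrable (fun x : Fin (N + 1) → ℝ => 12 / (1 + x p ^ 2) * mm R x) :=
    (cdd.mul (continuous_mm R)).integrable_of_hasCompactSupport
      (mm_hasCompactSupport hR).mul_left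
  have h1 : ∫ x, |x p - 0| * gap v p 0 x * mm R x
      ≤ ∫ x, (R * (bl R).indicator (hdn p v) x + R * (12 / (1 + x p ^ 2) * mm R x)) := by
    apply integral_mono_of_nonneg
    · refine Eventually.of_forall fun x => ?_
      exact mul_nonneg (mul_nonneg (abs_nonneg _) (H370.gap_nonneg _ _ _ _)) (mm_nonneg _ _)
    · exact (i1.const_mul R).add (i2.const_mul R)
    · refine Eventually.of_forall fun x => ?_
      simp only [sub_zero]
      have hmm0 := mm_nonneg R x
      have hmm1 := mm_le_one (r := R) x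
      by_cases hx : esq x ≤ R ^ 2
      · have hxb : x ∈ (bl R : Set (Fin (N + 1) → ℝ)) := hx
        rw [Set.indicator_of_mem hxb]
        have h3 : |x p| ≤ R := H891.abs_coord_le hR.le hx p
        have h4 : gap v p 0 x ≤ hdn p v x + 12 / (1 + x p ^ 2) := by
          have h5 := st_gp (x p)
          unfold H370.gap H370.Ga hdn
          rw [sub_zero]
          have e : Psi (v x) - Psi (gp (x p)) = (Psi (v x) - st (x p)) + (st (x p) - Psi (gp (x p))) := by
            ring
          rw [e]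
          exact (abs_add_le _ _).trans (by linarith)
        have h6 : |x p| * gap v p 0 x ≤ R * (hdn p v x + 12 / (1 + x p ^ 2)) :=
          mul_le_mul h3 h4 (H370.gap_nonneg _ _ _ _) hR.le
        have h7 := hdn_nonneg p v x
        have h8 : 0 ≤ 12 / (1 + x p ^ 2) := by positivity
        calc |x p| * gap v p 0 x * mm R x
            ≤ R * (hdn p v x + 12 / (1 + x p ^ 2)) * mm R x := mul_le_mul_of_nonneg_right h6 hmm0
          _ = R * (hdn p v x * mm R x) + R * (12 / (1 + x p ^ 2) * mm R x) := by ring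
          _ ≤ _ := by
              have : hdn p v x * mm R x ≤ hdn p v x := mul_le_of_le_one_right h7 hmm1
              have := mul_le_mul_of_nonneg_left this hR.le
              linarith
      · have h9 : mm R x = 0 := H891.mm_eq_zero hR (not_le.mp hx).le
        have hxb : x ∉ (bl R : Set (Fin (N + 1) → ℝ)) := hx
        rw [Set.indicator_of_notMem hxb, h9]
        simp
  refine h1.trans ?_
  rw [integral_add (i1.const_mul R) (i2.const_mul R), integral_const_mul, integral_const_mul,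
    integral_indicator hm]
  have h2 : ∫ x : Fin (N + 1) → ℝ, 12 / (1 + x p ^ 2) * mm R x
      ≤ (4 * 12 + 0 * 0) * (2 * R) ^ (N + 1 - 1) := by
    apply H891.slab (p := p) (K := 12) (a := 0) (M := 0) (L := 0) (by norm_num) le_rfl le_rfl hR.le i2
    · intro x hx
      rw [mem_box] at hx
      push Not at hx
      obtain ⟨i, hi⟩ := hx
      rw [H891.mm_eq_zero_of_abs hR hi.le]; simp
    · intro x hx
      refine le_trans ?_ (H891.maj_ge_left le_rfl)
      rw [sub_zero]
      have hmm1 := mm_le_one (r := R) x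
      have : (0:ℝ) ≤ 12 / (1 + x p ^ 2) := by positivity
      exact mul_le_of_le_one_right this hmm1
  have e3 : (4 * 12 + 0 * 0) * (2 * R) ^ (N + 1 - 1) = 48 * 2 ^ N * R ^ N := by
    have : N + 1 - 1 = N := rfl
    rw [this, mul_pow]; ring
  rw [e3] at h2
  have := mul_le_mul_of_nonneg_left h2 hR.le
  have e4 : R * (48 * 2 ^ N * R ^ N) = 48 * 2 ^ N * R ^ (N + 1) := by ring
  linarith

/-- Sign above the height. -/
lemma flatn_of_interface (p : Fin n) {v : (Fin n → ℝ) → ℝ} (hv : Sol v) {ρ H δ r : ℝ}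
    (hρ : 0 < ρ) (hH0 : 0 ≤ H)
    (hH : H ≤ ρ / 4)
    (hI : ∀ z : Fin n → ℝ, esq z ≤ ρ ^ 2 → |v z| ≤ 3 / 4 → |z p| ≤ H)
    (hr : 0 < r) (hr8 : 8 * n * r ≤ ρ) (hn : 1 ≤ n)
    (hL : ∫ x in bl ρ, hdn p v x ≤ δ) (hδ : δ < (2 * r) ^ n / 2) :
    Flat v p 0 ρ H := by
  have hc := hv.c2.continuous
  have hn' : (1:ℝ) ≤ n := by exact_mod_cast hn
  have hr8' : 8 * r ≤ ρ := by
    have : 8 * 1 * r ≤ 8 * n * r := by gcongr
    linarith
  have seg : ∀ (x y : Fin n → ℝ), Continuous (fun t : ℝ => v ((1 - t) • x + t • y)) := by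
    intro x y
    exact hc.comp (by fun_prop)
  have hPc : (1:ℝ) / 2 ≤ Psi 1 - Psi (-(3/4)) := by
    rw [H891.Psi_one_sub]
    have h1 := H891.sqrt2_lt
    have h2 := sqrt2_pos
    rw [le_div_iff₀ (by positivity)]
    nlinarith
  have hPc' : (1:ℝ) / 2 ≤ Psi (3/4) := by
    rw [H891.Psi_eq]
    have h1 := H891.sqrt2_lt
    have h2 := sqrt2_pos
    rw [le_div_iff₀ (by positivity)]
    nlinarith
  have hPmono : ∀ s t : ℝ, -1 ≤ s → s ≤ t → t ≤ 1 → Psi s ≤ Psi t := by
    intro s t h1 h2 h3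
    have hd1 : ∀ r, HasDerivAt Psi ((1 - r ^ 2) / √2) r := H891.hasDerivAt_Psi
    have hm : MonotoneOn Psi (Set.Icc (-1) 1) := by
      apply monotoneOn_of_deriv_nonneg (convex_Icc _ _) continuous_Psi.continuousOn
      · exact fun r _ => (hd1 r).differentiableAt.differentiableWithinAt
      · intro r hr
        rw [interior_Icc] at hr
        rw [(hd1 r).deriv]
        apply div_nonneg _ sqrt2_pos.le
        nlinarith [hr.1, hr.2]
    exact hm ⟨h1, by linarith⟩ ⟨by linarith, h3⟩ h2
  -- volume estimate on a small box around `c e_p`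
  have hbox : ∀ c : ℝ, |c| = ρ / 2 →
      (∀ y : Fin n → ℝ, esq y ≤ ρ ^ 2 → (|y p - c| ≤ ρ / 8) → 1 / 2 ≤ hdn p v y) → False := by
    intro c hc' hall
    set z0 : Fin n → ℝ := Pi.single p c with hz0
    have hsub : ∀ x ∈ box n r, esq (x + z0) ≤ ρ ^ 2 ∧ |(x + z0) p - c| ≤ ρ / 8 := by
      intro x hx
      rw [mem_box] at hx
      have e3 : (x + z0) p = x p + c := by simp [hz0]
      constructor
      · have h0 : esq (x + z0) = ∑ i, x i ^ 2 + 2 * c * x p + c ^ 2 := by
          have e1 : ∀ i, (x + z0) i ^ 2 = x i ^ 2 + (if i = p then 2 * c * x p + c ^ 2 else 0) := by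
            intro i
            by_cases hi : i = p
            · subst hi; rw [e3, if_pos rfl]; ring
            · have : (x + z0) i = x i := by simp [hz0, Pi.single_apply, hi]
              rw [this, if_neg hi, add_zero]
          unfold esq
          rw [Finset.sum_congr rfl fun i _ => e1 i, Finset.sum_add_distrib, Finset.sum_ite_eq']
          simp; ring
        rw [h0]
        have h1 : ∑ i, x i ^ 2 ≤ n * r ^ 2 := by
          calc ∑ i, x i ^ 2 ≤ ∑ _i : Fin n, r ^ 2 := Finset.sum_le_sum fun i _ => by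
                rw [← sq_abs]; exact pow_le_pow_left₀ (abs_nonneg _) (hx i) 2
            _ = n * r ^ 2 := by
                rw [Finset.sum_const, Finset.card_univ, Fintype.card_fin, nsmul_eq_mul]
        have h2 : n * r ^ 2 ≤ ρ / 8 * (ρ / 8) := by
          calc n * r ^ 2 = (n * r) * r := by ring
            _ ≤ ρ / 8 * (ρ / 8) := by
              apply mul_le_mul (by linarith) (by linarith) hr.le (by positivity)
        have h3 := abs_le.mp (hx p)
        have h4 : |2 * c * x p| ≤ 2 * (ρ / 2) * (ρ / 8) := by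
          rw [abs_mul, abs_mul, hc', abs_two]
          gcongr
          exact (hx p).trans (by linarith)
        have h5 := (abs_le.mp h4).2
        have h6 : c ^ 2 = (ρ / 2) ^ 2 := by rw [← sq_abs, hc']
        nlinarith
      · rw [e3, add_sub_cancel_right]
        exact (hx p).trans (by linarith)
    have hint : ∫ x in box n r, (1:ℝ) / 2 ≤ ∫ x in bl ρ, hdn p v x := by
      have hmb : MeasurableSet (bl ρ : Set (Fin n → ℝ)) := (isCompact_bln ρ).measurableSet
      have hmx : MeasurableSet (box n r) := (isCompact_box _).measurableSet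
      have e1 : ∫ x in bl ρ, hdn p v x = ∫ x, (bl ρ).indicator (hdn p v) (x + z0) := by
        rw [← integral_indicator hmb]
        exact (integral_add_right_eq_self (μ := volume) (fun x => (bl ρ).indicator (hdn p v) x) z0).symm
      have iR : Integrable (fun x => (bl ρ).indicator (hdn p v) (x + z0)) :=
        ((hdn_integrableOn p hv (isCompact_bln ρ)).integrable_indicator hmb).comp_add_right z0
      rw [e1, ← integral_indicator hmx]
      apply integral_mono_of_nonneg
      · exact Eventually.of_forall fun x => Set.indicator_nonneg (fun _ _ => by norm_num) x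
      · exact iR
      · refine Eventually.of_forall fun x => ?_
        simp only []
        by_cases hx : x ∈ box n r
        · obtain ⟨h1, h2⟩ := hsub x hx
          have hmem : x + z0 ∈ (bl ρ : Set (Fin n → ℝ)) := h1
          rw [Set.indicator_of_mem hx, Set.indicator_of_mem hmem]
          exact hall _ h1 h2
        · rw [Set.indicator_of_notMem hx]
          exact Set.indicator_nonneg (fun y _ => hdn_nonneg p v y) _
    rw [setIntegral_const, smul_eq_mul] at hint
    have hvol : (volume : Measure (Fin n → ℝ)).real (box n r) = (2 * r) ^ n :=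
      volume_box (by positivity)
    rw [hvol] at hint
    have h7 := hint.trans hL
    linarith
  intro x hx
  rw [sub_zero]
  constructor
  · intro hx3
    by_contra hcon
    push Not at hcon
    have hxn : v x < -(3/4) := by
      by_contra h1
      push Not at h1
      have h2 := hI x hx (abs_le.mpr ⟨by linarith, hcon.le⟩)
      have := (abs_le.mp h2).2
      linarith
    apply hbox (ρ / 2) (abs_of_pos (by positivity))
    intro y hy hy3
    have hy3' := (abs_le.mp hy3).1
    have hyH : H < y p := by linarith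
    have hyv : v y ≤ -(3/4) := by
      by_contra h1
      push Not at h1
      obtain ⟨t, ht, hut⟩ := intermediate_value_Icc (zero_le_one) (seg x y).continuousOn
        (show (-(3 / 4) : ℝ) ∈ Set.Icc (v ((1 - (0:ℝ)) • x + (0:ℝ) • y)) (v ((1 - (1:ℝ)) • x + (1:ℝ) • y)) by
          simp only [sub_zero, one_smul, zero_smul, add_zero, sub_self, zero_add]
          exact ⟨hxn.le, h1.le⟩)
      simp only at hut
      have h2 := hI _ (H891.esq_conv ht.1 ht.2 hx hy) (by rw [hut]; norm_num [abs_of_pos])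
      have h3 : ((1 - t) • x + t • y) p = (1 - t) * x p + t * y p := by simp
      rw [h3] at h2
      have h4 := (abs_le.mp h2).2
      exact absurd (conv_gt ht.1 ht.2 hx3 hyH) (not_lt.mpr h4)
    have hyb := abs_le.mp (hv.bd y)
    have h8 := hPmono (v y) (-(3/4)) hyb.1 hyv (by norm_num)
    unfold hdn H787.st
    rw [if_pos (by linarith)]
    rw [abs_sub_comm]
    refine le_trans ?_ (le_abs_self _)
    linarith
  · intro hx3
    by_contra hcon
    push Not at hcon
    have hxp : 3/4 < v x := by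
      by_contra h1
      push Not at h1
      have h2 := hI x hx (abs_le.mpr ⟨by linarith, h1⟩)
      have := (abs_le.mp h2).1
      linarith
    apply hbox (-(ρ / 2)) (by rw [abs_neg, abs_of_pos (by positivity)])
    intro y hy hy3
    have hy3' := (abs_le.mp hy3).2
    have hyH : y p < -H := by linarith
    have hyv : 3/4 ≤ v y := by
      by_contra h1
      push Not at h1
      obtain ⟨t, ht, hut⟩ := intermediate_value_Icc' (zero_le_one) (seg x y).continuousOn
        (show ((3 / 4) : ℝ) ∈ Set.Icc (v ((1 - (1:ℝ)) • x + (1:ℝ) • y)) (v ((1 - (0:ℝ)) • x + (0:ℝ) • y)) by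
          simp only [sub_zero, one_smul, zero_smul, add_zero, sub_self, zero_add]
          exact ⟨h1.le, hxp.le⟩)
      simp only at hut
      have h2 := hI _ (H891.esq_conv ht.1 ht.2 hx hy) (by rw [hut]; norm_num [abs_of_pos])
      have h3 : ((1 - t) • x + t • y) p = (1 - t) * x p + t * y p := by simp
      rw [h3] at h2
      have h4 := (abs_le.mp h2).1
      have h5 := conv_gt (H := H) (a := -x p) (b := -y p) ht.1 ht.2 (by linarith) (by linarith)
      linarith
    have hyb := abs_le.mp (hv.bd y)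
    have h8 := hPmono (3/4) (v y) (by norm_num) hyv hyb.2
    unfold hdn H787.st
    rw [if_neg (by linarith)]
    rw [sub_zero]
    refine le_trans ?_ (le_abs_self _)
    linarith

/-- Bound of the second moment at a good scale. -/
lemma startn_PA (p : Fin (N + 1)) {K ε R : ℝ} {v : (Fin (N + 1) → ℝ) → ℝ}
    (hv : Cls (N + 1) p K v) (hR1 : 1 ≤ R) (hL' : ∫ x in bl R, hdn p v x ≤ ε * R ^ (N + 1)) :
    PA v p 0 R ≤ 26 * ε * R ^ (N + 2) + (832 * 2 ^ N + 26 * (48 * 2 ^ N) + 4 * |K|) * R ^ (N + 1) := by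
  have hR0 : 0 < R := by linarith
  have hJ := JJn_le p hv.1 hR0
  have hJ' : JJ v p 0 R ≤ ε * R ^ (N + 2) + 48 * 2 ^ N * R ^ (N + 1) := by
    have h1 := mul_le_mul_of_nonneg_left hL' hR0.le
    have h2 : R * (ε * R ^ (N + 1)) = ε * R ^ (N + 2) := by ring
    rw [h2] at h1
    linarith
  have hT := tilt_le (n := N + 1) hv.1 p 0 hR0 (hv.2 R hR1)
  have hT' : R ^ 2 * TILT v p R ≤ 2 * |K| * R ^ N + 8 * JJ v p 0 R := by
    have e3 : (N + 1 - 1 : ℕ) = N := rfl
    rw [e3] at hT
    have h1 := mul_le_mul_of_nonneg_left hT (sq_nonneg R)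
    have h2 : R ^ 2 * (1 / R ^ 2 * ((2 * K + 384 * 2 ^ N * 0 ^ 2) * R ^ N + 8 * JJ v p 0 R
        + 8 * |(0:ℝ)| * J0 v p 0 R)) = 2 * K * R ^ N + 8 * JJ v p 0 R := by
      rw [abs_zero]
      field_simp
      try ring
    rw [h2] at h1
    have h3 : 2 * K * R ^ N ≤ 2 * |K| * R ^ N := by
      have := le_abs_self K
      gcongr
    linarith
  have hP := H370.PA_le' (n := N + 1) (p := p) (a := 0) hv.1 hR0 (by simp; linarith)
  have e3 : (N + 1 - 1 : ℕ) = N := rfl
  rw [e3] at hP
  have hRN : R ^ N ≤ R ^ (N + 1) := pow_le_pow_right₀ hR1 (by omega)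
  have h5 : 832 * 2 ^ N * R ^ N ≤ 832 * 2 ^ N * R ^ (N + 1) :=
    mul_le_mul_of_nonneg_left hRN (by positivity)
  have h6 : 4 * |K| * R ^ N ≤ 4 * |K| * R ^ (N + 1) :=
    mul_le_mul_of_nonneg_left hRN (by positivity)
  have h7 : PA v p 0 R ≤ 832 * 2 ^ N * R ^ N + 26 * JJ v p 0 R + 4 * |K| * R ^ N := by
    linarith
  linarith

/-- The good scale in rotated coordinates. -/
lemma startn_rot (p : Fin n) {u : (Fin n → ℝ) → ℝ} {ε R : ℝ} {e : Fin n → ℝ}
    (he : ∑ i, e i ^ 2 = 1)
    (hL : ∫ x in bl R, |Psi (u x) - if 0 < ∑ i, e i * x i then Psi 1 else 0| ≤ ε) :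
    ∃ L : LI n, ∫ x in bl R, hdn p (fun y => u (rot L y)) x ≤ ε := by
  obtain ⟨L, hLe⟩ := H787.exists_rot p he
  refine ⟨L, ?_⟩
  have e1 : ∫ x in bl R, |Psi (u x) - if 0 < ∑ i, e i * x i then Psi 1 else 0|
      = ∫ x in bl R, hdn p (fun y => u (rot L y)) x := by
    unfold bl
    rw [← H787.setIntegral_rho_rot L
      (fun x => |Psi (u x) - if 0 < ∑ i, e i * x i then Psi 1 else 0|)]
    refine integral_congr_ae (Eventually.of_forall fun x => ?_)
    simp only []
    have e2 : ∑ i, e i * rot L x i = x p := by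
      rw [← hLe]; exact rot_single_dot L p x
    rw [e2]
    rfl
  rw [← e1]
  exact hL

/-- the blow-down gives heights `δ ρ` at arbitrarily large scales. -/
theorem startn (p : Fin (N + 1)) {K : ℝ} {u : (Fin (N + 1) → ℝ) → ℝ} (hu : Cls (N + 1) p K u)
    (hO2 : ∀ ε : ℝ, 0 < ε → ∀ᶠ R : ℝ in atTop, ∃ e : Fin (N + 1) → ℝ, ∑ i, e i ^ 2 = 1 ∧
      ∫ x in bl R, |Psi (u x) - if 0 < ∑ i, e i * x i then Psi 1 else 0| ≤ ε * R ^ (N + 1)) :
    ∀ δ : ℝ, 0 < δ → ∀ R0 : ℝ, ∃ ρ : ℝ, R0 ≤ ρ ∧ State p u ρ (δ * ρ) := by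
  obtain ⟨C3, hC31, hC3⟩ := H370.height_ball (n := N + 1) p
  intro δ' hδ' R0
  obtain ⟨δ, hδd⟩ : ∃ δ : ℝ, δ = min δ' (1 / 4) := ⟨_, rfl⟩
  have hδ0 : 0 < δ := by rw [hδd]; exact lt_min hδ' (by norm_num)
  have hδ4 : δ ≤ 1 / 4 := by rw [hδd]; exact min_le_right _ _
  have hδδ' : δ ≤ δ' := by rw [hδd]; exact min_le_left _ _
  obtain ⟨κ, hκ⟩ : ∃ κ : ℝ, κ = kap (N + 1) := ⟨_, rfl⟩
  have hκ1 : 1 ≤ κ := by rw [hκ]; exact H891.one_le_kap
  have hκ0 : 0 < κ := by linarith
  obtain ⟨B, hB⟩ : ∃ B : ℝ, B = 832 * 2 ^ N + 26 * (48 * 2 ^ N) + 4 * |K| := ⟨_, rfl⟩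
  have hB0 : 0 ≤ B := by rw [hB]; positivity
  obtain ⟨D, hD⟩ : ∃ D : ℝ, D = δ ^ 2 / (2 * κ ^ 2) := ⟨_, rfl⟩
  have hD0 : 0 < D := by rw [hD]; positivity
  obtain ⟨F, hF⟩ : ∃ F : ℝ, F = C3 * κ ^ N := ⟨_, rfl⟩
  have hF0 : 0 < F := by rw [hF]; positivity
  obtain ⟨W, hW⟩ : ∃ W : ℝ, W = (1 / (4 * ((N + 1 : ℕ) : ℝ))) ^ (N + 1) / 4 := ⟨_, rfl⟩
  have hN1 : (1:ℝ) ≤ ((N + 1 : ℕ) : ℝ) := by push_cast; linarith [Nat.cast_nonneg (α := ℝ) N]
  have hN0 : (0:ℝ) < ((N + 1 : ℕ) : ℝ) := by linarith
  have hW0 : 0 < W := by rw [hW]; positivity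
  obtain ⟨ε, hε⟩ : ∃ ε : ℝ, ε = min (D / (26 * F)) (W / κ ^ (N + 1)) := ⟨_, rfl⟩
  have hε0 : 0 < ε := by rw [hε]; exact lt_min (by positivity) (by positivity)
  have hε1 : F * (26 * ε) ≤ D := by
    have : ε ≤ D / (26 * F) := by rw [hε]; exact min_le_left _ _
    rw [le_div_iff₀ (by positivity)] at this
    linarith
  have hε2 : ε * κ ^ (N + 1) ≤ W := by
    have : ε ≤ W / κ ^ (N + 1) := by rw [hε]; exact min_le_right _ _
    rwa [le_div_iff₀ (by positivity)] at this
  have hev := hO2 ε hε0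
  obtain ⟨R, ⟨e, he, hL⟩, hRge⟩ := (hev.and (eventually_ge_atTop
    (max (max κ (κ * R0)) ((C3 + F * B) / D)))).exists
  have hRκ : κ ≤ R := ((le_max_left _ _).trans (le_max_left _ _)).trans hRge
  have hRR0 : κ * R0 ≤ R := ((le_max_right _ _).trans (le_max_left _ _)).trans hRge
  have hRM : C3 + F * B ≤ D * R := by
    have h1 := (le_max_right _ _).trans hRge
    rw [div_le_iff₀ hD0] at h1
    linarith
  have hR0 : 0 < R := by linarith
  have hR1 : 1 ≤ R := by linarith
  obtain ⟨ρ, hρ⟩ : ∃ ρ : ℝ, ρ = R / κ := ⟨_, rfl⟩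
  have hρR : κ * ρ = R := by rw [hρ]; field_simp
  have hρ1 : 1 ≤ ρ := by rw [hρ, le_div_iff₀ hκ0]; linarith
  have hρ0 : 0 < ρ := by linarith
  refine ⟨ρ, by rw [hρ, le_div_iff₀ hκ0]; linarith, ?_⟩
  obtain ⟨L, hL'⟩ := startn_rot p he hL
  have hv := cls_rot hu L
  have hP' := startn_PA p hv hR1 hL'
  rw [← hB] at hP'
  have hI : ∀ z : Fin (N + 1) → ℝ, esq z ≤ ρ ^ 2 → |(fun y => u (rot L y)) z| ≤ 3 / 4 →
      |z p| ≤ δ * ρ := by
    intro z hz hvz
    have h1 := hC3 _ hv.1 0 ρ hρ1 z hz hvz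
    rw [← hκ, hρR, sub_zero] at h1
    have e3 : (N + 1 - 1 : ℕ) = N := rfl
    rw [e3] at h1
    apply abs_le_of_sq_le_sq (h1.trans ?_) (by positivity)
    have hRN : R ^ N = κ ^ N * ρ ^ N := by rw [← hρR, mul_pow]
    have h3 : PA (fun y => u (rot L y)) p 0 R / ρ ^ N ≤ κ ^ N * (26 * ε * R ^ 2 + B * R) := by
      rw [div_le_iff₀ (by positivity)]
      refine hP'.trans (le_of_eq ?_)
      have : R ^ (N + 2) = κ ^ N * ρ ^ N * R ^ 2 := by rw [pow_add, hRN]
      have h' : R ^ (N + 1) = κ ^ N * ρ ^ N * R := by rw [pow_succ, hRN]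
      rw [this, h']; ring
    calc C3 * (1 + PA (fun y => u (rot L y)) p 0 R / ρ ^ N)
        ≤ C3 * (1 + κ ^ N * (26 * ε * R ^ 2 + B * R)) := by
          apply mul_le_mul_of_nonneg_left _ (by linarith)
          linarith
      _ = F * (26 * ε) * R ^ 2 + (C3 * 1 + F * B * R) := by rw [hF]; ring
      _ ≤ D * R ^ 2 + (C3 * R + F * B * R) := by
          have := mul_le_mul_of_nonneg_right hε1 (sq_nonneg R)
          have : C3 * 1 ≤ C3 * R := mul_le_mul_of_nonneg_left hR1 (by linarith)
          linarith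
      _ = D * R ^ 2 + (C3 + F * B) * R := by ring
      _ ≤ D * R ^ 2 + (D * R) * R := by
          have := mul_le_mul_of_nonneg_right hRM hR0.le
          linarith
      _ = (δ * ρ) ^ 2 := by
          rw [hD, hρ]; field_simp; norm_num
  have hLρ : ∫ x in bl ρ, hdn p (fun y => u (rot L y)) x ≤ W * ρ ^ (N + 1) := by
    have h1 : ∫ x in bl ρ, hdn p (fun y => u (rot L y)) x
        ≤ ∫ x in bl R, hdn p (fun y => u (rot L y)) x := by
      apply setIntegral_mono_set (hdn_integrableOn p hv.1 (isCompact_bln R))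
      · exact Eventually.of_forall fun x => hdn_nonneg p _ x
      · apply Eventually.of_forall
        intro x hx
        have hx' : rho Finset.univ x ≤ ρ ^ 2 := hx
        have : ρ ^ 2 ≤ R ^ 2 := by
          apply pow_le_pow_left₀ hρ0.le
          rw [← hρR]; nlinarith
        exact hx'.trans this
    refine (h1.trans hL').trans ?_
    have h2 : ε * R ^ (N + 1) = (ε * κ ^ (N + 1)) * ρ ^ (N + 1) := by
      rw [← hρR, mul_pow]; ring
    rw [h2]
    exact mul_le_mul_of_nonneg_right hε2 (by positivity)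
  have hFl := flatn_of_interface p hv.1 (ρ := ρ) (H := δ * ρ) (r := ρ / (8 * ((N + 1 : ℕ) : ℝ)))
    (δ := W * ρ ^ (N + 1)) hρ0 (by positivity)
    (by nlinarith) hI (by positivity)
    (by
      have : 8 * ((N + 1 : ℕ) : ℝ) * (ρ / (8 * ((N + 1 : ℕ) : ℝ))) = ρ := by field_simp
      exact this.le) (by omega) hLρ
    (by
      have e1 : 2 * (ρ / (8 * ((N + 1 : ℕ) : ℝ))) = (1 / (4 * ((N + 1 : ℕ) : ℝ))) * ρ := by
        field_simp; norm_num
      rw [e1, mul_pow]
      have e2 : (1 / (4 * ((N + 1 : ℕ) : ℝ))) ^ (N + 1) * ρ ^ (N + 1) / 2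
          = 2 * (W * ρ ^ (N + 1)) := by rw [hW]; ring
      rw [e2]
      have : 0 < W * ρ ^ (N + 1) := by positivity
      linarith)
  refine ⟨L, 0, by rw [abs_zero]; positivity, ?_⟩
  intro x hx
  have hδδ : δ * ρ ≤ δ' * ρ := mul_le_mul_of_nonneg_right hδδ' hρ0.le
  exact ⟨fun h1 => (hFl x hx).1 (by linarith), fun h1 => (hFl x hx).2 (by linarith)⟩

/-- The iteration, with uniform constants. -/
theorem itern_core {θ C1 c1 R1 : ℝ} (hθ0 : 0 < θ) (hθ1 : θ < 1) (hc1 : 0 < c1) :
    ∃ K R0 : ℝ, 0 < K ∧ 1 ≤ R0 ∧ ∀ S : ℝ → ℝ → Prop,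
      (∀ R H H', S R H → H ≤ H' → S R H') →
      (∀ R R' H, S R H → 0 < R' → R' ≤ R → S R' H) →
      (∀ R H, R1 ≤ R → C1 * Real.log R ≤ H → H ≤ c1 * R → S R H → S (θ * R) (θ * H)) →
      (∀ ε : ℝ, 0 < ε → ∀ R0 : ℝ, ∃ R, R0 ≤ R ∧ S R (ε * R)) →
      ∀ R, R0 ≤ R → S R (K * Real.log R) := by
  set K : ℝ := max C1 1 with hK
  have hK1 : 1 ≤ K := le_max_right _ _
  have hKC : C1 ≤ K := le_max_left _ _
  obtain ⟨R2, hR21, hR2⟩ := H787.log_le_mul K hc1
  set R3 : ℝ := Real.exp (Real.log (1 / θ) / (1 - θ)) with hR3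
  set R0 : ℝ := max (max (max R1 R2) R3) (max (1 / θ) 3) with hR0
  have g1 : R1 ≤ R0 := (le_max_left _ _).trans ((le_max_left _ _).trans (le_max_left _ _))
  have g2 : R2 ≤ R0 := (le_max_right _ _).trans ((le_max_left _ _).trans (le_max_left _ _))
  have g3 : R3 ≤ R0 := (le_max_right _ _).trans (le_max_left _ _)
  have g4 : 1 / θ ≤ R0 := (le_max_left _ _).trans (le_max_right _ _)
  have g5 : 3 ≤ R0 := (le_max_right _ _).trans (le_max_right _ _)
  have hlog3 : ∀ R, R0 ≤ R → Real.log (1 / θ) ≤ (1 - θ) * Real.log R := by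
    intro R hR
    have h1 : Real.log R3 ≤ Real.log R := Real.log_le_log (Real.exp_pos _) (g3.trans hR)
    rw [hR3, Real.log_exp] at h1
    rw [div_le_iff₀ (by linarith)] at h1
    linarith
  have hlogpos : ∀ R, R0 ≤ R → 0 < Real.log R := fun R hR =>
    Real.log_pos (by linarith)
  refine ⟨2 * K, R0, by linarith, by linarith, fun S m1 m2 step start R hR => ?_⟩
  have hRpos : 0 < R := by linarith
  have hLR := hlogpos R hR
  set ε : ℝ := min c1 (K * Real.log R * θ / R) with hε
  have hε0 : 0 < ε := by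
    apply lt_min hc1
    have : 0 < K := by linarith
    positivity
  obtain ⟨P, hP, hSP⟩ := start ε hε0 R
  have hPpos : 0 < P := lt_of_lt_of_le hRpos hP
  have key : ∀ k : ℕ, R ≤ θ ^ k * P →
      S (θ ^ k * P) (max (ε * (θ ^ k * P)) (K * Real.log (θ ^ k * P))) := by
    intro k
    induction k with
    | zero =>
        intro _
        simp only [pow_zero, one_mul]
        exact m1 _ _ _ hSP (le_max_left _ _)
    | succ k ih =>
        intro hk
        set Q : ℝ := θ ^ k * P with hQ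
        have hQpos : 0 < Q := by positivity
        have e1 : θ ^ (k + 1) * P = θ * Q := by rw [hQ, pow_succ]; ring
        rw [e1] at hk ⊢
        have hRQ : R ≤ Q := by nlinarith
        have ih' := ih hRQ
        have hRQ0 : R0 ≤ Q := hR.trans hRQ
        have hLQ := hlogpos Q hRQ0
        have s1 : C1 * Real.log Q ≤ max (ε * Q) (K * Real.log Q) :=
          (mul_le_mul_of_nonneg_right hKC hLQ.le).trans (le_max_right _ _)
        have s2 : max (ε * Q) (K * Real.log Q) ≤ c1 * Q := by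
          apply max_le
          · exact mul_le_mul_of_nonneg_right (min_le_left _ _) hQpos.le
          · exact hR2 Q (g2.trans hRQ0)
        have s3 := step Q _ (g1.trans hRQ0) s1 s2 ih'
        apply m1 _ _ _ s3
        rw [mul_max_of_nonneg _ _ hθ0.le]
        apply max_le_max
        · apply le_of_eq; ring
        · have h1 : Real.log (θ * Q) = Real.log Q - Real.log (1 / θ) := by
            rw [Real.log_mul hθ0.ne' hQpos.ne', one_div, Real.log_inv]; ring
          rw [h1]
          have h2 := hlog3 Q hRQ0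
          have h3 : θ * Real.log Q ≤ Real.log Q - Real.log (1 / θ) := by linarith
          calc θ * (K * Real.log Q) = K * (θ * Real.log Q) := by ring
            _ ≤ _ := mul_le_mul_of_nonneg_left h3 (by linarith)
  obtain ⟨k, hk1, hk2⟩ : ∃ k : ℕ, R ≤ θ ^ k * P ∧ θ ^ (k + 1) * P < R := by
    have hlim : ∃ k : ℕ, θ ^ (k + 1) * P < R := by
      have h1 : Tendsto (fun k : ℕ => θ ^ (k + 1) * P) atTop (𝓝 (0 * P)) :=
        (((tendsto_pow_atTop_nhds_zero_of_lt_one hθ0.le hθ1).comp
          (tendsto_add_atTop_nat 1)).mul_const P)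
      rw [zero_mul] at h1
      exact (h1.eventually (gt_mem_nhds hRpos)).exists
    classical
    refine ⟨Nat.find hlim, ?_, Nat.find_spec hlim⟩
    by_contra hcon
    push Not at hcon
    have hne : Nat.find hlim ≠ 0 := by
      intro h0
      rw [h0] at hcon
      simp at hcon
      linarith
    obtain ⟨j, hj⟩ := Nat.exists_eq_succ_of_ne_zero hne
    have hmin := Nat.find_min hlim (m := j) (by omega)
    apply hmin
    rw [hj] at hcon
    exact hcon
  have hS := key k hk1
  set Q : ℝ := θ ^ k * P with hQ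
  have hQpos : 0 < Q := by positivity
  have hQR : Q ≤ R * (1 / θ) := by
    have e1 : θ ^ (k + 1) * P = θ * Q := by rw [hQ, pow_succ]; ring
    rw [e1] at hk2
    rw [mul_one_div, le_div_iff₀ hθ0]
    linarith
  have hS2 := m2 _ R _ hS hRpos hk1
  apply m1 _ _ _ hS2
  apply max_le
  · have h1 : ε * Q ≤ (K * Real.log R * θ / R) * (R * (1 / θ)) :=
      mul_le_mul (min_le_right _ _) hQR hQpos.le (by positivity)
    have h2 : (K * Real.log R * θ / R) * (R * (1 / θ)) = K * Real.log R := by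
      field_simp
    rw [h2] at h1
    have : 0 < K * Real.log R := by positivity
    linarith
  · have h1 : Real.log Q ≤ Real.log (R * (1 / θ)) := Real.log_le_log hQpos hQR
    rw [Real.log_mul hRpos.ne' (by positivity)] at h1
    have h2 : Real.log (1 / θ) ≤ Real.log R := Real.log_le_log (by positivity) (g4.trans hR)
    have h3 : Real.log Q ≤ 2 * Real.log R := by linarith
    calc K * Real.log Q ≤ K * (2 * Real.log R) := mul_le_mul_of_nonneg_left h3 (by linarith)
      _ = _ := by ring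

end Vale.Agent.P134.R2.H561
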