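import Vale.Agent.P134.H891.StepF
import Vale.Agent.P134.R2.H561.Defs

set_option linter.all false

namespace Vale.Agent.P134.R2.H561

open Vale.Agent.P134 Vale.Agent.P134.SM MeasureTheory Filter Topology Vale.Agent.P134.H891
open Vale.Agent.P134.H787 (rot LI)
open Vale.Agent.P134.H370 (Flat gap J0 JJ TL TILT PA)

variable {n k : ℕ}

/-- TILT bound from flatness. -/
lemma tiltn_flat {K C : ℝ} {p : Fin (k + 3)} (hC : 1 ≤ C) (h20 : C20 (k + 3) p C)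
    (h21 : C21 (k + 3) p K C) :
    ∀ v : (Fin (k + 3) → ℝ) → ℝ, Cls (k + 3) p K v → ∀ a R H : ℝ, 1 ≤ R → 0 ≤ H → |a| ≤ H →
      H ≤ R → Flat v p a (2 * R) H → TILT v p R ≤ 3 * C ^ 2 * (1 + H) ^ 2 * R ^ k := by
  intro v hv a R H hR hH ha hHR hF
  obtain ⟨h1, h2⟩ := h20 v hv.1 a R H hR hH (ha.trans hHR) hF
  have h3 := h21 v hv a R hR
  have e0 : k + 3 - 1 = k + 2 := rfl
  rw [e0] at h1 h2 h3
  refine h3.trans ?_
  have ha2 : a ^ 2 ≤ H ^ 2 := by rw [← sq_abs]; exact pow_le_pow_left₀ (abs_nonneg a) ha 2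
  have hR3 : 0 < R ^ (k + 2) := by positivity
  have e1 : (1 + a ^ 2) * R ^ (k + 2) ≤ C * (1 + H) ^ 2 * R ^ (k + 2) := by
    apply mul_le_mul_of_nonneg_right _ hR3.le
    nlinarith [sq_nonneg (1 + H)]
  have e2 : |a| * J0 v p a R ≤ C * (1 + H) ^ 2 * R ^ (k + 2) := by
    have j0n : 0 ≤ J0 v p a R := integral_nonneg fun x =>
      mul_nonneg (H370.gap_nonneg v p a x) (mm_nonneg R x)
    calc |a| * J0 v p a R ≤ (1 + H) * (C * (1 + H) * R ^ (k + 2)) :=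
          mul_le_mul (by linarith) h2 j0n (by linarith)
      _ = _ := by ring
  calc C / R ^ 2 * ((1 + a ^ 2) * R ^ (k + 2) + JJ v p a R + |a| * J0 v p a R)
      ≤ C / R ^ 2 * (C * (1 + H) ^ 2 * R ^ (k + 2) + C * (1 + H) ^ 2 * R ^ (k + 2)
        + C * (1 + H) ^ 2 * R ^ (k + 2)) := by
        apply mul_le_mul_of_nonneg_left _ (by positivity)
        linarith
    _ = 3 * C ^ 2 * (1 + H) ^ 2 * R ^ k := by field_simp; ring

/-- The output of `pass`. -/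
def PassPn (p : Fin (k + 3)) (K C3 κ : ℝ) : Prop := ∀ u : (Fin (k + 3) → ℝ) → ℝ, Cls (k + 3) p K u →
  ∀ a r H j : ℝ, 1 ≤ r → 0 ≤ H →
      |a| ≤ H → 2 * H < r → Flat u p a (2 * (κ * r)) H → 0 ≤ j →
      J0 u p a (κ * r) ≤ j * (κ * r) ^ (k + 2) →
      1 + H + Real.log (κ * r) ≤ κ * r →
      ∀ H' : ℝ, 0 ≤ H' → C3 * (1 + (1 + H + Real.log (κ * r)) * j +
        (1 + H + Real.log (κ * r)) ^ 4 / r ^ 2) ≤ H' ^ 2 →
      Flat u p a r H' ∧ (|u 0| ≤ 3 / 4 → |a| ≤ H')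

/-- The output of `newframe`. -/
def FramePn (p : Fin (k + 3)) (K Cb : ℝ) : Prop :=
      ∀ v : (Fin (k + 3) → ℝ) → ℝ, Cls (k + 3) p K v → ∀ R a H : ℝ, 1 ≤ R → 0 ≤ H →
        Cb * (1 + H) ≤ R →
        |a| ≤ H → Flat v p a (8 * R) H → ∃ (L : LI (k + 3)) (a'' : ℝ), |a''| ≤ Cb * (1 + H) ∧
          Flat (fun x => v (rot L x)) p a'' (8 * R) (Cb * (1 + H)) ∧
          ∀ r, 1 ≤ r → r ≤ R / 4 → J0 (fun x => v (rot L x)) p a'' r ≤
            Cb * (r ^ (k + 2) + (r / R) ^ 2 * (1 + H) * r ^ (k + 2) + (1 + H) ^ 2 * R ^ (k + 1))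

/-- The new frame: rotated solution, flatness of the same order, small L¹ distance. -/
lemma newframen {p : Fin (k + 3)} {K C C5 : ℝ} (hC : 1 ≤ C) (hC5 : 1 ≤ C5)
    (h20 : C20 (k + 3) p C) (h21 : C21 (k + 3) p K C) (hL : H3.NPlane (k + 2) C5) :
    ∃ Cb : ℝ, 1 ≤ Cb ∧ FramePn p K Cb := by
  obtain ⟨N, hN⟩ : ∃ N : ℝ, N = (k:ℝ) + 3 := ⟨_, rfl⟩
  have hN3 : 3 ≤ N := by rw [hN]; linarith [Nat.cast_nonneg (α := ℝ) k]
  obtain ⟨P, hP⟩ : ∃ P : ℝ, P = 2 ^ (k + 2) := ⟨_, rfl⟩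
  have hP1 : 1 ≤ P := by rw [hP]; exact one_le_pow₀ (by norm_num)
  obtain ⟨Q, hQ⟩ : ∃ Q : ℝ, Q = 4 ^ k := ⟨_, rfl⟩
  have hQ1 : 1 ≤ Q := by rw [hQ]; exact one_le_pow₀ (by norm_num)
  obtain ⟨D, hD⟩ : ∃ D : ℝ, D = 20 * N + 48 * P := ⟨_, rfl⟩
  have hD1 : 60 ≤ D := by linarith
  obtain ⟨Cb, hCbd⟩ : ∃ Cb : ℝ, Cb = 3 * Q * C5 * C ^ 2 + D * C5 := ⟨_, rfl⟩
  have hCb3 : 0 ≤ 3 * Q * C5 * C ^ 2 := by positivity
  have hDC : D ≤ D * C5 := le_mul_of_one_le_right (by linarith) hC5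
  have hCb1 : 1 ≤ Cb := by linarith
  have hCbD : D * C5 ≤ Cb := by linarith
  refine ⟨Cb, hCb1, ?_⟩
  intro v hv R a H hR0 hH hHR ha hF
  have hRp : 0 < R := by linarith
  have h1H : 0 ≤ 1 + H := by linarith
  have hHRD : D * C5 * (1 + H) ≤ R := (mul_le_mul_of_nonneg_right hCbD h1H).trans hHR
  have hNC : 8 * N * (C5 * (1 + H)) ≤ R := by
    refine le_trans ?_ hHRD
    have : 0 ≤ C5 * (1 + H) := by positivity
    have h3 : 8 * N ≤ D := by linarith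
    calc 8 * N * (C5 * (1 + H)) ≤ D * (C5 * (1 + H)) := mul_le_mul_of_nonneg_right h3 this
      _ = _ := by ring
  have hHR8 : C5 * (1 + H) ≤ R / 8 := by
    have : 0 ≤ C5 * (1 + H) := by positivity
    have h2 : 8 * 1 * (C5 * (1 + H)) ≤ 8 * N * (C5 * (1 + H)) := by gcongr; linarith
    linarith
  have hHR9 : 1 + H ≤ R / 8 := by
    have : 1 * (1 + H) ≤ C5 * (1 + H) := mul_le_mul_of_nonneg_right hC5 h1H
    linarith
  obtain ⟨a', b, hb0, ha', ha1, hb, hint⟩ := hL v p a R H hv.1 hR0 hH ha (by linarith)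
    (flat_mono hF (by linarith) (by linarith) le_rfl)
  obtain ⟨L, a'', hL1, hL2, hL3⟩ := newplane hb0 a'
  -- size of b
  obtain ⟨β, hβ⟩ : ∃ β : ℝ, β = C5 * (1 + H) / R := ⟨_, rfl⟩
  have hβ0 : 0 ≤ β := by rw [hβ]; positivity
  have hβR : β * R = C5 * (1 + H) := by rw [hβ]; field_simp
  have hq : ∀ i, b i ^ 2 ≤ β ^ 2 := by
    intro i
    rw [← sq_abs, hβ]; exact pow_le_pow_left₀ (abs_nonneg _) (hb i) 2
  have hbs : ∑ i, b i ^ 2 ≤ N * β ^ 2 := by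
    refine (Finset.sum_le_sum fun i _ => hq i).trans (le_of_eq ?_)
    rw [Finset.sum_const, Finset.card_univ, Fintype.card_fin, nsmul_eq_mul, hN]
    push_cast; ring
  have hb1 : 8 * N * β ≤ 1 := by
    rw [hβ, ← mul_div_assoc, div_le_one hRp]; exact hNC
  have hb3 : ∑ i, b i ^ 2 ≤ 1 := by
    have h4 : N * β ≤ 1 := by nlinarith
    have h5 : β ≤ 1 := by nlinarith
    have h6 : N * β ^ 2 ≤ 1 := by
      calc N * β ^ 2 = (N * β) * β := by ring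
        _ ≤ 1 * 1 := mul_le_mul h4 h5 hβ0 (by norm_num)
        _ = 1 := by ring
    linarith
  -- size of a''
  have ha2 : |a'' - a'| ≤ C5 * (1 + H) := by
    refine hL2.trans ?_
    calc |a'| * ∑ i, b i ^ 2 ≤ (C5 * (1 + H)) * 1 :=
          mul_le_mul ha1 hb3 (Finset.sum_nonneg fun _ _ => sq_nonneg _) (by positivity)
      _ = _ := by ring
  have ha3 : |a'' - a| ≤ 2 * C5 * (1 + H) := by
    have h1 : |a'' - a| ≤ |a'' - a'| + |a' - a| := abs_sub_le _ _ _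
    linarith
  have ha4 : |a''| ≤ 2 * C5 * (1 + H) := by
    have h1 : |a''| ≤ |a'' - a'| + |a'| := by
      have := abs_add_le (a'' - a') a'
      simpa using this
    linarith
  have hbig : 2 * C5 ≤ Cb := by
    have : 2 * C5 ≤ D * C5 := mul_le_mul_of_nonneg_right (by linarith) (by linarith)
    linarith
  refine ⟨L, a'', ?_, ?_, ?_⟩
  · exact ha4.trans (mul_le_mul_of_nonneg_right hbig h1H)
  · rw [flat_rot]
    have hFE : FlatE v (Pi.single p 1) a (8 * R) H := by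
      intro x hx
      rw [single_dot]; exact hF x hx
    apply flatE_change hFE (by linarith) (δ := 2 * N * β) (by positivity)
    · refine hL1.trans ?_
      have h7 : 2 * (N * β ^ 2) ≤ (2 * N * β) ^ 2 := by
        have : 0 ≤ N * β ^ 2 := by positivity
        have h8 : (2 * N * β) ^ 2 = 4 * N * (N * β ^ 2) := by ring
        rw [h8]
        nlinarith
      linarith
    · have e1 : 2 * N * β * (8 * R) = 16 * N * (C5 * (1 + H)) := by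
        rw [← hβR]; ring
      rw [e1]
      have h0 : 0 ≤ C5 * (1 + H) := by positivity
      have h2 : H ≤ C5 * (1 + H) := by
        have : 1 * (1 + H) ≤ C5 * (1 + H) := mul_le_mul_of_nonneg_right hC5 h1H
        linarith
      have e3 : 3 + 16 * N ≤ D := by linarith
      have e4 := mul_le_mul_of_nonneg_right e3 h0
      have e5 : D * C5 * (1 + H) ≤ Cb * (1 + H) := mul_le_mul_of_nonneg_right hCbD h1H
      linarith
  · intro r hr hrR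
    have hrp : 0 < r := by linarith
    have hv' := H787.Sol.rot hv.1 L
    have h1 := J0_le (p := p) hv' hrp a''
    rw [L1_rot] at h1
    have h3 : L1 v (rot L (Pi.single p 1)) a'' r
        = ∫ x in {x : Fin (k + 3) → ℝ | esq x ≤ r ^ 2},
          |Psi (v x) - if a' + ∑ j, b j * x j < x p then Psi 1 else 0| := by
      unfold L1
      congr 1
      funext x
      have : jp a'' (∑ i, rot L (Pi.single p 1) i * x i)
          = if a' + ∑ j, b j * x j < x p then Psi 1 else 0 := by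
        unfold jp
        by_cases hx : a' + ∑ i, b i * x i < x p
        · rw [if_pos hx, if_pos ((hL3 x).mpr hx)]
        · rw [if_neg hx, if_neg (fun h => hx ((hL3 x).mp h))]
      rw [this]
    have h2 := hint r hr hrR
    rw [← h3] at h2
    have h4 := tiltn_flat hC h20 h21 v hv a (4 * R) H (by linarith) hH ha (by linarith)
      (by convert hF using 1; ring)
    have h4' : ∫ x, TL v p x * ph (4 * R) x = TILT v p (4 * R) := rfl
    rw [h4'] at h2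
    have h5 : C5 * (R * TILT v p (4 * R)) ≤ 3 * Q * C5 * C ^ 2 * ((1 + H) ^ 2 * R ^ (k + 1)) := by
      calc C5 * (R * TILT v p (4 * R)) ≤ C5 * (R * (3 * C ^ 2 * (1 + H) ^ 2 * (4 * R) ^ k)) := by
            gcongr
        _ = _ := by rw [mul_pow, hQ]; ring
    obtain ⟨A, hA⟩ : ∃ A : ℝ, A = r ^ (k + 2) := ⟨_, rfl⟩
    obtain ⟨B, hB⟩ : ∃ B : ℝ, B = (r / R) ^ 2 * (1 + H) * r ^ (k + 2) := ⟨_, rfl⟩
    obtain ⟨E, hE⟩ : ∃ E : ℝ, E = (1 + H) ^ 2 * R ^ (k + 1) := ⟨_, rfl⟩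
    have hA0 : 0 ≤ A := by rw [hA]; positivity
    have hB0 : 0 ≤ B := by rw [hB]; positivity
    have hE0 : 0 ≤ E := by rw [hE]; positivity
    have h6 : 48 * (2 * r) ^ (k + 3 - 1) = 48 * P * A := by
      have e0 : k + 3 - 1 = k + 2 := rfl
      rw [e0, mul_pow, hP, hA]; ring
    rw [h6] at h1
    have h7 : C5 * (A + B + R * TILT v p (4 * R)) = C5 * A + C5 * B + C5 * (R * TILT v p (4 * R)) := by
      ring
    have h2' : L1 v (rot L (Pi.single p 1)) a'' r ≤ C5 * (A + B + R * TILT v p (4 * R)) := by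
      rw [hA, hB]; exact h2
    rw [h7] at h2'
    rw [← hE] at h5
    have g1 : 0 ≤ 3 * Q * C5 * C ^ 2 := hCb3
    have e1 : C5 * A + 48 * P * A ≤ Cb * A := by
      rw [← add_mul]
      apply mul_le_mul_of_nonneg_right _ hA0
      have h8 : C5 + 48 * P ≤ D * C5 := by
        rw [hD]
        have : 48 * P * 1 ≤ 48 * P * C5 := by gcongr
        have h9 : 1 * C5 ≤ 20 * N * C5 := by gcongr; linarith
        linarith
      linarith
    have e2 : C5 * B ≤ Cb * B := by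
      apply mul_le_mul_of_nonneg_right _ hB0
      have : 1 * C5 ≤ D * C5 := by gcongr; linarith
      linarith
    have e3 : 3 * Q * C5 * C ^ 2 * E ≤ Cb * E := by
      apply mul_le_mul_of_nonneg_right _ hE0
      have : 0 ≤ D * C5 := by positivity
      linarith
    rw [← hB, ← hE, ← hA]
    have e4 : Cb * (A + B + E) = Cb * A + Cb * B + Cb * E := by ring
    rw [e4]
    linarith

/-- Numerics of the L¹ term. -/
lemma jn_num {Cb θ R H r Δ : ℝ} (hCb : 1 ≤ Cb) (hθ : 0 < θ) (hR : 0 < R) (hr : 0 < r)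
    (h1 : 1 ≤ θ ^ 2 * H) (hH : 1 ≤ H) (h2 : H ≤ θ ^ (k + 4) * R) (hrθ : r ≤ θ * R)
    (hΔ : 0 < Δ) (hrθ' : θ * R ≤ Δ * r) :
    Cb * (r ^ (k + 2) + (r / R) ^ 2 * (1 + H) * r ^ (k + 2) + (1 + H) ^ 2 * R ^ (k + 1))
      ≤ ((3 + 4 * Δ ^ (k + 2)) * Cb) * (θ ^ 2 * H) * r ^ (k + 2) := by
  have e1 : r ^ (k + 2) ≤ θ ^ 2 * H * r ^ (k + 2) := by
    have : 0 < r ^ (k + 2) := by positivity
    nlinarith
  have e2 : (r / R) ^ 2 * (1 + H) * r ^ (k + 2) ≤ 2 * (θ ^ 2 * H) * r ^ (k + 2) := by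
    have h3 : r / R ≤ θ := by rw [div_le_iff₀ hR]; exact hrθ
    calc (r / R) ^ 2 * (1 + H) * r ^ (k + 2) ≤ θ ^ 2 * (2 * H) * r ^ (k + 2) := by
          gcongr; linarith
      _ = _ := by ring
  have e3 : (1 + H) ^ 2 * R ^ (k + 1) ≤ 4 * Δ ^ (k + 2) * (θ ^ 2 * H) * r ^ (k + 2) := by
    have h4 : (θ * R) ^ (k + 2) ≤ Δ ^ (k + 2) * r ^ (k + 2) := by
      calc (θ * R) ^ (k + 2) ≤ (Δ * r) ^ (k + 2) := pow_le_pow_left₀ (by positivity) hrθ' _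
        _ = _ := by rw [mul_pow]
    calc (1 + H) ^ 2 * R ^ (k + 1) ≤ (2 * H) ^ 2 * R ^ (k + 1) := by gcongr; linarith
      _ = 4 * H * R ^ (k + 1) * H := by ring
      _ ≤ 4 * H * R ^ (k + 1) * (θ ^ (k + 4) * R) := by gcongr
      _ = 4 * (θ ^ 2 * H) * (θ * R) ^ (k + 2) := by ring
      _ ≤ 4 * (θ ^ 2 * H) * (Δ ^ (k + 2) * r ^ (k + 2)) := by gcongr
      _ = _ := by ring
  calc Cb * (r ^ (k + 2) + (r / R) ^ 2 * (1 + H) * r ^ (k + 2) + (1 + H) ^ 2 * R ^ (k + 1))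
      ≤ Cb * (θ ^ 2 * H * r ^ (k + 2) + 2 * (θ ^ 2 * H) * r ^ (k + 2)
        + 4 * Δ ^ (k + 2) * (θ ^ 2 * H) * r ^ (k + 2)) := by
        gcongr
    _ = _ := by ring

lemma numn2 {θ c R H Cb C6 W : ℝ} (hW : 100 ≤ W) (hθ : 0 < θ) (hθ1 : θ ≤ 1 / 100) (hCb : 1 ≤ Cb)
    (hC6 : 1 ≤ C6)
    (hc : W * Cb * C6 * c = θ ^ (k + 4)) (hH : 8 ≤ H) (hR : 0 < R) (hHc : H ≤ c * R) :
    W * Cb * H ≤ θ * R ∧ W * C6 * H ≤ θ * R ∧ W * H ≤ θ ^ 2 * R ∧
      H ≤ θ ^ (k + 4) * R ∧ 1 ≤ θ * R ∧ θ * R ≤ R / 100 ∧ W ≤ θ * R := by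
  have hH0 : 0 < H := by linarith
  have hW0 : 0 < W := by linarith
  have hθ1' : θ ≤ 1 := by linarith
  have hH5 : W * Cb * C6 * H ≤ θ ^ (k + 4) * R := by
    calc W * Cb * C6 * H ≤ W * Cb * C6 * (c * R) := by gcongr
      _ = (W * Cb * C6 * c) * R := by ring
      _ = _ := by rw [hc]
  have hpw : θ ^ (k + 4) ≤ θ := by
    calc θ ^ (k + 4) = θ * θ ^ (k + 3) := by ring
      _ ≤ θ * 1 := mul_le_mul_of_nonneg_left (pow_le_one₀ hθ.le hθ1') hθ.le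
      _ = θ := by ring
  have hpw2 : θ ^ (k + 4) ≤ θ ^ 2 := by
    calc θ ^ (k + 4) = θ ^ 2 * θ ^ (k + 2) := by ring
      _ ≤ θ ^ 2 * 1 := mul_le_mul_of_nonneg_left (pow_le_one₀ hθ.le hθ1') (by positivity)
      _ = θ ^ 2 := by ring
  have q1 : W * Cb * H ≤ W * Cb * C6 * H := by
    have : W * Cb * H * 1 ≤ W * Cb * H * C6 := by gcongr
    linarith
  have q2 : W * C6 * H ≤ W * Cb * C6 * H := by
    have : W * C6 * H * 1 ≤ W * C6 * H * Cb := by gcongr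
    linarith
  have q3 : W * H ≤ W * Cb * H := by
    have : W * H * 1 ≤ W * H * Cb := by gcongr
    linarith
  have q4 : θ ^ (k + 4) * R ≤ θ * R := mul_le_mul_of_nonneg_right hpw hR.le
  have q5 : θ ^ (k + 4) * R ≤ θ ^ 2 * R := mul_le_mul_of_nonneg_right hpw2 hR.le
  have q6 : θ * R ≤ 1 / 100 * R := mul_le_mul_of_nonneg_right hθ1 hR.le
  have q7 : W * 1 ≤ W * H := by gcongr; linarith
  have q8 : 1 * H ≤ W * H := by gcongr; linarith
  refine ⟨by linarith, by linarith, by linarith, by linarith, by linarith, by linarith, by linarith⟩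

lemma passn1 {p : Fin (k + 3)} {K C3 Cb Cg C6 θ R H a'' κ W : ℝ} (hκ : 16 ≤ κ)
    (hW : W = 1000 * κ ^ 2) (hC3 : 1 ≤ C3) (hCb : 1 ≤ Cb)
    (hCg : Cg = (3 + 4 * (2 * κ) ^ (k + 2)) * Cb)
    (hC6 : C6 = C3 * (1 + 4 * Cb * Cg + (4 * Cb) ^ 4)) (hC61 : 1 ≤ C6)
    (hP : PassPn p K C3 κ) {w : (Fin (k + 3) → ℝ) → ℝ} (hw : Cls (k + 3) p K w)
    (hw0 : |w 0| ≤ 3 / 4)
    (hθ : 0 < θ) (hθ1 : θ ≤ 1 / 100) (hR : 0 < R) (hH : 8 ≤ H) (hθ2H : 8 ≤ θ ^ 2 * H)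
    (n1 : W * Cb * H ≤ θ * R) (n2 : W * H ≤ θ ^ 2 * R) (n3 : H ≤ θ ^ (k + 4) * R)
    (n4 : θ * R ≤ R / 100) (n5 : W ≤ θ * R)
    (hlog : Real.log (θ * R) ≤ H) (ha'' : |a''| ≤ Cb * (1 + H))
    (hfl : Flat w p a'' (8 * R) (Cb * (1 + H)))
    (hJ : ∀ r, 1 ≤ r → r ≤ R / 4 → J0 w p a'' r ≤
            Cb * (r ^ (k + 2) + (r / R) ^ 2 * (1 + H) * r ^ (k + 2) + (1 + H) ^ 2 * R ^ (k + 1))) :
    Flat w p a'' (θ * R / κ) (C6 * θ * H) ∧ |a''| ≤ C6 * θ * H := by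
  have hH0 : 0 < H := by linarith
  have hκ0 : 0 < κ := by linarith
  have hWκ : 1000 * κ ≤ W := by rw [hW]; nlinarith
  have hW1 : 16000 ≤ W := by linarith
  have hb2 : Cb * (1 + H) ≤ 2 * Cb * H := by
    have : Cb * 1 ≤ Cb * H := by gcongr; linarith
    linarith
  obtain ⟨r1, hr1⟩ : ∃ r1 : ℝ, r1 = θ * R / κ := ⟨_, rfl⟩
  have hr1p : 0 < r1 := by rw [hr1]; positivity
  have e20 : κ * r1 = θ * R := by rw [hr1]; field_simp
  have hX1 : 1 ≤ θ ^ 2 * H ^ 2 := by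
    have : θ ^ 2 * H ^ 2 = (θ ^ 2 * H) * H := by ring
    rw [this]
    have : 1 * 1 ≤ (θ ^ 2 * H) * H := mul_le_mul (by linarith) (by linarith) (by norm_num) (by positivity)
    linarith
  obtain ⟨Λ, hΛ⟩ : ∃ Λ : ℝ, Λ = 1 + 2 * Cb * H + Real.log (θ * R) := ⟨_, rfl⟩
  have hlogn : 0 ≤ Real.log (θ * R) := Real.log_nonneg (by linarith)
  have hΛ0 : 0 ≤ Λ := by rw [hΛ]; positivity
  have hCbH : H ≤ Cb * H := by
    have : 1 * H ≤ Cb * H := by gcongr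
    linarith
  have hΛ1 : Λ ≤ 4 * Cb * H := by linarith
  have hCbHR : 1000 * κ * (Cb * H) ≤ θ * R := by
    refine le_trans ?_ n1
    calc 1000 * κ * (Cb * H) ≤ W * (Cb * H) := by gcongr
      _ = _ := by ring
  have hCbH0 : 0 ≤ Cb * H := by positivity
  have hCbHR2 : 1000 * (Cb * H) ≤ r1 := by
    rw [hr1, le_div_iff₀ hκ0]; linarith
  have hCbHR3 : 1000 * (Cb * H) ≤ θ * R := by
    have : 1000 * 1 * (Cb * H) ≤ 1000 * κ * (Cb * H) := by gcongr; linarith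
    linarith
  have hr11 : 1 ≤ r1 := by
    rw [hr1, le_div_iff₀ hκ0]; linarith
  have hj : J0 w p a'' (κ * r1) ≤ Cg * (θ ^ 2 * H) * (κ * r1) ^ (k + 2) := by
    rw [e20, hCg]
    refine (hJ (θ * R) (by linarith) (by linarith)).trans ?_
    refine jn_num hCb hθ hR (by positivity) (by linarith) (by linarith) n3 le_rfl
      (by positivity) ?_
    have h0 : 0 < θ * R := by positivity
    nlinarith
  have hCg0 : 0 ≤ Cg := by rw [hCg]; positivity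
  have q := pass_num (C3 := C3) (Λ := Λ) (j := Cg * (θ ^ 2 * H)) (r := r1) (A := 4 * Cb * Cg)
        (B := (4 * Cb) ^ 4) (D := C6) (X := θ ^ 2 * H ^ 2) (by linarith) hr1p hX1 hΛ0
        (by positivity)
        (by
          calc Λ * (Cg * (θ ^ 2 * H)) ≤ 4 * Cb * H * (Cg * (θ ^ 2 * H)) := by gcongr
            _ = _ := by ring)
        (by
          rw [div_le_iff₀ (by positivity)]
          have h3 : H ^ 2 ≤ θ ^ 2 * r1 ^ 2 := by
            have h4 : H ≤ θ * r1 := by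
              rw [hr1, ← mul_div_assoc, le_div_iff₀ hκ0]
              have : 1000 * κ * H ≤ W * H := by gcongr
              nlinarith
            calc H ^ 2 ≤ (θ * r1) ^ 2 := pow_le_pow_left₀ hH0.le h4 2
              _ = _ := by ring
          calc Λ ^ 4 ≤ (4 * Cb * H) ^ 4 := pow_le_pow_left₀ hΛ0 hΛ1 4
            _ = (4 * Cb) ^ 4 * H ^ 2 * H ^ 2 := by ring
            _ ≤ (4 * Cb) ^ 4 * H ^ 2 * (θ ^ 2 * r1 ^ 2) := by gcongr
            _ = _ := by ring)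
        hC6.ge
  have hfin : C3 * (1 + Λ * (Cg * (θ ^ 2 * H)) + Λ ^ 4 / r1 ^ 2) ≤ (C6 * θ * H) ^ 2 := by
    refine q.trans ?_
    calc C6 * (θ ^ 2 * H ^ 2) = C6 * (1 * (θ ^ 2 * H ^ 2)) := by ring
      _ ≤ C6 * (C6 * (θ ^ 2 * H ^ 2)) := by gcongr
      _ = _ := by ring
  rw [hΛ] at hfin
  rw [← hr1]
  have p1 := hP w hw a'' r1 (2 * Cb * H) (Cg * (θ ^ 2 * H)) hr11 (by positivity)
    (ha''.trans hb2) (by linarith)
    (flat_mono hfl (by positivity) (by rw [e20]; linarith) hb2) (by positivity)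
    hj (by rw [e20]; linarith) (C6 * θ * H) (by positivity) (by rw [e20]; exact hfin)
  exact ⟨p1.1, p1.2 hw0⟩

lemma passn2 {p : Fin (k + 3)} {K C3 Cb Cg C6 C7 θ R H a'' κ W Q : ℝ} (hκ : 16 ≤ κ)
    (hW : W = 1000 * κ ^ 2) (hQ : Q = 16 * κ ^ 2) (hC3 : 1 ≤ C3) (hCb : 1 ≤ Cb)
    (hCg : Cg = (3 + 4 * (2 * κ) ^ (k + 2)) * Cb)
    (hC7 : C7 = C3 * (1 + 3 * C6 * Cg + (3 * C6) ^ 4)) (hC61 : 1 ≤ C6)
    (hP : PassPn p K C3 κ) {w : (Fin (k + 3) → ℝ) → ℝ} (hw : Cls (k + 3) p K w)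
    (hw0 : |w 0| ≤ 3 / 4)
    (hθ : 0 < θ) (hθ1 : θ ≤ 1 / 100) (hR : 0 < R) (hH : 8 ≤ H) (hθ2H : 8 ≤ θ ^ 2 * H)
    (hθH : 8 ≤ θ * H) (hθ7 : C7 * θ * Q ^ 2 = 1)
    (n1 : W * C6 * H ≤ θ * R) (n3 : H ≤ θ ^ (k + 4) * R)
    (n4 : θ * R ≤ R / 100) (n5 : W ≤ θ * R)
    (hlog : Real.log (θ * R / (2 * κ)) ≤ θ * H)
    (hfl : Flat w p a'' (θ * R / κ) (C6 * θ * H)) (ha'' : |a''| ≤ C6 * θ * H)
    (hJ : ∀ r, 1 ≤ r → r ≤ R / 4 → J0 w p a'' r ≤
            Cb * (r ^ (k + 2) + (r / R) ^ 2 * (1 + H) * r ^ (k + 2) + (1 + H) ^ 2 * R ^ (k + 1))) :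
    Flat w p a'' (θ * R / (2 * κ ^ 2)) (θ / Q * H) ∧ |a''| ≤ θ / Q * H := by
  have hH0 : 0 < H := by linarith
  have hκ0 : 0 < κ := by linarith
  have hQ0 : 0 < Q := by rw [hQ]; positivity
  have hκ2 : 256 ≤ κ ^ 2 := by nlinarith
  have hWκ : 1000 * κ ≤ W := by rw [hW]; nlinarith
  have hW0 : 0 < W := by rw [hW]; positivity
  obtain ⟨r2, hr2⟩ : ∃ r2 : ℝ, r2 = θ * R / (2 * κ ^ 2) := ⟨_, rfl⟩
  have hr2p : 0 < r2 := by rw [hr2]; positivity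
  have e40 : 2 * (κ * r2) = θ * R / κ := by rw [hr2]; field_simp
  have e20 : κ * r2 = θ * R / (2 * κ) := by rw [hr2]; field_simp
  have hX2 : 1 ≤ θ ^ 3 * H ^ 2 := by
    have h1 : 1 ≤ (θ ^ 2 * H) ^ 2 := one_le_pow₀ (by linarith)
    have h3 : (θ ^ 2 * H) ^ 2 = θ * (θ ^ 3 * H ^ 2) := by ring
    have h4 : 0 ≤ θ ^ 3 * H ^ 2 := by positivity
    have h5 : θ * (θ ^ 3 * H ^ 2) ≤ 1 * (θ ^ 3 * H ^ 2) :=
      mul_le_mul_of_nonneg_right (by linarith) h4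
    linarith
  have hC6H' : H ≤ C6 * H := by
    have : 1 * H ≤ C6 * H := by gcongr
    linarith
  have hC6H0 : 0 ≤ C6 * H := by positivity
  have hr2b : 500 * (C6 * H) ≤ r2 := by
    rw [hr2, le_div_iff₀ (by positivity)]
    have e : 500 * (C6 * H) * (2 * κ ^ 2) = W * C6 * H := by rw [hW]; ring
    rw [e]; exact n1
  have hr21 : 1 ≤ r2 := by
    rw [hr2, le_div_iff₀ (by positivity)]
    rw [hW] at n5
    linarith
  have hθR2 : 1000 * (C6 * H) ≤ θ * R / (2 * κ) := by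
    rw [← e20]
    have : 16 * r2 ≤ κ * r2 := mul_le_mul_of_nonneg_right hκ hr2p.le
    linarith
  have hθR3 : 1 ≤ θ * R / (2 * κ) := by
    rw [← e20]
    have : 16 * r2 ≤ κ * r2 := mul_le_mul_of_nonneg_right hκ hr2p.le
    linarith
  have hθR4 : θ * R / (2 * κ) ≤ θ * R := by
    apply div_le_self (by positivity); linarith
  obtain ⟨Λ, hΛ⟩ : ∃ Λ : ℝ, Λ = 1 + C6 * θ * H + Real.log (θ * R / (2 * κ)) := ⟨_, rfl⟩
  have hlogn : 0 ≤ Real.log (θ * R / (2 * κ)) := Real.log_nonneg hθR3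
  have hΛ0 : 0 ≤ Λ := by rw [hΛ]; positivity
  have hC6H : θ * H ≤ C6 * (θ * H) := by
    have : 1 * (θ * H) ≤ C6 * (θ * H) := by gcongr
    linarith
  have hΛ1 : Λ ≤ 3 * C6 * (θ * H) := by
    have : C6 * θ * H = C6 * (θ * H) := by ring
    linarith
  have hj : J0 w p a'' (κ * r2) ≤ Cg * (θ ^ 2 * H) * (κ * r2) ^ (k + 2) := by
    rw [e20, hCg]
    refine (hJ (θ * R / (2 * κ)) hθR3 (by linarith)).trans ?_
    exact jn_num hCb hθ hR (by positivity) (by linarith) (by linarith) n3 hθR4 (by positivity)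
      (by field_simp; exact le_rfl)
  have hCg0 : 0 ≤ Cg := by rw [hCg]; positivity
  have hC6θ : C6 * θ * H ≤ C6 * H := by
    have : C6 * H * θ ≤ C6 * H * 1 := by gcongr; linarith
    linarith
  have q := pass_num (C3 := C3) (Λ := Λ) (j := Cg * (θ ^ 2 * H)) (r := r2) (A := 3 * C6 * Cg)
        (B := (3 * C6) ^ 4) (D := C7) (X := θ ^ 3 * H ^ 2) (by linarith) hr2p hX2 hΛ0
        (by positivity)
        (by
          calc Λ * (Cg * (θ ^ 2 * H)) ≤ 3 * C6 * (θ * H) * (Cg * (θ ^ 2 * H)) := by gcongr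
            _ = _ := by ring)
        (by
          rw [div_le_iff₀ (by positivity)]
          have h3 : H ^ 2 ≤ r2 ^ 2 := by
            have h4 : H ≤ r2 := by linarith
            exact pow_le_pow_left₀ hH0.le h4 2
          have h5 : θ ^ 4 ≤ θ ^ 3 := by
            calc θ ^ 4 = θ ^ 3 * θ := by ring
              _ ≤ θ ^ 3 * 1 := mul_le_mul_of_nonneg_left (by linarith) (by positivity)
              _ = _ := by ring
          calc Λ ^ 4 ≤ (3 * C6 * (θ * H)) ^ 4 := pow_le_pow_left₀ hΛ0 hΛ1 4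
            _ = (3 * C6) ^ 4 * (θ ^ 4 * H ^ 2) * H ^ 2 := by ring
            _ ≤ (3 * C6) ^ 4 * (θ ^ 3 * H ^ 2) * r2 ^ 2 := by gcongr
            _ = _ := by ring)
        hC7.ge
  have hfin : C3 * (1 + Λ * (Cg * (θ ^ 2 * H)) + Λ ^ 4 / r2 ^ 2) ≤ (θ / Q * H) ^ 2 := by
    refine q.trans ?_
    have : (θ / Q * H) ^ 2 = θ ^ 2 * H ^ 2 / Q ^ 2 := by field_simp
    rw [this, le_div_iff₀ (by positivity)]
    have h6 : C7 * (θ ^ 3 * H ^ 2) * Q ^ 2 = (C7 * θ * Q ^ 2) * (θ ^ 2 * H ^ 2) := by ring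
    rw [h6, hθ7]
    linarith
  rw [hΛ] at hfin
  have hθHH : θ * H ≤ H := by
    have : θ * H ≤ 1 * H := by gcongr; linarith
    linarith
  rw [← hr2]
  have p1 := hP w hw a'' r2 (C6 * θ * H) (Cg * (θ ^ 2 * H)) hr21 (by positivity)
    ha'' (by linarith) (by rw [e40]; exact hfl) (by positivity)
    hj (by rw [e20]; linarith) (θ / Q * H) (by positivity) (by rw [e20]; exact hfin)
  exact ⟨p1.1, p1.2 hw0⟩

theorem stepn_core {p : Fin (k + 3)} {K C3 Cb κ : ℝ} (hκ : 16 ≤ κ) (hC3 : 1 ≤ C3) (hCb : 1 ≤ Cb)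
    (hP : PassPn p K C3 κ)
    (hF : FramePn p K Cb) : ∃ θ c1 C1 R1 : ℝ, 0 < θ ∧ θ < 1 ∧ 0 < c1 ∧
    ∀ v : (Fin (k + 3) → ℝ) → ℝ, Cls (k + 3) p K v → |v 0| ≤ 3 / 4 → ∀ R a H : ℝ, R1 ≤ R →
      C1 * Real.log R ≤ H → H ≤ c1 * R → |a| ≤ H → Flat v p a R H →
      ∃ (L : LI (k + 3)) (a' : ℝ), |a'| ≤ θ * H ∧
        Flat (fun x => v (rot L x)) p a' (θ * R) (θ * H) := by
  have hκ0 : 0 < κ := by linarith
  -- constants
  obtain ⟨W, hW⟩ : ∃ W : ℝ, W = 1000 * κ ^ 2 := ⟨_, rfl⟩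
  obtain ⟨Q, hQ⟩ : ∃ Q : ℝ, Q = 16 * κ ^ 2 := ⟨_, rfl⟩
  have hκ2 : 256 ≤ κ ^ 2 := by nlinarith
  have hW1 : 100 ≤ W := by linarith
  have hQ1 : 100 ≤ Q := by linarith
  have hQ0 : 0 < Q := by linarith
  obtain ⟨Cg, hCg⟩ : ∃ Cg : ℝ, Cg = (3 + 4 * (2 * κ) ^ (k + 2)) * Cb := ⟨_, rfl⟩
  have hCg0 : 0 ≤ Cg := by rw [hCg]; positivity
  obtain ⟨C6, hC6⟩ : ∃ C6 : ℝ, C6 = C3 * (1 + 4 * Cb * Cg + (4 * Cb) ^ 4) := ⟨_, rfl⟩
  have hC61 : 1 ≤ C6 := by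
    rw [hC6]
    have h1 : 1 ≤ 1 + 4 * Cb * Cg + (4 * Cb) ^ 4 := by
      have : 0 ≤ 4 * Cb * Cg + (4 * Cb) ^ 4 := by positivity
      linarith
    exact one_le_mul_of_one_le_of_one_le hC3 h1
  obtain ⟨C7, hC7⟩ : ∃ C7 : ℝ, C7 = C3 * (1 + 3 * C6 * Cg + (3 * C6) ^ 4) := ⟨_, rfl⟩
  have hC71 : 1 ≤ C7 := by
    rw [hC7]
    have h1 : 1 ≤ 1 + 3 * C6 * Cg + (3 * C6) ^ 4 := by
      have : 0 ≤ 3 * C6 * Cg + (3 * C6) ^ 4 := by positivity
      linarith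
    exact one_le_mul_of_one_le_of_one_le hC3 h1
  obtain ⟨θ, hθ⟩ : ∃ θ : ℝ, θ = 1 / (C7 * Q ^ 2) := ⟨_, rfl⟩
  have hθ0 : 0 < θ := by rw [hθ]; positivity
  have hθ7 : C7 * θ * Q ^ 2 = 1 := by rw [hθ]; field_simp
  have hθ1 : θ ≤ 1 / 100 := by
    rw [hθ]
    apply one_div_le_one_div_of_le (by norm_num)
    have : 1 * 100 ≤ C7 * Q ^ 2 := mul_le_mul hC71 (by nlinarith) (by norm_num) (by positivity)
    linarith
  obtain ⟨c, hc⟩ : ∃ c : ℝ, c = θ ^ (k + 4) / (W * Cb * C6) := ⟨_, rfl⟩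
  have hc0 : 0 < c := by rw [hc]; positivity
  have hc5 : W * Cb * C6 * c = θ ^ (k + 4) := by rw [hc]; field_simp
  have hθQ : θ / Q < 1 := by
    rw [div_lt_one hQ0]; linarith
  refine ⟨θ / Q, c / 8, 1 / θ, Real.exp (8 / θ), by positivity, hθQ, by positivity, ?_⟩
  intro v hv hv0 R0 a H hR0 hHlog hHR ha hflat
  obtain ⟨m1, m2, m3, m4⟩ := num1 hθ0 hθ1 hR0 hHlog
  have hR0p : 0 < R0 := (Real.exp_pos _).trans_le hR0
  obtain ⟨R, hR⟩ : ∃ R : ℝ, R = R0 / 8 := ⟨_, rfl⟩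
  have hR08 : R0 = 8 * R := by rw [hR]; ring
  have hRp : 0 < R := by rw [hR]; positivity
  have hHc : H ≤ c * R := by rw [hR]; linarith
  obtain ⟨n1, n2, n3, n4, n5, n6, n7⟩ := numn2 (k := k) hW1 hθ0 hθ1 hCb hC61 hc5 m4 hRp hHc
  have hlogle : ∀ ρ : ℝ, 0 < ρ → ρ ≤ R → Real.log ρ ≤ θ * H := by
    intro ρ hρ hρR
    exact (Real.log_le_log hρ (by linarith)).trans m1
  have hθHH : θ * H ≤ H := by
    have : θ * H ≤ 1 * H := mul_le_mul_of_nonneg_right (by linarith) (by linarith)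
    linarith
  have hcb : Cb * (1 + H) ≤ R := by
    have h1 : Cb * 1 ≤ Cb * H := mul_le_mul_of_nonneg_left (by linarith) (by linarith)
    have h2 : Cb * (1 + H) = Cb * 1 + Cb * H := by ring
    have h3 : 100 * (Cb * H) ≤ W * Cb * H := by
      rw [mul_assoc W]; gcongr
    have h4 : 0 ≤ Cb * H := mul_nonneg (by linarith) (by linarith)
    linarith
  obtain ⟨L, a'', ha'', hfl, hJ⟩ := hF v hv R a H (by linarith) (by linarith) hcb ha
    (by rw [← hR08]; exact hflat)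
  have hwc : Cls (k + 3) p K (fun x => v (rot L x)) := cls_rot hv L
  have hw0 : |(fun x => v (rot L x)) 0| ≤ 3 / 4 := by
    have : rot L 0 = 0 := map_zero _
    show |v (rot L 0)| ≤ 3 / 4
    rw [this]; exact hv0
  have l1 := hlogle (θ * R) (by positivity) (by linarith)
  have hle2 : θ * R / (2 * κ) ≤ θ * R := by
    apply div_le_self (by positivity); linarith
  have l2 := hlogle (θ * R / (2 * κ)) (by positivity) (by linarith)
  obtain ⟨f1, a1⟩ := passn1 hκ hW hC3 hCb hCg hC6 hC61 hP hwc hw0 hθ0 hθ1 hRp m4 m3 n1 n3 n4 n6 n7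
    (by linarith) ha'' hfl hJ
  obtain ⟨f2, a2⟩ := passn2 hκ hW hQ hC3 hCb hCg hC7 hC61 hP hwc hw0 hθ0 hθ1 hRp m4 m3 m2 hθ7 n2
    n4 n6 n7 l2 f1 a1 hJ
  refine ⟨L, a'', a2, ?_⟩
  have e : θ / Q * R0 = θ * R / (2 * κ ^ 2) := by rw [hR08, hQ]; field_simp; norm_num
  rw [e]
  exact f2

/-- **The improvement step** for the class of solutions with the sharp energy bound. -/
theorem stepn (p : Fin (k + 3)) {K : ℝ} (hK : 0 ≤ K) : ∃ θ c1 C1 R1 : ℝ, 0 < θ ∧ θ < 1 ∧ 0 < c1 ∧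
    ∀ v : (Fin (k + 3) → ℝ) → ℝ, Cls (k + 3) p K v → |v 0| ≤ 3 / 4 → ∀ R a H : ℝ, R1 ≤ R →
      C1 * Real.log R ≤ H → H ≤ c1 * R → |a| ≤ H → Flat v p a R H →
      ∃ (L : LI (k + 3)) (a' : ℝ), |a'| ≤ θ * H ∧
        Flat (fun x => v (rot L x)) p a' (θ * R) (θ * H) := by
  obtain ⟨c0, h0⟩ := exists_C20 (n := k + 3) (by omega) p
  obtain ⟨c0', h0'⟩ := exists_C20' (n := k + 3) (by omega) p
  obtain ⟨c1, h1⟩ := exists_C21 (n := k + 3) p hK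
  obtain ⟨c2, h2⟩ := exists_C22 (n := k + 3) (by omega) p
  obtain ⟨c3, h3⟩ := exists_C23 (n := k + 3) p
  obtain ⟨C5, hC5, hNP⟩ := H3.exists_NPlane (m := k + 2) (by omega)
  obtain ⟨C, hC⟩ : ∃ C : ℝ, C = 1 + |c0| + |c0'| + |c1| + |c2| + |c3| := ⟨_, rfl⟩
  have a0 := abs_nonneg c0; have a0' := abs_nonneg c0'; have a1 := abs_nonneg c1
  have a2 := abs_nonneg c2; have a3 := abs_nonneg c3
  have b0 := le_abs_self c0; have b0' := le_abs_self c0'; have b1 := le_abs_self c1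
  have b2 := le_abs_self c2; have b3 := le_abs_self c3
  have hC1 : 1 ≤ C := by linarith
  have k0 := h0.mono (show c0 ≤ C by linarith)
  have k0' := h0'.mono (show c0' ≤ C by linarith)
  have k1 := h1.mono (show c1 ≤ C by linarith)
  have k2 := h2.mono (show c2 ≤ C by linarith)
  have k3 := h3.mono (show c3 ≤ C by linarith)
  obtain ⟨C3, hC3, hP⟩ := pass hC1 k0' k1 k2 k3
  obtain ⟨Cb, hCb, hF⟩ := newframen hC1 hC5 k0 k1 hNP
  have hκ : 16 ≤ kap (k + 3) := by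
    unfold kap; push_cast; linarith [Nat.cast_nonneg (α := ℝ) k]
  have hP' : PassPn p K C3 (kap (k + 3)) := by
    intro u hu a r H j hr hH ha hHr hfl hj hJ hΛ H' hH' hfin
    exact hP u hu a r H j hr hH ha hHr hfl hj hJ hΛ H' hH' hfin
  exact stepn_core hκ hC3 hCb hP' hF

end Vale.Agent.P134.R2.H561
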